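import Vale.Agent.P347.Defs

/-! Elementary facts on potentials, Gaussian measure, and the two comparison predicates. -/

open MeasureTheory ProbabilityTheory
open scoped RealInnerProductSpace ENNReal

namespace Vale.Agent.P347

variable {ι : Type} [Fintype ι]

/-- Standard Gaussian measure. -/
noncomputable abbrev gam (ι : Type) [Fintype ι] : Measure (Euc ι) := stdGaussian (Euc ι)

/-- The dimension as a real number. -/
noncomputable abbrev dm (ι : Type) [Fintype ι] : ℝ := (Fintype.card ι : ℝ)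

section Pot
variable {V : Euc ι → ℝ}

lemma InClass.hasGrad (h : InClass V) (x : Euc ι) : HasGradientAt V (gradient V x) x :=
  (h.1.differentiable (by norm_num) x).hasGradientAt

lemma InClass.cont (h : InClass V) : Continuous V := h.1.continuous

lemma InClass.grad_cont (h : InClass V) : Continuous (gradient V) :=
  (InnerProductSpace.toDual ℝ (Euc ι)).symm.continuous.comp (h.1.continuous_fderiv (by norm_num))

lemma grad_inner (V : Euc ι → ℝ) (x v : Euc ι) : ⟪gradient V x, v⟫ = fderiv ℝ V x v :=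
  InnerProductSpace.toDual_symm_apply

lemma InClass.contDiff_fderiv (h : InClass V) : ContDiff ℝ 1 (fderiv ℝ V) :=
  h.1.fderiv_right (by norm_num)

lemma InClass.diff2 (h : InClass V) (x : Euc ι) : DifferentiableAt ℝ (fderiv ℝ V) x :=
  h.contDiff_fderiv.differentiable (by norm_num) x

lemma InClass.hess_diag (h : InClass V) (x v : Euc ι) :
    ‖v‖ ^ 2 ≤ fderiv ℝ (fderiv ℝ V) x v v ∧ fderiv ℝ (fderiv ℝ V) x v v ≤ 2 * ‖v‖ ^ 2 := by
  have h1 := h.2.2.2 x v
  rw [iteratedFDeriv_two_apply] at h1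
  exact h1

lemma InClass.hess_symm (h : InClass V) (x u v : Euc ι) :
    fderiv ℝ (fderiv ℝ V) x u v = fderiv ℝ (fderiv ℝ V) x v u :=
  (h.1.contDiffAt.isSymmSndFDerivAt (by simp)).eq u v

lemma InClass.hess_norm (h : InClass V) (x : Euc ι) : ‖fderiv ℝ (fderiv ℝ V) x‖ ≤ 2 := by
  refine ContinuousLinearMap.opNorm_le_bound₂ _ (by norm_num) fun u v => ?_
  set B := fderiv ℝ (fderiv ℝ V) x with hB
  have hd : discrim (B v v) (2 * B u v) (B u u) ≤ 0 := by
    refine discrim_le_zero fun t => ?_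
    have h1 := (h.hess_diag x (u + t • v)).1
    have h2 : B v u = B u v := h.hess_symm x v u
    rw [← hB] at h1
    simp only [map_add, map_smul, add_apply, smul_apply, smul_eq_mul, h2] at h1
    nlinarith [sq_nonneg ‖u + t • v‖]
  have hu := h.hess_diag x u
  have hv := h.hess_diag x v
  rw [← hB] at hu hv
  rw [Real.norm_eq_abs]
  refine abs_le_of_sq_le_sq' ?_ (by positivity) |> abs_le.2
  rw [discrim] at hd
  have h3 : B v v * B u u ≤ (2 * ‖v‖ ^ 2) * (2 * ‖u‖ ^ 2) :=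
    mul_le_mul hv.2 hu.2 ((sq_nonneg _).trans hu.1) (by positivity)
  nlinarith

lemma InClass.line_deriv (h : InClass V) (y w v : Euc ι) (t : ℝ) :
    HasDerivAt (fun τ : ℝ => fderiv ℝ V (y + τ • w) v) (fderiv ℝ (fderiv ℝ V) (y + t • w) w v) t := by
  have h1 : HasDerivAt (fun τ : ℝ => y + τ • w) w t := by
    simpa using ((hasDerivAt_id t).smul_const w).const_add y
  have h2 := (h.diff2 (y + t • w)).hasFDerivAt.comp_hasDerivAt t h1
  simpa using h2.clm_apply (hasDerivAt_const t v)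

lemma InClass.grad_lip (h : InClass V) (x y : Euc ι) :
    ‖gradient V x - gradient V y‖ ≤ 2 * ‖x - y‖ := by
  have h1 : gradient V x - gradient V y =
      (InnerProductSpace.toDual ℝ (Euc ι)).symm (fderiv ℝ V x - fderiv ℝ V y) := by
    rw [map_sub]; rfl
  rw [h1, LinearIsometryEquiv.norm_map]
  exact convex_univ.norm_image_sub_le_of_norm_fderiv_le (fun z _ => h.diff2 z)
    (fun z _ => h.hess_norm z) (Set.mem_univ y) (Set.mem_univ x)

lemma InClass.grad_mono (h : InClass V) (x y : Euc ι) :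
    ‖x - y‖ ^ 2 ≤ ⟪gradient V x - gradient V y, x - y⟫ := by
  obtain ⟨c, -, hc⟩ := exists_hasDerivAt_eq_slope (fun τ : ℝ => fderiv ℝ V (y + τ • (x - y)) (x - y))
    (fun t => fderiv ℝ (fderiv ℝ V) (y + t • (x - y)) (x - y) (x - y)) zero_lt_one
    (fun t _ => (h.line_deriv y (x - y) (x - y) t).continuousAt.continuousWithinAt)
    (fun t _ => h.line_deriv y (x - y) (x - y) t)
  have h1 := (h.hess_diag (y + c • (x - y)) (x - y)).1
  rw [hc] at h1
  rw [inner_sub_left, grad_inner, grad_inner]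
  simpa using h1

lemma InClass.grad_le (h : InClass V) (x : Euc ι) : ‖gradient V x‖ ≤ 2 * ‖x‖ := by
  have h1 := h.grad_lip x 0
  rwa [h.2.2.1, sub_zero, sub_zero] at h1

lemma InClass.ray (h : InClass V) (x : Euc ι) (a : ℝ) : ∃ c ∈ Set.Ioo (0 : ℝ) 1,
    ⟪gradient V (c • x), x⟫ - a * (2 * c) * ‖x‖ ^ 2 = V x - a * ‖x‖ ^ 2 := by
  have hd : ∀ t : ℝ, HasDerivAt (fun τ : ℝ => V (τ • x) - a * τ ^ 2 * ‖x‖ ^ 2)
      (⟪gradient V (t • x), x⟫ - a * (2 * t) * ‖x‖ ^ 2) t := by
    intro t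
    have h1 : HasDerivAt (fun τ : ℝ => τ • x) x t := by
      simpa using (hasDerivAt_id t).smul_const x
    have h2 := (h.1.differentiable (by norm_num) (t • x)).hasFDerivAt.comp_hasDerivAt t h1
    have h3 : HasDerivAt (fun τ : ℝ => τ ^ 2) (2 * t) t := by simpa using hasDerivAt_pow 2 t
    rw [grad_inner]
    exact h2.sub ((h3.const_mul a).mul_const _)
  obtain ⟨c, hc, h1⟩ := exists_hasDerivAt_eq_slope _ _ zero_lt_one
    (fun t _ => (hd t).continuousAt.continuousWithinAt) (fun t _ => hd t)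
  refine ⟨c, hc, ?_⟩
  rw [h1]
  simp [h.2.1]

lemma InClass.lower (h : InClass V) (x : Euc ι) : ‖x‖ ^ 2 / 2 ≤ V x := by
  obtain ⟨c, hc, h1⟩ := h.ray x (1 / 2)
  have h2 := h.grad_mono (c • x) 0
  rw [h.2.2.1, sub_zero, sub_zero, inner_smul_right, norm_smul, mul_pow, Real.norm_eq_abs,
    sq_abs] at h2
  have h3 : c * ‖x‖ ^ 2 ≤ ⟪gradient V (c • x), x⟫ := by
    refine le_of_mul_le_mul_left ?_ hc.1
    linarith
  linarith

lemma InClass.upper (h : InClass V) (x : Euc ι) : V x ≤ ‖x‖ ^ 2 := by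
  obtain ⟨c, hc, h1⟩ := h.ray x 1
  have h2 := h.grad_le (c • x)
  rw [norm_smul, Real.norm_eq_abs, abs_of_pos hc.1] at h2
  have h3 := real_inner_le_norm (gradient V (c • x)) x
  have h4 := mul_le_mul_of_nonneg_right h2 (norm_nonneg x)
  nlinarith

/-- The second directional derivative, as a line derivative of the gradient. -/
lemma InClass.hess (h : InClass V) (v : Euc ι) : ∃ H : Euc ι → ℝ, Continuous H ∧
    (∀ x, HasLineDerivAt ℝ (fun y => ⟪gradient V y, v⟫) (H x) x v) ∧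
    ∀ x, ‖v‖ ^ 2 ≤ H x ∧ H x ≤ 2 * ‖v‖ ^ 2 := by
  refine ⟨fun x => fderiv ℝ (fderiv ℝ V) x v v, ?_, fun x => ?_, fun x => h.hess_diag x v⟩
  · exact ((h.contDiff_fderiv.continuous_fderiv (by norm_num)).clm_apply
      continuous_const).clm_apply continuous_const
  · have h1 := h.line_deriv x v v 0
    rw [zero_smul, add_zero] at h1
    simp only [grad_inner]
    exact h1

/-- The divergence of the identity field against `e^{-V}`-type weights needs nothing more. The
quadratic potential is in the class. -/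
lemma inClass_quad : InClass (fun x : Euc ι => ‖x‖ ^ 2 / 2) := by
  have h1 : ∀ x : Euc ι, HasFDerivAt (fun x : Euc ι => ‖x‖ ^ 2 / 2) (innerSL ℝ x) x := by
    intro x
    have h2 := ((hasFDerivAt_id (𝕜 := ℝ) x).norm_sq).mul_const (1 / 2 : ℝ)
    have h3 : (fun x : Euc ι => ‖x‖ ^ 2 / 2) = fun x : Euc ι => ‖id x‖ ^ 2 * (1 / 2) := by
      funext y; simp only [id]; ring
    rw [h3]
    refine h2.congr_fderiv (ContinuousLinearMap.ext fun v => ?_)
    simp only [smul_apply, ContinuousLinearMap.comp_apply, id, ContinuousLinearMap.id_apply,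
      smul_eq_mul, nsmul_eq_mul, Nat.cast_ofNat]
    ring
  have h4 : fderiv ℝ (fun x : Euc ι => ‖x‖ ^ 2 / 2) = innerSL ℝ := funext fun x => (h1 x).fderiv
  refine ⟨(contDiff_norm_sq ℝ).div_const 2, by simp, ?_, fun x v => ?_⟩
  · rw [gradient, h4, map_zero, map_zero]
  · rw [iteratedFDeriv_two_apply, h4]
    have h5 : fderiv ℝ (fun y : Euc ι => innerSL ℝ y) x = (innerSL ℝ : Euc ι →L[ℝ] Euc ι →L[ℝ] ℝ) :=
      (innerSL ℝ : Euc ι →L[ℝ] Euc ι →L[ℝ] ℝ).fderiv
    have h6 : fderiv ℝ (fun y : Euc ι => innerSL ℝ y) x v v = ‖v‖ ^ 2 := by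
      rw [h5]; exact real_inner_self_eq_norm_sq v
    have h7 := sq_nonneg ‖v‖
    exact ⟨h6.ge, h6.le.trans (by linarith)⟩

end Pot

section Gauss

lemma gam_density : gam ι = volume.withDensity fun x : Euc ι =>
    ENNReal.ofReal ((2 * Real.pi) ^ (-(dm ι / 2)) * Real.exp (-(‖x‖ ^ 2 / 2))) := by
  have hc : 0 < (2 * Real.pi) ^ (-(dm ι / 2)) := Real.rpow_pos_of_pos (by positivity) _
  have hb : 0 < (1 / 2 : ℂ).re := by norm_num
  have hi : Integrable fun x : Euc ι => Real.exp (-(‖x‖ ^ 2 / 2)) := by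
    refine (GaussianFourier.integrable_cexp_neg_mul_sq_norm_add hb 0 (0 : Euc ι)).norm.congr
      (Filter.Eventually.of_forall fun x => ?_)
    simp only [zero_mul, add_zero, Complex.norm_exp]
    congr 1
    have : (-(1 / 2 : ℂ) * (‖x‖ : ℂ) ^ 2) = ((-(‖x‖ ^ 2 / 2) : ℝ) : ℂ) := by push_cast; ring
    rw [this, Complex.ofReal_re]
  have : IsFiniteMeasure (volume.withDensity fun x : Euc ι =>
      ENNReal.ofReal ((2 * Real.pi) ^ (-(dm ι / 2)) * Real.exp (-(‖x‖ ^ 2 / 2)))) :=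
    isFiniteMeasure_withDensity_ofReal (hi.const_mul _).2
  refine Measure.ext_of_charFun (funext fun t => ?_)
  rw [charFun_stdGaussian, charFun_apply,
    integral_withDensity_eq_integral_toReal_smul (by fun_prop) (by simp)]
  have h1 : ∀ x : Euc ι, (ENNReal.ofReal ((2 * Real.pi) ^ (-(dm ι / 2)) *
      Real.exp (-(‖x‖ ^ 2 / 2)))).toReal • Complex.exp (⟪x, t⟫ * Complex.I) =
      (((2 * Real.pi) ^ (-(dm ι / 2)) : ℝ) : ℂ) *
        Complex.exp (-(1 / 2 : ℂ) * ‖x‖ ^ 2 + Complex.I * ⟪t, x⟫) := by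
    intro x
    rw [ENNReal.toReal_ofReal (by positivity), Complex.real_smul, Complex.ofReal_mul, mul_assoc,
      Complex.ofReal_exp, ← Complex.exp_add, real_inner_comm]
    congr 2
    push_cast
    ring
  simp only [h1]
  rw [integral_const_mul, GaussianFourier.integral_cexp_neg_mul_sq_norm_add hb, ← mul_assoc]
  have h2 : ((Real.pi : ℂ) / (1 / 2)) ^ ((Module.finrank ℝ (Euc ι) : ℂ) / 2) =
      (((2 * Real.pi) ^ (dm ι / 2) : ℝ) : ℂ) := by
    rw [Complex.ofReal_cpow (by positivity), finrank_euclideanSpace]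
    congr 1
    · push_cast; ring
    · push_cast; ring
  rw [h2, ← Complex.ofReal_mul, ← Real.rpow_add (by positivity), neg_add_cancel, Real.rpow_zero,
    Complex.ofReal_one, one_mul, Complex.I_sq]
  congr 1
  ring

lemma gauss_int_pow {G : Type} [NormedAddCommGroup G] [NormedSpace ℝ G] [MeasurableSpace G]
    [BorelSpace G] [CompleteSpace G] [SecondCountableTopology G] (μ : Measure G) [IsGaussian μ]
    (n : ℕ) : Integrable (fun x : G => (1 + ‖x‖) ^ n) μ := by
  have h0 : MemLp (fun x : G => ‖x‖) n μ := (IsGaussian.memLp_id μ n (by simp)).norm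
  have h1 : MemLp (fun x : G => 1 + ‖x‖) n μ := (memLp_const (1 : ℝ)).add h0
  refine h1.integrable_norm_pow'.congr (Filter.Eventually.of_forall fun x => ?_)
  simp only [Real.norm_eq_abs]
  rw [abs_of_nonneg (by positivity)]

lemma gam_int_pow (n : ℕ) : Integrable (fun x : Euc ι => (1 + ‖x‖) ^ n) (gam ι) :=
  gauss_int_pow _ n

lemma gam2_int_pow (n : ℕ) :
    Integrable (fun w : Euc ι × Euc ι => (1 + ‖w‖) ^ n) ((gam ι).prod (gam ι)) :=
  gauss_int_pow _ n

lemma gam_coord_sq (e : ι) : ∫ x : Euc ι, x e ^ 2 ∂(gam ι) = 1 := by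
  classical
  have h1 := variance_dual_stdGaussian (innerSL ℝ (EuclideanSpace.single e (1 : ℝ)))
  rw [variance_of_integral_eq_zero (by fun_prop) (integral_strongDual_stdGaussian _),
    innerSL_apply_norm] at h1
  simpa [EuclideanSpace.inner_single_left] using h1

lemma gam_coord_sq_int (e : ι) : Integrable (fun x : Euc ι => x e ^ 2) (gam ι) := by
  refine (gam_int_pow 2).mono' (by fun_prop) (Filter.Eventually.of_forall fun x => ?_)
  have h1 : |x e| ≤ ‖x‖ := PiLp.norm_apply_le x e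
  rw [Real.norm_eq_abs, abs_pow]
  exact pow_le_pow_left₀ (abs_nonneg _) (by linarith) 2

lemma gam_sq : ∫ x : Euc ι, ‖x‖ ^ 2 ∂(gam ι) = dm ι := by
  simp only [EuclideanSpace.real_norm_sq_eq]
  rw [integral_finsetSum _ fun e _ => gam_coord_sq_int e]
  simp [gam_coord_sq]

lemma gam_norm : ∫⁻ x, ‖x‖ₑ ∂(gam ι) ≤ ENNReal.ofReal √(dm ι) := by
  have hm : MemLp (fun x : Euc ι => ‖x‖) 2 (gam ι) := (IsGaussian.memLp_two_id (μ := gam ι)).norm
  have h1 := variance_nonneg (fun x : Euc ι => ‖x‖) (gam ι)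
  rw [variance_eq_sub hm] at h1
  have h2 : ∫ x : Euc ι, ((fun x : Euc ι => ‖x‖) ^ 2) x ∂(gam ι) = dm ι := gam_sq
  rw [← ofReal_integral_norm_eq_lintegral_enorm (IsGaussian.integrable_fun_id (μ := gam ι))]
  refine ENNReal.ofReal_le_ofReal (Real.le_sqrt_of_sq_le ?_)
  linarith

lemma gam_neg : (gam ι).map (fun x => -x) = gam ι :=
  stdGaussian_map (LinearIsometryEquiv.neg ℝ)

lemma gam_lin_charFun (A B : Euc ι →L[ℝ] Euc ι) (hA : ∀ u v, ⟪A u, v⟫ = ⟪u, A v⟫)
    (hB : ∀ u v, ⟪B u, v⟫ = ⟪u, B v⟫) (t : Euc ι) :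
    charFun (((gam ι).prod (gam ι)).map (fun w => A w.1 + B w.2)) t =
      Complex.exp (((-(‖A t‖ ^ 2 + ‖B t‖ ^ 2) / 2 : ℝ) : ℂ)) := by
  rw [charFun_apply, integral_map (by fun_prop) (by fun_prop)]
  simp only [inner_add_left, hA, hB, Complex.ofReal_add, add_mul, Complex.exp_add]
  rw [integral_prod_mul (fun x : Euc ι => Complex.exp (⟪x, A t⟫ * Complex.I))
    (fun x : Euc ι => Complex.exp (⟪x, B t⟫ * Complex.I)), ← charFun_apply, ← charFun_apply,
    charFun_stdGaussian, charFun_stdGaussian, ← Complex.exp_add]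
  congr 1
  push_cast
  ring

/-- A linear image of two independent standard Gaussians is standard Gaussian when
`A A* + B B* = I`; stated for self-adjoint `A`, `B`. -/
lemma gam_lin (A B : Euc ι →L[ℝ] Euc ι) (hA : ∀ u v, ⟪A u, v⟫ = ⟪u, A v⟫)
    (hB : ∀ u v, ⟪B u, v⟫ = ⟪u, B v⟫) (h : ∀ v, ‖A v‖ ^ 2 + ‖B v‖ ^ 2 = ‖v‖ ^ 2) :
    ((gam ι).prod (gam ι)).map (fun w => A w.1 + B w.2) = gam ι := by
  refine Measure.ext_of_charFun (funext fun t => ?_)
  rw [gam_lin_charFun A B hA hB, h, charFun_stdGaussian]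
  congr 1
  push_cast
  ring

/-- Convolution of Gaussians. -/
lemma gam_conv (a b c : ℝ) (h : a ^ 2 + b ^ 2 = c ^ 2) :
    ((gam ι).prod (gam ι)).map (fun w => a • w.1 + b • w.2) = (gam ι).map (fun x => c • x) := by
  refine Measure.ext_of_charFun (funext fun t => ?_)
  have h1 := gam_lin_charFun (a • ContinuousLinearMap.id ℝ (Euc ι))
    (b • ContinuousLinearMap.id ℝ (Euc ι))
    (fun u v => by simp [inner_smul_left, inner_smul_right])
    (fun u v => by simp [inner_smul_left, inner_smul_right]) t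
  simp only [smul_apply, ContinuousLinearMap.id_apply] at h1
  rw [h1, charFun_map_smul, charFun_stdGaussian]
  congr 1
  have h2 : ‖a • t‖ ^ 2 + ‖b • t‖ ^ 2 = ‖c • t‖ ^ 2 := by
    simp only [norm_smul, mul_pow, Real.norm_eq_abs, sq_abs]
    rw [← h]; ring
  rw [h2]
  push_cast
  ring

end Gauss

/-- First-moment bound `E ‖F‖ ≤ a`. -/
def EB {S G : Type} [MeasurableSpace S] [NormedAddCommGroup G] (P : Measure S) (F : S → G)
    (a : ℝ) : Prop :=
  ∫⁻ w, ‖F w‖ₑ ∂P ≤ ENNReal.ofReal a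

/-- Dual `W₁` closeness of two random vectors, tested on bounded `1`-Lipschitz functions. -/
def WD {S S' G : Type} [MeasurableSpace S] [MeasurableSpace S'] [NormedAddCommGroup G]
    (P : Measure S) (F : S → G) (P' : Measure S') (F' : S' → G) (ε : ℝ) : Prop :=
  ∀ φ : G → ℝ, LipschitzWith 1 φ → (∃ B, ∀ x, |φ x| ≤ B) →
    |∫ w, φ (F w) ∂P - ∫ w, φ (F' w) ∂P'| ≤ ε

end Vale.Agent.P347
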