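import Vale.Agent.P347.FlatK

/-! Sobolev-type bounds along the flow: the derivatives of all orders along the coupled flow of
the drifts are `O(√d)` in `L²`. -/

open MeasureTheory ProbabilityTheory MvPolynomial

namespace Vale.Agent.P347

section Def
variable {ι : Type} [Fintype ι] [DecidableEq ι]

/-- `L²` bound, uniform in time. -/
def Bd0 (V : Euc ι → ℝ) (s : ℝ) (p : Euc ι) (A : Type) [Fintype A] (u : A → R2 ι) (c : ℝ) : Prop :=
  0 ≤ c ∧ ∀ ρ : ℝ, 0 ≤ ρ → ρ ≤ 1 / 2 → ∑ a, Ex V s p ρ (u a ^ 2) ≤ c ^ 2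

/-- Parabolic Sobolev bound: space derivatives count `1`, the flow derivative counts `2`. -/
def Bd (V : Euc ι → ℝ) (s : ℝ) (p : Euc ι) :
    ℕ → ∀ (A : Type) [Fintype A], (A → R2 ι) → ℝ → Prop
  | 0, A, _, u, c => Bd0 V s p A u c
  | 1, A, _, u, c => Bd0 V s p A u c ∧
      Bd V s p 0 (A × (ι ⊕ ι)) (fun q => dd q.2 (u q.1)) c
  | k + 2, A, _, u, c => Bd0 V s p A u c ∧
      Bd V s p (k + 1) (A × (ι ⊕ ι)) (fun q => dd q.2 (u q.1)) c ∧
      Bd V s p k A (fun a => DD 0 (u a)) c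

end Def

section Basic
variable {ι : Type} [Fintype ι] [DecidableEq ι] {V : Euc ι → ℝ} {s : ℝ} {p : Euc ι}

lemma bd_succ_iff (k : ℕ) (A : Type) [Fintype A] (u : A → R2 ι) (c : ℝ) :
    Bd V s p (k + 1) A u c ↔ Bd0 V s p A u c ∧
      Bd V s p k (A × (ι ⊕ ι)) (fun q => dd q.2 (u q.1)) c ∧
      ∀ j, k = j + 1 → Bd V s p j A (fun a => DD 0 (u a)) c := by
  cases k with
  | zero => simp [Bd]
  | succ k =>
    rw [Bd]
    refine ⟨fun h => ⟨h.1, h.2.1, fun j hj => ?_⟩, fun h => ⟨h.1, h.2.1, h.2.2 k rfl⟩⟩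
    obtain rfl : k = j := by omega
    exact h.2.2

lemma Bd.zero' {k : ℕ} {A : Type} [Fintype A] {u : A → R2 ι} {c : ℝ} (h : Bd V s p k A u c) :
    Bd0 V s p A u c := by
  cases k with
  | zero => simpa [Bd] using h
  | succ k => exact ((bd_succ_iff _ _ _ _).1 h).1

lemma bd_zero_iff (A : Type) [Fintype A] (u : A → R2 ι) (c : ℝ) :
    Bd V s p 0 A u c ↔ Bd0 V s p A u c := by
  simp [Bd]

lemma Bd.nonneg {k : ℕ} {A : Type} [Fintype A] {u : A → R2 ι} {c : ℝ} (h : Bd V s p k A u c) :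
    0 ≤ c := h.zero'.1

lemma Bd.dd' {k : ℕ} {A : Type} [Fintype A] {u : A → R2 ι} {c : ℝ}
    (h : Bd V s p (k + 1) A u c) : Bd V s p k (A × (ι ⊕ ι)) (fun q => dd q.2 (u q.1)) c :=
  ((bd_succ_iff _ _ _ _).1 h).2.1

lemma Bd.DD' {k : ℕ} {A : Type} [Fintype A] {u : A → R2 ι} {c : ℝ}
    (h : Bd V s p (k + 2) A u c) : Bd V s p k A (fun a => DD 0 (u a)) c :=
  ((bd_succ_iff _ _ _ _).1 h).2.2 k rfl

lemma Bd.drop : ∀ (k : ℕ) {A : Type} [Fintype A] {u : A → R2 ι} {c : ℝ},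
    Bd V s p (k + 1) A u c → Bd V s p k A u c := by
  intro k
  induction k using Nat.strong_induction_on with
  | _ k ih =>
    intro A _ u c h
    cases k with
    | zero => exact (bd_zero_iff _ _ _).2 h.zero'
    | succ k =>
      refine (bd_succ_iff _ _ _ _).2 ⟨h.zero', ih k (by omega) h.dd', fun j hj => ?_⟩
      subst hj
      exact ih j (by omega) h.DD'

lemma Bd.mono : ∀ (k : ℕ) {A : Type} [Fintype A] {u : A → R2 ι} {c c' : ℝ},
    Bd V s p k A u c → c ≤ c' → Bd V s p k A u c' := by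
  intro k
  induction k using Nat.strong_induction_on with
  | _ k ih =>
    intro A _ u c c' h hc
    have h0 : Bd0 V s p A u c' := by
      obtain ⟨h1, h2⟩ := h.zero'
      exact ⟨h1.trans hc, fun ρ a b => (h2 ρ a b).trans (pow_le_pow_left₀ h1 hc 2)⟩
    cases k with
    | zero => exact (bd_zero_iff _ _ _).2 h0
    | succ k =>
      refine (bd_succ_iff _ _ _ _).2 ⟨h0, ih k (by omega) h.dd' hc, fun j hj => ?_⟩
      subst hj
      exact ih j (by omega) h.DD' hc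

lemma Bd.congr {k : ℕ} {A : Type} [Fintype A] {u v : A → R2 ι} {c : ℝ}
    (h : Bd V s p k A u c) (e : ∀ a, v a = u a) : Bd V s p k A v c := by
  obtain rfl : v = u := funext e
  exact h

lemma Bd0.of_pt (H : BdHyp V s) {A B : Type} [Fintype A] [Fintype B] {u : A → R2 ι} {v : B → R2 ι}
    {c κ : ℝ} (hκ : 0 ≤ κ) (h : Bd0 V s p A u c)
    (hpt : ∀ ρ : ℝ, 0 ≤ ρ → ρ ≤ 1 / 2 → ∀ w,
      ∑ b, ev V s p ρ w (v b) ^ 2 ≤ κ ^ 2 * ∑ a, ev V s p ρ w (u a) ^ 2) :
    Bd0 V s p B v (κ * c) := by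
  refine ⟨mul_nonneg hκ h.1, fun ρ h0 h1 => ?_⟩
  have hρ := bdx_abs_rho h0 h1
  rw [← Ex_sum H.hV H.hs H.le1 p hρ]
  have h2 := h.2 ρ h0 h1
  rw [← Ex_sum H.hV H.hs H.le1 p hρ] at h2
  calc Ex V s p ρ (∑ b, v b ^ 2) ≤ Ex V s p ρ (C (κ ^ 2) * ∑ a, u a ^ 2) := by
        refine bdx_Ex_mono H h0 h1 fun w => ?_
        simpa [map_sum, map_pow, map_mul] using hpt ρ h0 h1 w
    _ = κ ^ 2 * Ex V s p ρ (∑ a, u a ^ 2) := Ex_C_mul _ _ _ _ _ _
    _ ≤ κ ^ 2 * c ^ 2 := by gcongr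
    _ = (κ * c) ^ 2 := by ring

lemma bdx_sum_part_le {A B : Type} [Fintype A] [Fintype B] (π : B → Option A)
    (hπ : ∀ b b' a, π b = some a → π b' = some a → b = b') (x : A → ℝ) (hx : ∀ a, 0 ≤ x a) :
    ∑ b, (π b).elim 0 x ≤ ∑ a, x a := by
  classical
  have h1 : ∀ b, (π b).elim 0 x = ∑ a, if π b = some a then x a else 0 := by
    intro b
    cases h : π b with
    | none => simp
    | some a => simp
  simp_rw [h1]
  rw [Finset.sum_comm]
  refine Finset.sum_le_sum fun a _ => ?_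
  rw [← Finset.sum_filter, Finset.sum_const, nsmul_eq_mul]
  have : (Finset.univ.filter fun b => π b = some a).card ≤ 1 :=
    Finset.card_le_one.2 fun b hb b' hb' =>
      hπ b b' a (Finset.mem_filter.1 hb).2 (Finset.mem_filter.1 hb').2
  have h2 : ((Finset.univ.filter fun b => π b = some a).card : ℝ) ≤ 1 := by exact_mod_cast this
  nlinarith [hx a]

/-- Reindexing along an injection defined on a subset. -/
lemma Bd.part (H : BdHyp V s) : ∀ (k : ℕ) {A B : Type} [Fintype A] [Fintype B] {u : A → R2 ι}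
    {c : ℝ} (π : B → Option A), (∀ b b' a, π b = some a → π b' = some a → b = b') →
    Bd V s p k A u c → Bd V s p k B (fun b => (π b).elim 0 u) c := by
  intro k
  induction k using Nat.strong_induction_on with
  | _ k ih =>
    intro A B _ _ u c π hπ h
    have h0 : Bd0 V s p B (fun b => (π b).elim 0 u) c := by
      have := Bd0.of_pt H (v := fun b => (π b).elim 0 u) zero_le_one h.zero' fun ρ _ _ w => by
        have := bdx_sum_part_le π hπ (fun a => ev V s p ρ w (u a) ^ 2) fun a => sq_nonneg _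
        rw [one_pow, one_mul]
        refine le_trans (le_of_eq (Finset.sum_congr rfl fun b _ => ?_)) this
        cases π b <;> simp
      simpa using this
    cases k with
    | zero => exact (bd_zero_iff _ _ _).2 h0
    | succ k =>
      refine (bd_succ_iff _ _ _ _).2 ⟨h0, ?_, fun j hj => ?_⟩
      · refine (ih k (by omega) (B := B × (ι ⊕ ι)) (fun q => (π q.1).map fun a => (a, q.2)) ?_
          h.dd').congr ?_
        · rintro ⟨b, i⟩ ⟨b', i'⟩ ⟨a, j⟩ h1 h2
          simp only [Option.map_eq_some_iff, Prod.mk.injEq] at h1 h2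
          obtain ⟨a1, e1, rfl, rfl⟩ := h1
          obtain ⟨a2, e2, rfl, rfl⟩ := h2
          rw [hπ b b' _ e1 e2]
        · rintro ⟨b, i⟩
          cases h : π b <;> simp
      · subst hj
        refine (ih j (by omega) π hπ h.DD').congr fun b => ?_
        cases h : π b <;> simp

lemma Bd.inj (H : BdHyp V s) {k : ℕ} {A B : Type} [Fintype A] [Fintype B] {u : A → R2 ι}
    {c : ℝ} (σ : B → A) (hσ : Function.Injective σ) (h : Bd V s p k A u c) :
    Bd V s p k B (fun b => u (σ b)) c :=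
  (Bd.part H k (fun b => some (σ b))
    (fun _ _ _ h1 h2 => hσ (Option.some.inj (h1.trans h2.symm))) h).congr fun _ => rfl

lemma Bd.smul (H : BdHyp V s) (x : ℝ) : ∀ (k : ℕ) {A : Type} [Fintype A] {u : A → R2 ι} {c : ℝ},
    Bd V s p k A u c → Bd V s p k A (fun a => C x * u a) (|x| * c) := by
  intro k
  induction k using Nat.strong_induction_on with
  | _ k ih =>
    intro A _ u c h
    have h0 : Bd0 V s p A (fun a => C x * u a) (|x| * c) :=
      Bd0.of_pt H (abs_nonneg x) h.zero' fun ρ _ _ w => by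
        simp [Finset.mul_sum, mul_pow]
    cases k with
    | zero => exact (bd_zero_iff _ _ _).2 h0
    | succ k =>
      refine (bd_succ_iff _ _ _ _).2 ⟨h0, (ih k (by omega) h.dd').congr fun q => ?_, fun j hj => ?_⟩
      · simp [Derivation.leibniz, derivation_C]
      · subst hj
        refine (ih j (by omega) h.DD').congr fun q => ?_
        simp [Derivation.leibniz, derivation_C]

lemma Bd.neg (H : BdHyp V s) {k : ℕ} {A : Type} [Fintype A] {u : A → R2 ι} {c : ℝ}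
    (h : Bd V s p k A u c) : Bd V s p k A (fun a => -u a) c := by
  have := Bd.smul H (-1) k h
  simp only [abs_neg, abs_one, one_mul] at this
  exact this.congr fun a => by simp

lemma Bd.sum (H : BdHyp V s) {κ : Type} (S : Finset κ) : ∀ (k : ℕ) {A : Type} [Fintype A]
    {u : κ → A → R2 ι} {c : ℝ}, 0 ≤ c → (∀ i ∈ S, Bd V s p k A (u i) c) →
    Bd V s p k A (fun a => ∑ i ∈ S, u i a) (S.card * c) := by
  intro k
  induction k using Nat.strong_induction_on with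
  | _ k ih =>
    intro A _ u c hc h
    have h0 : Bd0 V s p A (fun a => ∑ i ∈ S, u i a) (S.card * c) := by
      refine ⟨by positivity, fun ρ h0 h1 => ?_⟩
      have hρ := bdx_abs_rho h0 h1
      calc ∑ a, Ex V s p ρ ((∑ i ∈ S, u i a) ^ 2)
          ≤ ∑ a, Ex V s p ρ (C (S.card : ℝ) * ∑ i ∈ S, u i a ^ 2) := by
            refine Finset.sum_le_sum fun a _ => bdx_Ex_mono H h0 h1 fun w => ?_
            simpa [map_sum, map_pow, map_mul] using
              (sq_sum_le_card_mul_sum_sq (s := S) (f := fun i => ev V s p ρ w (u i a)))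
        _ = S.card * ∑ i ∈ S, ∑ a, Ex V s p ρ (u i a ^ 2) := by
            rw [Finset.sum_comm, Finset.mul_sum]
            refine Finset.sum_congr rfl fun a _ => ?_
            rw [Ex_C_mul, Ex_sum H.hV H.hs H.le1 p hρ]
        _ ≤ S.card * ∑ i ∈ S, c ^ 2 := by
            gcongr with i hi
            exact (h i hi).zero'.2 ρ h0 h1
        _ = (S.card * c) ^ 2 := by
            rw [Finset.sum_const, nsmul_eq_mul]; ring
    cases k with
    | zero => exact (bd_zero_iff _ _ _).2 h0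
    | succ k =>
      refine (bd_succ_iff _ _ _ _).2 ⟨h0, ?_, fun j hj => ?_⟩
      · refine (ih k (by omega) (u := fun i (q : A × (ι ⊕ ι)) => dd q.2 (u i q.1)) hc
          fun i hi => (h i hi).dd').congr fun q => ?_
        simp [map_sum]
      · subst hj
        refine (ih j (by omega) (u := fun i a => DD 0 (u i a)) hc
          fun i hi => (h i hi).DD').congr fun q => ?_
        simp [map_sum]

lemma Bd.add (H : BdHyp V s) {k : ℕ} {A : Type} [Fintype A] {u v : A → R2 ι} {c c' : ℝ}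
    (h : Bd V s p k A u c) (h' : Bd V s p k A v c') :
    Bd V s p k A (fun a => u a + v a) (2 * (c + c')) := by
  have hc := h.nonneg
  have hc' := h'.nonneg
  have := Bd.sum H (Finset.univ : Finset Bool) k (u := fun b => cond b u v) (c := c + c')
    (by positivity) fun b _ => by
      cases b
      · exact Bd.mono k h' (by linarith)
      · exact Bd.mono k h (by linarith)
  simp only [Finset.card_univ, Fintype.card_bool, Nat.cast_ofNat] at this
  exact this.congr fun a => by simp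

lemma Bd.zeroF (H : BdHyp V s) (k : ℕ) (A : Type) [Fintype A] {c : ℝ} (hc : 0 ≤ c) :
    Bd V s p k A (fun _ => 0) c := by
  have := Bd.sum H (∅ : Finset Unit) k (A := A) (p := p) (u := fun _ _ => 0) (c := 0) le_rfl
    (by simp)
  exact Bd.mono k (this.congr fun a => by simp) (by simpa using hc)

lemma Bd.rh_mul (H : BdHyp V s) : ∀ (k : ℕ) {A : Type} [Fintype A] {u : A → R2 ι} {c : ℝ},
    Bd V s p k A u c → Bd V s p k A (fun a => rh * u a) (2 ^ k * c) := by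
  intro k
  induction k using Nat.strong_induction_on with
  | _ k ih =>
    intro A _ u c h
    have hc := h.nonneg
    have h0 : Bd0 V s p A (fun a => rh * u a) (2 ^ k * c) := by
      refine Bd0.of_pt H (by positivity) h.zero' fun ρ h0 h1 w => ?_
      rw [Finset.mul_sum]
      refine Finset.sum_le_sum fun a _ => ?_
      have e : ev V s p ρ w (rh * u a) = ρ * ev V s p ρ w (u a) := by simp [ev]
      rw [e, mul_pow]
      have h2 : (1 : ℝ) ≤ 2 ^ k := one_le_pow₀ (by norm_num)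
      gcongr
      linarith
    cases k with
    | zero => exact (bd_zero_iff _ _ _).2 h0
    | succ k =>
      refine (bd_succ_iff _ _ _ _).2 ⟨h0, ?_, fun j hj => ?_⟩
      · refine Bd.mono k ((ih k (by omega) h.dd').congr fun q => ?_) ?_
        · simp [Derivation.leibniz, dd_rh]
        · rw [pow_succ]
          have : 0 ≤ 2 ^ k * c := by positivity
          nlinarith
      · subst hj
        refine Bd.mono j ((Bd.add H (ih j (by omega) h.DD')
          (Bd.drop _ (Bd.drop _ h))).congr fun q => ?_) ?_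
        · simp [Derivation.leibniz, DD_rh]
        · have h2 : (1 : ℝ) ≤ 2 ^ j := one_le_pow₀ (by norm_num)
          rw [pow_succ, pow_succ]
          nlinarith

lemma Bd.const (H : BdHyp V s) (k : ℕ) {A : Type} [Fintype A] (x : A → ℝ) {c : ℝ} (hc : 0 ≤ c)
    (hx : ∑ a, x a ^ 2 ≤ c ^ 2) : Bd V s p k A (fun a => C (x a)) c := by
  have h0 : Bd0 V s p A (fun a => C (x a)) c := by
    refine ⟨hc, fun ρ h0 h1 => le_trans (le_of_eq (Finset.sum_congr rfl fun a _ => ?_)) hx⟩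
    have := bdx_mu_prob (p := p) H h0 h1
    simp [Ex]
  cases k with
  | zero => exact (bd_zero_iff _ _ _).2 h0
  | succ k =>
    refine (bd_succ_iff _ _ _ _).2 ⟨h0, (Bd.zeroF H k _ hc).congr fun q => ?_,
      fun j _ => (Bd.zeroF H j _ hc).congr fun q => ?_⟩ <;> simp [derivation_C]

end Basic

/-- Kernel bound at level `k` for total order at most `n`. -/
def BdM (k n : ℕ) (K : ℝ) : Prop :=
  ∀ (ι : Type) [Fintype ι] [DecidableEq ι] (V : Euc ι → ℝ) (s : ℝ), BdHyp V s → ∀ (p : Euc ι)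
    (A I J : Type) [Fintype A] [Fintype I] [DecidableEq I] [Nonempty I] [Fintype J]
    [DecidableEq J] [Nonempty J], Fintype.card I + Fintype.card J ≤ n →
    ∀ (u : A × (I → ι) → R2 ι) (c : ℝ), Bd V s p k _ u c →
      Bd V s p k _ (ker tv A I J u) (K * s * c)

/-- Divergence bound at level `k`. -/
def BdD (k : ℕ) (K : ℝ) : Prop :=
  ∀ (ι : Type) [Fintype ι] [DecidableEq ι] (V : Euc ι → ℝ) (s : ℝ), BdHyp V s → ∀ (p : Euc ι)
    (A : Type) [Fintype A] (u : A × (ι ⊕ ι) → R2 ι) (c : ℝ), Bd V s p (k + 1) _ u c →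
      Bd V s p k A (fun a => ∑ i, del i (u (a, i))) (K * c)

section Ker
variable {ι : Type} [Fintype ι] [DecidableEq ι] {V : Euc ι → ℝ} {s : ℝ} {p : Euc ι}

lemma Bd.inlExt (H : BdHyp V s) {k : ℕ} {A : Type} [Fintype A] {u : A × ι → R2 ι} {c : ℝ}
    (h : Bd V s p k _ u c) : Bd V s p k (A × (ι ⊕ ι))
      (fun q => Sum.elim (fun e => u (q.1, e)) (fun _ => 0) q.2) c := by
  refine (Bd.part H k (B := A × (ι ⊕ ι))
    (fun q => Sum.elim (fun e => some (q.1, e)) (fun _ => none) q.2) ?_ h).congr ?_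
  · rintro ⟨b, i | i⟩ ⟨b', i' | i'⟩ a h1 h2 <;> simp at h1 h2
    obtain ⟨rfl, rfl⟩ := Prod.mk.inj (h1.trans h2.symm)
    rfl
  · rintro ⟨b, i | i⟩ <;> simp

lemma Bd.inrExt (H : BdHyp V s) {k : ℕ} {A : Type} [Fintype A] {u : A × ι → R2 ι} {c : ℝ}
    (h : Bd V s p k _ u c) : Bd V s p k (A × (ι ⊕ ι))
      (fun q => Sum.elim (fun _ => 0) (fun e => u (q.1, e)) q.2) c := by
  refine (Bd.part H k (B := A × (ι ⊕ ι))
    (fun q => Sum.elim (fun _ => none) (fun e => some (q.1, e)) q.2) ?_ h).congr ?_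
  · rintro ⟨b, i | i⟩ ⟨b', i' | i'⟩ a h1 h2 <;> simp at h1 h2
    obtain ⟨rfl, rfl⟩ := Prod.mk.inj (h1.trans h2.symm)
    rfl
  · rintro ⟨b, i | i⟩ <;> simp

lemma BdD.inl {k : ℕ} {K : ℝ} (hD : BdD k K) (H : BdHyp V s) {A : Type} [Fintype A]
    {u : A × ι → R2 ι} {c : ℝ} (h : Bd V s p (k + 1) _ u c) :
    Bd V s p k A (fun a => ∑ e, del (Sum.inl e) (u (a, e))) (K * c) :=
  (hD ι V s H p A _ c (Bd.inlExt H h)).congr fun a => by
    simp [Fintype.sum_sum_type, bdx_del_zero]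

lemma BdD.inr {k : ℕ} {K : ℝ} (hD : BdD k K) (H : BdHyp V s) {A : Type} [Fintype A]
    {u : A × ι → R2 ι} {c : ℝ} (h : Bd V s p (k + 1) _ u c) :
    Bd V s p k A (fun a => ∑ e, del (Sum.inr e) (u (a, e))) (K * c) :=
  (hD ι V s H p A _ c (Bd.inrExt H h)).congr fun a => by
    simp [Fintype.sum_sum_type, bdx_del_zero]

omit [Fintype ι] [DecidableEq ι] in
lemma bdx_pair_swap (e f : ι) : (e ::ₘ {f} : Multiset ι) = f ::ₘ {e} := Multiset.cons_swap e f 0

lemma BdM.mat {k n : ℕ} {K : ℝ} (hM : BdM k n K) (hn : 2 ≤ n) (H : BdHyp V s) {A : Type} [Fintype A]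
    {u : A × ι → R2 ι} {c : ℝ} (h : Bd V s p k _ u c) :
    Bd V s p k (A × ι) (fun q => ∑ f, tv (q.2 ::ₘ {f}) * u (q.1, f)) (K * s * c) := by
  have h1 := Bd.inj H (B := A × (Unit → ι)) (fun q => (q.1, q.2 ()))
    (by
      rintro ⟨a, α⟩ ⟨a', α'⟩ e
      obtain ⟨rfl, e2⟩ := Prod.mk.inj e
      obtain rfl : α = α' := funext fun _ => e2
      rfl) h
  have h2 := hM ι V s H p A Unit Unit (by simpa using hn) _ c h1
  have h3 := Bd.inj H (B := A × ι) (fun q => (q.1, fun _ : Unit => q.2))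
    (by
      rintro ⟨a, α⟩ ⟨a', α'⟩ e
      obtain ⟨rfl, e2⟩ := Prod.mk.inj e
      obtain rfl : α = α' := congrFun e2 ()
      rfl) h2
  refine h3.congr fun q => ?_
  simp only [ker]
  rw [← (Equiv.funUnique Unit ι).symm.sum_comp]
  refine Finset.sum_congr rfl fun f _ => ?_
  rw [ms_unit, ms_unit, Multiset.singleton_add, bdx_pair_swap]
  rfl

/-- Adjoin an index to a family of indices. -/
def bdx_optF {J : Type} (e : ι) (β : J → ι) : Option J → ι := fun o => o.elim e β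

omit [Fintype ι] [DecidableEq ι] in
lemma bdx_ms_optF {J : Type} [Fintype J] (e : ι) (β : J → ι) : ms (bdx_optF e β) = e ::ₘ ms β := by
  rw [ms_option]; rfl

omit [Fintype ι] [DecidableEq ι] in
lemma bdx_optF_inj {J : Type} {e e' : ι} {β β' : J → ι} (h : bdx_optF e β = bdx_optF e' β') :
    e = e' ∧ β = β' :=
  ⟨congrFun h none, funext fun j => congrFun h (some j)⟩

lemma BdM.right {k n : ℕ} {K : ℝ} (hM : BdM k (n + 1) K) (H : BdHyp V s) {A I J : Type} [Fintype A]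
    [Fintype I] [DecidableEq I] [Nonempty I] [Fintype J] [DecidableEq J] [Nonempty J]
    (hn : Fintype.card I + Fintype.card J ≤ n) {u : A × (I → ι) → R2 ι} {c : ℝ}
    (h : Bd V s p k _ u c) : Bd V s p k ((A × (J → ι)) × ι)
      (fun q => ∑ α : I → ι, tv (q.2 ::ₘ (ms α + ms q.1.2)) * u (q.1.1, α)) (K * s * c) := by
  have h2 := hM ι V s H p A I (Option J) (by rw [Fintype.card_option]; omega) u c h
  refine (Bd.inj H (B := (A × (J → ι)) × ι) (fun q => (q.1.1, bdx_optF q.2 q.1.2)) ?_ h2).congr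
    fun q => ?_
  · rintro ⟨⟨a, β⟩, e⟩ ⟨⟨a', β'⟩, e'⟩ h
    obtain ⟨rfl, e2⟩ := Prod.mk.inj h
    obtain ⟨rfl, rfl⟩ := bdx_optF_inj e2
    rfl
  · simp only [ker, bdx_ms_optF, Multiset.add_cons]

lemma BdM.left {k n : ℕ} {K : ℝ} (hM : BdM k (n + 1) K) (H : BdHyp V s) {A I J : Type} [Fintype A]
    [Fintype I] [DecidableEq I] [Nonempty I] [Fintype J] [DecidableEq J] [Nonempty J]
    (hn : Fintype.card I + Fintype.card J ≤ n) {u : (A × (I → ι)) × ι → R2 ι} {c : ℝ}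
    (h : Bd V s p k _ u c) : Bd V s p k (A × (J → ι))
      (fun q => ∑ α : I → ι, ∑ e, tv (e ::ₘ (ms α + ms q.2)) * u ((q.1, α), e)) (K * s * c) := by
  have h1 := Bd.inj H (B := A × (Option I → ι))
    (fun q => ((q.1, fun i => q.2 (some i)), q.2 none))
    (by
      rintro ⟨a, α⟩ ⟨a', α'⟩ e
      obtain ⟨e1, e2⟩ := Prod.mk.inj e
      obtain ⟨rfl, e3⟩ := Prod.mk.inj e1
      obtain rfl : α = α' := funext fun o => by
        cases o with
        | none => exact e2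
        | some i => exact congrFun e3 i
      rfl) h
  have h2 := hM ι V s H p A (Option I) J (by rw [Fintype.card_option]; omega) _ c h1
  refine h2.congr fun q => ?_
  simp only [ker]
  rw [Finset.sum_comm, ← Fintype.sum_prod_type',
    ← (Equiv.piOptionEquivProd (β := fun _ : Option I => ι)).symm.sum_comp]
  refine Finset.sum_congr rfl fun x _ => ?_
  rw [ms_option, Multiset.cons_add]
  rfl

lemma bdx_ker_bd0 (n : ℕ) : ∃ K : ℝ, 0 ≤ K ∧ BdM 0 n K := by
  obtain ⟨K, hK, hf⟩ := flat_bound n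
  refine ⟨2 ^ n * K, by positivity, fun ι _ _ V s H p A I J _ _ _ _ _ _ _ hn u c h => ?_⟩
  have hs := H.hs
  rw [bd_zero_iff] at h ⊢
  refine Bd0.of_pt H (by positivity) h fun ρ h0 h1 w => ?_
  have hρ : 3 / 4 ≤ 1 - ρ ^ 2 := by nlinarith
  have hρ' : 1 - ρ ^ 2 ≤ 1 := by nlinarith
  set s' := s * (1 - ρ ^ 2) with hs'
  have h2 : 0 < s' := by positivity
  have h3 : s' ≤ s := by nlinarith
  have h4 : s ≤ 4 * s' := by nlinarith
  have hb := hf ι V H.hV s' h2 (h3.trans H.hs1) (p + (√s * ρ) • w.1) A I J hn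
    fun q => ev V s p ρ w (u q)
  set N := Fintype.card I + Fintype.card J with hN
  have hq : 0 < √s' := Real.sqrt_pos.2 h2
  set r := √s / √s' with hr
  have hr0 : 0 ≤ r := by positivity
  have hr2 : r ≤ 2 := by
    rw [hr, div_le_iff₀ hq]
    calc √s ≤ √(4 * s') := Real.sqrt_le_sqrt h4
      _ = 2 * √s' := by
        rw [Real.sqrt_mul (by norm_num), show (4 : ℝ) = 2 ^ 2 by norm_num,
          Real.sqrt_sq (by norm_num)]
  have e : ∀ q : A × (J → ι), ev V s p ρ w (ker tv A I J u q) = r ^ N *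
      ker (fun m => √s' ^ Multiset.card m * T V m s' (p + (√s * ρ) • w.1)) A I J
        (fun q => ev V s p ρ w (u q)) q := by
    intro q
    simp only [ker, map_sum, map_mul, Finset.mul_sum]
    refine Finset.sum_congr rfl fun α _ => ?_
    have e1 : ev V s p ρ w (tv (ms α + ms q.2)) = √s ^ N *
        T V (ms α + ms q.2) s' (p + (√s * ρ) • w.1) := by
      simp [ev, bdx_card_ms, hN, hs']
    have e2 : √s = r * √s' := by rw [hr]; field_simp
    rw [e1, Multiset.card_add, bdx_card_ms, bdx_card_ms, ← hN]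
    rw [show √s ^ N = r ^ N * √s' ^ N by rw [← mul_pow, ← e2]]
    ring
  simp_rw [e, mul_pow]
  rw [← Finset.mul_sum]
  have hrN : r ^ N ≤ 2 ^ n :=
    (pow_le_pow_left₀ hr0 hr2 N).trans (pow_le_pow_right₀ (by norm_num) hn)
  have hS : 0 ≤ ∑ a, ev V s p ρ w (u a) ^ 2 := Finset.sum_nonneg fun _ _ => sq_nonneg _
  calc (r ^ N) ^ 2 * ∑ q, ker (fun m => √s' ^ Multiset.card m * T V m s' (p + (√s * ρ) • w.1))
          A I J (fun q => ev V s p ρ w (u q)) q ^ 2
      ≤ (2 ^ n) ^ 2 * ((K * s') ^ 2 * ∑ a, ev V s p ρ w (u a) ^ 2) := by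
        refine mul_le_mul (pow_le_pow_left₀ (by positivity) hrN 2) hb
          (Finset.sum_nonneg fun _ _ => sq_nonneg _) (by positivity)
    _ ≤ (2 ^ n) ^ 2 * ((K * s) ^ 2 * ∑ a, ev V s p ρ w (u a) ^ 2) := by gcongr
    _ = _ := by ring

lemma bdx_ker_dd {A I J : Type} [Fintype I] [DecidableEq I] [Fintype J]
    (u : A × (I → ι) → R2 ι) (q : A × (J → ι)) (i : ι ⊕ ι) :
    dd i (ker tv A I J u q) =
      ker tv (A × (ι ⊕ ι)) I J (fun x => dd x.1.2 (u (x.1.1, x.2))) ((q.1, i), q.2) +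
      Sum.elim (fun e => rh * ∑ α : I → ι, tv (e ::ₘ (ms α + ms q.2)) * u (q.1, α))
        (fun _ => 0) i := by
  simp only [ker, map_sum, Derivation.leibniz, smul_eq_mul, Finset.sum_add_distrib]
  congr 1
  cases i with
  | inl e =>
    simp only [Sum.elim_inl, dd_tv_inl, Finset.mul_sum]
    exact Finset.sum_congr rfl fun α _ => by ring
  | inr e => simp [dd_tv_inr]

lemma bdx_ker_DD {A I J : Type} [Fintype I] [DecidableEq I] [Nonempty I] [Fintype J] [DecidableEq J]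
    (u : A × (I → ι) → R2 ι) (q : A × (J → ι)) :
    DD 0 (ker tv A I J u q) =
      ((ker tv A I J (fun x => DD 0 (u x)) q +
        ∑ e, del (Sum.inl e) (∑ α : I → ι, tv (e ::ₘ (ms α + ms q.2)) * u (q.1, α))) +
        ∑ α : I → ι, ∑ e, tv (e ::ₘ (ms α + ms q.2)) * dd (Sum.inl e) (u (q.1, α))) +
      rh * ∑ U ∈ (Finset.univ : Finset (Finset (I ⊕ J))).filter
        (fun U => U.Nonempty ∧ Uᶜ.Nonempty), splitKer tv A I J U u q := by
  have key : ∀ α : I → ι, DD 0 (tv (ms α + ms q.2) * u (q.1, α)) =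
      ((tv (ms α + ms q.2) * DD 0 (u (q.1, α)) +
        ∑ e, del (Sum.inl e) (tv (e ::ₘ (ms α + ms q.2)) * u (q.1, α))) +
        ∑ e, tv (e ::ₘ (ms α + ms q.2)) * dd (Sum.inl e) (u (q.1, α))) +
      rh * ∑ U ∈ (Finset.univ : Finset (Finset (I ⊕ J))).filter
        (fun U => U.Nonempty ∧ Uᶜ.Nonempty), (∑ e, tv (e ::ₘ msOn (Sum.elim α q.2) U) *
          tv (e ::ₘ msOn (Sum.elim α q.2) Uᶜ)) * u (q.1, α) := by
    intro α
    have h := DD0_tv (Sum.elim α q.2)
    rw [ms_elim] at h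
    rw [Derivation.leibniz, smul_eq_mul, smul_eq_mul, h, mul_comm (u (q.1, α)), add_mul,
      Finset.sum_mul, mul_assoc, Finset.sum_mul]
    simp only [del_mul, Finset.sum_add_distrib]
    ring
  simp only [ker, splitKer, map_sum, key, Finset.sum_add_distrib, bdx_del_sum]
  rw [← Finset.mul_sum, Finset.sum_comm (s := (Finset.univ : Finset (I → ι)))
    (t := (Finset.univ : Finset ι)),
    Finset.sum_comm (s := (Finset.univ : Finset (I → ι)))
      (t := (Finset.univ : Finset (Finset (I ⊕ J))).filter (fun U => U.Nonempty ∧ Uᶜ.Nonempty))]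

end Ker

lemma BdM_step (k n : ℕ) (hM : ∀ j ≤ k, ∀ n, ∃ K : ℝ, 0 ≤ K ∧ BdM j n K)
    (hD : ∀ j < k, ∃ K : ℝ, 0 ≤ K ∧ BdD j K) : ∃ K : ℝ, 0 ≤ K ∧ BdM (k + 1) n K := by
  obtain ⟨K0, hK0, h0⟩ := bdx_ker_bd0 n
  obtain ⟨K1, hK1, h1⟩ := hM k le_rfl (n + 1)
  have hDD : ∃ K2 : ℝ, 0 ≤ K2 ∧ ∀ j, k = j + 1 → ∀ (ι : Type) [Fintype ι] [DecidableEq ι]
      (V : Euc ι → ℝ) (s : ℝ), BdHyp V s → ∀ (p : Euc ι)
      (A I J : Type) [Fintype A] [Fintype I] [DecidableEq I] [Nonempty I] [Fintype J]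
      [DecidableEq J] [Nonempty J], Fintype.card I + Fintype.card J ≤ n →
      ∀ (u : A × (I → ι) → R2 ι) (c : ℝ), Bd V s p (k + 1) _ u c →
        Bd V s p j _ (fun q => DD 0 (ker tv A I J u q)) (K2 * s * c) := by
    cases k with
    | zero => exact ⟨0, le_rfl, fun j hj => by omega⟩
    | succ k =>
      obtain ⟨K3, hK3, h3⟩ := hM k (by omega) (n + 1)
      obtain ⟨K4, hK4, h4⟩ := hD k (by omega)
      refine ⟨2 * (2 * (2 * (K3 + K4 * K1) + K3) + 2 ^ k * (2 ^ n * (K3 * K3))), by positivity,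
        fun j hj ι _ _ V s H p A I J _ _ _ _ _ _ _ hn u c h => ?_⟩
      obtain rfl : k = j := by omega
      have hc := h.nonneg
      have hs := H.hs
      have a1 := h3 ι V s H p A I J (by omega) _ c h.DD'
      have a2 := h4.inl H (h1.right H hn (Bd.drop _ h))
      have a3 := h3.left H (J := J) hn (Bd.inj H (B := (A × (I → ι)) × ι)
        (fun q => (q.1, Sum.inl q.2))
        (by
          rintro ⟨a, e⟩ ⟨a', e'⟩ h
          obtain ⟨rfl, e2⟩ := Prod.mk.inj h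
          exact Prod.ext rfl (Sum.inl.inj e2)) (Bd.drop _ h.dd'))
      have a4 : ∀ U ∈ (Finset.univ : Finset (Finset (I ⊕ J))).filter
          (fun U => U.Nonempty ∧ Uᶜ.Nonempty),
          Bd V s p k _ (splitKer tv A I J U u) (K3 * K3 * s * c) := by
        intro U hU
        obtain ⟨hU1, hU2⟩ := (Finset.mem_filter.1 hU).2
        have c1 : U.card ≤ n := by
          have := Finset.card_le_univ U
          rw [Fintype.card_sum] at this
          omega
        have c2 : Uᶜ.card ≤ n := by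
          have := Finset.card_le_univ Uᶜ
          rw [Fintype.card_sum] at this
          omega
        have := split_bound (tv : Multiset ι → R2 ι) (fun A _ u c => Bd V s p k A u c)
          (fun A B _ _ σ u c h => Bd.inj H σ σ.injective h) I J U hU1 hU2 (K3 * s) (K3 * s)
          (fun A I' J' _ _ _ _ _ _ _ e u c h => h3 ι V s H p A I' J' (by omega) u c h)
          (fun A I' J' _ _ _ _ _ _ _ e u c h => h3 ι V s H p A I' J' (by omega) u c h)
          A u c (Bd.drop _ (Bd.drop _ h))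
        refine Bd.mono _ this ?_
        have h5 : K3 * K3 * s * c * s ≤ K3 * K3 * s * c * 1 :=
          mul_le_mul_of_nonneg_left H.le1 (by positivity)
        nlinarith
      have a5 := Bd.rh_mul H k (Bd.sum H _ k (by positivity) a4)
      refine Bd.mono _ ((Bd.add H (Bd.add H (Bd.add H a1 a2) a3) a5).congr
        fun q => bdx_ker_DD u q) ?_
      have c3 : (((Finset.univ : Finset (Finset (I ⊕ J))).filter
          (fun U => U.Nonempty ∧ Uᶜ.Nonempty)).card : ℝ) ≤ 2 ^ n := by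
        have := Finset.card_le_univ ((Finset.univ : Finset (Finset (I ⊕ J))).filter
          (fun U => U.Nonempty ∧ Uᶜ.Nonempty))
        rw [Fintype.card_finset, Fintype.card_sum] at this
        have h6 : 2 ^ (Fintype.card I + Fintype.card J) ≤ 2 ^ n :=
          Nat.pow_le_pow_right (by norm_num) hn
        exact_mod_cast this.trans h6
      have h7 : 0 ≤ 2 ^ k * (K3 * K3 * s * c) := by positivity
      nlinarith [mul_le_mul_of_nonneg_right c3 h7]
  obtain ⟨K2, hK2, h2⟩ := hDD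
  refine ⟨K0 + 2 * (K1 + 2 ^ k * K1) + K2, by positivity,
    fun ι _ _ V s H p A I J _ _ _ _ _ _ _ hn u c h => ?_⟩
  have hc := h.nonneg
  have hs := H.hs
  have p0 : 0 ≤ K0 * s * c := by positivity
  have p1 : 0 ≤ 2 * (K1 + 2 ^ k * K1) * s * c := by positivity
  have p2 : 0 ≤ K2 * s * c := by positivity
  refine (bd_succ_iff _ _ _ _).2 ⟨?_, ?_, fun j hj => ?_⟩
  · refine (Bd.mono 0 (h0 ι V s H p A I J hn u c ((bd_zero_iff _ _ _).2 h.zero')) ?_).zero'
    nlinarith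
  · have a1 := h1 ι V s H p (A × (ι ⊕ ι)) I J (by omega) _ c
      (Bd.inj H (B := (A × (ι ⊕ ι)) × (I → ι)) (fun x => ((x.1.1, x.2), x.1.2))
        (by
          rintro ⟨⟨a, i⟩, α⟩ ⟨⟨a', i'⟩, α'⟩ h
          obtain ⟨e1, rfl⟩ := Prod.mk.inj h
          obtain ⟨rfl, rfl⟩ := Prod.mk.inj e1
          rfl) h.dd')
    have a2 := Bd.inj H (B := (A × (J → ι)) × (ι ⊕ ι)) (fun x => ((x.1.1, x.2), x.1.2))
      (by
        rintro ⟨⟨a, i⟩, α⟩ ⟨⟨a', i'⟩, α'⟩ h
        obtain ⟨e1, rfl⟩ := Prod.mk.inj h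
        obtain ⟨rfl, rfl⟩ := Prod.mk.inj e1
        rfl) a1
    have a3 := Bd.inlExt H (Bd.rh_mul H k (h1.right H hn (Bd.drop _ h)))
    refine Bd.mono _ ((Bd.add H a2 a3).congr fun q => bdx_ker_dd u q.1 q.2) ?_
    nlinarith
  · refine Bd.mono _ (h2 j hj ι V s H p A I J hn u c h) ?_
    nlinarith

section Div
variable {ι : Type} [Fintype ι] [DecidableEq ι] {V : Euc ι → ℝ} {s : ℝ} {p : Euc ι}

lemma bdx_div_bd0 (H : BdHyp V s) {A : Type} [Fintype A] {u : A × (ι ⊕ ι) → R2 ι} {c : ℝ}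
    (h : Bd V s p 1 _ u c) : Bd0 V s p A (fun a => ∑ i, del i (u (a, i))) (2 * c) := by
  have hc := h.nonneg
  refine ⟨by positivity, fun ρ h0 h1 => ?_⟩
  have a1 := h.zero'.2 ρ h0 h1
  have a2 := h.dd'.zero'.2 ρ h0 h1
  rw [Fintype.sum_prod_type] at a1
  simp only [Fintype.sum_prod_type] at a2
  refine (Finset.sum_le_sum fun a _ => bdx_div_sq H h0 h1 fun i => u (a, i)).trans ?_
  rw [Finset.sum_add_distrib, ← Finset.mul_sum]
  nlinarith [sq_nonneg c]

lemma bdx_div_dd (u : ι ⊕ ι → R2 ι) (l : ι ⊕ ι) : dd l (∑ i, del i (u i)) =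
    (∑ i, del i (dd l (u i)) + u l) +
      Sum.elim (fun e => rh * (rh * ∑ f, tv (e ::ₘ {f}) * u (Sum.inl f))) (fun _ => 0) l := by
  simp only [map_sum, dd_del, dd_Wd, add_mul, Finset.sum_add_distrib, add_assoc]
  congr 2
  · simp
  · cases l with
    | inl e =>
      simp only [Fintype.sum_sum_type, Sum.elim_inl, Sum.elim_inr, zero_mul,
        Finset.sum_const_zero, add_zero, Finset.mul_sum]
      exact Finset.sum_congr rfl fun f _ => by ring
    | inr e => simp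

lemma bdx_div_DD (u : ι ⊕ ι → R2 ι) : DD 0 (∑ i, del i (u i)) =
    ∑ i, del i (DD 0 (u i)) +
      ∑ f, del (Sum.inl f) (rh * ∑ e, tv (f ::ₘ {e}) * u (Sum.inl e)) := by
  simp only [map_sum, DD0_del, Finset.sum_add_distrib]
  congr 1
  simp only [Fintype.sum_sum_type, Sum.elim_inl, Sum.elim_inr, Finset.sum_const_zero, add_zero,
    Finset.mul_sum, bdx_del_sum, mul_assoc]
  exact Finset.sum_comm

omit [Fintype ι] [DecidableEq ι] in
lemma bdx_inl_inj {A : Type} : Function.Injective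
    fun q : A × ι => ((q.1, Sum.inl q.2) : A × (ι ⊕ ι)) := by
  rintro ⟨a, e⟩ ⟨a', e'⟩ h
  obtain ⟨rfl, e2⟩ := Prod.mk.inj h
  exact Prod.ext rfl (Sum.inl.inj e2)

omit [Fintype ι] [DecidableEq ι] in
lemma bdx_inr_inj {A : Type} : Function.Injective
    fun q : A × ι => ((q.1, Sum.inr q.2) : A × (ι ⊕ ι)) := by
  rintro ⟨a, e⟩ ⟨a', e'⟩ h
  obtain ⟨rfl, e2⟩ := Prod.mk.inj h
  exact Prod.ext rfl (Sum.inr.inj e2)

end Div

lemma bd_drop_to {ι : Type} [Fintype ι] [DecidableEq ι] {V : Euc ι → ℝ} {s : ℝ} {p : Euc ι}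
    (k : ℕ) {A : Type} [Fintype A] {u : A → R2 ι} {c : ℝ} (h : Bd V s p (k + 1) A u c) :
    Bd V s p 1 A u c := by
  induction k with
  | zero => exact h
  | succ k ih => exact ih (Bd.drop _ h)

lemma BdD_zero : BdD 0 2 := fun _ _ _ _ _ H _ _ _ _ _ h => (bd_zero_iff _ _ _).2 (bdx_div_bd0 H h)

lemma BdD_step (k : ℕ) (hM : ∃ K : ℝ, 0 ≤ K ∧ BdM k 2 K)
    (hD : ∀ j ≤ k, ∃ K : ℝ, 0 ≤ K ∧ BdD j K) : ∃ K : ℝ, 0 ≤ K ∧ BdD (k + 1) K := by
  obtain ⟨K1, hK1, h1⟩ := hM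
  obtain ⟨K2, hK2, h2⟩ := hD k le_rfl
  have hDD : ∃ K3 : ℝ, 0 ≤ K3 ∧ ∀ j, k = j + 1 → ∀ (ι : Type) [Fintype ι] [DecidableEq ι]
      (V : Euc ι → ℝ) (s : ℝ), BdHyp V s → ∀ (p : Euc ι)
      (A : Type) [Fintype A] (u : A × (ι ⊕ ι) → R2 ι) (c : ℝ), Bd V s p (k + 2) _ u c →
        Bd V s p j A (fun a => DD 0 (∑ i, del i (u (a, i)))) (K3 * c) := by
    cases k with
    | zero => exact ⟨0, le_rfl, fun j hj => by omega⟩
    | succ k =>
      obtain ⟨K4, hK4, h4⟩ := hD k (by omega)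
      refine ⟨2 * (K4 + K4 * (2 ^ (k + 1) * K1)), by positivity,
        fun j hj ι _ _ V s H p A _ u c h => ?_⟩
      obtain rfl : k = j := by omega
      have hc := h.nonneg
      have hs := H.hs
      have a1 := h4 ι V s H p A _ c h.DD'
      have a2 := h4.inl H (Bd.rh_mul H _ (h1.mat le_rfl H
        (Bd.inj H _ bdx_inl_inj (Bd.drop _ (Bd.drop _ h)))))
      refine Bd.mono _ ((Bd.add H a1 a2).congr fun a => bdx_div_DD fun i => u (a, i)) ?_
      have h5 : K4 * (2 ^ (k + 1) * K1) * c * s ≤ K4 * (2 ^ (k + 1) * K1) * c * 1 :=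
        mul_le_mul_of_nonneg_left H.le1 (by positivity)
      nlinarith
  obtain ⟨K3, hK3, h3⟩ := hDD
  refine ⟨2 + 2 * (2 * (K2 + 1) + 2 ^ k * (2 ^ k * K1)) + K3, by positivity,
    fun ι _ _ V s H p A _ u c h => ?_⟩
  have hc := h.nonneg
  have hs := H.hs
  have p1 : 0 ≤ 2 * (2 * (K2 + 1) + 2 ^ k * (2 ^ k * K1)) * c := by positivity
  have p2 : 0 ≤ K3 * c := by positivity
  refine (bd_succ_iff _ _ _ _).2 ⟨?_, ?_, fun j hj => ?_⟩
  · refine (Bd.mono 0 ((bd_zero_iff _ _ _).2 (bdx_div_bd0 H (bd_drop_to _ h))) ?_).zero'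
    nlinarith
  · have a1 := h2 ι V s H p (A × (ι ⊕ ι)) _ c
      (Bd.inj H (B := (A × (ι ⊕ ι)) × (ι ⊕ ι)) (fun x => ((x.1.1, x.2), x.1.2))
        (by
          rintro ⟨⟨a, i⟩, α⟩ ⟨⟨a', i'⟩, α'⟩ h
          obtain ⟨e1, rfl⟩ := Prod.mk.inj h
          obtain ⟨rfl, rfl⟩ := Prod.mk.inj e1
          rfl) h.dd')
    have a2 := Bd.drop _ (Bd.drop _ h)
    have a3 := Bd.inlExt H (Bd.rh_mul H _ (Bd.rh_mul H _ (h1.mat le_rfl H
      (Bd.inj H _ bdx_inl_inj a2))))
    refine Bd.mono _ ((Bd.add H (Bd.add H a1 a2) a3).congr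
      fun q => bdx_div_dd (fun i => u (q.1, i)) q.2) ?_
    have h5 : 2 ^ k * (2 ^ k * K1) * c * s ≤ 2 ^ k * (2 ^ k * K1) * c * 1 :=
      mul_le_mul_of_nonneg_left H.le1 (by positivity)
    nlinarith
  · refine Bd.mono _ (h3 j hj ι V s H p A u c h) ?_
    nlinarith

lemma BdM_DB (k : ℕ) : (∀ n, ∃ K : ℝ, 0 ≤ K ∧ BdM k n K) ∧ ∃ K : ℝ, 0 ≤ K ∧ BdD k K := by
  induction k using Nat.strong_induction_on with
  | _ k ih =>
    cases k with
    | zero => exact ⟨bdx_ker_bd0, 2, by norm_num, BdD_zero⟩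
    | succ k =>
      exact ⟨fun n => BdM_step k n (fun j hj => (ih j (by omega)).1)
        (fun j hj => (ih j (by omega)).2),
        BdD_step k ((ih k (by omega)).1 2) fun j hj => (ih j (by omega)).2⟩

/-- Bound for the derivative along the coupled flow. -/
def BdF (k j : ℕ) (K : ℝ) : Prop :=
  ∀ (ι : Type) [Fintype ι] [DecidableEq ι] (V : Euc ι → ℝ) (s : ℝ), BdHyp V s → ∀ (p : Euc ι)
    (x : ℝ), |x| * s ≤ 1 → ∀ (A : Type) [Fintype A] (u : A → R2 ι) (c : ℝ),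
      Bd V s p (k + 2 * j) A u c → Bd V s p k A (fun a => (DD x)^[j] (u a)) (K * c)

lemma BdF_one (k : ℕ) : ∃ K : ℝ, 0 ≤ K ∧ BdF k 1 K := by
  obtain ⟨K1, hK1, h1⟩ := (BdM_DB (k + 1)).1 2
  obtain ⟨K2, hK2, h2⟩ := (BdM_DB k).2
  refine ⟨2 * (1 + 2 * (K2 * K1 + K2 * K1)), by positivity,
    fun ι _ _ V s H p x hx A _ u c h => ?_⟩
  have h' : Bd V s p (k + 2) A u c := h
  have hc := h.nonneg
  have a1 := h2.inl H (Bd.smul H x _ (h1.mat le_rfl H (Bd.inj H _ bdx_inr_inj h'.dd')))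
  have a2 := Bd.neg H (h2.inr H (Bd.smul H x _ (h1.mat le_rfl H (Bd.inj H _ bdx_inl_inj h'.dd'))))
  refine Bd.mono _ ((Bd.add H h'.DD' (Bd.add H a1 a2)).congr fun a => ?_) ?_
  · rw [Function.iterate_one, DD_sub, sub_eq_add_neg]
  · have h5 : K2 * K1 * c * (|x| * s) ≤ K2 * K1 * c * 1 :=
      mul_le_mul_of_nonneg_left hx (by positivity)
    nlinarith

lemma BdF_all (j : ℕ) : ∀ k, ∃ K : ℝ, 0 ≤ K ∧ BdF k j K := by
  induction j with
  | zero => exact fun k => ⟨1, zero_le_one, fun ι _ _ V s H p x hx A _ u c h => by simpa using h⟩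
  | succ j ih =>
    intro k
    obtain ⟨K1, hK1, h1⟩ := ih k
    obtain ⟨K2, hK2, h2⟩ := BdF_one (k + 2 * j)
    refine ⟨K1 * K2, by positivity, fun ι _ _ V s H p x hx A _ u c h => ?_⟩
    have a1 := h2 ι V s H p x hx A u c h
    have a2 := h1 ι V s H p x hx A _ _ a1
    rw [mul_assoc]
    exact a2.congr fun a => by simp

section Seeds
variable {ι : Type} [Fintype ι] [DecidableEq ι] {V : Euc ι → ℝ} {s : ℝ} {p : Euc ι}

lemma bd_id (H : BdHyp V s) (k : ℕ) : Bd V s p k (ι × ι)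
    (fun q => if q.1 = q.2 then 1 else 0) √(dm ι) := by
  refine (Bd.const H k (fun q : ι × ι => if q.1 = q.2 then 1 else 0) (Real.sqrt_nonneg _)
    ?_).congr fun q => ?_
  · rw [Real.sq_sqrt (Nat.cast_nonneg _), Fintype.sum_prod_type]
    simp
  · split_ifs <;> simp

lemma bd_z {k : ℕ} {K : ℝ} (hD : BdD k K) (H : BdHyp V s) :
    Bd V s p k (Unit × ι) (fun q => zv q.2) (K * √(dm ι)) := by
  refine (Bd.inj H (B := Unit × ι) (fun q => q.2) (fun a b h => Prod.ext rfl h)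
    (hD.inr H (bd_id (p := p) H (k + 1)))).congr fun q => ?_
  rw [Finset.sum_eq_single q.2]
  · simp [del, Wd]
  · intro b _ hb
    simp [Ne.symm hb, bdx_del_zero]
  · simp

lemma bd_t1 {k : ℕ} {K K' : ℝ} (hD : BdD k K) (hM : BdM (k + 1) 2 K') (H : BdHyp V s) :
    Bd V s p k (Unit × ι) (fun q => ∑ f, del (Sum.inl f) (tv (f ::ₘ {q.2})))
      (K * (K' * s * √(dm ι))) := by
  refine (Bd.inj H (B := Unit × ι) (fun q => q.2) (fun a b h => Prod.ext rfl h)
    (hD.inl H (hM.mat le_rfl H (bd_id (p := p) H (k + 1))))).congr fun q => ?_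
  simp

end Seeds

lemma bdx_seeds (k : ℕ) : ∃ K : ℝ, 0 ≤ K ∧ ∀ (ι : Type) [Fintype ι] [DecidableEq ι]
    (V : Euc ι → ℝ) (s : ℝ), BdHyp V s → ∀ (p : Euc ι) (x : ℝ), |x| * s ≤ 1 →
      Bd V s p k (Unit × ι) (fun q => DD x (bb x (Sum.inl q.2)))
        (K * (s + |x| * s) * √(dm ι)) ∧
      Bd V s p k (Unit × ι) (fun q => bq x q.2) (K * (s + |x| * s) * √(dm ι)) := by
  obtain ⟨K1, hK1, h1⟩ := (BdM_DB k).1 2
  obtain ⟨K2, hK2, h2⟩ := (BdM_DB k).2
  obtain ⟨K3, hK3, h3⟩ := (BdM_DB (k + 1)).1 2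
  obtain ⟨K4, hK4, h4⟩ := (BdM_DB (k + 2)).1 2
  obtain ⟨K5, hK5, h5⟩ := (BdM_DB (k + 2)).2
  obtain ⟨K6, hK6, h6⟩ := BdF_one k
  refine ⟨2 * (2 * (K2 * K3 + 2 ^ k * (K1 * K1 * K2)) + K6 * (K4 * K5)), by positivity,
    fun ι _ _ V s H p x hx => ?_⟩
  have hs := H.hs
  have hs1 := H.le1
  have hd := Real.sqrt_nonneg (dm ι)
  have hx0 : 0 ≤ |x| * s := by positivity
  have zz := h1.mat le_rfl H (h1.mat le_rfl H (bd_z (p := p) h2 H))
  have q1 : 0 ≤ K2 * K3 * √(dm ι) := by positivity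
  have q2 : 0 ≤ 2 ^ k * (K1 * K1 * K2) * √(dm ι) := by positivity
  have q3 : 0 ≤ K6 * (K4 * K5) * √(dm ι) := by positivity
  constructor
  · have a1 := bd_t1 (p := p) h2 h3 H
    have a2 := Bd.neg H (Bd.rh_mul H k (Bd.smul H x k zz))
    have a3 := h6 ι V s H p x hx _ _ _ (Bd.smul H x (k + 2) (h4.mat le_rfl H (bd_z h5 H)))
    refine Bd.mono _ ((Bd.add H (Bd.neg H (Bd.add H a1 a2)) (Bd.neg H a3)).congr
      fun q => ?_) ?_
    · have e := DD_tv_one x q.2
      simp only [bb, Sum.elim_inl, map_sub, map_neg, e, Function.iterate_one]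
      ring
    · have h7 : |x| * s * s ≤ |x| * s * 1 := mul_le_mul_of_nonneg_left hs1 hx0
      nlinarith [mul_le_mul_of_nonneg_left h7 q2, mul_nonneg q1 hx0, mul_nonneg q2 hs.le,
        mul_nonneg q3 hs.le]
  · have a2 := Bd.rh_mul H k (Bd.smul H (x ^ 2) k zz)
    refine Bd.mono _ (a2.congr fun q => ?_) ?_
    · simp only [bq, mul_assoc]
    · have h7 : |x| * s * (|x| * s) ≤ |x| * s * 1 := mul_le_mul_of_nonneg_left hx hx0
      rw [abs_pow]
      nlinarith [mul_le_mul_of_nonneg_left h7 q2, mul_nonneg q1 hx0, mul_nonneg q2 hs.le,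
        mul_nonneg q3 hs.le, mul_nonneg q1 hs.le, mul_nonneg q2 hx0, mul_nonneg q3 hx0]

theorem bd_main (j : ℕ) : ∃ C : ℝ, 0 ≤ C ∧ ∀ (ι : Type) [Fintype ι] [DecidableEq ι]
    (V : Euc ι → ℝ), InClass V → ∀ s : ℝ, 0 < s → s ≤ 1 / 16 → ∀ (p : Euc ι) (c : ℝ),
    |c| * s ≤ 1 → ∀ ρ : ℝ, 0 ≤ ρ → ρ ≤ 1 / 2 →
      ∑ e, Ex V s p ρ (((DD c)^[j + 1] (bb c (Sum.inl e))) ^ 2) ≤
          (C * (s + |c| * s)) ^ 2 * dm ι ∧
        ∑ e, Ex V s p ρ (((DD c)^[j] (bq c e)) ^ 2) ≤ (C * (s + |c| * s)) ^ 2 * dm ι := by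
  obtain ⟨K1, hK1, h1⟩ := BdF_all j 0
  obtain ⟨K2, hK2, h2⟩ := bdx_seeds (0 + 2 * j)
  refine ⟨K1 * K2, by positivity, fun ι _ _ V hV s hs hs1 p x hx ρ h0 h3 => ?_⟩
  have H : BdHyp V s := ⟨hV, hs, hs1⟩
  obtain ⟨a1, a2⟩ := h2 ι V s H p x hx
  have b1 := (h1 ι V s H p x hx _ _ _ a1).zero'.2 ρ h0 h3
  have b2 := (h1 ι V s H p x hx _ _ _ a2).zero'.2 ρ h0 h3
  have e : (K1 * (K2 * (s + |x| * s) * √(dm ι))) ^ 2 = (K1 * K2 * (s + |x| * s)) ^ 2 * dm ι := by
    have : √(dm ι) ^ 2 = dm ι := Real.sq_sqrt (Nat.cast_nonneg _)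
    rw [mul_pow, mul_pow, this]
    ring
  rw [e, Fintype.sum_prod_type] at b1 b2
  simp only [Finset.univ_unique, Finset.sum_singleton] at b1 b2
  exact ⟨by simpa only [Function.iterate_succ_apply] using b1, b2⟩

end Vale.Agent.P347
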