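import Vale.Agent.P347.Transport

/-! Interpolatory weights, collocation and Picard iteration. -/

open MeasureTheory ProbabilityTheory

namespace Vale.Agent.P347

/-- Collocation nodes in `[0,1)`. -/
noncomputable def node {K : ℕ} (l : Fin (K + 1)) : ℝ := (l : ℝ) / (K + 1)

/-- Extrapolation nodes in `(0,1]`. -/
noncomputable def rn {K : ℕ} (l : Fin (K + 1)) : ℝ := ((l : ℝ) + 1) / (K + 1)

/-- Weights for integration, differentiation at `0`, and extrapolation to `0`. -/
structure Wts (K : ℕ) where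
  C : ℝ
  om : ℝ → Fin (K + 1) → ℝ
  al : Fin (K + 1) → ℝ
  be : Fin (K + 1) → ℝ
  one_le : 1 ≤ C
  om_mom : ∀ τ : ℝ, ∀ j : ℕ, j ≤ K → ∑ l, om τ l * node l ^ j = τ ^ (j + 1) / (j + 1)
  om_abs : ∀ τ : ℝ, 0 ≤ τ → τ ≤ 1 → ∑ l, |om τ l| ≤ C * τ
  om_off : ∀ τ : ℝ, 0 ≤ τ → τ ≤ 1 → ∑ l ∈ Finset.univ.erase 0, |om τ l| ≤ C * τ ^ 2
  al_mom : ∀ j : ℕ, j ≤ K → ∑ l, al l * node l ^ j = if j = 1 then 1 else 0
  al_abs : ∑ l, |al l| ≤ C
  be_mom : ∀ j : ℕ, j ≤ K → ∑ l, be l * (rn l ^ 2) ^ j = if j = 0 then 1 else 0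
  be_abs : ∑ l, |be l| ≤ C

lemma exists_inv_vdm {n : ℕ} {x : Fin n → ℝ} (hx : Function.Injective x) :
    ∃ G : Fin n → Fin n → ℝ, (∀ j i : Fin n, ∑ l, G j l * x l ^ i.1 = if j = i then 1 else 0) ∧
      ∀ l l', ∑ i : Fin n, x l ^ i.1 * G i l' = if l = l' then 1 else 0 := by
  have h : IsUnit (Matrix.vandermonde x).det := (Matrix.det_vandermonde_ne_zero_iff.2 hx).isUnit
  exact ⟨fun j l => (Matrix.vandermonde x)⁻¹ j l, fun j i => by
    simpa [Matrix.mul_apply, Matrix.one_apply] using congrFun₂ (Matrix.nonsing_inv_mul _ h) j i,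
    fun j i => by
    simpa [Matrix.mul_apply, Matrix.one_apply] using congrFun₂ (Matrix.mul_nonsing_inv _ h) j i⟩

theorem wts_nonempty (K : ℕ) : Nonempty (Wts K) := by
  have hK : (0 : ℝ) < K + 1 := by positivity
  obtain ⟨G, h1, h2⟩ := exists_inv_vdm (x := node (K := K)) fun a b h => by
    simpa [node, hK.ne', Fin.ext_iff] using h
  obtain ⟨G', h3, -⟩ := exists_inv_vdm (x := fun l => rn (K := K) l ^ 2) fun a b h => by
    have := (pow_left_inj₀ (by unfold rn; positivity) (by unfold rn; positivity) two_ne_zero).1 h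
    simpa [rn, hK.ne', Fin.ext_iff] using this
  have h4 : ∀ l ≠ 0, G 0 l = 0 := fun l hl => by
    have := h2 0 l
    rw [Finset.sum_eq_single 0 (fun i _ hi => by simp [node, hi]) (by simp)] at this
    simpa [hl.symm] using this
  have s1 : 0 ≤ ∑ l, ∑ j, |G j l| := by positivity
  have s2 : 0 ≤ ∑ l, |G' 0 l| := by positivity
  have key : ∀ (τ r : ℝ) (l), 0 ≤ τ → (∀ j : Fin (K + 1), G j l ≠ 0 → τ ^ (j.1 + 1) ≤ r) →
      |∑ j : Fin (K + 1), G j l * (τ ^ (j.1 + 1) / (j.1 + 1))| ≤ (∑ j, |G j l|) * r :=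
    fun τ r l h0 h => by
    rw [Finset.sum_mul]
    refine (Finset.abs_sum_le_sum_abs _ _).trans (Finset.sum_le_sum fun j _ => ?_)
    by_cases hj : G j l = 0
    · simp [hj]
    · rw [abs_mul, abs_of_nonneg (a := _ / _) (by positivity)]
      exact mul_le_mul_of_nonneg_left ((div_le_self (by positivity) (by simp)).trans (h j hj))
        (abs_nonneg _)
  refine ⟨⟨1 + ∑ l, ∑ j, |G j l| + ∑ l, |G' 0 l|,
    fun τ l => ∑ j : Fin (K + 1), G j l * (τ ^ (j.1 + 1) / (j.1 + 1)),
    fun l => ∑ j : Fin (K + 1), if j.1 = 1 then G j l else 0, G' 0, by linarith,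
    fun τ j hj => ?_, fun τ h0 h => ?_, fun τ h0 h => ?_, fun j hj => ?_, ?_, fun j hj => ?_,
    by linarith⟩⟩
  · have := fun i => h1 i ⟨j, by omega⟩
    simp only [Finset.sum_mul, mul_right_comm _ _ (node _ ^ j)]
    rw [Finset.sum_comm]
    simp only [← Finset.sum_mul, this]
    simp
  · refine (Finset.sum_le_sum fun l _ => key τ τ l h0 fun j _ =>
      pow_le_of_le_one h0 h (by omega)).trans ?_
    rw [← Finset.sum_mul]
    gcongr
    linarith
  · refine (Finset.sum_le_sum fun l hl => key τ (τ ^ 2) l h0 fun j hj =>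
      pow_le_pow_of_le_one h0 h ?_).trans ?_
    · have : j ≠ 0 := fun e => hj (e ▸ h4 l (Finset.ne_of_mem_erase hl))
      have : j.1 ≠ 0 := fun e => this (Fin.ext e)
      omega
    rw [← Finset.sum_mul]
    gcongr
    have := Finset.sum_le_sum_of_subset_of_nonneg (Finset.erase_subset (0 : Fin (K + 1)) .univ)
      (f := fun l => ∑ j, |G j l|) fun _ _ _ => by positivity
    linarith
  · have := fun i => h1 i ⟨j, by omega⟩
    simp only [Finset.sum_mul, ite_mul, zero_mul]
    rw [Finset.sum_comm]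
    simp only [Finset.sum_ite_irrel, Finset.sum_const_zero, this]
    rw [Finset.sum_eq_single ⟨j, by omega⟩ (by simp +contextual) (by simp)]
    simp
  · refine le_trans (Finset.sum_le_sum fun l _ => (Finset.abs_sum_le_sum_abs _ _).trans
      (Finset.sum_le_sum fun j _ => show _ ≤ |G j l| by split_ifs <;> simp)) (by linarith)
  · simpa [Fin.ext_iff, eq_comm] using h3 0 ⟨j, by omega⟩

lemma node_nonneg {K : ℕ} (l : Fin (K + 1)) : 0 ≤ node l := by
  unfold node
  positivity

lemma node_le {K : ℕ} (l : Fin (K + 1)) : node l ≤ 1 := by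
  rw [node, div_le_one (by positivity)]
  exact_mod_cast l.2.le

lemma node_zero {K : ℕ} : node (0 : Fin (K + 1)) = 0 := by
  simp [node]

lemma rn_ge {K : ℕ} (l : Fin (K + 1)) : 1 / ((K : ℝ) + 1) ≤ rn l := by
  unfold rn
  gcongr
  simp

lemma rn_le {K : ℕ} (l : Fin (K + 1)) : rn l ≤ 1 := by
  rw [rn, div_le_one (by positivity)]
  exact_mod_cast l.2

section
variable {K : ℕ} {G : Type} [NormedAddCommGroup G] [NormedSpace ℝ G]

/-- The collocation output at relative time `τ`. -/
noncomputable def outp (W : Wts K) (h : ℝ) (g : Fin (K + 1) → G → G) (b : G)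
    (Y : Fin (K + 1) → G) (τ : ℝ) : G :=
  b + ∑ l, (h * W.om τ l) • g l (Y l)

/-- Picard iterates at the nodes. -/
noncomputable def pic (W : Wts K) (h : ℝ) (g : Fin (K + 1) → G → G) (b : G) :
    ℕ → Fin (K + 1) → G
  | 0 => fun _ => b
  | k + 1 => fun l => outp W h g b (pic W h g b k) (node l)

lemma tayI_eq {S : Type} (W : Wts K) (A : ℕ → S → G) (h τ : ℝ) (w : S) :
    tayI K A (h * τ) w = ∑ l, (h * W.om τ l) • tay K A (h * node l) w := by
  simp only [tayI, tay, Finset.smul_sum, smul_smul]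
  rw [Finset.sum_comm]
  refine Finset.sum_congr rfl fun j hj => ?_
  rw [← Finset.sum_smul]
  congr 1
  have : ∑ l, h * W.om τ l * ((h * node l) ^ j / j.factorial) =
      h ^ (j + 1) / j.factorial * ∑ l, W.om τ l * node l ^ j := by
    rw [Finset.mul_sum]
    exact Finset.sum_congr rfl fun l _ => by ring
  rw [this, W.om_mom τ j (by simpa [Nat.lt_succ_iff] using hj), Nat.factorial_succ]
  push_cast
  field_simp
  ring

lemma tay_fd {S : Type} (W : Wts K) (hK : 1 ≤ K) (A : ℕ → S → G) (h : ℝ) (w : S) :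
    ∑ l, W.al l • tay K A (h * node l) w = h • A 1 w := by
  simp only [tay, Finset.smul_sum, smul_smul]
  rw [Finset.sum_comm]
  have : ∀ j ∈ Finset.range (K + 1), ∑ l, (W.al l * ((h * node l) ^ j / j.factorial)) • A j w =
      if j = 1 then h • A 1 w else 0 := fun j hj => by
    have : ∑ l, W.al l * ((h * node l) ^ j / j.factorial) =
        h ^ j / j.factorial * ∑ l, W.al l * node l ^ j := by
      rw [Finset.mul_sum]
      exact Finset.sum_congr rfl fun l _ => by ring
    rw [← Finset.sum_smul, this, W.al_mom j (by simpa [Nat.lt_succ_iff] using hj)]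
    split_ifs with h <;> simp [h]
  rw [Finset.sum_congr rfl this]
  simp [show K ≠ 0 by omega]

variable {S : Type} [MeasurableSpace S] [MeasurableSpace G] [BorelSpace G]
  [SecondCountableTopology G]

lemma pic_meas (W : Wts K) (h : ℝ) {g : S → Fin (K + 1) → G → G} {b : S → G} (mb : Measurable b)
    (mg : ∀ l, Measurable fun q : S × G => g q.1 l q.2) (k : ℕ) (l : Fin (K + 1)) :
    Measurable fun w => pic W h (g w) (b w) k l := by
  induction k generalizing l with
  | zero => exact mb
  | succ k ih =>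
    exact mb.add (Finset.measurable_sum _ fun l' _ =>
      ((mg l').comp (measurable_id.prodMk (ih l'))).const_smul (h * W.om (node l) l'))

lemma outp_meas (W : Wts K) (h : ℝ) {g : S → Fin (K + 1) → G → G} {b : S → G} (mb : Measurable b)
    (mg : ∀ l, Measurable fun q : S × G => g q.1 l q.2) (k : ℕ) (τ : ℝ) :
    Measurable fun w => outp W h (g w) (b w) (pic W h (g w) (b w) k) τ := by
  exact mb.add (Finset.measurable_sum _ fun l' _ =>
    ((mg l').comp (measurable_id.prodMk (pic_meas W h mb mg k l'))).const_smul (h * W.om τ l'))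

/-- Picard iteration tracks the Taylor polynomial. -/
theorem colloc (W : Wts K) {P : Measure S} [IsProbabilityMeasure P] {b : S → G} {A : ℕ → S → G}
    {g : S → Fin (K + 1) → G → G} {h L ε m : ℝ} (hh : 0 ≤ h) (hL : 0 ≤ L) (hε : 0 ≤ ε)
    (hm : 0 ≤ m) (hc : W.C * h * L ≤ 1 / 2) (mb : Measurable b) (mA : ∀ j, Measurable (A j))
    (mg : ∀ l, Measurable fun q : S × G => g q.1 l q.2)
    (hg : ∀ w l x y, ‖g w l x - g w l y‖ ≤ L * ‖x - y‖)
    (h1 : ∀ l, EB P (fun w => tay K A (h * node l) w - g w l (b w + tayI K A (h * node l) w)) ε)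
    (h0 : ∀ l : Fin (K + 1), EB P (fun w => tay K A (h * node l) w) m) (k : ℕ) :
    (∀ l, EB P (fun w => pic W h (g w) (b w) k l - (b w + tayI K A (h * node l) w))
      (2 * (W.C * h) * ε + (W.C * h * L) ^ k * (W.C * h * m))) ∧
    ∀ τ : ℝ, 0 ≤ τ → τ ≤ 1 →
      EB P (fun w => outp W h (g w) (b w) (pic W h (g w) (b w) k) τ -
        (b w + tayI K A (h * τ) w)) (2 * (W.C * h) * ε + (W.C * h * L) ^ k * (W.C * h * m)) := by
  have hC : 0 ≤ W.C := zero_le_one.trans W.one_le
  have mt : ∀ t, Measurable (tay K A t) := fun t =>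
    Finset.measurable_sum _ fun j _ => (mA j).const_smul _
  have mI : ∀ t, Measurable fun w => b w + tayI K A t w := fun t =>
    mb.add (Finset.measurable_sum _ fun j _ => (mA j).const_smul _)
  have hs : ∀ τ, 0 ≤ τ → τ ≤ 1 → ∑ l, |h * W.om τ l| ≤ W.C * h := fun τ t0 t1 => by
    simp only [abs_mul, abs_of_nonneg hh, ← Finset.mul_sum]
    rw [mul_comm]
    exact mul_le_mul_of_nonneg_right ((W.om_abs τ t0 t1).trans (mul_le_of_le_one_right hC t1)) hh
  have step : ∀ k e, 0 ≤ e →
      (∀ l, EB P (fun w => pic W h (g w) (b w) k l - (b w + tayI K A (h * node l) w)) e) →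
      ∀ τ : ℝ, 0 ≤ τ → τ ≤ 1 → EB P (fun w => outp W h (g w) (b w) (pic W h (g w) (b w) k) τ -
        (b w + tayI K A (h * τ) w)) (W.C * h * (L * e + ε)) := fun k e he hk τ t0 t1 => by
    have m1 := fun l => ((pic_meas W h mb mg k l).sub (mI (h * node l))).norm
    have m2 := fun l => ((mt (h * node l)).sub
      ((mg l).comp (measurable_id.prodMk (mI (h * node l))))).norm
    refine (EB.domSum Finset.univ (c := 0) (ci := fun l => |h * W.om τ l|)
      (Fi := fun l w => g w l (pic W h (g w) (b w) k l) - tay K A (h * node l) w)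
      (a := fun _ => L * e + ε) (fun l _ => ?_) (fun l _ => (((mg l).comp (measurable_id.prodMk
        (pic_meas W h mb mg k l))).sub (mt _)).norm) (fun _ _ => by positivity) le_rfl
      (fun _ _ => abs_nonneg _) fun w => ?_).mono ?_
    · refine (EB.dom2 (hk l) (h1 l) (m1 l) he hε le_rfl hL zero_le_one fun w => ?_).mono (by simp)
      rw [zero_add, one_mul, norm_sub_rev (tay _ _ _ _)]
      exact (norm_sub_le_norm_sub_add_norm_sub _ _ _).trans (add_le_add (hg _ _ _ _) le_rfl)
    · rw [outp, tayI_eq W, add_sub_add_left_eq_sub, ← Finset.sum_sub_distrib, zero_add]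
      exact norm_sum_le_of_le _ fun l _ => by rw [← smul_sub, norm_smul, Real.norm_eq_abs]
    · rw [zero_add, ← Finset.sum_mul]
      exact mul_le_mul_of_nonneg_right (hs τ t0 t1) (by positivity)
  have q0 : 0 ≤ W.C * h := by positivity
  have q1 : ∀ k, W.C * h * (L * (2 * (W.C * h) * ε + (W.C * h * L) ^ k * (W.C * h * m)) + ε) ≤
      2 * (W.C * h) * ε + (W.C * h * L) ^ (k + 1) * (W.C * h * m) := fun k => by
    have := mul_le_mul_of_nonneg_right hc (show 0 ≤ 2 * (W.C * h) * ε by positivity)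
    rw [pow_succ]
    nlinarith
  have main : ∀ k l, EB P (fun w => pic W h (g w) (b w) k l - (b w + tayI K A (h * node l) w))
      (2 * (W.C * h) * ε + (W.C * h * L) ^ k * (W.C * h * m)) := fun k => by
    induction k with
    | zero =>
      intro l
      refine (EB.domSum Finset.univ (c := 0) (ci := fun l' => |h * W.om (node l) l'|)
        (fun l _ => h0 l) (fun l _ => (mt _).norm) (fun _ _ => hm) le_rfl
        (fun _ _ => abs_nonneg _) fun w => ?_).mono ?_
      · rw [pic, tayI_eq W, sub_add_cancel_left, norm_neg, zero_add]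
        exact norm_sum_le_of_le _ fun l _ => by rw [norm_smul, Real.norm_eq_abs]
      · rw [zero_add, ← Finset.sum_mul, pow_zero, one_mul]
        exact le_add_of_nonneg_of_le (by positivity)
          (mul_le_mul_of_nonneg_right (hs _ (node_nonneg l) (node_le l)) hm)
    | succ k ih =>
      exact fun l => (step k _ (by positivity) ih _ (node_nonneg l) (node_le l)).mono (q1 k)
  refine ⟨main k, fun τ t0 t1 => (step k _ (by positivity) (main k) τ t0 t1).mono
    ((q1 k).trans (add_le_add le_rfl (mul_le_mul_of_nonneg_right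
      (pow_le_pow_of_le_one (by positivity) (by linarith) (by omega)) (by positivity))))⟩

end

end Vale.Agent.P347
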