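import Mathlib

/-! Statement-level definitions for P347 (query complexity of log-concave sampling). -/

open MeasureTheory ProbabilityTheory

namespace Vale.Agent.P347

/-- Euclidean space indexed by `ι`. -/
abbrev Euc (ι : Type) : Type := EuclideanSpace ℝ ι

variable {ι : Type} [Fintype ι]

/-- The class of potentials: `C²`, `V 0 = 0`, `∇V 0 = 0`, `I ≼ ∇²V ≼ 2 I`. -/
def InClass (V : Euc ι → ℝ) : Prop :=
  ContDiff ℝ 2 V ∧ V 0 = 0 ∧ gradient V 0 = 0 ∧
    ∀ x v : Euc ι, ‖v‖ ^ 2 ≤ iteratedFDeriv ℝ 2 V x ![v, v] ∧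
      iteratedFDeriv ℝ 2 V x ![v, v] ≤ 2 * ‖v‖ ^ 2

/-- The Gibbs law `Z⁻¹ e^{-V(x)} dx`. -/
noncomputable def gibbs (V : Euc ι → ℝ) : Measure (Euc ι) :=
  (∫⁻ x, ENNReal.ofReal (Real.exp (-V x)))⁻¹ •
    volume.withDensity fun x => ENNReal.ofReal (Real.exp (-V x))

/-- A randomized adaptive query algorithm: `m` random reals, the `i`-th query point and the
output are measurable functions of the random reals and of the transcript of answers. -/
structure Alg (ι : Type) [Fintype ι] where
  m : ℕ
  query : ℕ → (Fin m → ℝ) × (ℕ → ℝ × Euc ι) → Euc ι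
  out : (Fin m → ℝ) × (ℕ → ℝ × Euc ι) → Euc ι
  query_meas : ∀ i, Measurable (query i)
  out_meas : Measurable out

/-- The transcript after `i` queries: entry `j < i` is the oracle answer `(V x_j, ∇V x_j)` to the
`j`-th query, the other entries are `0`. -/
noncomputable def transcript (A : Alg ι) (V : Euc ι → ℝ) (g : Fin A.m → ℝ) :
    ℕ → (ℕ → ℝ × Euc ι)
  | 0 => fun _ => 0
  | i + 1 => Function.update (transcript A V g i) i
      (V (A.query i (g, transcript A V g i)), gradient V (A.query i (g, transcript A V g i)))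

/-- The law of the output after `q` queries, the random reals being independent `N(0,1)`. -/
noncomputable def outLaw (A : Alg ι) (q : ℕ) (V : Euc ι → ℝ) : Measure (Euc ι) :=
  (Measure.pi fun _ : Fin A.m => gaussianReal 0 1).map fun g => A.out (g, transcript A V g q)

/-- Some algorithm with `q` queries samples every Gibbs law of the class in dimension `d` within
total variation `1/10`. -/
def Solvable (d q : ℕ) : Prop :=
  ∃ A : Alg (Fin d), ∀ V : Euc (Fin d) → ℝ, InClass V → ∀ B : Set (Euc (Fin d)), MeasurableSet B →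
    |(outLaw A q V B).toReal - (gibbs V B).toReal| ≤ 1 / 10

/-- The query complexity `Q(d)`. -/
noncomputable def Q (d : ℕ) : ℕ := sInf {q | Solvable d q}

end Vale.Agent.P347
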