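import Vale.Agent.P347.Top

/-! From `W₁` to total variation, and the choice of parameters. -/

open MeasureTheory ProbabilityTheory Filter Topology

namespace Vale.Agent.P347

section Sm
variable {ι : Type} [Fintype ι]

/-- The Gaussian smoothing of an indicator. -/
noncomputable def sm (r : ℝ) (B : Set (Euc ι)) (x : Euc ι) : ℝ :=
  (gam ι {ζ | x + r • ζ ∈ B}).toReal

lemma sm_abs (r : ℝ) (B : Set (Euc ι)) (x : Euc ι) : |sm r B x| ≤ 1 := by
  rw [sm, abs_of_nonneg ENNReal.toReal_nonneg]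
  exact measureReal_le_one

lemma sm_lip {r : ℝ} (hr : 0 < r) {B : Set (Euc ι)} (hB : MeasurableSet B) (x y : Euc ι) :
    |sm r B x - sm r B y| ≤ 2 * √(dm ι) / r * ‖x - y‖ := by
  have hB' : MeasurableSet {ζ : Euc ι | y + r • ζ ∈ B} :=
    (show Measurable fun ζ : Euc ι => y + r • ζ by fun_prop) hB
  have h := gibbs_shift (inClass_quad (ι := ι)) (r⁻¹ • (x - y)) hB'
  have e : (fun z : Euc ι => z + r⁻¹ • (x - y)) ⁻¹' {ζ : Euc ι | y + r • ζ ∈ B} =
      {ζ : Euc ι | x + r • ζ ∈ B} := by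
    ext ζ
    have : y + r • (ζ + r⁻¹ • (x - y)) = x + r • ζ := by
      rw [smul_add, smul_smul, mul_inv_cancel₀ hr.ne', one_smul]; abel
    simp only [Set.mem_preimage, Set.mem_ofPred_eq, this]
  rw [gibbs_quad, e, norm_smul, Real.norm_of_nonneg (inv_pos.2 hr).le] at h
  refine h.trans (le_of_eq ?_)
  field_simp

lemma sm_integral {S : Type} [MeasurableSpace S] {ν : Measure S} {r : ℝ} {B : Set (Euc ι)}
    (hB : MeasurableSet B) {F : S → Euc ι} (mF : Measurable F) :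
    ∫ w, sm r B (F w) ∂ν = (∫⁻ w, gam ι {ζ | F w + r • ζ ∈ B} ∂ν).toReal := by
  have hm : MeasurableSet {x : S × Euc ι | F x.1 + r • x.2 ∈ B} :=
    (show Measurable fun x : S × Euc ι => F x.1 + r • x.2 by fun_prop) hB
  exact integral_toReal (measurable_measure_prodMk_left hm).aemeasurable
    (Filter.Eventually.of_forall fun w => measure_lt_top _ _)

lemma sm_gibbs {V : Euc ι → ℝ} (hV : InClass V) {r : ℝ} (hr : 0 ≤ r) {B : Set (Euc ι)}
    (hB : MeasurableSet B) : |∫ x, sm r B x ∂(gibbs V) - (gibbs V B).toReal| ≤ 2 * dm ι * r := by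
  have := gibbs_prob hV
  have hm : MeasurableSet {x : Euc ι × Euc ι | x.1 + r • x.2 ∈ B} :=
    (show Measurable fun x : Euc ι × Euc ι => x.1 + r • x.2 by fun_prop) hB
  have m2 := measurable_measure_prodMk_right (μ := gibbs V) hm
  have e1 : ∫ x, sm r B x ∂(gibbs V) =
      ∫ ζ, (gibbs V ((fun x => x + r • ζ) ⁻¹' B)).toReal ∂(gam ι) := by
    have e2 := Measure.prod_apply (μ := gibbs V) (ν := gam ι) hm
    rw [Measure.prod_apply_symm hm, ← ENNReal.toReal_eq_toReal_iff'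
      (by rw [← Measure.prod_apply_symm hm]; exact measure_ne_top _ _)
      (by rw [← Measure.prod_apply hm]; exact measure_ne_top _ _),
      ← integral_toReal m2.aemeasurable (Filter.Eventually.of_forall fun w => measure_lt_top _ _)]
      at e2
    rw [sm_integral hB measurable_id']
    exact e2.symm
  have i1 : Integrable (fun ζ => (gibbs V ((fun x => x + r • ζ) ⁻¹' B)).toReal) (gam ι) :=
    (integrable_const (1 : ℝ)).mono' m2.ennreal_toReal.aestronglyMeasurable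
      (Filter.Eventually.of_forall fun ζ => by
        rw [Real.norm_of_nonneg ENNReal.toReal_nonneg]; exact measureReal_le_one)
  have i2 := (EB.gam (ι := ι)).integrable measurable_norm
  have e3 : (gibbs V B).toReal = ∫ _ζ, (gibbs V B).toReal ∂(gam ι) := by simp
  rw [e1, e3, ← integral_sub i1 (integrable_const _), ← Real.norm_eq_abs]
  refine (norm_integral_le_of_norm_le (i2.const_mul (2 * √(dm ι) * r))
    (Filter.Eventually.of_forall fun ζ => ?_)).trans ?_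
  · have h := gibbs_shift hV (r • ζ) hB
    rw [norm_smul, Real.norm_of_nonneg hr, ← mul_assoc] at h
    exact h
  · rw [integral_const_mul]
    have h := mul_le_mul_of_nonneg_left
      ((EB.gam (ι := ι)).integral_le (Real.sqrt_nonneg _) measurable_norm)
      (show 0 ≤ 2 * √(dm ι) * r by positivity)
    have h2 : √(dm ι) * √(dm ι) = dm ι := Real.mul_self_sqrt (Nat.cast_nonneg _)
    refine h.trans (le_of_eq ?_)
    linear_combination 2 * r * h2

end Sm

theorem solvable_of_samp {d q : ℕ} (hd : 1 ≤ d) {e : ℝ}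
    (h : Samp (fun V : Euc (Fin d) → ℝ => gibbs V) q e) (he : e * (3200 * √(d : ℝ) ^ 3) ≤ 1) :
    Solvable d q := by
  obtain ⟨S, _, ν, hν, F, hF, hW⟩ := h
  have := hν.prob
  have hd1 : (1 : ℝ) ≤ d := by exact_mod_cast hd
  have hdm : dm (Fin d) = d := by rw [dm, Fintype.card_fin]
  set r : ℝ := 1 / (40 * d) with hr
  have hr0 : 0 < r := by positivity
  obtain ⟨m, ψ, mψ, hψ⟩ := hν.prod (Seed.gam (ι := Fin d))
  have hG : Comp q (S × Euc (Fin d)) fun V x => F V x.1 + r • x.2 :=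
    (hF.comap (measurable_fst (β := Euc (Fin d)))).post
      (g := fun w : (S × Euc (Fin d)) × Euc (Fin d) => w.2 + r • w.1.2) (by fun_prop)
  obtain ⟨A, hA⟩ := (hG.comap mψ).toAlg
  refine ⟨A, fun V hV B hB => ?_⟩
  have := gibbs_prob hV
  have mF := hF.meas hV
  have mG : Measurable fun x : S × Euc (Fin d) => F V x.1 + r • x.2 := hG.meas hV
  have e1 : outLaw A q V = (ν.prod (gam (Fin d))).map fun x => F V x.1 + r • x.2 := by
    rw [hA, ← hψ, Measure.map_map mG mψ]; rfl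
  have e2 : (outLaw A q V B).toReal = ∫ w, sm r B (F V w) ∂ν := by
    rw [e1, Measure.map_apply mG hB, Measure.prod_apply (mG hB), sm_integral hB mF]; rfl
  have hL : 0 < 2 * √(d : ℝ) / r := by positivity
  have h1 := hW V hV (fun x => (2 * √(d : ℝ) / r)⁻¹ * sm r B x)
    (LipschitzWith.of_dist_le_mul fun x y => by
      rw [Real.dist_eq, ← mul_sub, abs_mul, abs_of_pos (inv_pos.2 hL), NNReal.coe_one, one_mul,
        dist_eq_norm, inv_mul_le_iff₀ hL, ← hdm]
      exact sm_lip hr0 hB x y)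
    ⟨(2 * √(d : ℝ) / r)⁻¹ * 1, fun x => by
      rw [abs_mul, abs_of_pos (inv_pos.2 hL)]
      exact mul_le_mul_of_nonneg_left (sm_abs r B x) (inv_pos.2 hL).le⟩
  rw [integral_const_mul, integral_const_mul, ← mul_sub, abs_mul, abs_of_pos (inv_pos.2 hL),
    inv_mul_le_iff₀ hL] at h1
  have h2 := sm_gibbs hV hr0.le hB
  rw [hdm] at h2
  have h3 : 2 * √(d : ℝ) / r * e = e * (3200 * √(d : ℝ) ^ 3) / 40 := by
    have h4 : √(d : ℝ) ^ 3 = d * √(d : ℝ) := by
      rw [pow_succ, Real.sq_sqrt (by positivity)]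
    rw [h4, hr]
    field_simp
    ring
  have h5 : 2 * (d : ℝ) * r = 1 / 20 := by
    rw [hr]; field_simp; norm_num
  rw [e2]
  have h6 := abs_sub_le (∫ w, sm r B (F V w) ∂ν) (∫ x, sm r B x ∂(gibbs V)) (gibbs V B).toReal
  linarith

theorem solvable_subpoly {ε : ℝ} (hε : 0 < ε) :
    ∃ d₀ : ℕ, ∀ d : ℕ, d₀ ≤ d → ∃ q : ℕ, (q : ℝ) ≤ (d : ℝ) ^ ε ∧ Solvable d q := by
  obtain ⟨k, hk⟩ := exists_nat_gt (9 / ε)
  have hk0 : 0 < k := by
    have : (0 : ℝ) < k := lt_trans (by positivity) hk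
    exact_mod_cast this
  have hk9 : 9 ≤ ε * k := by
    rw [div_lt_iff₀ hε] at hk; linarith
  obtain ⟨n, hn⟩ : ∃ n, n = 2 * k + 6 := ⟨_, rfl⟩
  obtain ⟨G, hG⟩ : ∃ G, G = 8 * rk n + 8 := ⟨_, rfl⟩
  obtain ⟨D, hD⟩ : ∃ D, D = k * n * G := ⟨_, rfl⟩
  have hG8 : 8 ≤ G := by omega
  have hD0 : 0 < D := by
    rw [hD]; exact Nat.mul_pos (Nat.mul_pos hk0 (by omega)) (by omega)
  obtain ⟨b₀, hb₀⟩ := samp_gibbs n G D (by omega) hG.ge (by
    have h1 : 3 * n ^ 2 * G = 6 * D + 18 * (n * G) := by rw [hD, sq]; nth_rewrite 1 [hn]; ring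
    have h2 : 6 * G ≤ n * G := Nat.mul_le_mul_right G (by omega)
    have h3 : 6 * n * G = 6 * (n * G) := by ring
    omega)
  refine ⟨(max b₀ 3200) ^ (2 * D) + 1, fun d hd => ?_⟩
  have hex : ∃ b : ℕ, d ≤ b ^ (2 * D) := ⟨d, Nat.le_self_pow (by omega) d⟩
  classical
  obtain ⟨b, hb⟩ : ∃ b, b = Nat.find hex := ⟨_, rfl⟩
  have hb1 : d ≤ b ^ (2 * D) := hb ▸ Nat.find_spec hex
  have hb2 : max b₀ 3200 < b := by
    by_contra hc
    have := Nat.pow_le_pow_left (not_lt.1 hc) (2 * D)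
    omega
  have hb3 : 3200 < b := lt_of_le_of_lt (le_max_right _ _) hb2
  have hb4 : (b - 1) ^ (2 * D) < d := not_le.1 (Nat.find_min hex (by rw [← hb]; omega))
  have hb5 : b ^ D ≤ d := by
    have h1 : b ≤ (b - 1) ^ 2 := by
      obtain ⟨c, rfl⟩ : ∃ c, b = c + 1 := ⟨b - 1, by omega⟩
      have h3 : 3 * c ≤ c * c := Nat.mul_le_mul_right c (by omega)
      rw [Nat.add_sub_cancel, sq]; omega
    have h2 := Nat.pow_le_pow_left h1 D
    rw [← pow_mul] at h2
    omega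
  have hd1 : 1 ≤ d := by omega
  have hd1' : (1 : ℝ) ≤ d := by exact_mod_cast hd1
  have hbr : (3200 : ℝ) ≤ b := by exact_mod_cast hb3.le
  have hsq : √(d : ℝ) ≤ (b : ℝ) ^ D := by
    refine Real.sqrt_le_iff.2 ⟨by positivity, ?_⟩
    rw [← pow_mul, mul_comm]
    exact_mod_cast hb1
  refine ⟨b ^ (9 * n * G), ?_, solvable_of_samp hd1
    (hb₀ b (le_trans (le_max_left _ _) hb2.le) (Fin d) (by rw [dm, Fintype.card_fin]; exact hsq)) ?_⟩
  · refine (pow_le_pow_iff_left₀ (by positivity) (by positivity) hk0.ne').1 ?_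
    have h1 : (b ^ (9 * n * G)) ^ k = (b ^ D) ^ 9 := by
      rw [← pow_mul, ← pow_mul, hD]; congr 1; ring
    have h2 : (b ^ (9 * n * G)) ^ k ≤ d ^ 9 := h1 ▸ Nat.pow_le_pow_left hb5 9
    calc ((b ^ (9 * n * G) : ℕ) : ℝ) ^ k ≤ (d : ℝ) ^ 9 := by exact_mod_cast h2
      _ = (d : ℝ) ^ ((9 : ℕ) : ℝ) := (Real.rpow_natCast _ _).symm
      _ ≤ (d : ℝ) ^ (ε * k) := Real.rpow_le_rpow_of_exponent_le hd1' (by exact_mod_cast hk9)
      _ = ((d : ℝ) ^ ε) ^ k := by rw [Real.rpow_mul (by positivity), Real.rpow_natCast]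
  · have h1 : √(d : ℝ) ^ 3 ≤ ((b : ℝ) ^ D) ^ 3 := pow_le_pow_left₀ (Real.sqrt_nonneg _) hsq 3
    rw [one_div, inv_mul_le_iff₀ (by positivity), mul_one, pow_succ (b : ℝ), mul_comm 3 D,
      pow_mul, mul_comm]
    exact mul_le_mul h1 hbr (by norm_num) (by positivity)

theorem main :
    (∀ ε : ℝ, 0 < ε → ∃ d₀ : ℕ, ∀ d : ℕ, d₀ ≤ d → ∃ q : ℕ, (q : ℝ) ≤ (d : ℝ) ^ ε ∧ Solvable d q) ∧
      limsup (fun d : ℕ => Real.log (Q d) / Real.log d) atTop = 0 := by
  refine ⟨fun ε hε => solvable_subpoly hε, Tendsto.limsup_eq ?_⟩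
  refine Metric.tendsto_atTop.2 fun ε hε => ?_
  obtain ⟨d₀, h⟩ := solvable_subpoly (half_pos hε)
  refine ⟨max d₀ 2, fun d hd => ?_⟩
  obtain ⟨q, hq, hs⟩ := h d (le_trans (le_max_left _ _) hd)
  have hd2 : (2 : ℝ) ≤ d := by exact_mod_cast le_trans (le_max_right _ _) hd
  have hl : 0 < Real.log d := Real.log_pos (by linarith)
  have hQ : (Q d : ℝ) ≤ (d : ℝ) ^ (ε / 2) := by
    have : Q d ≤ q := Nat.sInf_le hs
    exact le_trans (by exact_mod_cast this) hq
  have h1 : Real.log (Q d) ≤ ε / 2 * Real.log d := by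
    rcases Nat.eq_zero_or_pos (Q d) with h0 | h0
    · rw [h0, Nat.cast_zero, Real.log_zero]; positivity
    · rw [← Real.log_rpow (by linarith)]
      exact Real.log_le_log (by exact_mod_cast h0) hQ
  rw [Real.dist_eq, sub_zero, abs_of_nonneg (div_nonneg (Real.log_natCast_nonneg _) hl.le),
    div_lt_iff₀ hl]
  nlinarith

end Vale.Agent.P347
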