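import Vale.Agent.P347.Ring

/-! Tensor kernels acting on indexed families, and the factorization of split kernels. -/

namespace Vale.Agent.P347

variable {ι : Type} [Fintype ι] [DecidableEq ι] {R : Type} [CommRing R]

/-- The symmetric tensor `t` acting from `I`-indices to `J`-indices with spectators `A`. -/
def ker (t : Multiset ι → R) (A I J : Type) [Fintype I] [DecidableEq I] [Fintype J]
    (u : A × (I → ι) → R) : A × (J → ι) → R :=
  fun q => ∑ α : I → ι, t (ms α + ms q.2) * u (q.1, α)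

/-- The kernel `∑ e, t (e, U) t (e, Uᶜ)` for a subset `U` of the index set `I ⊕ J`. -/
def splitKer (t : Multiset ι → R) (A I J : Type) [Fintype I] [DecidableEq I] [Fintype J]
    [DecidableEq J] (U : Finset (I ⊕ J)) (u : A × (I → ι) → R) : A × (J → ι) → R :=
  fun q => ∑ α : I → ι, (∑ e, t (e ::ₘ msOn (Sum.elim α q.2) U) *
    t (e ::ₘ msOn (Sum.elim α q.2) Uᶜ)) * u (q.1, α)

omit [Fintype ι] [DecidableEq ι] in
lemma msOn_eq_sum {L : Type} (γ : L → ι) (S : Finset L) : msOn γ S = ∑ l ∈ S, {γ l} := by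
  rw [msOn, Finset.sum, ← Multiset.sum_map_singleton (S.val.map γ), Multiset.map_map]
  rfl

omit [Fintype ι] [DecidableEq ι] in
lemma ms_elim {I J : Type} [Fintype I] [Fintype J] (α : I → ι) (β : J → ι) :
    ms (Sum.elim α β) = ms α + ms β := by
  simp only [ms, msOn_eq_sum, Fintype.sum_sum_type, Sum.elim_inl, Sum.elim_inr]

omit [Fintype ι] [DecidableEq ι] in
lemma ms_option {J : Type} [Fintype J] (β : Option J → ι) :
    ms β = β none ::ₘ ms fun j => β (some j) := by
  simp only [ms, msOn_eq_sum, Fintype.sum_option, Multiset.singleton_add]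

omit [Fintype ι] [DecidableEq ι] in
lemma ms_unit (α : Unit → ι) : ms α = {α ()} := by
  simp [ms, msOn]

omit [Fintype ι] [DecidableEq ι] in
lemma msOn_elim {I J : Type} [Fintype I] [Fintype J] [DecidableEq I] [DecidableEq J] (α : I → ι)
    (β : J → ι) (V : Finset (I ⊕ J)) (p : I → Prop) (q : J → Prop) [DecidablePred p]
    [DecidablePred q] (hp : ∀ i, .inl i ∈ V ↔ p i) (hq : ∀ j, .inr j ∈ V ↔ q j) :
    msOn (Sum.elim α β) V = ms (fun i : {i // p i} => α i) + ms fun j : {j // q j} => β j := by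
  simp only [ms, msOn_eq_sum]
  rw [← Finset.sum_subtype (Finset.univ.filter p) (by simp) fun i => ({α i} : Multiset ι),
    ← Finset.sum_subtype (Finset.univ.filter q) (by simp) fun j => ({β j} : Multiset ι),
    ← Finset.univ_inter V, ← Finset.sum_ite_mem, Fintype.sum_sum_type]
  simp only [Finset.sum_filter, hp, hq, Sum.elim_inl, Sum.elim_inr]

lemma card_elim {I J : Type} [Fintype I] [Fintype J] [DecidableEq I] [DecidableEq J]
    (V : Finset (I ⊕ J)) (p : I → Prop) (q : J → Prop) [DecidablePred p]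
    [DecidablePred q] (hp : ∀ i, .inl i ∈ V ↔ p i) (hq : ∀ j, .inr j ∈ V ↔ q j) :
    V.card = Fintype.card {i // p i} + Fintype.card {j // q j} := by
  simpa [ms, msOn] using congrArg Multiset.card
    (msOn_elim (fun _ => ()) (fun _ => ()) V p q hp hq)

theorem split_core (t : Multiset ι → R) (Nm : ∀ (A : Type) [Fintype A], (A → R) → ℝ → Prop)
    (hre : ∀ (A B : Type) [Fintype A] [Fintype B] (σ : B ≃ A) (u : A → R) (c : ℝ),
      Nm A u c → Nm B (fun b => u (σ b)) c)
    (I J : Type) [Fintype I] [DecidableEq I] [Fintype J] [DecidableEq J]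
    (U : Finset (I ⊕ J)) (hU : ∃ i, .inl i ∈ U) (hU' : ∃ j, .inr j ∉ U) (a₁ a₂ : ℝ)
    (h₁ : ∀ (A I' J' : Type) [Fintype A] [Fintype I'] [DecidableEq I'] [Nonempty I'] [Fintype J']
      [DecidableEq J'] [Nonempty J'], Fintype.card I' + Fintype.card J' = U.card + 1 →
      ∀ (u : A × (I' → ι) → R) (c : ℝ), Nm _ u c → Nm _ (ker t A I' J' u) (a₁ * c))
    (h₂ : ∀ (A I' J' : Type) [Fintype A] [Fintype I'] [DecidableEq I'] [Nonempty I'] [Fintype J']
      [DecidableEq J'] [Nonempty J'], Fintype.card I' + Fintype.card J' = Uᶜ.card + 1 →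
      ∀ (u : A × (I' → ι) → R) (c : ℝ), Nm _ u c → Nm _ (ker t A I' J' u) (a₂ * c))
    (A : Type) [Fintype A] (u : A × (I → ι) → R) (c : ℝ) (hu : Nm _ u c) :
    Nm _ (splitKer t A I J U u) (a₂ * (a₁ * c)) := by
  let p : I → Prop := fun i => .inl i ∈ U
  let q : J → Prop := fun j => .inr j ∈ U
  have : Nonempty {i // p i} := hU.elim fun i h => ⟨⟨i, h⟩⟩
  have : Nonempty {j // ¬ q j} := hU'.elim fun j h => ⟨⟨j, h⟩⟩
  let eI := Equiv.piEquivPiSubtypeProd p fun _ => ι
  let eJ := Equiv.piEquivPiSubtypeProd q fun _ => ι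
  let σ1 : (A × ({i // ¬ p i} → ι)) × ({i // p i} → ι) ≃ A × (I → ι) :=
    (Equiv.prodAssoc _ _ _).trans ((Equiv.refl A).prodCongr ((Equiv.prodComm _ _).trans eI.symm))
  let σ2 : (A × ({j // q j} → ι)) × (Option {i // ¬ p i} → ι) ≃
      (A × ({i // ¬ p i} → ι)) × (Option {j // q j} → ι) :=
    { toFun := fun x => ((x.1.1, fun i => x.2 (some i)), fun o => o.elim (x.2 none) x.1.2)
      invFun := fun x => ((x.1.1, fun i => x.2 (some i)), fun o => o.elim (x.2 none) x.1.2)
      left_inv := fun x => Prod.ext rfl (funext fun o => by cases o <;> rfl)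
      right_inv := fun x => Prod.ext rfl (funext fun o => by cases o <;> rfl) }
  let σ3 : A × (J → ι) ≃ (A × ({j // q j} → ι)) × ({j // ¬ q j} → ι) :=
    ((Equiv.refl A).prodCongr eJ).trans (Equiv.prodAssoc _ _ _).symm
  have c1 := card_elim U p q (fun _ => Iff.rfl) fun _ => Iff.rfl
  have c2 := card_elim Uᶜ (fun i => ¬ p i) (fun j => ¬ q j) (fun _ => Finset.mem_compl)
    fun _ => Finset.mem_compl
  have H := hre _ _ σ3 _ _ (h₂ _ _ {j // ¬ q j} (by rw [Fintype.card_option]; omega) _ _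
    (hre _ _ σ2 _ _ (h₁ _ _ (Option {j // q j}) (by rw [Fintype.card_option]; omega) _ _
      (hre _ _ σ1 _ _ hu))))
  refine (congrArg (fun v => Nm _ v _) (funext fun x => ?_)).mp H
  obtain ⟨a, β⟩ := x
  simp only [ker, splitKer]
  rw [← (Equiv.piOptionEquivProd (β := fun _ => ι)).symm.sum_comp, ← eI.symm.sum_comp,
    Fintype.sum_prod_type, Fintype.sum_prod_type_right, Finset.sum_comm]
  refine Finset.sum_congr rfl fun α2 _ => ?_
  simp only [Finset.mul_sum, Finset.sum_mul]
  rw [Finset.sum_comm]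
  refine Finset.sum_congr rfl fun α1 _ => Finset.sum_congr rfl fun e _ => ?_
  have e1 : (fun i : {i // p i} => eI.symm (α1, α2) i) = α1 :=
    congrArg Prod.fst (eI.apply_symm_apply (α1, α2))
  have e2 : (fun i : {i // ¬ p i} => eI.symm (α1, α2) i) = α2 :=
    congrArg Prod.snd (eI.apply_symm_apply (α1, α2))
  rw [msOn_elim _ _ U p q (fun _ => Iff.rfl) fun _ => Iff.rfl,
    msOn_elim _ _ Uᶜ (fun i => ¬ p i) (fun j => ¬ q j) (fun _ => Finset.mem_compl)
      fun _ => Finset.mem_compl, e1, e2, ms_option, ms_option, Multiset.cons_add,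
    Multiset.add_cons, ← mul_assoc, mul_comm (t _)]
  rfl

/-- A size predicate on indexed families that is invariant under reindexing and under which the
kernels of order `n` are bounded by `a n` also bounds every proper split kernel. -/
theorem split_bound (t : Multiset ι → R) (Nm : ∀ (A : Type) [Fintype A], (A → R) → ℝ → Prop)
    (hre : ∀ (A B : Type) [Fintype A] [Fintype B] (σ : B ≃ A) (u : A → R) (c : ℝ),
      Nm A u c → Nm B (fun b => u (σ b)) c)
    (I J : Type) [Fintype I] [DecidableEq I] [Nonempty I] [Fintype J] [DecidableEq J] [Nonempty J]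
    (U : Finset (I ⊕ J)) (hU : U.Nonempty) (hU' : Uᶜ.Nonempty) (a₁ a₂ : ℝ)
    (h₁ : ∀ (A I' J' : Type) [Fintype A] [Fintype I'] [DecidableEq I'] [Nonempty I'] [Fintype J']
      [DecidableEq J'] [Nonempty J'], Fintype.card I' + Fintype.card J' = U.card + 1 →
      ∀ (u : A × (I' → ι) → R) (c : ℝ), Nm _ u c → Nm _ (ker t A I' J' u) (a₁ * c))
    (h₂ : ∀ (A I' J' : Type) [Fintype A] [Fintype I'] [DecidableEq I'] [Nonempty I'] [Fintype J']
      [DecidableEq J'] [Nonempty J'], Fintype.card I' + Fintype.card J' = Uᶜ.card + 1 →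
      ∀ (u : A × (I' → ι) → R) (c : ℝ), Nm _ u c → Nm _ (ker t A I' J' u) (a₂ * c))
    (A : Type) [Fintype A] (u : A × (I → ι) → R) (c : ℝ) (hu : Nm _ u c) :
    Nm _ (splitKer t A I J U u) (a₁ * a₂ * c) := by
  by_cases h : (∃ i, .inl i ∈ U) ∧ ∃ j, .inr j ∉ U
  · rw [mul_comm a₁, mul_assoc]
    exact split_core t Nm hre I J U h.1 h.2 a₁ a₂ h₁ h₂ A u c hu
  have e : splitKer t A I J U u = splitKer t A I J Uᶜ u := by
    funext x
    simp only [splitKer, compl_compl, mul_comm (t (_ ::ₘ msOn _ U))]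
  obtain ⟨i0⟩ := ‹Nonempty I›
  obtain ⟨j0⟩ := ‹Nonempty J›
  rw [e, mul_assoc]
  refine split_core t Nm hre I J Uᶜ ?_ ?_ a₂ a₁ h₂ (by rwa [compl_compl]) A u c hu
  · by_contra hc
    simp only [Finset.mem_compl, not_exists, not_not] at hc
    obtain ⟨l | l, hl⟩ := hU'
    exacts [Finset.mem_compl.1 hl (hc l), h ⟨⟨i0, hc i0⟩, l, Finset.mem_compl.1 hl⟩]
  · by_contra hc
    simp only [Finset.mem_compl, not_exists, not_not] at hc
    obtain ⟨l | l, hl⟩ := hU
    exacts [h ⟨⟨l, hl⟩, j0, hc j0⟩, hc l hl]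

end Vale.Agent.P347
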