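import Vale.Agent.P347.RingA
import Vale.Agent.P347.Split

/-! Dimension-free bounds on the Hessian and on all proper flattenings of the tensors. -/

open MeasureTheory ProbabilityTheory MvPolynomial
open scoped RealInnerProductSpace

namespace Vale.Agent.P347

/-- Polarization: a bound on the quadratic form of a symmetric map bounds the map. -/
lemma norm_le_of_form {E : Type} [NormedAddCommGroup E] [InnerProductSpace ℝ E] (A : E →L[ℝ] E)
    (hA : ∀ u v, ⟪A u, v⟫ = ⟪u, A v⟫) {K : ℝ} (h : ∀ v, |⟪v, A v⟫| ≤ K * ‖v‖ ^ 2) (v : E) :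
    ‖A v‖ ≤ K * ‖v‖ := by
  have key : ∀ u w : E, 4 * ⟪u, A w⟫ ≤ 2 * K * (‖u‖ ^ 2 + ‖w‖ ^ 2) := by
    intro u w
    have h1 := (abs_le.1 (h (u + w))).2
    have h2 := (abs_le.1 (h (u - w))).1
    have e1 : ⟪u + w, A (u + w)⟫ - ⟪u - w, A (u - w)⟫ = 4 * ⟪u, A w⟫ := by
      have : ⟪w, A u⟫ = ⟪u, A w⟫ := by rw [← hA w u, real_inner_comm]
      simp only [map_add, map_sub, inner_add_left, inner_add_right, inner_sub_left,
        inner_sub_right, this]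
      ring
    have e2 : ‖u + w‖ ^ 2 + ‖u - w‖ ^ 2 = 2 * (‖u‖ ^ 2 + ‖w‖ ^ 2) := by
      rw [norm_add_sq_real, norm_sub_sq_real]; ring
    have e3 : K * ‖u + w‖ ^ 2 + K * ‖u - w‖ ^ 2 = 2 * K * (‖u‖ ^ 2 + ‖w‖ ^ 2) := by
      rw [← mul_add, e2]; ring
    linarith
  by_cases hv : v = 0
  · simp [hv]
  have hv' : 0 < ‖v‖ := norm_pos_iff.2 hv
  have hK : 0 ≤ K := by
    have := (abs_nonneg _).trans (h v)
    exact nonneg_of_mul_nonneg_left this (by positivity)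
  by_cases hAv : A v = 0
  · rw [hAv, norm_zero]; positivity
  have ha : 0 < ‖A v‖ := norm_pos_iff.2 hAv
  have h1 := key ((‖v‖ / ‖A v‖) • A v) v
  rw [real_inner_smul_left, real_inner_self_eq_norm_sq, norm_smul, Real.norm_eq_abs,
    abs_of_pos (div_pos hv' ha), div_mul_cancel₀ _ ha.ne'] at h1
  have e : ‖v‖ / ‖A v‖ * ‖A v‖ ^ 2 = ‖v‖ * ‖A v‖ := by field_simp
  rw [e] at h1
  have h2 : ‖v‖ * ‖A v‖ ≤ ‖v‖ * (K * ‖v‖) := by nlinarith
  exact le_of_mul_le_mul_left h2 hv'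

section Duhamel
variable {ι : Type} [Fintype ι] [DecidableEq ι] {V : Euc ι → ℝ} {s ρ : ℝ}

lemma mu_prob (hV : InClass V) (hs : 0 < s) (hs1 : s ≤ 1) (p : Euc ι) (hρ : |ρ| < 3 / 4) :
    IsProbabilityMeasure (mu V s p ρ) := by
  have := loc_prob hV hs hs1 p hρ
  unfold mu
  infer_instance

lemma Ex_le (hV : InClass V) (hs : 0 < s) (hs1 : s ≤ 1) (p : Euc ι) (hρ : |ρ| < 3 / 4)
    {r : R2 ι} {c : ℝ} (h : ∀ w, ev V s p ρ w r ≤ c) : Ex V s p ρ r ≤ c := by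
  have := mu_prob hV hs hs1 p hρ
  have h1 := integral_mono (ev_int hV hs hs1 p hρ.le r) (integrable_const c) h
  simpa [Ex] using h1

lemma le_Ex (hV : InClass V) (hs : 0 < s) (hs1 : s ≤ 1) (p : Euc ι) (hρ : |ρ| < 3 / 4)
    {r : R2 ι} {c : ℝ} (h : ∀ w, c ≤ ev V s p ρ w r) : c ≤ Ex V s p ρ r := by
  have := mu_prob hV hs hs1 p hρ
  have h1 := integral_mono (integrable_const c) (ev_int hV hs hs1 p hρ.le r) h
  simpa [Ex] using h1

lemma Ex_del_zero (hV : InClass V) (hs : 0 < s) (hs1 : s ≤ 1) (p : Euc ι) (hρ : |ρ| ≤ 3 / 4)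
    (i : ι ⊕ ι) (g : R2 ι) : Ex V s p ρ (del i g) = 0 := by
  have h := Ex_del hV hs hs1 p hρ i g 1
  rw [mul_one, Derivation.map_one_eq_zero, mul_zero] at h
  rw [h]; simp [Ex]

/-- Duhamel's formula as an inequality. -/
lemma duhamel_le (hV : InClass V) (hs : 0 < s) (hs1 : s ≤ 1) (p : Euc ι) (h0 : 0 ≤ ρ)
    (hρ : ρ < 3 / 4) (F : R2 ι) {D : ℝ}
    (h : ∀ τ, 0 ≤ τ → τ ≤ ρ → Ex V s p τ (DD 0 F) ≤ 2 * τ * D) :
    Ex V s p ρ F ≤ Ex V s p 0 F + D * ρ ^ 2 := by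
  have hd : ∀ τ ∈ Set.Icc (0 : ℝ) ρ,
      HasDerivAt (fun τ => Ex V s p τ F) (Ex V s p τ (DD 0 F)) τ := fun τ hτ =>
    Ex_deriv hV hs hs1 p (by rw [abs_of_nonneg hτ.1]; linarith [hτ.2]) 0 F
  have hB : ∀ τ : ℝ, HasDerivAt (fun τ : ℝ => Ex V s p 0 F + D * τ ^ 2) (2 * τ * D) τ := by
    intro τ
    have := ((hasDerivAt_pow 2 τ).const_mul D).const_add (Ex V s p 0 F)
    refine this.congr_deriv ?_
    simp; ring
  refine image_le_of_deriv_right_le_deriv_boundary (a := 0) (b := ρ)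
    (f := fun τ => Ex V s p τ F) (B := fun τ : ℝ => Ex V s p 0 F + D * τ ^ 2)
    (fun τ hτ => (hd τ hτ).continuousAt.continuousWithinAt)
    (fun τ hτ => (hd τ (Set.Ico_subset_Icc_self hτ)).hasDerivWithinAt) (by simp)
    (fun τ _ => (hB τ).continuousAt.continuousWithinAt)
    (fun τ _ => (hB τ).hasDerivWithinAt) (fun τ hτ => h τ hτ.1 hτ.2.le) ⟨h0, le_rfl⟩

lemma ev_tv (V : Euc ι → ℝ) (s : ℝ) (p : Euc ι) (ρ : ℝ) (w : Euc ι × Euc ι) (m : Multiset ι) :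
    ev V s p ρ w (tv m) =
      √s ^ Multiset.card m * T V m (s * (1 - ρ ^ 2)) (p + (√s * ρ) • w.1) := by
  simp [ev]

lemma ev_rh (V : Euc ι → ℝ) (s : ℝ) (p : Euc ι) (ρ : ℝ) (w : Euc ι × Euc ι) :
    ev V s p ρ w rh = ρ := by
  simp [ev]

lemma ev_C (V : Euc ι → ℝ) (s : ℝ) (p : Euc ι) (ρ : ℝ) (w : Euc ι × Euc ι) (c : ℝ) :
    ev V s p ρ w (C c) = c := by
  simp [ev]

end Duhamel

section Two
variable {ι : Type} [Fintype ι] [DecidableEq ι] {V : Euc ι → ℝ} {s : ℝ}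

omit [DecidableEq ι] in
lemma inner_euc (u v : Euc ι) : ⟪u, v⟫ = ∑ e, u e * v e := by
  simp [PiLp.inner_apply, mul_comm]

lemma Ms_symm (V : Euc ι → ℝ) (s : ℝ) (p u v : Euc ι) : ⟪Ms V s p u, v⟫ = ⟪u, Ms V s p v⟫ := by
  simp only [inner_euc, Ms_apply, Finset.sum_mul, Finset.mul_sum]
  rw [Finset.sum_comm]
  refine Finset.sum_congr rfl fun e _ => Finset.sum_congr rfl fun f _ => ?_
  have : (f ::ₘ {e} : Multiset ι) = e ::ₘ {f} := Multiset.cons_swap f e 0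
  rw [this]; ring

/-- The quadratic form of the Hessian as a ring element. -/
noncomputable def qf (v : Euc ι) : R2 ι := ∑ e, ∑ f, C (v e * v f) * tv (e ::ₘ {f})

lemma ev_qf (hs : 0 < s) (p : Euc ι) (ρ : ℝ) (w : Euc ι × Euc ι) (v : Euc ι) :
    ev V s p ρ w (qf v) = s * ⟪v, Ms V (s * (1 - ρ ^ 2)) (p + (√s * ρ) • w.1) v⟫ := by
  simp only [qf, map_sum, map_mul, ev_C, ev_tv, inner_euc, Ms_apply, Finset.mul_sum,
    Multiset.card_cons, Multiset.card_singleton]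
  refine Finset.sum_congr rfl fun e _ => Finset.sum_congr rfl fun f _ => ?_
  rw [show (1 + 1 : ℕ) = 2 from rfl, Real.sq_sqrt hs.le]; ring

omit [DecidableEq ι] in
lemma qf_alg {R : Type} [CommRing R] (c : ι → R) (D : ι → ι → ι → R) (t : ι → ι → R) (r : R) :
    ∑ e, ∑ f, c e * c f * (∑ g, D e f g + r * ∑ g, t g e * t g f) =
      ∑ e, ∑ f, ∑ g, c e * c f * D e f g + r * ∑ g, (∑ e, c e * t g e) ^ 2 := by
  simp only [mul_add, Finset.sum_add_distrib, Finset.mul_sum, sq, Finset.sum_mul]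
  congr 1
  conv_rhs => rw [Finset.sum_comm]
  refine Finset.sum_congr rfl fun e _ => ?_
  rw [Finset.sum_comm]
  refine Finset.sum_congr rfl fun f _ => Finset.sum_congr rfl fun g _ => ?_
  ring

lemma DD_C_mul (c a : ℝ) (r : R2 ι) : DD c (C a * r) = C a * DD c r := by
  rw [← smul_eq_C_mul, Derivation.map_smul, smul_eq_C_mul]

lemma DD_qf (v : Euc ι) : DD 0 (qf v) =
    ∑ e, ∑ f, ∑ g, C (v e * v f) * del (Sum.inl g) (tv (g ::ₘ e ::ₘ {f})) +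
      2 * rh * ∑ g, (∑ e, C (v e) * tv (g ::ₘ {e})) ^ 2 := by
  have h := qf_alg (fun e => (C (v e) : R2 ι))
    (fun e f g => del (Sum.inl g) (tv (g ::ₘ e ::ₘ {f}))) (fun g e => tv (g ::ₘ {e})) (2 * rh)
  simp only [← map_mul] at h
  rw [← h, qf, map_sum]
  refine Finset.sum_congr rfl fun e _ => ?_
  rw [map_sum]
  refine Finset.sum_congr rfl fun f _ => ?_
  rw [DD_C_mul, DD0_tv_two]

lemma Ex_DD_qf (hV : InClass V) (hs : 0 < s) (hs1 : s ≤ 1) (p v : Euc ι) {τ K : ℝ} (h0 : 0 ≤ τ)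
    (hτ : τ < 3 / 4) (hK : ∀ P, ‖Ms V (s * (1 - τ ^ 2)) P v‖ ≤ K * ‖v‖) :
    Ex V s p τ (DD 0 (qf v)) ≤ 2 * τ * (s ^ 2 * (K * ‖v‖) ^ 2) := by
  have hτ' : |τ| < 3 / 4 := by rwa [abs_of_nonneg h0]
  rw [DD_qf, Ex_add hV hs hs1 p hτ'.le]
  simp only [Ex_sum hV hs hs1 p hτ'.le, Ex_C_mul, Ex_del_zero hV hs hs1 p hτ'.le, mul_zero,
    Finset.sum_const_zero, zero_add]
  refine Ex_le hV hs hs1 p hτ' fun w => ?_
  set P := p + (√s * τ) • w.1
  have e : ∀ g, ev V s p τ w (∑ e, C (v e) * tv (g ::ₘ {e})) = s * Ms V (s * (1 - τ ^ 2)) P v g := by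
    intro g
    simp only [map_sum, map_mul, ev_C, ev_tv, Ms_apply, Finset.mul_sum, Multiset.card_cons,
      Multiset.card_singleton]
    refine Finset.sum_congr rfl fun e _ => ?_
    rw [show (1 + 1 : ℕ) = 2 from rfl, Real.sq_sqrt hs.le]; ring
  have h2 : ev V s p τ w 2 = 2 := map_ofNat _ 2
  rw [map_mul, map_mul, h2, ev_rh, map_sum]
  simp only [map_pow, e, mul_pow, ← Finset.mul_sum]
  have h3 : ∑ g, Ms V (s * (1 - τ ^ 2)) P v g ^ 2 = ‖Ms V (s * (1 - τ ^ 2)) P v‖ ^ 2 := by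
    rw [EuclideanSpace.real_norm_sq_eq]
  rw [h3, ← mul_pow K]
  have h4 := pow_le_pow_left₀ (norm_nonneg _) (hK P) 2
  gcongr

/-- One step of the bootstrap. -/
lemma Ms_step (hV : InClass V) {s' K a : ℝ} (hs' : 0 < s') (h1 : s' ≤ s) (h2 : s ≤ 2 * s')
    (hs1 : s ≤ 1) (v : Euc ι)
    (hK : ∀ σ, s' ≤ σ → σ ≤ s → ∀ P, ‖Ms V σ P v‖ ≤ K * ‖v‖)
    (ha : ∀ P, a * ‖v‖ ^ 2 ≤ ⟪v, Ms V s' P v⟫) (p : Euc ι) :
    (a - K ^ 2 * (s - s')) * ‖v‖ ^ 2 ≤ ⟪v, Ms V s p v⟫ := by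
  have hs : 0 < s := hs'.trans_le h1
  have hq : 0 ≤ 1 - s' / s := by rw [sub_nonneg, div_le_one hs]; exact h1
  obtain ⟨ρ, hρ0, hρ2⟩ : ∃ ρ : ℝ, 0 ≤ ρ ∧ ρ ^ 2 = 1 - s' / s := ⟨_, Real.sqrt_nonneg _, Real.sq_sqrt hq⟩
  have hhalf : 1 / 2 ≤ s' / s := by rw [le_div_iff₀ hs]; linarith
  have hρ : ρ < 3 / 4 := by nlinarith
  have hss : s * (1 - ρ ^ 2) = s' := by rw [hρ2]; field_simp; ring
  have hd := duhamel_le hV hs hs1 p hρ0 hρ (qf v) (D := s ^ 2 * (K * ‖v‖) ^ 2) (fun τ t0 t1 => by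
    refine Ex_DD_qf hV hs hs1 p v t0 (t1.trans_lt hρ) (hK _ ?_ ?_)
    · rw [← hss]
      have := pow_le_pow_left₀ t0 t1 2
      gcongr
    · nlinarith [sq_nonneg τ])
  have hl : s * (a * ‖v‖ ^ 2) ≤ Ex V s p ρ (qf v) := by
    refine le_Ex hV hs hs1 p (by rwa [abs_of_nonneg hρ0]) fun w => ?_
    rw [ev_qf hs, hss]
    exact mul_le_mul_of_nonneg_left (ha _) hs.le
  have hu : Ex V s p 0 (qf v) ≤ s * ⟪v, Ms V s p v⟫ := by
    refine Ex_le hV hs hs1 p (by norm_num) fun w => ?_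
    rw [ev_qf hs]; simp
  have e : s ^ 2 * (K * ‖v‖) ^ 2 * ρ ^ 2 = s * (K ^ 2 * (s - s') * ‖v‖ ^ 2) := by
    rw [hρ2]; field_simp
  have h5 : s * ((a - K ^ 2 * (s - s')) * ‖v‖ ^ 2) ≤ s * ⟪v, Ms V s p v⟫ := by
    rw [e] at hd
    linarith
  exact le_of_mul_le_mul_left h5 hs

lemma Ms_norm_of (hV : InClass V) (hs : 0 < s) (hs1 : s ≤ 1) {K : ℝ} (hK : 2 ≤ K) (p : Euc ι)
    (h : ∀ v, -K * ‖v‖ ^ 2 ≤ ⟪v, Ms V s p v⟫) (v : Euc ι) : ‖Ms V s p v‖ ≤ K * ‖v‖ := by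
  refine norm_le_of_form _ (Ms_symm V s p) (fun u => abs_le.2 ⟨?_, ?_⟩) v
  · have := h u; linarith
  · have h1 := (T_two_crude hV hs hs1 p u).2
    have h2 : 2 * ‖u‖ ^ 2 ≤ K * ‖u‖ ^ 2 := by gcongr
    linarith

lemma Ms_ind (hV : InClass V) {s₀ ε B : ℝ} (hs₀ : 0 < s₀) (hε : 0 < ε) (hε₀ : ε ≤ s₀)
    (hB : 2 + 4 * dm ι ≤ B) (hεB : B ^ 2 * ε ≤ 1) (hd : 4 * s₀ * dm ι ≤ 1 / 4) (n : ℕ) :
    ∀ σ, 0 < σ → σ ≤ 1 / 16 → σ ≤ s₀ + n * ε → ∀ p v,
      (3 / 4 - 4 * σ) * ‖v‖ ^ 2 ≤ ⟪v, Ms V σ p v⟫ := by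
  have hd0 : (0 : ℝ) ≤ dm ι := Nat.cast_nonneg _
  induction n with
  | zero =>
    intro σ h0 h1 h2 p v
    refine le_trans ?_ (T_two_crude hV h0 (by linarith) p v).1
    have h3 : σ ≤ s₀ := by simpa using h2
    have h4 : 4 * σ * dm ι ≤ 4 * s₀ * dm ι := by gcongr
    exact mul_le_mul_of_nonneg_right (by linarith) (sq_nonneg _)
  | succ n ih =>
    intro σ h0 h1 h2 p v
    by_cases hc : σ ≤ s₀ + n * ε
    · exact ih σ h0 h1 hc p v
    push Not at hc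
    have hn : (0 : ℝ) ≤ n * ε := by positivity
    set s' := s₀ + n * ε with hs'
    have hs'0 : 0 < s' := by positivity
    have h2' : σ ≤ s' + ε := by rw [hs']; push_cast at h2; linarith
    have ha := fun v P => ih s' hs'0 (by linarith) le_rfl P v
    have crude : ∀ τ, s' ≤ τ → τ ≤ 1 → ∀ P u, ‖Ms V τ P u‖ ≤ B * ‖u‖ := by
      intro τ t0 t1 P u
      refine Ms_norm_of hV (by linarith) t1 (by linarith) P (fun x => ?_) u
      refine le_trans ?_ (T_two_crude hV (by linarith) t1 P x).1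
      have : 4 * τ * dm ι ≤ 4 * 1 * dm ι := by gcongr
      gcongr
      linarith
    have mid : ∀ τ, s' ≤ τ → τ ≤ σ → ∀ P, ‖Ms V τ P v‖ ≤ 2 * ‖v‖ := by
      intro τ t0 t1 P
      refine Ms_norm_of hV (by linarith) (by linarith) le_rfl P (fun x => ?_) v
      refine le_trans ?_ (Ms_step hV hs'0 t0 (by linarith) (by linarith) x
        (fun σ' u0 u1 Q => crude σ' u0 (by linarith) Q x) (ha x) P)
      have : B ^ 2 * (τ - s') ≤ B ^ 2 * ε := by gcongr; linarith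
      gcongr
      linarith
    refine le_trans (le_of_eq ?_) (Ms_step hV hs'0 hc.le (by linarith) (by linarith) v mid (ha v) p)
    ring

theorem Ms_bounds (hV : InClass V) (hs : 0 < s) (hs1 : s ≤ 1 / 16) (p v : Euc ι) :
    ‖v‖ ^ 2 / 2 ≤ ⟪v, Ms V s p v⟫ ∧ ⟪v, Ms V s p v⟫ ≤ 2 * ‖v‖ ^ 2 := by
  refine ⟨?_, (T_two_crude hV hs (by linarith) p v).2⟩
  have hd0 : (0 : ℝ) ≤ dm ι := Nat.cast_nonneg _
  set B : ℝ := 2 + 4 * dm ι with hB
  have hB0 : 0 < B := by positivity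
  set s₀ : ℝ := 1 / (16 * (dm ι + 1)) with hs₀
  have h0 : 0 < s₀ := by positivity
  have hε : 0 < min s₀ (1 / B ^ 2) := lt_min h0 (by positivity)
  obtain ⟨n, hn⟩ := exists_nat_ge (1 / min s₀ (1 / B ^ 2))
  rw [div_le_iff₀ hε] at hn
  have h1 : B ^ 2 * min s₀ (1 / B ^ 2) ≤ 1 := by
    calc B ^ 2 * min s₀ (1 / B ^ 2) ≤ B ^ 2 * (1 / B ^ 2) := by gcongr; exact min_le_right _ _
      _ = 1 := by field_simp
  have h2 : 4 * s₀ * dm ι ≤ 1 / 4 := by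
    rw [hs₀, show 4 * (1 / (16 * (dm ι + 1))) * dm ι = dm ι / (4 * (dm ι + 1)) by field_simp; ring,
      div_le_iff₀ (by positivity)]
    linarith
  have h3 := Ms_ind hV h0 hε (min_le_left _ _) le_rfl h1 h2 n s hs hs1 (by linarith) p v
  refine le_trans ?_ h3
  have : (1 / 2 : ℝ) * ‖v‖ ^ 2 ≤ (3 / 4 - 4 * s) * ‖v‖ ^ 2 := by gcongr; linarith
  linarith

theorem Ms_norm (hV : InClass V) (hs : 0 < s) (hs1 : s ≤ 1 / 16) (p v : Euc ι) :
    ‖Ms V s p v‖ ≤ 2 * ‖v‖ := by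
  refine Ms_norm_of hV hs (by linarith) le_rfl p (fun u => ?_) v
  have := (Ms_bounds hV hs hs1 p u).1
  nlinarith [sq_nonneg ‖u‖]

lemma fs_line (hV : InClass V) (hs : 0 < s) (p v : Euc ι) (t : ℝ) :
    HasDerivAt (fun τ : ℝ => fs V s (p + τ • v)) (Ms V s (p + t • v) v) t := by
  have hπ : HasDerivAt (fun τ : ℝ => p + τ • v) v t := by
    simpa using ((hasDerivAt_id t).smul_const v).const_add p
  have hc : HasDerivAt (fun τ : ℝ => fun e => T V {e} s (p + τ • v))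
      (fun e => Ms V s (p + t • v) v e) t := by
    refine hasDerivAt_pi.2 fun e => ?_
    have h := T_deriv hV {e} (hasDerivAt_const t s) hπ hs
    refine h.congr_deriv ?_
    rw [zero_mul, add_zero, Ms_apply]
    refine Finset.sum_congr rfl fun f _ => ?_
    have : (f ::ₘ {e} : Multiset ι) = e ::ₘ {f} := Multiset.cons_swap f e 0
    rw [this, mul_comm]
  exact (PiLp.continuousLinearEquiv 2 ℝ (fun _ : ι => ℝ)).symm.toContinuousLinearMap.hasFDerivAt.comp_hasDerivAt t hc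

theorem fs_lip (hV : InClass V) (hs : 0 < s) (hs1 : s ≤ 1 / 16) (p q : Euc ι) :
    ‖fs V s p - fs V s q‖ ≤ 2 * ‖p - q‖ := by
  have h := norm_image_sub_le_of_norm_deriv_le_segment_01' (C := 2 * ‖p - q‖)
    (fun t _ => (fs_line hV hs q (p - q) t).hasDerivWithinAt)
    (fun t _ => Ms_norm hV hs hs1 _ _)
  simpa using h

theorem fs_contr (hV : InClass V) (hs : 0 < s) (hs1 : s ≤ 1 / 16) {θ : ℝ} (h0 : 0 ≤ θ)
    (h1 : θ ≤ 1 / 2) (p q : Euc ι) :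
    ‖(p - θ • fs V s p) - (q - θ • fs V s q)‖ ≤ (1 - θ / 2) * ‖p - q‖ := by
  have hd : ∀ t : ℝ, HasDerivAt (fun τ : ℝ => (q + τ • (p - q)) - θ • fs V s (q + τ • (p - q)))
      ((ContinuousLinearMap.id ℝ (Euc ι) - θ • Ms V s (q + t • (p - q))) (p - q)) t := by
    intro t
    have hπ : HasDerivAt (fun τ : ℝ => q + τ • (p - q)) (p - q) t := by
      simpa using ((hasDerivAt_id t).smul_const (p - q)).const_add q
    exact hπ.sub ((fs_line hV hs q (p - q) t).const_smul θ)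
  have hb : ∀ P v : Euc ι, ‖(ContinuousLinearMap.id ℝ (Euc ι) - θ • Ms V s P) v‖ ≤
      (1 - θ / 2) * ‖v‖ := by
    intro P v
    refine norm_le_of_form _ (fun u w => ?_) (fun u => ?_) v
    · simp only [sub_apply, ContinuousLinearMap.id_apply,
        smul_apply, inner_sub_left, inner_sub_right, real_inner_smul_left,
        real_inner_smul_right, Ms_symm]
    · simp only [sub_apply, ContinuousLinearMap.id_apply,
        smul_apply, inner_sub_right, real_inner_smul_right,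
        real_inner_self_eq_norm_sq]
      obtain ⟨l, r⟩ := Ms_bounds hV hs hs1 P u
      have l' := mul_le_mul_of_nonneg_left l h0
      have r' := mul_le_mul_of_nonneg_left r h0
      have hu := sq_nonneg ‖u‖
      have hθ : 0 ≤ (1 / 2 - θ) * ‖u‖ ^ 2 := mul_nonneg (by linarith) hu
      refine abs_le.2 ⟨by nlinarith, by nlinarith⟩
  have h := norm_image_sub_le_of_norm_deriv_le_segment_01' (C := (1 - θ / 2) * ‖p - q‖)
    (fun t _ => (hd t).hasDerivWithinAt) (fun t _ => hb _ _)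
  simpa using h

theorem fs_norm (hV : InClass V) (hs : 0 < s) (hs1 : s ≤ 1 / 16) (p : Euc ι) :
    √s * ‖fs V s p‖ ≤ √(dm ι) + 3 * (√s * ‖p‖) := by
  have h1 := fs_sub_grad hV hs (by linarith) p
  have h2 := hV.grad_le p
  have h3 : ‖fs V s p‖ ≤ ‖fs V s p - gradient V p‖ + ‖gradient V p‖ := by
    simpa using norm_add_le (fs V s p - gradient V p) (gradient V p)
  have hp := norm_nonneg p
  have h4 : 4 * s * ‖p‖ ≤ 1 * ‖p‖ := by gcongr; linarith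
  have h5 : ‖fs V s p‖ ≤ 2 * √(s * dm ι) + 3 * ‖p‖ := by linarith
  have h6 : √s * √(s * dm ι) = s * √(dm ι) := by
    rw [Real.sqrt_mul hs.le, ← mul_assoc, Real.mul_self_sqrt hs.le]
  have h7 : √s * ‖fs V s p‖ ≤ √s * (2 * √(s * dm ι) + 3 * ‖p‖) := by gcongr
  have h8 : 2 * s * √(dm ι) ≤ 1 * √(dm ι) := by gcongr; linarith
  nlinarith

lemma T_cont' (hV : InClass V) (hs : 0 < s) (m : Multiset ι) : Continuous (T V m s) := by
  have h := (T_cont hV m).comp_continuous (f := fun p : Euc ι => (s, p)) (by fun_prop)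
    (fun _ => hs)
  exact h

lemma fs_cont (hV : InClass V) (hs : 0 < s) : Continuous (fs V s) :=
  (PiLp.continuous_toLp 2 _).comp (continuous_pi fun e => T_cont' hV hs {e})

/-- Joint continuity of the Hessian applied to a vector. -/
lemma Ms_cont (hV : InClass V) (hs : 0 < s) :
    Continuous fun q : Euc ι × Euc ι => Ms V s q.1 q.2 := by
  have e : (fun q : Euc ι × Euc ι => Ms V s q.1 q.2) = fun q =>
      WithLp.toLp 2 fun e => ∑ f, T V (e ::ₘ {f}) s q.1 * q.2 f := by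
    funext q; ext e; exact Ms_apply V s q.1 q.2 e
  rw [e]
  refine (PiLp.continuous_toLp 2 _).comp (continuous_pi fun e => ?_)
  refine continuous_finsetSum _ fun f _ => ((T_cont' hV hs _).comp continuous_fst).mul ?_
  fun_prop

end Two

end Vale.Agent.P347
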