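import Vale.Agent.P347.FlatX

/-! Dimension-free bounds on all proper flattenings of the tensors. -/

open MeasureTheory ProbabilityTheory MvPolynomial Filter Topology
open scoped RealInnerProductSpace

namespace Vale.Agent.P347

/-- Euclidean size bound for a real family. -/
def FkN (A : Type) [Fintype A] (u : A → ℝ) (c : ℝ) : Prop := 0 ≤ c ∧ ∑ a, u a ^ 2 ≤ c ^ 2

section
variable {ι : Type} [Fintype ι] [DecidableEq ι]

/-- All kernels of total order `N` of the tensor `t` have norm at most `a`. -/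
def FkB (t : Multiset ι → ℝ) (N : ℕ) (a : ℝ) : Prop :=
  ∀ (A I J : Type) [Fintype A] [Fintype I] [DecidableEq I] [Nonempty I] [Fintype J]
    [DecidableEq J] [Nonempty J], Fintype.card I + Fintype.card J = N →
    ∀ u : A × (I → ι) → ℝ, ∑ q, ker t A I J u q ^ 2 ≤ a ^ 2 * ∑ q, u q ^ 2

/-- The normalized tensors. -/
noncomputable def fkT (V : Euc ι → ℝ) (s : ℝ) (p : Euc ι) : Multiset ι → ℝ :=
  fun m => √s ^ Multiset.card m * T V m s p

omit [DecidableEq ι] in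
lemma FkB.mono {t : Multiset ι → ℝ} {N : ℕ} {a b : ℝ} (h : FkB t N a) (ha : 0 ≤ a) (hab : a ≤ b) :
    FkB t N b := fun A I J _ _ _ _ _ _ _ hN u =>
  (h A I J hN u).trans (mul_le_mul_of_nonneg_right (pow_le_pow_left₀ ha hab 2)
    (Finset.sum_nonneg fun _ _ => sq_nonneg _))

omit [DecidableEq ι] in
lemma FkB.nm {t : Multiset ι → ℝ} {N : ℕ} {a : ℝ} (h : FkB t N a) (ha : 0 ≤ a)
    (A I J : Type) [Fintype A] [Fintype I] [DecidableEq I] [Nonempty I] [Fintype J]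
    [DecidableEq J] [Nonempty J] (hN : Fintype.card I + Fintype.card J = N)
    (u : A × (I → ι) → ℝ) (c : ℝ) (hu : FkN _ u c) : FkN _ (ker t A I J u) (a * c) := by
  refine ⟨mul_nonneg ha hu.1, (h A I J hN u).trans ?_⟩
  rw [mul_pow]
  exact mul_le_mul_of_nonneg_left hu.2 (sq_nonneg _)

lemma fk_pair {Q : Type} [Fintype Q] (B y : Q → ℝ) {a S : ℝ} (ha : 0 < a)
    (h : ∑ q, y q ^ 2 ≤ a ^ 2 * S) : |∑ q, B q * y q| ≤ a / 2 * (S + ∑ q, B q ^ 2) := by
  have h1 : ∀ ε : ℝ, ε ^ 2 = 1 →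
      2 * a * (ε * ∑ q, B q * y q) ≤ a ^ 2 * ∑ q, B q ^ 2 + ∑ q, y q ^ 2 := by
    intro ε hε
    rw [Finset.mul_sum, Finset.mul_sum, Finset.mul_sum, ← Finset.sum_add_distrib]
    refine Finset.sum_le_sum fun q _ => ?_
    nlinarith [sq_nonneg (a * B q - ε * y q)]
  have h2 := h1 1 (by norm_num)
  have h3 := h1 (-1) (by norm_num)
  rw [abs_le]
  constructor
  · by_contra hc
    push Not at hc
    nlinarith
  · by_contra hc
    push Not at hc
    nlinarith

lemma fk_dual {Q : Type} [Fintype Q] (y : Q → ℝ) {K S : ℝ} (hK : 0 < K)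
    (h : ∀ B : Q → ℝ, ∑ q, B q * y q ≤ K / 2 * (S + ∑ q, B q ^ 2)) :
    ∑ q, y q ^ 2 ≤ K ^ 2 * S := by
  have h1 := h fun q => y q / K
  have e1 : ∑ q, y q / K * y q = (∑ q, y q ^ 2) / K := by
    rw [Finset.sum_div]
    exact Finset.sum_congr rfl fun q _ => by ring
  have e2 : ∑ q, (y q / K) ^ 2 = (∑ q, y q ^ 2) / K ^ 2 := by
    rw [Finset.sum_div]
    exact Finset.sum_congr rfl fun q _ => by ring
  rw [e1, e2] at h1
  set Y := ∑ q, y q ^ 2
  have e3 : K / 2 * (S + Y / K ^ 2) = K / 2 * S + Y / K / 2 := by field_simp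
  rw [e3] at h1
  have h2 : Y / K ≤ K * S := by linarith
  rw [div_le_iff₀ hK] at h2
  nlinarith

variable {V : Euc ι → ℝ} {s : ℝ} {p : Euc ι}

omit [DecidableEq ι] in
lemma fk_scale (H : BdHyp V s) {ρ : ℝ} (h0 : 0 ≤ ρ) (h1 : ρ ≤ 1 / 2) :
    0 < s * (1 - ρ ^ 2) ∧ s * (1 - ρ ^ 2) ≤ s ∧ s ≤ 2 * (s * (1 - ρ ^ 2)) := by
  have hs := H.hs
  have hρ : 3 / 4 ≤ 1 - ρ ^ 2 := by nlinarith
  have hρ' : 1 - ρ ^ 2 ≤ 1 := by nlinarith
  exact ⟨by positivity, by nlinarith, by nlinarith⟩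

lemma fk_ev (H : BdHyp V s) {ρ : ℝ} (h0 : 0 ≤ ρ) (h1 : ρ ≤ 1 / 2) (w : Euc ι × Euc ι) {N : ℕ}
    {a : ℝ} (h : FkB (fkT V (s * (1 - ρ ^ 2)) (p + (√s * ρ) • w.1)) N a) :
    FkB (fun m => ev V s p ρ w (tv m)) N (2 ^ N * a) := by
  intro A I J _ _ _ _ _ _ _ hN u
  obtain ⟨h2, -, h4⟩ := fk_scale H h0 h1
  have hb := h A I J hN u
  set s' := s * (1 - ρ ^ 2) with hs'
  have hq : 0 < √s' := Real.sqrt_pos.2 h2
  set r := √s / √s' with hr
  have hr0 : 0 ≤ r := by positivity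
  have hr2 : r ≤ 2 := by
    rw [hr, div_le_iff₀ hq]
    calc √s ≤ √(4 * s') := Real.sqrt_le_sqrt (by linarith)
      _ = 2 * √s' := by
        rw [Real.sqrt_mul (by norm_num), show (4 : ℝ) = 2 ^ 2 by norm_num,
          Real.sqrt_sq (by norm_num)]
  have e : ∀ q : A × (J → ι), ker (fun m => ev V s p ρ w (tv m)) A I J u q = r ^ N *
      ker (fkT V s' (p + (√s * ρ) • w.1)) A I J u q := by
    intro q
    simp only [ker, Finset.mul_sum, fkT]
    refine Finset.sum_congr rfl fun α _ => ?_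
    have e1 : ev V s p ρ w (tv (ms α + ms q.2)) = √s ^ N *
        T V (ms α + ms q.2) s' (p + (√s * ρ) • w.1) := by
      simp [ev, bdx_card_ms, hN, hs']
    have e2 : √s = r * √s' := by rw [hr]; field_simp
    rw [e1, Multiset.card_add, bdx_card_ms, bdx_card_ms, hN]
    rw [show √s ^ N = r ^ N * √s' ^ N by rw [← mul_pow, ← e2]]
    ring
  simp_rw [e, mul_pow]
  rw [← Finset.mul_sum, mul_assoc]
  exact mul_le_mul (pow_le_pow_left₀ (by positivity) (pow_le_pow_left₀ hr0 hr2 N) 2) hb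
    (Finset.sum_nonneg fun _ _ => sq_nonneg _) (by positivity)

omit [Fintype ι] [DecidableEq ι] in
lemma fk_ms_unique {I : Type} [Fintype I] [Unique I] (α : I → ι) : ms α = {α default} := by
  simp [ms, msOn]

lemma fk_two (H : BdHyp V s) (p : Euc ι) : FkB (fkT V s p) 2 (2 * s) := by
  intro A I J _ _ _ _ _ _ _ hN u
  have hI : 0 < Fintype.card I := Fintype.card_pos
  have hJ : 0 < Fintype.card J := Fintype.card_pos
  obtain ⟨uI⟩ := Fintype.card_eq_one_iff_nonempty_unique.1 (show Fintype.card I = 1 by omega)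
  obtain ⟨uJ⟩ := Fintype.card_eq_one_iff_nonempty_unique.1 (show Fintype.card J = 1 by omega)
  rw [Fintype.sum_prod_type, Fintype.sum_prod_type, Finset.mul_sum]
  refine Finset.sum_le_sum fun a _ => ?_
  set v : Euc ι := WithLp.toLp 2 fun f => u (a, fun _ => f) with hv
  have hb := Ms_norm H.hV H.hs H.hs1 p v
  have hb2 : ‖Ms V s p v‖ ^ 2 ≤ 4 * ‖v‖ ^ 2 := by nlinarith [norm_nonneg (Ms V s p v)]
  rw [EuclideanSpace.real_norm_sq_eq, EuclideanSpace.real_norm_sq_eq] at hb2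
  have e1 : ∀ e : ι, ker (fkT V s p) A I J u (a, (Equiv.funUnique J ι).symm e) =
      s * Ms V s p v e := by
    intro e
    rw [Ms_apply, Finset.mul_sum]
    simp only [ker]
    rw [← (Equiv.funUnique I ι).symm.sum_comp]
    refine Finset.sum_congr rfl fun f _ => ?_
    rw [fk_ms_unique, fk_ms_unique, Multiset.singleton_add]
    have : √s ^ 2 = s := Real.sq_sqrt H.hs.le
    have e3 : (f ::ₘ {e} : Multiset ι) = e ::ₘ {f} := Multiset.cons_swap f e 0
    simp only [fkT, Equiv.funUnique_symm_apply, uniqueElim_const, e3, Multiset.card_cons,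
      Multiset.card_singleton, hv]
    rw [show 1 + 1 = 2 from rfl, this, mul_assoc]
    rfl
  rw [← (Equiv.funUnique J ι).symm.sum_comp, ← (Equiv.funUnique I ι).symm.sum_comp]
  simp only [e1, mul_pow]
  rw [← Finset.mul_sum]
  have e2 : ∑ f, u (a, (Equiv.funUnique I ι).symm f) ^ 2 = ∑ f, v f ^ 2 := rfl
  rw [e2]
  nlinarith [sq_nonneg s, mul_le_mul_of_nonneg_left hb2 (sq_nonneg s)]

lemma fk_crude (hV : InClass V) (N : ℕ) (hN : 2 ≤ N) : ∃ G : ℝ, 0 ≤ G ∧
    ∀ s : ℝ, 0 < s → s ≤ 1 → ∀ p, FkB (fkT V s p) N (G / s ^ N) := by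
  have h := fun m : Sym ι N => T_crude hV m.1 (by rw [m.2]; exact hN)
  choose K hK0 hK using h
  have hS : 0 ≤ ∑ m, K m := Finset.sum_nonneg fun m _ => hK0 m
  refine ⟨(∑ m, K m) * (Fintype.card ι : ℝ) ^ N, by positivity,
    fun s hs hs1 p A I J _ _ _ _ _ _ _ hc u => ?_⟩
  set K0 := ∑ m, K m
  have hent : ∀ (α : I → ι) (β : J → ι), |fkT V s p (ms α + ms β)| ≤ K0 / s ^ N := by
    intro α β
    have hcard : Multiset.card (ms α + ms β) = N := by
      rw [Multiset.card_add, bdx_card_ms, bdx_card_ms, hc]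
    have h1 := hK ⟨ms α + ms β, hcard⟩ s hs hs1 p
    have h2 : K ⟨ms α + ms β, hcard⟩ ≤ K0 :=
      Finset.single_le_sum (fun m _ => hK0 m) (Finset.mem_univ _)
    simp only [hcard] at h1
    rw [fkT, abs_mul, hcard, abs_pow, abs_of_nonneg (Real.sqrt_nonneg s)]
    have h3 : √s ^ N ≤ 1 := pow_le_one₀ (Real.sqrt_nonneg s) (Real.sqrt_le_one.2 hs1)
    calc √s ^ N * |T V (ms α + ms β) s p| ≤ 1 * (K0 / s ^ N) := by
          refine mul_le_mul h3 (h1.trans ?_) (abs_nonneg _) zero_le_one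
          gcongr
      _ = _ := one_mul _
  have hq : ∀ q : A × (J → ι), ker (fkT V s p) A I J u q ^ 2 ≤
      (Fintype.card (I → ι) : ℝ) * (K0 / s ^ N) ^ 2 * ∑ α, u (q.1, α) ^ 2 := by
    intro q
    refine (sq_sum_le_card_mul_sum_sq (s := Finset.univ)
      (f := fun α => fkT V s p (ms α + ms q.2) * u (q.1, α))).trans ?_
    rw [Finset.card_univ, mul_assoc]
    gcongr
    rw [Finset.mul_sum]
    refine Finset.sum_le_sum fun α _ => ?_
    rw [mul_pow, ← sq_abs (fkT V s p _)]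
    gcongr
    exact hent α q.2
  refine (Finset.sum_le_sum fun q _ => hq q).trans ?_
  rw [← Finset.mul_sum, Fintype.sum_prod_type, Fintype.sum_prod_type]
  simp only [Finset.sum_const, Finset.card_univ, nsmul_eq_mul]
  rw [← Finset.mul_sum, Fintype.card_fun, Fintype.card_fun]
  have hU : 0 ≤ ∑ a, ∑ α, u (a, α) ^ 2 :=
    Finset.sum_nonneg fun _ _ => Finset.sum_nonneg fun _ _ => sq_nonneg _
  have hn : ((Fintype.card ι : ℝ) ^ N) ≤ ((Fintype.card ι : ℝ) ^ N) ^ 2 := by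
    have : Fintype.card ι ^ N ≤ (Fintype.card ι ^ N) ^ 2 := Nat.le_self_pow (by norm_num) _
    exact_mod_cast this
  push_cast
  calc (Fintype.card ι : ℝ) ^ Fintype.card I * (K0 / s ^ N) ^ 2 *
        ((Fintype.card ι : ℝ) ^ Fintype.card J * ∑ a, ∑ α, u (a, α) ^ 2)
      = (Fintype.card ι : ℝ) ^ N * ((K0 / s ^ N) ^ 2 * ∑ a, ∑ α, u (a, α) ^ 2) := by
        rw [← hc, pow_add]; ring
    _ ≤ ((Fintype.card ι : ℝ) ^ N) ^ 2 * ((K0 / s ^ N) ^ 2 * ∑ a, ∑ α, u (a, α) ^ 2) := by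
        gcongr
    _ = _ := by ring

/-- The bilinear form of a kernel as a ring element. -/
noncomputable def fkF (A I J : Type) [Fintype A] [Fintype I] [DecidableEq I] [Fintype J]
    [DecidableEq J] (u : A × (I → ι) → ℝ) (B : A × (J → ι) → ℝ) : R2 ι :=
  ∑ q, C (B q) * ker tv A I J (fun x => C (u x)) q

lemma fk_Ex_C (H : BdHyp V s) {ρ : ℝ} (h0 : 0 ≤ ρ) (h1 : ρ ≤ 1 / 2) (x : ℝ) :
    Ex V s p ρ (C x) = x := by
  have := bdx_mu_prob (p := p) H h0 h1
  simp [Ex]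

lemma fk_Ex_abs (H : BdHyp V s) {ρ : ℝ} (h0 : 0 ≤ ρ) (h1 : ρ ≤ 1 / 2) {r : R2 ι} {x : ℝ}
    (h : ∀ w, |ev V s p ρ w r| ≤ x) : |Ex V s p ρ r| ≤ x := by
  rw [abs_le]
  constructor
  · rw [← fk_Ex_C (p := p) H h0 h1 (-x)]
    exact bdx_Ex_mono H h0 h1 fun w => by simpa using (abs_le.1 (h w)).1
  · rw [← fk_Ex_C (p := p) H h0 h1 x]
    exact bdx_Ex_mono H h0 h1 fun w => by simpa using (abs_le.1 (h w)).2

lemma fk_Ex_del (H : BdHyp V s) {ρ : ℝ} (h0 : 0 ≤ ρ) (h1 : ρ ≤ 1 / 2) (i : ι ⊕ ι) (g : R2 ι) :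
    Ex V s p ρ (del i g) = 0 := by
  have := Ex_del H.hV H.hs H.le1 p (bdx_abs_rho h0 h1) i g 1
  rw [mul_one] at this
  rw [this]
  simp [Ex]

lemma fk_Ex_rh (ρ : ℝ) (r : R2 ι) : Ex V s p ρ (rh * r) = ρ * Ex V s p ρ r := by
  simp only [Ex, map_mul]
  rw [← integral_const_mul]
  congr 1
  funext w
  simp [ev]

lemma fkF_zero (H : BdHyp V s) {A I J : Type} [Fintype A] [Fintype I] [DecidableEq I] [Fintype J]
    [DecidableEq J] (u : A × (I → ι) → ℝ) (B : A × (J → ι) → ℝ) :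
    Ex V s p 0 (fkF A I J u B) = ∑ q, B q * ker (fkT V s p) A I J u q := by
  rw [← fk_Ex_C (p := p) H le_rfl (by norm_num) (∑ q, B q * ker (fkT V s p) A I J u q)]
  simp only [Ex]
  congr 1
  funext w
  simp [fkF, ker, fkT, ev]

omit [DecidableEq ι] in
lemma fkF_symm {A I J : Type} [Fintype A] [Fintype I] [DecidableEq I] [Fintype J]
    [DecidableEq J] (u : A × (I → ι) → ℝ) (B : A × (J → ι) → ℝ) :
    fkF A I J u B = fkF A J I B u := by
  simp only [fkF, ker, Finset.mul_sum, Fintype.sum_prod_type]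
  refine Finset.sum_congr rfl fun a _ => ?_
  rw [Finset.sum_comm]
  refine Finset.sum_congr rfl fun α _ => Finset.sum_congr rfl fun β _ => ?_
  rw [add_comm (ms α)]
  ring

omit [Fintype ι] [DecidableEq ι] in
lemma fk_ms_equiv {I I' : Type} [Fintype I] [Fintype I'] (σ : I' ≃ I) (α : I → ι) :
    ms (α ∘ σ) = ms α := by
  simp only [ms, msOn]
  rw [← Multiset.map_map, ← Finset.map_univ_equiv σ]
  simp

omit [DecidableEq ι] in
lemma fkF_equiv {A I I' J : Type} [Fintype A] [Fintype I] [DecidableEq I] [Fintype I']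
    [DecidableEq I'] [Fintype J] [DecidableEq J] (σ : I' ≃ I) (u : A × (I → ι) → ℝ)
    (B : A × (J → ι) → ℝ) :
    fkF A I J u B = fkF A I' J (fun x => u (x.1, x.2 ∘ σ.symm)) B := by
  simp only [fkF, ker]
  refine Finset.sum_congr rfl fun q _ => ?_
  congr 1
  rw [← (σ.arrowCongr (Equiv.refl ι)).sum_comp]
  refine Finset.sum_congr rfl fun α _ => ?_
  have : (σ.arrowCongr (Equiv.refl ι)) α = α ∘ σ.symm := rfl
  rw [this, fk_ms_equiv]

lemma fk_main_opt (H : BdHyp V s) {ρ : ℝ} (h0 : 0 ≤ ρ) (h1 : ρ ≤ 1 / 2) {N : ℕ} {κ : ℝ}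
    (hκ : 0 < κ) (hB : ∀ w, FkB (fun m => ev V s p ρ w (tv m)) N κ) {A I J : Type} [Fintype A]
    [Fintype I] [DecidableEq I] [Nonempty I] [Fintype J] [DecidableEq J] [Nonempty J]
    (hN : Fintype.card I + Fintype.card J = N) (u : A × (Option I → ι) → ℝ)
    (B : A × (J → ι) → ℝ) : ρ * Ex V s p ρ (fkF A (Option I) J u B) ≤
      κ * (∑ q, u q ^ 2 + ∑ q, B q ^ 2) := by
  have hρ := bdx_abs_rho h0 h1
  have eS := fun {κ : Type} => Ex_sum (κ := κ) H.hV H.hs H.le1 p hρ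
  have eA := Ex_add H.hV H.hs H.le1 p hρ
  set τ := (Equiv.piOptionEquivProd (β := fun _ : Option I => ι)).symm with hτ
  set Y : A × (I → ι) → R2 ι := ker tv A J I fun x => C (B x) with hY
  set X : A × (I → ι) → R2 ι := fun q => ∑ e, del (Sum.inl e) (C (u (q.1, τ (e, q.2)))) with hX
  have e1 : rh * fkF A (Option I) J u B =
      ∑ q : A × (I → ι), ∑ e, C (u (q.1, τ (e, q.2))) * dd (Sum.inl e) (Y q) := by
    simp only [fkF, ker, hY, Finset.mul_sum, Fintype.sum_prod_type, map_sum, Derivation.leibniz,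
      derivation_C, smul_eq_mul, mul_zero, zero_add, dd_tv_inl]
    refine Finset.sum_congr rfl fun a _ => ?_
    rw [Finset.sum_comm, ← τ.sum_comp, Fintype.sum_prod_type, Finset.sum_comm]
    refine Finset.sum_congr rfl fun α _ => Finset.sum_congr rfl fun e _ =>
      Finset.sum_congr rfl fun β _ => ?_
    have : ms (τ (e, α)) + ms β = e ::ₘ (ms β + ms α) := by
      rw [ms_option, Multiset.cons_add, add_comm (ms β)]
      rfl
    rw [this]
    ring
  have e2 : ρ * Ex V s p ρ (fkF A (Option I) J u B) = Ex V s p ρ (∑ q, X q * Y q) := by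
    rw [← fk_Ex_rh, e1, eS, eS]
    refine Finset.sum_congr rfl fun q _ => ?_
    rw [hX, Finset.sum_mul, eS, eS]
    exact Finset.sum_congr rfl fun e _ => (Ex_del H.hV H.hs H.le1 p hρ _ _ _).symm
  have e3 : ∀ q, Ex V s p ρ (X q ^ 2) ≤ 2 * ∑ e, u (q.1, τ (e, q.2)) ^ 2 := by
    intro q
    have := bdx_div_sq (p := p) H h0 h1
      fun i => C (Sum.elim (fun e => u (q.1, τ (e, q.2))) (fun _ => 0) i)
    simp only [Fintype.sum_sum_type, Sum.elim_inl, Sum.elim_inr, map_zero, bdx_del_zero,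
      Finset.sum_const_zero, add_zero, derivation_C, ← map_pow C, fk_Ex_C H h0 h1] at this
    have z : Ex V s p ρ (0 : R2 ι) = 0 := by simp [Ex]
    simpa [z, hX] using this
  have e4 : ∑ q : A × (I → ι), ∑ e, u (q.1, τ (e, q.2)) ^ 2 = ∑ q, u q ^ 2 := by
    simp only [Fintype.sum_prod_type]
    refine Finset.sum_congr rfl fun a _ => ?_
    rw [← τ.sum_comp, Fintype.sum_prod_type, Finset.sum_comm]
  rw [e2]
  calc Ex V s p ρ (∑ q, X q * Y q)
      ≤ Ex V s p ρ (C (κ / 2) * ∑ q, X q ^ 2 + C (κ / 2 * ∑ q, B q ^ 2)) := by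
        refine bdx_Ex_mono H h0 h1 fun w => ?_
        have h2 := hB w A J I (by omega) B
        have h3 := fk_pair (fun q => ev V s p ρ w (X q)) _ hκ h2
        have e5 : ∀ q, ev V s p ρ w (Y q) =
            ker (fun m => ev V s p ρ w (tv m)) A J I B q := by
          intro q
          simp [hY, ker]
        simp only [map_add, map_mul, map_sum, map_pow, e5, algHom_C, Algebra.algebraMap_self,
          RingHom.id_apply]
        have h4 := (abs_le.1 h3).2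
        linarith
    _ = κ / 2 * ∑ q, Ex V s p ρ (X q ^ 2) + κ / 2 * ∑ q, B q ^ 2 := by
        rw [eA, Ex_C_mul, eS, fk_Ex_C H h0 h1]
    _ ≤ κ / 2 * (2 * ∑ q, u q ^ 2) + κ / 2 * ∑ q, B q ^ 2 := by
        gcongr
        rw [← e4, Finset.mul_sum]
        exact Finset.sum_le_sum fun q _ => e3 q
    _ ≤ _ := by
        have : 0 ≤ ∑ q, B q ^ 2 := Finset.sum_nonneg fun _ _ => sq_nonneg _
        nlinarith

lemma fk_main_left (H : BdHyp V s) {ρ : ℝ} (h0 : 0 ≤ ρ) (h1 : ρ ≤ 1 / 2) {N : ℕ} {κ : ℝ}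
    (hκ : 0 < κ) (hB : ∀ w, FkB (fun m => ev V s p ρ w (tv m)) N κ) {A I J : Type} [Fintype A]
    [Fintype I] [DecidableEq I] [Fintype J] [DecidableEq J] [Nonempty J]
    (hN : Fintype.card I + Fintype.card J = N + 1) (hI : 1 < Fintype.card I)
    (u : A × (I → ι) → ℝ) (B : A × (J → ι) → ℝ) : ρ * Ex V s p ρ (fkF A I J u B) ≤
      κ * (∑ q, u q ^ 2 + ∑ q, B q ^ 2) := by
  obtain ⟨i0, i1, hne⟩ := Fintype.exists_pair_of_one_lt_card hI
  have : Nonempty {i // i ≠ i0} := ⟨⟨i1, hne.symm⟩⟩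
  set σ := Equiv.optionSubtypeNe i0
  have hc : Fintype.card I = Fintype.card {i // i ≠ i0} + 1 := by
    rw [← Fintype.card_congr σ, Fintype.card_option]
  rw [fkF_equiv σ]
  refine (fk_main_opt H h0 h1 hκ hB (by omega) _ B).trans (le_of_eq ?_)
  congr 2
  simp only [Fintype.sum_prod_type]
  refine Finset.sum_congr rfl fun a _ => ?_
  rw [← (σ.arrowCongr (Equiv.refl ι)).sum_comp]
  rfl

lemma fk_main (H : BdHyp V s) {ρ : ℝ} (h0 : 0 ≤ ρ) (h1 : ρ ≤ 1 / 2) {N : ℕ} (hN2 : 2 ≤ N)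
    {κ : ℝ} (hκ : 0 < κ) (hB : ∀ w, FkB (fun m => ev V s p ρ w (tv m)) N κ) {A I J : Type}
    [Fintype A] [Fintype I] [DecidableEq I] [Nonempty I] [Fintype J] [DecidableEq J] [Nonempty J]
    (hN : Fintype.card I + Fintype.card J = N + 1)
    (u : A × (I → ι) → ℝ) (B : A × (J → ι) → ℝ) : ρ * Ex V s p ρ (fkF A I J u B) ≤
      κ * (∑ q, u q ^ 2 + ∑ q, B q ^ 2) := by
  by_cases hI : 1 < Fintype.card I
  · exact fk_main_left H h0 h1 hκ hB hN hI u B
  · rw [fkF_symm, add_comm (∑ q, u q ^ 2)]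
    exact fk_main_left H h0 h1 hκ hB (by omega) (by omega) B u

lemma fkF_DD {A I J : Type} [Fintype A] [Fintype I] [DecidableEq I] [Nonempty I] [Fintype J]
    [DecidableEq J] (u : A × (I → ι) → ℝ) (B : A × (J → ι) → ℝ) :
    DD 0 (fkF A I J u B) =
      ∑ q : A × (J → ι), ∑ α : I → ι, ∑ e, C (B q * u (q.1, α)) *
        del (Sum.inl e) (tv (e ::ₘ (ms α + ms q.2))) +
      rh * ∑ U ∈ (Finset.univ : Finset (Finset (I ⊕ J))).filter
        (fun U => U.Nonempty ∧ Uᶜ.Nonempty),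
          ∑ q, C (B q) * splitKer tv A I J U (fun x => C (u x)) q := by
  rw [Finset.sum_comm (s := (Finset.univ : Finset (Finset (I ⊕ J))).filter
    (fun U => U.Nonempty ∧ Uᶜ.Nonempty)), Finset.mul_sum, ← Finset.sum_add_distrib]
  simp only [fkF, ker, splitKer, map_sum, Derivation.leibniz, derivation_C, smul_eq_mul, mul_zero,
    zero_add, add_zero]
  refine Finset.sum_congr rfl fun q _ => ?_
  rw [← Finset.mul_sum, Finset.sum_comm (s := (Finset.univ : Finset (Finset (I ⊕ J))).filter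
    (fun U => U.Nonempty ∧ Uᶜ.Nonempty)), Finset.mul_sum, Finset.mul_sum, Finset.mul_sum,
    ← Finset.sum_add_distrib]
  refine Finset.sum_congr rfl fun α _ => ?_
  have h := DD0_tv (Sum.elim α q.2)
  rw [ms_elim] at h
  rw [h, ← Finset.sum_mul, ← Finset.mul_sum, map_mul]
  ring

lemma fk_deriv (H : BdHyp V s) {ρ : ℝ} (h0 : 0 ≤ ρ) (h1 : ρ ≤ 1 / 2) {N : ℕ} (hN2 : 2 ≤ N)
    {a b : ℝ} (ha : 0 < a) (hb : 0 < b)
    (hA : ∀ n ≤ N, ∀ w, FkB (fun m => ev V s p ρ w (tv m)) n a)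
    (hB : ∀ n ≤ N + 1, ∀ w, FkB (fun m => ev V s p ρ w (tv m)) n b) {A I J : Type}
    [Fintype A] [Fintype I] [DecidableEq I] [Nonempty I] [Fintype J] [DecidableEq J] [Nonempty J]
    (hN : Fintype.card I + Fintype.card J = N + 1)
    (u : A × (I → ι) → ℝ) (B : A × (J → ι) → ℝ) : |Ex V s p ρ (DD 0 (fkF A I J u B))| ≤
      ρ * (2 ^ (N + 1) * (a * b / 2 * (∑ q, u q ^ 2 + ∑ q, B q ^ 2))) := by
  have hρ := bdx_abs_rho h0 h1
  have eS := fun {κ : Type} => Ex_sum (κ := κ) H.hV H.hs H.le1 p hρ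
  have eA := Ex_add H.hV H.hs H.le1 p hρ
  rw [fkF_DD, eA, fk_Ex_rh]
  simp only [eS, Ex_C_mul, fk_Ex_del H h0 h1, mul_zero, Finset.sum_const_zero, zero_add]
  rw [abs_mul, abs_of_nonneg h0]
  refine mul_le_mul_of_nonneg_left ?_ h0
  have hS : 0 ≤ ∑ q, u q ^ 2 := Finset.sum_nonneg fun _ _ => sq_nonneg _
  have hS' : 0 ≤ ∑ q, B q ^ 2 := Finset.sum_nonneg fun _ _ => sq_nonneg _
  have key : ∀ U ∈ (Finset.univ : Finset (Finset (I ⊕ J))).filter
      (fun U => U.Nonempty ∧ Uᶜ.Nonempty),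
      |∑ q, B q * Ex V s p ρ (splitKer tv A I J U (fun x => C (u x)) q)| ≤
        a * b / 2 * (∑ q, u q ^ 2 + ∑ q, B q ^ 2) := by
    intro U hU
    obtain ⟨hU1, hU2⟩ := (Finset.mem_filter.1 hU).2
    simp only [← Ex_C_mul, ← eS]
    refine fk_Ex_abs H h0 h1 fun w => ?_
    have c0 : U.card + Uᶜ.card = N + 1 := by
      rw [Finset.card_add_card_compl, Fintype.card_sum, hN]
    have c1 := hU1.card_pos
    have c2 := hU2.card_pos
    have hu : FkN _ u √(∑ q, u q ^ 2) := ⟨Real.sqrt_nonneg _, by rw [Real.sq_sqrt hS]⟩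
    have hre : ∀ (A B : Type) [Fintype A] [Fintype B] (σ : B ≃ A) (u : A → ℝ) (c : ℝ),
        FkN A u c → FkN B (fun b => u (σ b)) c := fun A B _ _ σ u c h =>
      ⟨h.1, by rw [σ.sum_comp fun a => u a ^ 2]; exact h.2⟩
    have hsp : FkN _ (splitKer (fun m => ev V s p ρ w (tv m)) A I J U u)
        (a * b * √(∑ q, u q ^ 2)) := by
      by_cases hc : U.card + 1 ≤ N
      · exact split_bound _ FkN hre I J U hU1 hU2 a b
          (fun A I' J' _ _ _ _ _ _ _ e u c h => (hA _ hc w).nm ha.le A I' J' e u c h)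
          (fun A I' J' _ _ _ _ _ _ _ e u c h => (hB _ (by omega) w).nm hb.le A I' J' e u c h)
          A u _ hu
      · rw [mul_comm a b]
        exact split_bound _ FkN hre I J U hU1 hU2 b a
          (fun A I' J' _ _ _ _ _ _ _ e u c h => (hB _ (by omega) w).nm hb.le A I' J' e u c h)
          (fun A I' J' _ _ _ _ _ _ _ e u c h => (hA _ (by omega) w).nm ha.le A I' J' e u c h)
          A u _ hu
    have h2 := hsp.2
    rw [mul_pow, Real.sq_sqrt hS] at h2
    have h3 := fk_pair B _ (mul_pos ha hb) h2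
    refine le_trans (le_of_eq ?_) h3
    congr 1
    simp [splitKer]
  refine (Finset.abs_sum_le_sum_abs _ _).trans ((Finset.sum_le_sum key).trans ?_)
  rw [Finset.sum_const, nsmul_eq_mul]
  refine mul_le_mul_of_nonneg_right ?_ (by positivity)
  have := Finset.card_le_univ ((Finset.univ : Finset (Finset (I ⊕ J))).filter
    (fun U => U.Nonempty ∧ Uᶜ.Nonempty))
  rw [Fintype.card_finset, Fintype.card_sum, hN] at this
  exact_mod_cast this

/-- One Duhamel step. -/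
lemma fk_duhamel (H : BdHyp V s) {ρ : ℝ} (h0 : 0 < ρ) (h1 : ρ ≤ 1 / 2) {N : ℕ} (hN2 : 2 ≤ N)
    {a b : ℝ} (ha : 0 < a) (hb : 0 < b)
    (hA : ∀ n ≤ N, ∀ τ, 0 ≤ τ → τ ≤ 1 / 2 → ∀ w, FkB (fun m => ev V s p τ w (tv m)) n a)
    (hB : ∀ n ≤ N + 1, ∀ τ, 0 ≤ τ → τ ≤ 1 / 2 → ∀ w, FkB (fun m => ev V s p τ w (tv m)) n b) :
    FkB (fkT V s p) (N + 1) (2 * a / ρ + ρ ^ 2 * 2 ^ (N + 1) * (a * b)) := by
  intro A I J _ _ _ _ _ _ _ hN u
  refine fk_dual _ (by positivity) fun B => ?_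
  rw [← fkF_zero H]
  set S := ∑ q, u q ^ 2 + ∑ q, B q ^ 2 with hS
  have hS0 : 0 ≤ S := add_nonneg (Finset.sum_nonneg fun _ _ => sq_nonneg _)
    (Finset.sum_nonneg fun _ _ => sq_nonneg _)
  have m1 := fk_main H h0.le h1 hN2 ha (hA N le_rfl ρ h0.le h1) hN u B
  have m2 : ‖Ex V s p ρ (fkF A I J u B) - Ex V s p 0 (fkF A I J u B)‖ ≤
      ρ * (2 ^ (N + 1) * (a * b / 2 * S)) * (ρ - 0) := by
    refine norm_image_sub_le_of_norm_deriv_le_segment'
      (f := fun τ => Ex V s p τ (fkF A I J u B))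
      (f' := fun τ => Ex V s p τ (DD 0 (fkF A I J u B))) (a := 0) (b := ρ) ?_ ?_ ρ
      ⟨h0.le, le_rfl⟩
    · intro τ hτ
      refine (Ex_deriv H.hV H.hs H.le1 p ?_ 0 _).hasDerivWithinAt
      rw [abs_of_nonneg hτ.1]
      linarith [hτ.2]
    · intro τ hτ
      have hτ1 : τ ≤ 1 / 2 := hτ.2.le.trans h1
      refine (fk_deriv H hτ.1 hτ1 hN2 ha hb (fun n hn => hA n hn τ hτ.1 hτ1)
        (fun n hn => hB n hn τ hτ.1 hτ1) hN u B).trans ?_
      exact mul_le_mul_of_nonneg_right hτ.2.le (by positivity)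
  rw [Real.norm_eq_abs, sub_zero] at m2
  have m3 := (abs_le.1 m2).1
  have m4 : Ex V s p ρ (fkF A I J u B) ≤ a / ρ * S := by
    rw [div_mul_eq_mul_div, le_div_iff₀ h0]
    linarith
  have e : (2 * a / ρ + ρ ^ 2 * 2 ^ (N + 1) * (a * b)) / 2 * S =
      a / ρ * S + ρ * (2 ^ (N + 1) * (a * b / 2 * S)) * ρ := by ring
  rw [e]
  linarith

omit [DecidableEq ι] in
lemma FkB.of_lim {t : Multiset ι → ℝ} {N : ℕ} {a g : ℝ}
    (h : ∀ j : ℕ, FkB t N (a + g * (1 / 2) ^ j)) : FkB t N a := by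
  intro A I J _ _ _ _ _ _ _ hN u
  have h1 : Tendsto (fun j : ℕ => (a + g * (1 / 2 : ℝ) ^ j) ^ 2 * ∑ q, u q ^ 2) atTop
      (𝓝 ((a + g * 0) ^ 2 * ∑ q, u q ^ 2)) :=
    (((tendsto_pow_atTop_nhds_zero_of_lt_one (by norm_num) (by norm_num)).const_mul g).const_add
      a).pow 2 |>.mul_const _
  rw [mul_zero, add_zero] at h1
  exact ge_of_tendsto' h1 fun j => h j A I J hN u

end

/-- The uniform statement up to order `k`. -/
def FkS (k : ℕ) (K : ℝ) : Prop :=
  ∀ (ι : Type) [Fintype ι] [DecidableEq ι] (V : Euc ι → ℝ) (s : ℝ), BdHyp V s → ∀ (p : Euc ι),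
    ∀ n ≤ k, FkB (fkT V s p) n (K * s)

lemma fkS_two : FkS 2 2 := by
  intro ι _ _ V s H p n hn
  rcases Nat.lt_or_ge n 2 with h | h
  · intro A I J _ _ _ _ _ _ _ hN
    have hI : 0 < Fintype.card I := Fintype.card_pos
    have hJ : 0 < Fintype.card J := Fintype.card_pos
    omega
  · obtain rfl : n = 2 := by omega
    exact fk_two H p

lemma fk_arith {K x s g : ℝ} (hK : 0 < K) (hx : 1 ≤ x) (hs : 0 < s) (hs1 : s ≤ 1) (hg : 0 ≤ g)
    {ρ A : ℝ} (hρ : ρ = 1 / (2 * x ^ 4 * K + 2)) (hA : A = 2 * x * K / ρ + K) :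
    2 * (x * (K * s)) / ρ + ρ ^ 2 * x * (x * (K * s) * (x * (K * s + 2 * A * s + x * g))) ≤
      2 * A * s + g * (1 / 2) := by
  have hx4 : 0 < x ^ 4 * K := by positivity
  have hρ0 : 0 < ρ := by rw [hρ]; positivity
  have hρ1 : ρ ≤ 1 := by
    rw [hρ, div_le_one (by positivity)]
    linarith
  have h1 : ρ * (x ^ 4 * K) ≤ 1 / 2 := by
    rw [hρ, div_mul_eq_mul_div, div_le_iff₀ (by positivity)]
    linarith
  have hA0 : 0 ≤ A := by rw [hA]; positivity
  have h2 : ρ ^ 2 * x ^ 4 * K * s ≤ 1 / 2 := by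
    have : ρ ^ 2 * x ^ 4 * K * s = (ρ * s) * (ρ * (x ^ 4 * K)) := by ring
    rw [this]
    have h3 : ρ * s ≤ 1 := by nlinarith
    nlinarith [mul_pos hρ0 hx4]
  have h3 : ρ ^ 2 * x ^ 3 * K * s ≤ 1 / 2 := by
    refine le_trans ?_ h2
    have : x ^ 3 ≤ x ^ 4 := pow_le_pow_right₀ hx (by norm_num)
    gcongr
  have e : ρ ^ 2 * x * (x * (K * s) * (x * (K * s + 2 * A * s + x * g))) =
      (ρ ^ 2 * x ^ 3 * K * s) * (K * s + 2 * A * s) + (ρ ^ 2 * x ^ 4 * K * s) * g := by ring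
  have h4 : 0 ≤ K * s + 2 * A * s := by positivity
  have e2 : 2 * (x * (K * s)) / ρ = A * s - K * s := by rw [hA]; ring
  rw [e, e2]
  nlinarith [mul_le_mul_of_nonneg_right h3 h4, mul_le_mul_of_nonneg_right h2 hg, mul_pos hK hs]

lemma fkS_step {k : ℕ} (hk : 2 ≤ k) {K : ℝ} (hK : 0 < K) (h : FkS k K) :
    ∃ K' : ℝ, 0 < K' ∧ FkS (k + 1) K' := by
  set x : ℝ := 2 ^ (k + 1) with hx
  have hx1 : 1 ≤ x := one_le_pow₀ (by norm_num)
  set ρ : ℝ := 1 / (2 * x ^ 4 * K + 2) with hρ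
  have hρ0 : 0 < ρ := by positivity
  have hρ1 : ρ ≤ 1 / 2 := by
    rw [hρ]
    have : 0 < x ^ 4 * K := by positivity
    exact one_div_le_one_div_of_le (by norm_num) (by linarith)
  set A : ℝ := 2 * x * K / ρ + K with hA
  have hA0 : 0 < A := by positivity
  have hKA : K ≤ A := by
    have : 0 ≤ 2 * x * K / ρ := by positivity
    linarith
  refine ⟨2 * A, by positivity, fun ι _ _ V s H p n hn => ?_⟩
  have hs := H.hs
  rcases Nat.lt_or_ge n (k + 1) with hn' | hn'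
  · exact (h ι V s H p n (by omega)).mono (by positivity) (by nlinarith)
  obtain rfl : n = k + 1 := by omega
  obtain ⟨G, hG, hcr⟩ := fk_crude H.hV (k + 1) (by omega)
  have hpow : ∀ n ≤ k + 1, (2 : ℝ) ^ n ≤ x := fun n hn => pow_le_pow_right₀ (by norm_num) hn
  have key : ∀ j : ℕ, ∀ s : ℝ, BdHyp V s → ∀ p,
      FkB (fkT V s p) (k + 1) (2 * A * s + G / s ^ (k + 1) * (1 / 2) ^ j) := by
    intro j
    induction j with
    | zero =>
      intro s H p
      have hs := H.hs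
      refine (hcr s hs H.le1 p).mono (by positivity) ?_
      have : 0 ≤ 2 * A * s := by positivity
      simpa using this
    | succ j ih =>
      intro s H p
      have hs := H.hs
      set g := G / s ^ (k + 1) * (1 / 2) ^ j with hg
      have hg0 : 0 ≤ g := by positivity
      have H' : ∀ τ, 0 ≤ τ → τ ≤ 1 / 2 → BdHyp V (s * (1 - τ ^ 2)) := fun τ h0 h1 =>
        ⟨H.hV, (fk_scale H h0 h1).1, (fk_scale H h0 h1).2.1.trans H.hs1⟩
      have low : ∀ n ≤ k, ∀ τ, 0 ≤ τ → τ ≤ 1 / 2 → ∀ w,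
          FkB (fun m => ev V s p τ w (tv m)) n (x * (K * s)) := by
        intro n hn τ h0 h1 w
        obtain ⟨q1, q2, -⟩ := fk_scale H h0 h1
        refine (fk_ev H h0 h1 w (h ι V _ (H' τ h0 h1) _ n hn)).mono (by positivity) ?_
        have := hpow n (by omega)
        gcongr
      have := fk_duhamel (p := p) H hρ0 hρ1 hk (a := x * (K * s))
        (b := x * (K * s + 2 * A * s + x * g)) (by positivity) (by positivity) low
        fun n hn τ h0 h1 w => by
          rcases Nat.lt_or_ge n (k + 1) with hn' | hn'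
          · refine (low n (by omega) τ h0 h1 w).mono (by positivity) ?_
            have : 0 ≤ 2 * A * s + x * g := by positivity
            gcongr
            linarith
          · obtain rfl : n = k + 1 := by omega
            obtain ⟨q1, q2, q3⟩ := fk_scale H h0 h1
            refine (fk_ev H h0 h1 w (ih _ (H' τ h0 h1) _)).mono (by positivity) ?_
            rw [← hx]
            refine mul_le_mul_of_nonneg_left ?_ (by positivity)
            have r1 : G / (s * (1 - τ ^ 2)) ^ (k + 1) ≤ x * (G / s ^ (k + 1)) := by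
              rw [← mul_div_assoc, div_le_div_iff₀ (by positivity) (by positivity)]
              have : s ^ (k + 1) ≤ (2 * (s * (1 - τ ^ 2))) ^ (k + 1) :=
                pow_le_pow_left₀ hs.le q3 _
              rw [mul_pow, ← hx] at this
              nlinarith
            have r2 : G / (s * (1 - τ ^ 2)) ^ (k + 1) * (1 / 2) ^ j ≤ x * g := by
              rw [hg, ← mul_assoc]
              gcongr
            have r3 : 2 * A * (s * (1 - τ ^ 2)) ≤ 2 * A * s := by gcongr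
            have r4 : 0 ≤ K * s := by positivity
            linarith
      refine this.mono (by positivity) ?_
      rw [pow_succ (1 / 2 : ℝ) j, ← mul_assoc (G / s ^ (k + 1)), ← hg, ← hx]
      exact fk_arith hK hx1 hs H.le1 hg0 hρ hA
  exact FkB.of_lim fun j => key j s H p

lemma fkS_all (k : ℕ) : ∃ K : ℝ, 0 < K ∧ FkS (k + 2) K := by
  induction k with
  | zero => exact ⟨2, by norm_num, fkS_two⟩
  | succ k ih =>
    obtain ⟨K, hK, h⟩ := ih
    exact fkS_step (by omega) hK h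

/-- All proper flattenings of order at most `k` are bounded by `C s` in normalized units. -/
theorem flat_bound (k : ℕ) : ∃ C : ℝ, 0 ≤ C ∧ ∀ (ι : Type) [Fintype ι] [DecidableEq ι]
    (V : Euc ι → ℝ), InClass V → ∀ s : ℝ, 0 < s → s ≤ 1 / 16 → ∀ (p : Euc ι)
    (A I J : Type) [Fintype A] [Fintype I] [DecidableEq I] [Nonempty I] [Fintype J]
    [DecidableEq J] [Nonempty J], Fintype.card I + Fintype.card J ≤ k →
    ∀ u : A × (I → ι) → ℝ,
      ∑ q, ker (fun m => √s ^ Multiset.card m * T V m s p) A I J u q ^ 2 ≤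
        (C * s) ^ 2 * ∑ q, u q ^ 2 := by
  obtain ⟨K, hK, h⟩ := fkS_all k
  refine ⟨K, hK.le, fun ι _ _ V hV s hs hs1 p A I J _ _ _ _ _ _ _ hn u => ?_⟩
  exact h ι V s ⟨hV, hs, hs1⟩ p _ (by omega) A I J rfl u

end Vale.Agent.P347
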