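import Vale.Agent.P347.Flat

/-! Small tools shared by the flattening bounds and the Sobolev bounds. -/

open MeasureTheory ProbabilityTheory MvPolynomial

namespace Vale.Agent.P347

variable {ι : Type} [Fintype ι] [DecidableEq ι] {V : Euc ι → ℝ} {s : ℝ} {p : Euc ι}

/-- The standing hypotheses. -/
structure BdHyp (V : Euc ι → ℝ) (s : ℝ) : Prop where
  hV : InClass V
  hs : 0 < s
  hs1 : s ≤ 1 / 16

omit [DecidableEq ι] in
lemma BdHyp.le1 (H : BdHyp V s) : s ≤ 1 := H.hs1.trans (by norm_num)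

lemma bdx_abs_rho {ρ : ℝ} (h0 : 0 ≤ ρ) (h1 : ρ ≤ 1 / 2) : |ρ| ≤ 3 / 4 := by
  rw [abs_of_nonneg h0]; linarith

lemma bdx_Ex_mono (H : BdHyp V s) {ρ : ℝ} (h0 : 0 ≤ ρ) (h1 : ρ ≤ 1 / 2) {a b : R2 ι}
    (h : ∀ w, ev V s p ρ w a ≤ ev V s p ρ w b) : Ex V s p ρ a ≤ Ex V s p ρ b :=
  integral_mono (ev_int H.hV H.hs H.le1 p (bdx_abs_rho h0 h1) a)
    (ev_int H.hV H.hs H.le1 p (bdx_abs_rho h0 h1) b) h

lemma bdx_mu_prob (H : BdHyp V s) {ρ : ℝ} (h0 : 0 ≤ ρ) (h1 : ρ ≤ 1 / 2) :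
    IsProbabilityMeasure (mu V s p ρ) := by
  have := loc_prob H.hV H.hs H.le1 p (ρ := ρ) (by rw [abs_of_nonneg h0]; linarith)
  unfold mu
  infer_instance

omit [Fintype ι] [DecidableEq ι] in
lemma bdx_card_ms {L : Type} [Fintype L] (γ : L → ι) : Multiset.card (ms γ) = Fintype.card L := by
  simp [ms, msOn]

omit [Fintype ι] in
lemma bdx_del_zero (i : ι ⊕ ι) : del i (0 : R2 ι) = 0 := by simp [del]

omit [Fintype ι] in
lemma bdx_del_add (i : ι ⊕ ι) (a b : R2 ι) : del i (a + b) = del i a + del i b := by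
  simp only [del, map_add]; ring

omit [Fintype ι] in
lemma bdx_del_neg (i : ι ⊕ ι) (a : R2 ι) : del i (-a) = -del i a := by
  simp only [del, map_neg]; ring

omit [Fintype ι] in
lemma bdx_del_sum (i : ι ⊕ ι) {κ : Type} (S : Finset κ) (a : κ → R2 ι) :
    del i (∑ k ∈ S, a k) = ∑ k ∈ S, del i (a k) := by
  simp only [del, map_sum, Finset.mul_sum, Finset.sum_sub_distrib]

lemma bdx_hess_pt (H : BdHyp V s) {ρ : ℝ} (h0 : 0 ≤ ρ) (h1 : ρ ≤ 1 / 2) (w : Euc ι × Euc ι)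
    (x : ι ⊕ ι → ℝ) :
    ∑ i, ∑ j, ev V s p ρ w (dd i (Wd j)) * (x j * x i) ≤ 2 * ∑ i, x i ^ 2 := by
  have hs := H.hs
  have hs1 := H.hs1
  have hρ : 3 / 4 ≤ 1 - ρ ^ 2 := by nlinarith
  have hρ' : 1 - ρ ^ 2 ≤ 1 := by nlinarith
  have h2 : 0 < s * (1 - ρ ^ 2) := by positivity
  have h3 : s * (1 - ρ ^ 2) ≤ 1 / 16 := by nlinarith
  set P := p + (√s * ρ) • w.1 with hP
  set v : Euc ι := WithLp.toLp 2 fun e => x (Sum.inl e) with hv
  have hb := (Ms_bounds H.hV h2 h3 P v).2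
  have e1 : inner ℝ v (Ms V (s * (1 - ρ ^ 2)) P v) =
      ∑ e, ∑ f, T V (e ::ₘ {f}) (s * (1 - ρ ^ 2)) P * (x (Sum.inl f) * x (Sum.inl e)) := by
    simp only [PiLp.inner_apply, Ms_apply, hv, RCLike.inner_apply, conj_trivial, Finset.sum_mul]
    exact Finset.sum_congr rfl fun e _ => Finset.sum_congr rfl fun f _ => by ring
  have e2 : ‖v‖ ^ 2 = ∑ e, x (Sum.inl e) ^ 2 := by
    rw [EuclideanSpace.real_norm_sq_eq]
  have e3 : ∀ e f : ι, ev V s p ρ w (rh ^ 2 * tv (e ::ₘ {f})) =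
      ρ ^ 2 * s * T V (e ::ₘ {f}) (s * (1 - ρ ^ 2)) P := by
    intro e f
    have : √s ^ 2 = s := Real.sq_sqrt hs.le
    simp [ev, this, hP, mul_assoc]
  have e4 : ∑ i, ∑ j, ev V s p ρ w (dd i (Wd j)) * (x j * x i) = ∑ i, x i ^ 2 +
      ρ ^ 2 * s * ∑ e, ∑ f, T V (e ::ₘ {f}) (s * (1 - ρ ^ 2)) P *
        (x (Sum.inl f) * x (Sum.inl e)) := by
    simp only [dd_Wd, map_add, add_mul, Finset.sum_add_distrib]
    congr 1
    · refine Finset.sum_congr rfl fun i _ => ?_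
      rw [Finset.sum_eq_single i]
      · simp [sq]
      · intro j _ hj
        simp [Ne.symm hj]
      · simp
    · simp only [Fintype.sum_sum_type, Sum.elim_inl, Sum.elim_inr, e3, map_zero, zero_mul,
        Finset.sum_const_zero, add_zero, Finset.mul_sum]
      exact Finset.sum_congr rfl fun e _ => Finset.sum_congr rfl fun f _ => by ring
  rw [e4, ← e1]
  have h5 : ∑ e, x (Sum.inl e) ^ 2 ≤ ∑ i, x i ^ 2 := by
    rw [Fintype.sum_sum_type]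
    have : 0 ≤ ∑ e, x (Sum.inr e) ^ 2 := Finset.sum_nonneg fun _ _ => sq_nonneg _
    linarith
  have h6 : 0 ≤ ∑ e, x (Sum.inl e) ^ 2 := Finset.sum_nonneg fun _ _ => sq_nonneg _
  have h7 : 0 ≤ ρ ^ 2 * s := by positivity
  have h8 : ρ ^ 2 * s ≤ 1 / 2 := by nlinarith
  rw [e2] at hb
  nlinarith [mul_le_mul_of_nonneg_left hb h7]

lemma bdx_div_sq (H : BdHyp V s) {ρ : ℝ} (h0 : 0 ≤ ρ) (h1 : ρ ≤ 1 / 2) (u : ι ⊕ ι → R2 ι) :
    Ex V s p ρ ((∑ i, del i (u i)) ^ 2) ≤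
      ∑ i, ∑ j, Ex V s p ρ (dd j (u i) ^ 2) + 2 * ∑ i, Ex V s p ρ (u i ^ 2) := by
  have hρ := bdx_abs_rho h0 h1
  have eS := fun {κ : Type} => Ex_sum (κ := κ) H.hV H.hs H.le1 p hρ
  have eA := Ex_add H.hV H.hs H.le1 p hρ
  have eD := Ex_del H.hV H.hs H.le1 p hρ
  have e1 : Ex V s p ρ ((∑ i, del i (u i)) ^ 2) = Ex V s p ρ
      (∑ i, ∑ j, dd i (u j) * dd j (u i) + ∑ i, ∑ j, dd i (Wd j) * (u j * u i)) := by
    rw [sq, Finset.sum_mul, eS, eA, eS, eS, ← Finset.sum_add_distrib]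
    refine Finset.sum_congr rfl fun i _ => ?_
    rw [eD, map_sum, Finset.mul_sum, eS, eS, eS, ← Finset.sum_add_distrib]
    refine Finset.sum_congr rfl fun j _ => ?_
    rw [dd_del, mul_add, eA, mul_comm (u i) (del j _), eD]
    congr 2
    ring
  have e2 : ∑ i, ∑ j, Ex V s p ρ (dd j (u i) ^ 2) + 2 * ∑ i, Ex V s p ρ (u i ^ 2) =
      Ex V s p ρ (∑ i, ∑ j, dd j (u i) ^ 2 + C 2 * ∑ i, u i ^ 2) := by
    rw [eA, Ex_C_mul, eS, eS]
    simp only [eS]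
  rw [e1, e2]
  refine bdx_Ex_mono H h0 h1 fun w => ?_
  have h2 := bdx_hess_pt (p := p) H h0 h1 w fun i => ev V s p ρ w (u i)
  have h3 : ∑ i, ∑ j, ev V s p ρ w (dd i (u j)) * ev V s p ρ w (dd j (u i)) ≤
      ∑ i, ∑ j, ev V s p ρ w (dd j (u i)) ^ 2 := by
    have h4 : ∑ i, ∑ j, ev V s p ρ w (dd i (u j)) ^ 2 =
        ∑ i, ∑ j, ev V s p ρ w (dd j (u i)) ^ 2 := Finset.sum_comm
    have h5 : 2 * ∑ i, ∑ j, ev V s p ρ w (dd i (u j)) * ev V s p ρ w (dd j (u i)) ≤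
        ∑ i, ∑ j, ev V s p ρ w (dd i (u j)) ^ 2 + ∑ i, ∑ j, ev V s p ρ w (dd j (u i)) ^ 2 := by
      rw [Finset.mul_sum, ← Finset.sum_add_distrib]
      refine Finset.sum_le_sum fun i _ => ?_
      rw [Finset.mul_sum, ← Finset.sum_add_distrib]
      refine Finset.sum_le_sum fun j _ => ?_
      nlinarith [sq_nonneg (ev V s p ρ w (dd i (u j)) - ev V s p ρ w (dd j (u i)))]
    linarith
  have e3 : ev V s p ρ w (C 2 : R2 ι) = 2 := by simp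
  simp only [map_add, map_sum, map_mul, map_pow, e3]
  linarith

end Vale.Agent.P347
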