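import Vale.Agent.P347.HeatAX

/-! The smoothed potential `V_s = -log (e^{-V} * γ_s)` and all its spatial derivatives
`T V m s p = ∂^m V_s (p)`, built from a formal differential ring of posterior moments. -/

open MeasureTheory ProbabilityTheory MvPolynomial
open scoped RealInnerProductSpace

namespace Vale.Agent.P347

/-- Symbols: `b = 1/s`, `P e = (p - q) e`, `nu m` = posterior moment about `q`, `phi = V_s p`. -/
inductive HS (ι : Type) : Type
  | b : HS ι
  | P : ι → HS ι
  | nu : Multiset ι → HS ι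
  | phi : HS ι

abbrev R1 (ι : Type) : Type := MvPolynomial (HS ι) ℝ

variable {ι : Type} [Fintype ι] [DecidableEq ι]

noncomputable def tau (e : ι) : R1 ι := X HS.b * (X (HS.P e) - X (HS.nu {e}))

/-- Formal derivative in `p e`. -/
noncomputable def dp (e : ι) : Derivation ℝ (R1 ι) (R1 ι) := mkDerivation ℝ fun
  | HS.b => 0
  | HS.P f => if f = e then 1 else 0
  | HS.nu m => X HS.b * (X (HS.nu (e ::ₘ m)) - X (HS.nu {e}) * X (HS.nu m))
  | HS.phi => tau e

/-- Formal derivative in `s`. -/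
noncomputable def ds : Derivation ℝ (R1 ι) (R1 ι) := mkDerivation ℝ fun
  | HS.b => -X HS.b ^ 2
  | HS.P _ => 0
  | HS.nu m => C (1 / 2) * X HS.b ^ 2 * ∑ f : ι,
      ((X (HS.nu (f ::ₘ f ::ₘ m)) - X (HS.nu (f ::ₘ {f})) * X (HS.nu m)) -
        2 * X (HS.P f) * (X (HS.nu (f ::ₘ m)) - X (HS.nu {f}) * X (HS.nu m)))
  | HS.phi => C (1 / 2) * ∑ e : ι, dp e (tau e) - C (1 / 2) * ∑ e : ι, tau e ^ 2

/-- Iterated formal derivative along a list. -/
noncomputable def dpl (l : List ι) (r : R1 ι) : R1 ι := l.foldr (fun e x => dp e x) r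

/-- Unnormalized posterior weight. -/
noncomputable def wt (V : Euc ι → ℝ) (s : ℝ) (p y : Euc ι) : ℝ :=
  Real.exp (-(‖y - p‖ ^ 2 / (2 * s)) - V y)

/-- Posterior moment about `q`. -/
noncomputable def mom (V : Euc ι → ℝ) (q : Euc ι) (m : Multiset ι) (s : ℝ) (p : Euc ι) : ℝ :=
  (∫ y, (m.map fun e => y e - q e).prod * wt V s p y) / ∫ y, wt V s p y

noncomputable def ev1 (V : Euc ι → ℝ) (q : Euc ι) (s : ℝ) (p : Euc ι) : R1 ι →ₐ[ℝ] ℝ :=
  aeval fun
    | HS.b => 1 / s
    | HS.P e => p e - q e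
    | HS.nu m => mom V q m s p
    | HS.phi => dm ι / 2 * Real.log (2 * Real.pi * s) - Real.log (∫ y, wt V s p y)

/-- `T V m s p = ∂^m V_s (p)`. -/
noncomputable def T (V : Euc ι → ℝ) (m : Multiset ι) (s : ℝ) (p : Euc ι) : ℝ :=
  ev1 V 0 s p (dpl m.toList (X HS.phi))

/-- The smoothed gradient `∇V_s`. -/
noncomputable def fs (V : Euc ι → ℝ) (s : ℝ) (p : Euc ι) : Euc ι :=
  WithLp.toLp 2 fun e => T V {e} s p

/-- The smoothed Hessian `∇²V_s` as a continuous linear map. -/
noncomputable def Ms (V : Euc ι → ℝ) (s : ℝ) (p : Euc ι) : Euc ι →L[ℝ] Euc ι :=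
  LinearMap.toContinuousLinearMap
    (Matrix.toEuclideanLin (Matrix.of fun e f : ι => T V (e ::ₘ {f}) s p))

lemma fs_apply (V : Euc ι → ℝ) (s : ℝ) (p : Euc ι) (e : ι) : fs V s p e = T V {e} s p := rfl

lemma Ms_apply (V : Euc ι → ℝ) (s : ℝ) (p v : Euc ι) (e : ι) :
    Ms V s p v e = ∑ f, T V (e ::ₘ {f}) s p * v f := by
  simp [Ms, Matrix.toLpLin_apply, Matrix.mulVec, dotProduct]


/-! Algebra of the formal derivatives -/

namespace HA

omit [Fintype ι] in
lemma dp_b (e : ι) : dp e (X HS.b : R1 ι) = 0 := by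
  simp only [dp, mkDerivation_X]

omit [Fintype ι] in
lemma dp_P (e f : ι) : dp e (X (HS.P f) : R1 ι) = if f = e then 1 else 0 := by
  simp only [dp, mkDerivation_X]

omit [Fintype ι] in
lemma dp_nu (e : ι) (m : Multiset ι) : dp e (X (HS.nu m) : R1 ι) =
    X HS.b * (X (HS.nu (e ::ₘ m)) - X (HS.nu {e}) * X (HS.nu m)) := by
  simp only [dp, mkDerivation_X]

omit [Fintype ι] in
lemma dp_phi (e : ι) : dp e (X HS.phi : R1 ι) = tau e := by
  simp only [dp, mkDerivation_X]

lemma ds_b : ds (X HS.b : R1 ι) = -X HS.b ^ 2 := by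
  simp only [ds, mkDerivation_X]

lemma ds_P (f : ι) : ds (X (HS.P f) : R1 ι) = 0 := by
  simp only [ds, mkDerivation_X]

lemma ds_nu (m : Multiset ι) : ds (X (HS.nu m) : R1 ι) = C (1 / 2) * X HS.b ^ 2 * ∑ f : ι,
      ((X (HS.nu (f ::ₘ f ::ₘ m)) - X (HS.nu (f ::ₘ {f})) * X (HS.nu m)) -
        2 * X (HS.P f) * (X (HS.nu (f ::ₘ m)) - X (HS.nu {f}) * X (HS.nu m))) := by
  simp only [ds, mkDerivation_X]

lemma ds_phi : ds (X HS.phi : R1 ι) =
    C (1 / 2) * ∑ e : ι, dp e (tau e) - C (1 / 2) * ∑ e : ι, tau e ^ 2 := by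
  simp only [ds, mkDerivation_X]

omit [Fintype ι] [DecidableEq ι] in
lemma der_mul (D : Derivation ℝ (R1 ι) (R1 ι)) (a b : R1 ι) : D (a * b) = D a * b + a * D b := by
  rw [Derivation.leibniz, smul_eq_mul, smul_eq_mul]; ring

omit [Fintype ι] [DecidableEq ι] in
lemma der_C (D : Derivation ℝ (R1 ι) (R1 ι)) (c : ℝ) : D (C c) = 0 :=
  D.map_algebraMap c

omit [Fintype ι] [DecidableEq ι] in
lemma der_two (D : Derivation ℝ (R1 ι) (R1 ι)) : D 2 = 0 := by
  have h : (2 : R1 ι) = 1 + 1 := by norm_num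
  rw [h, map_add, Derivation.map_one_eq_zero, add_zero]

omit [Fintype ι] [DecidableEq ι] in
lemma der_sq (D : Derivation ℝ (R1 ι) (R1 ι)) (a : R1 ι) : D (a ^ 2) = 2 * a * D a := by
  rw [sq, der_mul]; ring

omit [Fintype ι] [DecidableEq ι] in
lemma der_ite (D : Derivation ℝ (R1 ι) (R1 ι)) (c : Prop) [Decidable c] :
    D (if c then 1 else 0) = 0 := by
  split_ifs
  · exact Derivation.map_one_eq_zero D
  · exact map_zero D

omit [Fintype ι] [DecidableEq ι] in
lemma cons_single_comm (e f : ι) : (e ::ₘ {f} : Multiset ι) = f ::ₘ {e} :=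
  Multiset.cons_swap e f 0

omit [Fintype ι] in
lemma dp_tau (e f : ι) : dp e (tau f) = X HS.b * ((if f = e then 1 else 0) -
    X HS.b * (X (HS.nu (e ::ₘ {f})) - X (HS.nu {e}) * X (HS.nu {f}))) := by
  simp only [tau, der_mul, map_sub, dp_b, dp_P, dp_nu, zero_mul, zero_add]

omit [Fintype ι] in
lemma dp_comm (e f : ι) (r : R1 ι) : dp e (dp f r) = dp f (dp e r) := by
  have h : ⁅(dp e : Derivation ℝ (R1 ι) (R1 ι)), dp f⁆ = 0 := by
    refine derivation_ext fun i => ?_
    rw [Derivation.commutator_apply, Derivation.zero_apply, sub_eq_zero]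
    cases i with
    | b => simp only [dp_b, map_zero]
    | P g => simp only [dp_P, der_ite]
    | nu m =>
      simp only [dp_nu, der_mul, map_sub, dp_b, Multiset.cons_swap e f m, cons_single_comm e f]
      ring
    | phi =>
      simp only [dp_phi, dp_tau, cons_single_comm e f, @eq_comm ι e f]
      ring
  have h2 := Derivation.commutator_apply (D1 := dp e) (D2 := dp f) r
  rw [h, Derivation.zero_apply] at h2
  exact sub_eq_zero.1 h2.symm

omit [Fintype ι] [DecidableEq ι] in
lemma half_two : (C (1 / 2) : R1 ι) * 2 = 1 := by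
  have h : (2 : R1 ι) = C 2 := (map_ofNat C 2).symm
  rw [h, ← C_mul]; norm_num

lemma ds_phi' : ds (X HS.phi : R1 ι) = C (1 / 2) * ∑ e : ι, (X HS.b - X HS.b ^ 2 *
    (X (HS.nu (e ::ₘ {e})) - 2 * X (HS.P e) * X (HS.nu {e}) + X (HS.P e) ^ 2)) := by
  rw [ds_phi, ← mul_sub, ← Finset.sum_sub_distrib]
  refine congrArg _ (Finset.sum_congr rfl fun e _ => ?_)
  rw [dp_tau, tau, if_pos rfl]
  ring

lemma ds_comm (e : ι) (r : R1 ι) : dp e (ds r) = ds (dp e r) := by
  have h : ⁅(dp e : Derivation ℝ (R1 ι) (R1 ι)), ds (ι := ι)⁆ = 0 := by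
    refine derivation_ext fun i => ?_
    rw [Derivation.commutator_apply, Derivation.zero_apply, sub_eq_zero]
    cases i with
    | b => simp only [dp_b, ds_b, map_zero, map_neg, der_sq, mul_zero, neg_zero]
    | P g => simp only [dp_P, ds_P, der_ite, map_zero]
    | nu m =>
      have h1 : ∀ f : ι, dp e ((X (HS.nu (f ::ₘ f ::ₘ m)) - X (HS.nu (f ::ₘ {f})) * X (HS.nu m)) -
          2 * X (HS.P f) * (X (HS.nu (f ::ₘ m)) - X (HS.nu {f}) * X (HS.nu m)) : R1 ι) =
          (if f = e then -2 * (X (HS.nu (e ::ₘ m)) - X (HS.nu {e}) * X (HS.nu m)) else 0) +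
          X HS.b * (((X (HS.nu (f ::ₘ f ::ₘ e ::ₘ m)) - X (HS.nu (f ::ₘ {f})) * X (HS.nu (e ::ₘ m))) -
            2 * X (HS.P f) * (X (HS.nu (f ::ₘ e ::ₘ m)) - X (HS.nu {f}) * X (HS.nu (e ::ₘ m)))) -
          (((X (HS.nu (f ::ₘ f ::ₘ {e})) - X (HS.nu (f ::ₘ {f})) * X (HS.nu {e})) -
            2 * X (HS.P f) * (X (HS.nu (f ::ₘ {e})) - X (HS.nu {f}) * X (HS.nu {e}))) * X (HS.nu m) +
          X (HS.nu {e}) * ((X (HS.nu (f ::ₘ f ::ₘ m)) - X (HS.nu (f ::ₘ {f})) * X (HS.nu m)) -
            2 * X (HS.P f) * (X (HS.nu (f ::ₘ m)) - X (HS.nu {f}) * X (HS.nu m))))) := by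
        intro f
        have a1 : (e ::ₘ f ::ₘ f ::ₘ m) = f ::ₘ f ::ₘ e ::ₘ m := by
          rw [Multiset.cons_swap e f, Multiset.cons_swap e f]
        have a2 : (e ::ₘ f ::ₘ {f} : Multiset ι) = f ::ₘ f ::ₘ {e} := by
          rw [Multiset.cons_swap e f, cons_single_comm e f]
        simp only [der_mul, map_sub, dp_nu, dp_P, der_two, a1, a2, Multiset.cons_swap e f m,
          cons_single_comm e f]
        split_ifs with hfe
        · subst hfe; ring
        · ring
      rw [ds_nu, der_mul, der_mul, der_C, der_sq, dp_b, mul_zero, mul_zero, zero_mul, add_zero,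
        zero_mul, zero_add, map_sum, Finset.sum_congr rfl fun f _ => h1 f,
        Finset.sum_add_distrib, Finset.sum_ite_eq', if_pos (Finset.mem_univ e), ← Finset.mul_sum,
        Finset.sum_sub_distrib, Finset.sum_add_distrib, ← Finset.sum_mul, ← Finset.mul_sum,
        dp_nu, der_mul, map_sub, der_mul, ds_b, ds_nu, ds_nu, ds_nu]
      linear_combination (-(X HS.b ^ 2 * (X (HS.nu (e ::ₘ m)) - X (HS.nu {e}) * X (HS.nu m))) : R1 ι) *
        half_two (ι := ι)
    | phi =>
      have h1 : ∀ f : ι, dp e (X HS.b - X HS.b ^ 2 *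
          (X (HS.nu (f ::ₘ {f})) - 2 * X (HS.P f) * X (HS.nu {f}) + X (HS.P f) ^ 2) : R1 ι) =
          (if f = e then -2 * X HS.b ^ 2 * (X (HS.P e) - X (HS.nu {e})) else 0) -
          X HS.b ^ 3 * ((X (HS.nu (f ::ₘ f ::ₘ {e})) - X (HS.nu (f ::ₘ {f})) * X (HS.nu {e})) -
            2 * X (HS.P f) * (X (HS.nu (f ::ₘ {e})) - X (HS.nu {f}) * X (HS.nu {e}))) := by
        intro f
        have a2 : (e ::ₘ f ::ₘ {f} : Multiset ι) = f ::ₘ f ::ₘ {e} := by
          rw [Multiset.cons_swap e f, cons_single_comm e f]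
        simp only [der_mul, der_sq, map_sub, map_add, dp_nu, dp_P, dp_b, der_two, a2,
          cons_single_comm e f]
        split_ifs with hfe
        · subst hfe; ring
        · ring
      rw [ds_phi', der_mul, der_C, zero_mul, zero_add, map_sum,
        Finset.sum_congr rfl fun f _ => h1 f,
        Finset.sum_sub_distrib, Finset.sum_ite_eq', if_pos (Finset.mem_univ e), ← Finset.mul_sum,
        dp_phi, tau, der_mul, map_sub, ds_b, ds_P, ds_nu]
      linear_combination (-(X HS.b ^ 2 * (X (HS.P e) - X (HS.nu {e}))) : R1 ι) * half_two (ι := ι)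
  have h2 := Derivation.commutator_apply (D1 := dp e) (D2 := ds (ι := ι)) r
  rw [h, Derivation.zero_apply] at h2
  exact sub_eq_zero.1 h2.symm

omit [Fintype ι] in
lemma dpl_perm {l l' : List ι} (h : l.Perm l') (r : R1 ι) : dpl l r = dpl l' r := by
  induction h with
  | nil => rfl
  | cons e _ ih => exact congrArg (dp e) ih
  | swap e f l => exact dp_comm f e _
  | trans _ _ ih1 ih2 => exact ih1.trans ih2

omit [Fintype ι] in
lemma dpm_zero (r : R1 ι) : dpl (0 : Multiset ι).toList r = r := by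
  rw [Multiset.toList_zero]; rfl

omit [Fintype ι] in
lemma dpm_cons (e : ι) (m : Multiset ι) (r : R1 ι) :
    dpl (e ::ₘ m).toList r = dp e (dpl m.toList r) := by
  have h : (e ::ₘ m).toList.Perm (e :: m.toList) := by
    rw [← Multiset.coe_eq_coe, Multiset.coe_toList, ← Multiset.cons_coe, Multiset.coe_toList]
  exact dpl_perm h r

omit [Fintype ι] in
lemma dpm_dp (e : ι) (m : Multiset ι) (r : R1 ι) :
    dpl m.toList (dp e r) = dpl (e ::ₘ m).toList r := by
  induction m using Multiset.induction_on with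
  | empty => rw [dpm_cons, dpm_zero, dpm_zero]
  | cons f m ih => rw [dpm_cons, ih, Multiset.cons_swap, dpm_cons f]

lemma dpm_ds (m : Multiset ι) (r : R1 ι) : ds (dpl m.toList r) = dpl m.toList (ds r) := by
  induction m using Multiset.induction_on with
  | empty => rw [dpm_zero, dpm_zero]
  | cons f m ih => rw [dpm_cons, dpm_cons, ← ds_comm, ih]

omit [Fintype ι] in
lemma dpm_sub (m : Multiset ι) (a b : R1 ι) :
    dpl m.toList (a - b) = dpl m.toList a - dpl m.toList b := by
  induction m using Multiset.induction_on with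
  | empty => simp only [dpm_zero]
  | cons f m ih => simp only [dpm_cons, ih, map_sub]

omit [Fintype ι] in
lemma dpm_C (m : Multiset ι) (c : ℝ) (a : R1 ι) :
    dpl m.toList (C c * a) = C c * dpl m.toList a := by
  induction m using Multiset.induction_on with
  | empty => simp only [dpm_zero]
  | cons f m ih => simp only [dpm_cons, ih, der_mul, der_C, zero_mul, zero_add]

lemma dpm_sum (m : Multiset ι) (a : ι → R1 ι) :
    dpl m.toList (∑ e, a e) = ∑ e, dpl m.toList (a e) := by
  induction m using Multiset.induction_on with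
  | empty => simp only [dpm_zero]
  | cons f m ih => simp only [dpm_cons, ih, map_sum]

omit [Fintype ι] in
lemma dpm_mul (m : Multiset ι) (a b : R1 ι) : dpl m.toList (a * b) =
    ((Multiset.antidiagonal m).map fun ab => dpl ab.1.toList a * dpl ab.2.toList b).sum := by
  induction m using Multiset.induction_on with
  | empty => simp only [dpm_zero, Multiset.antidiagonal_zero, Multiset.map_singleton,
      Multiset.sum_singleton]
  | cons f m ih =>
    rw [dpm_cons, ih, map_multiset_sum, Multiset.map_map, Multiset.antidiagonal_cons,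
      Multiset.map_add, Multiset.sum_add, Multiset.map_map, Multiset.map_map,
      ← Multiset.sum_map_add]
    congr 1
    refine Multiset.map_congr rfl fun ab _ => ?_
    simp only [Function.comp_apply, der_mul, Prod.map_fst, Prod.map_snd, id, dpm_cons]
    ring

lemma ds_dpm_phi (m : Multiset ι) : ds (dpl m.toList (X HS.phi : R1 ι)) =
    C (1 / 2) * ∑ e, dpl (e ::ₘ e ::ₘ m).toList (X HS.phi) -
      C (1 / 2) * ∑ e, ((Multiset.antidiagonal m).map fun ab =>
        dpl (e ::ₘ ab.1).toList (X HS.phi) * dpl (e ::ₘ ab.2).toList (X HS.phi)).sum := by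
  rw [dpm_ds, ds_phi, dpm_sub, dpm_C, dpm_C, dpm_sum, dpm_sum]
  simp only [← dp_phi, sq, dpm_mul, dpm_dp]

end HA

open HA

variable {V : Euc ι → ℝ}

omit [DecidableEq ι] in
lemma wt_pos (s : ℝ) (p y : Euc ι) : 0 < wt V s p y := Real.exp_pos _

omit [DecidableEq ι] in
/-- Polynomial moments of the weight are finite. -/
lemma wt_int (hV : InClass V) {s : ℝ} (hs : 0 < s) (p : Euc ι) (n : ℕ) :
    Integrable fun y : Euc ι => (1 + ‖y‖) ^ n * wt V s p y := by
  have h : PG fun y : Euc ι => (1 + ‖y‖) ^ n :=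
    ⟨by fun_prop, 1, n, zero_le_one, fun y => by rw [abs_of_nonneg (by positivity), one_mul]⟩
  exact h.int hV (x := (s, p)) hs

omit [DecidableEq ι] in
lemma wt_int_pos (hV : InClass V) {s : ℝ} (hs : 0 < s) (p : Euc ι) : 0 < ∫ y, wt V s p y :=
  wx_int_pos hV (x := (s, p)) hs

namespace HA

omit [DecidableEq ι] in
lemma int_wt (q : Euc ι) (s : ℝ) (p : Euc ι) : ∫ y, wt V s p y = Im V q 0 (s, p) :=
  (Im_zero q (s, p)).symm

omit [DecidableEq ι] in
lemma mom_eq (q : Euc ι) (m : Multiset ι) (s : ℝ) (p : Euc ι) :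
    mom V q m s p = Im V q m (s, p) / Im V q 0 (s, p) := by
  rw [mom, int_wt q]; rfl

omit [DecidableEq ι] in
lemma Im_pos (hV : InClass V) (q : Euc ι) {s : ℝ} (hs : 0 < s) (p : Euc ι) :
    0 < Im V q 0 (s, p) := by
  rw [← int_wt]; exact wt_int_pos hV hs p

omit [DecidableEq ι] in
lemma ev_b (q : Euc ι) (s : ℝ) (p : Euc ι) : ev1 V q s p (X HS.b) = 1 / s := by
  simp only [ev1, aeval_X]

omit [DecidableEq ι] in
lemma ev_P (q : Euc ι) (s : ℝ) (p : Euc ι) (e : ι) : ev1 V q s p (X (HS.P e)) = p e - q e := by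
  simp only [ev1, aeval_X]

omit [DecidableEq ι] in
lemma ev_nu (q : Euc ι) (s : ℝ) (p : Euc ι) (m : Multiset ι) :
    ev1 V q s p (X (HS.nu m)) = mom V q m s p := by
  simp only [ev1, aeval_X]

omit [DecidableEq ι] in
lemma ev_phi (q : Euc ι) (s : ℝ) (p : Euc ι) : ev1 V q s p (X HS.phi) =
    dm ι / 2 * Real.log (2 * Real.pi * s) - Real.log (∫ y, wt V s p y) := by
  simp only [ev1, aeval_X]

omit [DecidableEq ι] in
lemma ev_C (q : Euc ι) (s : ℝ) (p : Euc ι) (c : ℝ) : ev1 V q s p (C c) = c :=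
  (ev1 V q s p).commutes c

lemma ev_curve_X (hV : InClass V) (q : Euc ι) (i : HS ι) {σ : ℝ → ℝ} {π : ℝ → Euc ι} {t σ' : ℝ}
    {π' : Euc ι} (hσ : HasDerivAt σ σ' t) (hπ : HasDerivAt π π' t) (h0 : 0 < σ t) :
    HasDerivAt (fun τ => ev1 V q (σ τ) (π τ) (X i))
      (∑ e, π' e * ev1 V q (σ t) (π t) (dp e (X i)) + σ' * ev1 V q (σ t) (π t) (ds (X i))) t := by
  have hs := h0.ne'
  have hI := (Im_pos hV q h0 (π t)).ne'
  cases i with
  | b =>
    simp only [ev_b, dp_b, ds_b, map_zero, map_neg, map_pow, mul_zero, Finset.sum_const_zero,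
      zero_add, one_div]
    refine (hσ.inv hs).congr_deriv ?_
    field_simp
  | P f =>
    simp only [ev_P, dp_P, ds_P, map_zero, mul_zero, add_zero]
    have h1 : HasDerivAt (fun τ => π τ f) (π' f) t :=
      (EuclideanSpace.proj (𝕜 := ℝ) f).hasFDerivAt.comp_hasDerivAt t hπ
    refine (h1.sub_const (q f)).congr_deriv ?_
    rw [Finset.sum_eq_single f]
    · rw [if_pos rfl, map_one, mul_one]
    · intro e _ hef
      rw [if_neg (Ne.symm hef), map_zero, mul_zero]
    · intro h; exact absurd (Finset.mem_univ f) h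
  | nu m =>
    simp only [ev_nu, dp_nu, ds_nu, map_mul, map_sub, map_sum, map_pow, ev_b, ev_P, ev_C,
      map_ofNat, mom_eq]
    refine ((Im_curve hV q m hσ hπ h0).div (Im_curve hV q 0 hσ hπ h0) hI).congr_deriv ?_
    rw [Finset.sum_mul, Finset.mul_sum, ← Finset.sum_sub_distrib, Finset.sum_div, Finset.mul_sum,
      Finset.mul_sum, ← Finset.sum_add_distrib]
    refine Finset.sum_congr rfl fun e _ => ?_
    simp only [Multiset.cons_zero]
    field_simp
    ring
  | phi =>
    simp only [ev_phi, dp_phi, tau, ds_phi', map_mul, map_sub, map_add, map_sum, map_pow, ev_b,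
      ev_P, ev_nu, ev_C, map_ofNat, mom_eq, int_wt q]
    have h1 := ((hσ.const_mul (2 * Real.pi)).log (by positivity)).const_mul (dm ι / 2)
    refine (h1.sub ((Im_curve hV q 0 hσ hπ h0).log hI)).congr_deriv ?_
    have h2 : dm ι / 2 * (2 * Real.pi * σ' / (2 * Real.pi * σ t)) = ∑ _e : ι, σ' / (2 * σ t) := by
      rw [Finset.sum_const, Finset.card_univ, nsmul_eq_mul]
      field_simp
    rw [h2, Finset.sum_div, ← Finset.sum_sub_distrib, Finset.mul_sum, Finset.mul_sum,
      ← Finset.sum_add_distrib]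
    refine Finset.sum_congr rfl fun e _ => ?_
    simp only [Multiset.cons_zero]
    field_simp
    ring

/-- The chain rule along a curve, for every element of the formal ring. -/
lemma ev_curve (hV : InClass V) (q : Euc ι) (r : R1 ι) {σ : ℝ → ℝ} {π : ℝ → Euc ι} {t σ' : ℝ}
    {π' : Euc ι} (hσ : HasDerivAt σ σ' t) (hπ : HasDerivAt π π' t) (h0 : 0 < σ t) :
    HasDerivAt (fun τ => ev1 V q (σ τ) (π τ) r)
      (∑ e, π' e * ev1 V q (σ t) (π t) (dp e r) + σ' * ev1 V q (σ t) (π t) (ds r)) t := by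
  induction r using MvPolynomial.induction_on with
  | C c =>
    simp only [ev_C, der_C, map_zero, mul_zero, Finset.sum_const_zero, add_zero]
    exact hasDerivAt_const t c
  | add a b iha ihb =>
    simp only [map_add]
    refine (iha.add ihb).congr_deriv ?_
    simp only [mul_add, Finset.sum_add_distrib]
    ring
  | mul_X a i ih =>
    simp only [map_mul, der_mul, map_add]
    refine (ih.mul (ev_curve_X hV q i hσ hπ h0)).congr_deriv ?_
    simp only [mul_add, add_mul, Finset.sum_add_distrib, Finset.sum_mul, Finset.mul_sum]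
    have h1 : ∀ e, π' e * (ev1 V q (σ t) (π t) a * ev1 V q (σ t) (π t) (dp e (X i))) =
        ev1 V q (σ t) (π t) a * (π' e * ev1 V q (σ t) (π t) (dp e (X i))) := fun e => by ring
    simp only [h1, mul_assoc]
    ring

omit [DecidableEq ι] in
lemma ev_contAt (hV : InClass V) (q : Euc ι) (r : R1 ι) {x : ℝ × Euc ι} (hx : 0 < x.1) :
    ContinuousAt (fun z : ℝ × Euc ι => ev1 V q z.1 z.2 r) x := by
  have hI := (Im_pos hV q hx x.2).ne'
  induction r using MvPolynomial.induction_on with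
  | C c => simp only [ev_C]; exact continuousAt_const
  | add a b iha ihb => simp only [map_add]; exact iha.add ihb
  | mul_X a i ih =>
    simp only [map_mul]
    refine ih.mul ?_
    cases i with
    | b => simp only [ev_b]; exact continuousAt_const.div continuousAt_fst hx.ne'
    | P f => simp only [ev_P]; fun_prop
    | nu m =>
      simp only [ev_nu, mom_eq]
      exact (Im_contAt hV q m hx).div (Im_contAt hV q 0 hx) hI
    | phi =>
      simp only [ev_phi, int_wt q]
      refine ContinuousAt.sub (continuousAt_const.mul ?_) ((Im_contAt hV q 0 hx).log hI)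
      exact (continuousAt_const.mul continuousAt_fst).log
        (mul_ne_zero (by positivity) hx.ne')

lemma ev_line (hV : InClass V) (q : Euc ι) (r : R1 ι) {s : ℝ} (hs : 0 < s) (p : Euc ι) (e : ι) :
    HasDerivAt (fun τ : ℝ => ev1 V q s (p + τ • EuclideanSpace.single e (1 : ℝ)) r)
      (ev1 V q s p (dp e r)) 0 := by
  have hπ : HasDerivAt (fun τ : ℝ => p + τ • EuclideanSpace.single e (1 : ℝ))
      (EuclideanSpace.single e (1 : ℝ)) 0 := by
    simpa using ((hasDerivAt_id (0 : ℝ)).smul_const (EuclideanSpace.single e (1 : ℝ))).const_add p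
  refine (ev_curve hV q r (hasDerivAt_const (0 : ℝ) s) hπ hs).congr_deriv ?_
  rw [zero_mul, add_zero, zero_smul, add_zero, Finset.sum_eq_single e]
  · simp
  · intro f _ hfe
    simp [hfe]
  · intro h; exact absurd (Finset.mem_univ e) h

/-- The derivatives do not depend on the centre of the moments. -/
lemma T_eq (hV : InClass V) (q : Euc ι) (m : Multiset ι) {s : ℝ} (hs : 0 < s) (p : Euc ι) :
    T V m s p = ev1 V q s p (dpl m.toList (X HS.phi)) := by
  unfold T
  induction m using Multiset.induction_on generalizing p with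
  | empty => simp only [dpm_zero, ev_phi]
  | cons e m ih =>
    rw [dpm_cons]
    have h1 := ev_line hV 0 (dpl m.toList (X HS.phi)) hs p e
    have h2 := ev_line hV q (dpl m.toList (X HS.phi)) hs p e
    simp only [ih] at h1
    exact h1.unique h2

omit [Fintype ι] in
lemma dp_adjoin (e : ι) {r : R1 ι}
    (hr : r ∈ Algebra.adjoin ℝ (Set.range fun n : Multiset ι => (X (HS.nu n) : R1 ι))) :
    ∃ r' ∈ Algebra.adjoin ℝ (Set.range fun n : Multiset ι => (X (HS.nu n) : R1 ι)),
      dp e r = X HS.b * r' := by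
  have hX : ∀ n : Multiset ι, (X (HS.nu n) : R1 ι) ∈
      Algebra.adjoin ℝ (Set.range fun n : Multiset ι => (X (HS.nu n) : R1 ι)) :=
    fun n => Algebra.subset_adjoin ⟨n, rfl⟩
  induction hr using Algebra.adjoin_induction with
  | mem x hx =>
    obtain ⟨n, rfl⟩ := hx
    exact ⟨_, sub_mem (hX _) (mul_mem (hX _) (hX _)), dp_nu e n⟩
  | algebraMap c => exact ⟨0, zero_mem _, by rw [Derivation.map_algebraMap, mul_zero]⟩
  | add x y _ _ ihx ihy =>
    obtain ⟨a, ha, h1⟩ := ihx
    obtain ⟨b, hb, h2⟩ := ihy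
    exact ⟨a + b, add_mem ha hb, by rw [map_add, h1, h2, mul_add]⟩
  | mul x y hx hy ihx ihy =>
    obtain ⟨a, ha, h1⟩ := ihx
    obtain ⟨b, hb, h2⟩ := ihy
    exact ⟨a * y + x * b, add_mem (mul_mem ha hy) (mul_mem hx hb), by rw [der_mul, h1, h2]; ring⟩

omit [Fintype ι] in
lemma dpm_poly (m : Multiset ι) (hm : 2 ≤ Multiset.card m) :
    ∃ k : ℝ, ∃ r ∈ Algebra.adjoin ℝ (Set.range fun n : Multiset ι => (X (HS.nu n) : R1 ι)),
      dpl m.toList (X HS.phi) = C k * X HS.b + X HS.b ^ Multiset.card m * r := by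
  have hX : ∀ n : Multiset ι, (X (HS.nu n) : R1 ι) ∈
      Algebra.adjoin ℝ (Set.range fun n : Multiset ι => (X (HS.nu n) : R1 ι)) :=
    fun n => Algebra.subset_adjoin ⟨n, rfl⟩
  induction m using Multiset.induction_on with
  | empty => simp at hm
  | cons e m ih =>
    rw [Multiset.card_cons] at hm ⊢
    by_cases h2 : 2 ≤ Multiset.card m
    · obtain ⟨k, r, hr, h⟩ := ih h2
      obtain ⟨r', hr', h'⟩ := dp_adjoin e hr
      refine ⟨0, r', hr', ?_⟩
      rw [dpm_cons, h, map_add, der_mul, der_mul, der_C, dp_b, Derivation.leibniz_pow, dp_b, h',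
        C_0]
      simp only [smul_zero]
      ring
    · have h1 : Multiset.card m = 1 := by omega
      obtain ⟨f, rfl⟩ := Multiset.card_eq_one.1 h1
      refine ⟨if f = e then 1 else 0, -(X (HS.nu (e ::ₘ {f})) - X (HS.nu {e}) * X (HS.nu {f})),
        neg_mem (sub_mem (hX _) (mul_mem (hX _) (hX _))), ?_⟩
      rw [dpm_cons, ← Multiset.cons_zero f, dpm_cons, dpm_zero, dp_phi, dp_tau, Multiset.cons_zero,
        Multiset.card_singleton]
      split_ifs
      · rw [C_1]; ring
      · rw [C_0]; ring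

end HA

/-- The derivative of `T` along a curve: heat (Hamilton-Jacobi) equation and its derivatives. -/
theorem T_deriv (hV : InClass V) (m : Multiset ι) {σ : ℝ → ℝ} {π : ℝ → Euc ι} {t σ' : ℝ}
    {π' : Euc ι} (hσ : HasDerivAt σ σ' t) (hπ : HasDerivAt π π' t) (h0 : 0 < σ t) :
    HasDerivAt (fun τ => T V m (σ τ) (π τ))
      (∑ e, π' e * T V (e ::ₘ m) (σ t) (π t) +
        σ' * (1 / 2 * ∑ e, T V (e ::ₘ e ::ₘ m) (σ t) (π t) -
          1 / 2 * ∑ e, ((Multiset.antidiagonal m).map fun ab =>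
            T V (e ::ₘ ab.1) (σ t) (π t) * T V (e ::ₘ ab.2) (σ t) (π t)).sum)) t := by
  refine (ev_curve hV 0 (dpl m.toList (X HS.phi)) hσ hπ h0).congr_deriv ?_
  simp only [ds_dpm_phi, ← dpm_cons, map_sub, map_mul, map_sum, ev_C, map_multiset_sum,
    Multiset.map_map, Function.comp_def, T]

theorem T_cont (hV : InClass V) (m : Multiset ι) :
    ContinuousOn (fun q : ℝ × Euc ι => T V m q.1 q.2) {q | 0 < q.1} :=
  fun _ hx => (ev_contAt hV 0 _ hx).continuousWithinAt

theorem T_zero (hV : InClass V) {s : ℝ} (hs : 0 < s) (p : Euc ι) :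
    Real.exp (-T V 0 s p) = ∫ ζ, Real.exp (-V (p + √s • ζ)) ∂(gam ι) := by
  have h : ∫ y, wx V (s, p) y = ∫ y, wt V s p y := rfl
  rw [wx_gauss hs, h, T, dpm_zero, ev_phi, neg_sub, Real.exp_sub,
    Real.exp_log (wt_int_pos hV hs p), Real.rpow_def_of_pos (by positivity), div_eq_mul_inv,
    ← Real.exp_neg, mul_comm]
  congr 2
  ring

theorem T_zero_nonneg (hV : InClass V) {s : ℝ} (hs : 0 < s) (p : Euc ι) : 0 ≤ T V 0 s p := by
  have h : Real.exp (-T V 0 s p) ≤ 1 := by
    rw [T_zero hV hs]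
    have h1 : ∫ _ζ, (1 : ℝ) ∂(gam ι) = 1 := by simp
    rw [← h1]
    refine integral_mono_of_nonneg (Filter.Eventually.of_forall fun ζ => (Real.exp_pos _).le)
      (integrable_const _) (Filter.Eventually.of_forall fun ζ => ?_)
    have h2 := hV.lower (p + √s • ζ)
    have h3 : 0 ≤ ‖p + √s • ζ‖ ^ 2 / 2 := by positivity
    exact Real.exp_le_one_iff.2 (by linarith)
  have := Real.exp_le_one_iff.1 h
  linarith

theorem T_single (hV : InClass V) {s : ℝ} (hs : 0 < s) (q p : Euc ι) (e : ι) :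
    T V {e} s p = (p e - q e - mom V q {e} s p) / s := by
  rw [T_eq hV q _ hs, ← Multiset.cons_zero e, dpm_cons, dpm_zero, dp_phi, tau, map_mul, map_sub,
    ev_b, ev_P, ev_nu, Multiset.cons_zero]
  ring

theorem T_pair (hV : InClass V) {s : ℝ} (hs : 0 < s) (q p : Euc ι) (e f : ι) :
    T V (e ::ₘ {f}) s p = (if e = f then 1 else 0) / s -
      (mom V q (e ::ₘ {f}) s p - mom V q {e} s p * mom V q {f} s p) / s ^ 2 := by
  have h : dpl (e ::ₘ {f} : Multiset ι).toList (X HS.phi : R1 ι) = dp e (tau f) := by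
    rw [dpm_cons, ← Multiset.cons_zero f, dpm_cons, dpm_zero, dp_phi]
  rw [T_eq hV q _ hs, h, dp_tau]
  simp only [map_mul, map_sub, ev_b, ev_nu, @eq_comm ι e f]
  split_ifs
  · rw [map_one]; ring
  · rw [map_zero]; ring

/-- Higher derivatives are `s^{-|m|}` times polynomials in the moments about any centre. -/
theorem T_poly (m : Multiset ι) (hm : 2 ≤ Multiset.card m) :
    ∃ k : ℝ, ∃ r ∈ Algebra.adjoin ℝ (Set.range fun n : Multiset ι => (X (HS.nu n) : R1 ι)),
      ∀ V : Euc ι → ℝ, InClass V → ∀ s : ℝ, 0 < s → ∀ q p : Euc ι,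
        T V m s p = k / s + (1 / s) ^ Multiset.card m * ev1 V q s p r := by
  obtain ⟨k, r, hr, h⟩ := dpm_poly m hm
  refine ⟨k, r, hr, fun V hV s hs q p => ?_⟩
  rw [T_eq hV q m hs, h, map_add, map_mul, map_mul, map_pow, ev_C, ev_b]
  ring

end Vale.Agent.P347
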