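import Vale.Agent.P347.WD

/-! Differentiation under the integral for Gaussian posterior weights (used in `HeatA`). -/

open MeasureTheory ProbabilityTheory
open scoped RealInnerProductSpace

namespace Vale.Agent.P347.HA

variable {ι : Type} [Fintype ι] {V : Euc ι → ℝ}

/-- The posterior weight as a function of the pair `(s, p)`. -/
noncomputable def wx (V : Euc ι → ℝ) (x : ℝ × Euc ι) (y : Euc ι) : ℝ :=
  Real.exp (-(‖y - x.2‖ ^ 2 / (2 * x.1)) - V y)

/-- The logarithmic derivative of the weight in `(s, p)`. -/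
noncomputable def ax (x : ℝ × Euc ι) (y : Euc ι) : (ℝ × Euc ι) →L[ℝ] ℝ :=
  (‖y - x.2‖ ^ 2 / (2 * x.1 ^ 2)) • ContinuousLinearMap.fst ℝ ℝ (Euc ι) +
    (1 / x.1) • (innerSL ℝ (y - x.2)).comp (ContinuousLinearMap.snd ℝ ℝ (Euc ι))

lemma ax_apply (x : ℝ × Euc ι) (y : Euc ι) (v : ℝ × Euc ι) :
    ax x y v = ‖y - x.2‖ ^ 2 / (2 * x.1 ^ 2) * v.1 + 1 / x.1 * ⟪y - x.2, v.2⟫ := by
  simp only [ax, add_apply, smul_apply,
    ContinuousLinearMap.coe_fst', ContinuousLinearMap.comp_apply, ContinuousLinearMap.coe_snd',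
    innerSL_apply_apply, smul_eq_mul]

lemma gauss_int (n : ℕ) :
    Integrable fun y : Euc ι => (1 + ‖y‖) ^ n * Real.exp (-(‖y‖ ^ 2 / 2)) := by
  have h := gam_int_pow (ι := ι) n
  rw [gam_density, integrable_withDensity_iff (by fun_prop) (by simp)] at h
  have hc : 0 < (2 * Real.pi) ^ (-(dm ι / 2)) := Real.rpow_pos_of_pos (by positivity) _
  have h2 := h.const_mul ((2 * Real.pi) ^ (-(dm ι / 2)))⁻¹
  refine h2.congr (Filter.Eventually.of_forall fun y => ?_)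
  have h3 : 0 ≤ (2 * Real.pi) ^ (-(dm ι / 2)) * Real.exp (-(‖y‖ ^ 2 / 2)) := by positivity
  simp only [ENNReal.toReal_ofReal h3]
  field_simp

lemma wx_pos (x : ℝ × Euc ι) (y : Euc ι) : 0 < wx V x y := Real.exp_pos _

lemma wx_le (hV : InClass V) {x : ℝ × Euc ι} (hx : 0 < x.1) (y : Euc ι) :
    wx V x y ≤ Real.exp (-(‖y‖ ^ 2 / 2)) := by
  refine Real.exp_le_exp.2 ?_
  have h1 := hV.lower y
  have h2 : 0 ≤ ‖y - x.2‖ ^ 2 / (2 * x.1) := by positivity
  linarith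

lemma wx_cont (hV : InClass V) (x : ℝ × Euc ι) : Continuous (wx V x) := by
  have := hV.cont
  unfold wx
  fun_prop

lemma ax_cont (x : ℝ × Euc ι) : Continuous (ax x) := by
  unfold ax
  fun_prop

lemma wx_deriv {x : ℝ × Euc ι} (hx : 0 < x.1) (y : Euc ι) :
    HasFDerivAt (fun z => wx V z y) (wx V x y • ax x y) x := by
  have h1 : HasFDerivAt (fun z : ℝ × Euc ι => y - z.2) (-ContinuousLinearMap.snd ℝ ℝ (Euc ι)) x :=
    (hasFDerivAt_snd.const_sub y)
  have h2 := h1.norm_sq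
  have h3 : HasFDerivAt (fun z : ℝ × Euc ι => (2 * z.1)⁻¹)
      ((-((2 * x.1) ^ 2)⁻¹) • ((2 : ℝ) • ContinuousLinearMap.fst ℝ ℝ (Euc ι))) x :=
    (hasDerivAt_inv (by positivity : 2 * x.1 ≠ 0)).comp_hasFDerivAt x
      (hasFDerivAt_fst.const_mul 2)
  have h4 := (((h2.mul h3).neg).sub_const (V y)).exp
  have h5 : (fun z => wx V z y) = fun z : ℝ × Euc ι =>
      Real.exp (-(‖y - z.2‖ ^ 2 * (2 * z.1)⁻¹) - V y) := by
    funext z; simp only [wx, div_eq_mul_inv]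
  rw [h5]
  refine h4.congr_fderiv ?_
  refine ContinuousLinearMap.ext fun v => ?_
  have hx' := hx.ne'
  simp only [add_apply, smul_apply,
    ContinuousLinearMap.coe_fst', ContinuousLinearMap.comp_apply, ContinuousLinearMap.coe_snd',
    innerSL_apply_apply, smul_eq_mul, ax_apply, neg_apply, inner_neg_right,
    Pi.neg_apply, Pi.mul_apply, wx, nsmul_eq_mul, Nat.cast_ofNat, div_eq_mul_inv]
  field_simp
  ring

lemma ax_norm {x₀ x : ℝ × Euc ι} (hx₀ : 0 < x₀.1) (h1 : x₀.1 / 2 ≤ x.1) (h2 : ‖x.2‖ ≤ ‖x₀.2‖ + 1)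
    (y : Euc ι) :
    ‖ax x y‖ ≤ (2 * (‖x₀.2‖ + 2) ^ 2 / x₀.1 ^ 2 + 2 * (‖x₀.2‖ + 2) / x₀.1) * (1 + ‖y‖) ^ 2 := by
  have hx : 0 < x.1 := by linarith
  have hy := norm_nonneg y
  have hp := norm_nonneg x₀.2
  have hd : ‖y - x.2‖ ≤ (‖x₀.2‖ + 2) * (1 + ‖y‖) := by
    have := norm_sub_le y x.2
    nlinarith [mul_nonneg hy hp]
  have hd0 := norm_nonneg (y - x.2)
  have hd2 : ‖y - x.2‖ ^ 2 ≤ (‖x₀.2‖ + 2) ^ 2 * (1 + ‖y‖) ^ 2 := by
    rw [← mul_pow]; exact pow_le_pow_left₀ hd0 hd 2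
  have hi : 1 / x.1 ≤ 2 / x₀.1 := by
    rw [div_le_div_iff₀ hx hx₀]; linarith
  have hi2 : 1 / (2 * x.1 ^ 2) ≤ 2 / x₀.1 ^ 2 := by
    rw [div_le_div_iff₀ (by positivity) (by positivity)]; nlinarith
  refine ContinuousLinearMap.opNorm_le_bound _ (by positivity) fun v => ?_
  rw [ax_apply, Real.norm_eq_abs]
  have hv1 : |v.1| ≤ ‖v‖ := norm_fst_le v
  have hv2 : ‖v.2‖ ≤ ‖v‖ := norm_snd_le v
  have hv := norm_nonneg v
  have e1 : |‖y - x.2‖ ^ 2 / (2 * x.1 ^ 2) * v.1| ≤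
      2 * (‖x₀.2‖ + 2) ^ 2 / x₀.1 ^ 2 * (1 + ‖y‖) ^ 2 * ‖v‖ := by
    rw [abs_mul, abs_of_nonneg (by positivity)]
    refine mul_le_mul ?_ hv1 (abs_nonneg _) (by positivity)
    calc ‖y - x.2‖ ^ 2 / (2 * x.1 ^ 2) = ‖y - x.2‖ ^ 2 * (1 / (2 * x.1 ^ 2)) := by ring
      _ ≤ ((‖x₀.2‖ + 2) ^ 2 * (1 + ‖y‖) ^ 2) * (2 / x₀.1 ^ 2) :=
          mul_le_mul hd2 hi2 (by positivity) (by positivity)
      _ = _ := by ring
  have e2 : |1 / x.1 * ⟪y - x.2, v.2⟫| ≤ 2 * (‖x₀.2‖ + 2) / x₀.1 * (1 + ‖y‖) ^ 2 * ‖v‖ := by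
    rw [abs_mul, abs_of_nonneg (by positivity)]
    have e3 : |⟪y - x.2, v.2⟫| ≤ ((‖x₀.2‖ + 2) * (1 + ‖y‖) ^ 2) * ‖v‖ := by
      refine (abs_real_inner_le_norm _ _).trans (mul_le_mul (hd.trans ?_) hv2 (norm_nonneg _)
        (by positivity))
      refine mul_le_mul_of_nonneg_left ?_ (by positivity)
      nlinarith
    calc 1 / x.1 * |⟪y - x.2, v.2⟫| ≤ 2 / x₀.1 * (((‖x₀.2‖ + 2) * (1 + ‖y‖) ^ 2) * ‖v‖) :=
          mul_le_mul hi e3 (abs_nonneg _) (by positivity)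
      _ = _ := by ring
  calc _ ≤ _ := abs_add_le _ _
    _ ≤ _ := add_le_add e1 e2
    _ = _ := by ring

/-- Continuous functions of polynomial growth. -/
def PG (g : Euc ι → ℝ) : Prop :=
  Continuous g ∧ ∃ (C : ℝ) (n : ℕ), 0 ≤ C ∧ ∀ y, |g y| ≤ C * (1 + ‖y‖) ^ n

lemma PG.one : PG (fun _ : Euc ι => (1 : ℝ)) :=
  ⟨continuous_const, 1, 0, zero_le_one, fun y => by simp⟩

lemma PG.mul {g h : Euc ι → ℝ} (hg : PG g) (hh : PG h) : PG fun y => g y * h y := by
  obtain ⟨c1, C, n, hC, h1⟩ := hg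
  obtain ⟨c2, D, k, hD, h2⟩ := hh
  refine ⟨c1.mul c2, C * D, n + k, mul_nonneg hC hD, fun y => ?_⟩
  rw [abs_mul, pow_add]
  calc |g y| * |h y| ≤ (C * (1 + ‖y‖) ^ n) * (D * (1 + ‖y‖) ^ k) :=
        mul_le_mul (h1 y) (h2 y) (abs_nonneg _) (by positivity)
    _ = _ := by ring

lemma PG.coord (q : Euc ι) (e : ι) : PG fun y : Euc ι => y e - q e := by
  refine ⟨by fun_prop, 1 + ‖q‖, 1, by positivity, fun y => ?_⟩
  have h1 : |y e| ≤ ‖y‖ := PiLp.norm_apply_le y e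
  have h2 : |q e| ≤ ‖q‖ := PiLp.norm_apply_le q e
  have h3 := abs_sub (y e) (q e)
  nlinarith [mul_nonneg (norm_nonneg y) (norm_nonneg q)]

lemma PG.mono (q : Euc ι) (m : Multiset ι) :
    PG fun y : Euc ι => (m.map fun e => y e - q e).prod := by
  induction m using Multiset.induction_on with
  | empty => simpa using PG.one
  | cons e m ih => simpa using (PG.coord q e).mul ih

lemma PG.int {g : Euc ι → ℝ} (hg : PG g) (hV : InClass V) {x : ℝ × Euc ι} (hx : 0 < x.1) :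
    Integrable fun y => g y * wx V x y := by
  obtain ⟨c1, C, n, hC, h1⟩ := hg
  refine ((gauss_int (ι := ι) n).const_mul C).mono' (c1.mul (wx_cont hV x)).aestronglyMeasurable
    (Filter.Eventually.of_forall fun y => ?_)
  rw [Real.norm_eq_abs, abs_mul, abs_of_pos (wx_pos x y), ← mul_assoc]
  exact mul_le_mul (h1 y) (wx_le hV hx y) (wx_pos x y).le (by positivity)

lemma PG.fderiv {g : Euc ι → ℝ} (hg : PG g) (hV : InClass V) {x₀ : ℝ × Euc ι} (hx : 0 < x₀.1) :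
    Integrable (fun y => g y • (wx V x₀ y • ax x₀ y)) ∧
      HasFDerivAt (fun x => ∫ y, g y * wx V x y) (∫ y, g y • (wx V x₀ y • ax x₀ y)) x₀ := by
  have hint := hg.int hV hx
  obtain ⟨c1, C, n, hC, h1⟩ := hg
  set K := 2 * (‖x₀.2‖ + 2) ^ 2 / x₀.1 ^ 2 + 2 * (‖x₀.2‖ + 2) / x₀.1 with hK
  have hK0 : 0 ≤ K := by positivity
  set S : Set (ℝ × Euc ι) := {x | x₀.1 / 2 < x.1 ∧ ‖x.2‖ < ‖x₀.2‖ + 1} with hS
  have hSo : IsOpen S :=
    (isOpen_lt continuous_const continuous_fst).inter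
      (isOpen_lt continuous_snd.norm continuous_const)
  have hS0 : x₀ ∈ S := ⟨by linarith, by linarith⟩
  have hm : ∀ x, AEStronglyMeasurable (fun y => g y • (wx V x y • ax x y)) volume := fun x =>
    (c1.smul ((wx_cont hV x).smul (ax_cont x))).aestronglyMeasurable
  have hb : ∀ y, ∀ x ∈ S, ‖g y • (wx V x y • ax x y)‖ ≤
      C * K * ((1 + ‖y‖) ^ (n + 2) * Real.exp (-(‖y‖ ^ 2 / 2))) := by
    intro y x hxS
    have hx1 : 0 < x.1 := by linarith [hxS.1]
    rw [norm_smul, norm_smul, Real.norm_eq_abs, Real.norm_eq_abs, abs_of_pos (wx_pos x y)]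
    calc |g y| * (wx V x y * ‖ax x y‖)
        ≤ (C * (1 + ‖y‖) ^ n) * (Real.exp (-(‖y‖ ^ 2 / 2)) * (K * (1 + ‖y‖) ^ 2)) :=
          mul_le_mul (h1 y) (mul_le_mul (wx_le hV hx1 y) (ax_norm hx hxS.1.le hxS.2.le y)
            (norm_nonneg _) (by positivity)) (mul_nonneg (wx_pos x y).le (norm_nonneg _))
            (by positivity)
      _ = _ := by ring
  have hbi := (gauss_int (ι := ι) (n + 2)).const_mul (C * K)
  refine ⟨hbi.mono' (hm x₀) (Filter.Eventually.of_forall fun y => hb y x₀ hS0), ?_⟩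
  refine hasFDerivAt_integral_of_dominated_of_fderiv_le (F := fun x y => g y * wx V x y)
    (F' := fun x y => g y • (wx V x y • ax x y)) (hSo.mem_nhds hS0)
    (Filter.Eventually.of_forall fun x => (c1.mul (wx_cont hV x)).aestronglyMeasurable) hint
    (hm x₀) (Filter.Eventually.of_forall hb) hbi (Filter.Eventually.of_forall fun y x hxS => ?_)
  have hx1 : 0 < x.1 := by linarith [hxS.1]
  exact (wx_deriv hx1 y).const_mul (g y)

lemma PG.contAt {g : Euc ι → ℝ} (hg : PG g) (hV : InClass V) {x₀ : ℝ × Euc ι} (hx : 0 < x₀.1) :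
    ContinuousAt (fun x => ∫ y, g y * wx V x y) x₀ :=
  (hg.fderiv hV hx).2.continuousAt

lemma PG.curve {g : Euc ι → ℝ} (hg : PG g) (hV : InClass V) {σ : ℝ → ℝ} {π : ℝ → Euc ι}
    {t σ' : ℝ} {π' : Euc ι} (hσ : HasDerivAt σ σ' t) (hπ : HasDerivAt π π' t) (h0 : 0 < σ t) :
    HasDerivAt (fun τ => ∫ y, g y * wx V (σ τ, π τ) y)
      (∫ y, g y * (wx V (σ t, π t) y *
        (‖y - π t‖ ^ 2 / (2 * σ t ^ 2) * σ' + 1 / σ t * ⟪y - π t, π'⟫))) t := by
  obtain ⟨hi, hd⟩ := hg.fderiv hV (x₀ := (σ t, π t)) h0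
  have h := hd.comp_hasDerivAt t (hσ.prodMk hπ)
  rw [ContinuousLinearMap.integral_apply hi] at h
  simpa only [smul_apply, ax_apply, smul_eq_mul, Function.comp_def] using h

/-- Unnormalized moments about `q`. -/
noncomputable def Im (V : Euc ι → ℝ) (q : Euc ι) (m : Multiset ι) (x : ℝ × Euc ι) : ℝ :=
  ∫ y, (m.map fun e => y e - q e).prod * wx V x y

lemma Im_zero (q : Euc ι) (x : ℝ × Euc ι) : Im V q 0 x = ∫ y, wx V x y := by
  simp [Im]

lemma wx_int (hV : InClass V) {x : ℝ × Euc ι} (hx : 0 < x.1) : Integrable (wx V x) := by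
  simpa using PG.one.int hV hx

lemma wx_int_pos (hV : InClass V) {x : ℝ × Euc ι} (hx : 0 < x.1) : 0 < ∫ y, wx V x y := by
  rw [integral_pos_iff_support_of_nonneg (fun y => (wx_pos x y).le) (wx_int hV hx)]
  have : Function.support (wx V x) = Set.univ :=
    Set.eq_univ_of_forall fun y => (wx_pos x y).ne'
  rw [this]
  exact isOpen_univ.measure_pos volume Set.univ_nonempty

lemma Im_contAt (hV : InClass V) (q : Euc ι) (m : Multiset ι) {x₀ : ℝ × Euc ι} (hx : 0 < x₀.1) :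
    ContinuousAt (Im V q m) x₀ :=
  (PG.mono q m).contAt hV hx

lemma Im_curve (hV : InClass V) (q : Euc ι) (m : Multiset ι) {σ : ℝ → ℝ} {π : ℝ → Euc ι}
    {t σ' : ℝ} {π' : Euc ι} (hσ : HasDerivAt σ σ' t) (hπ : HasDerivAt π π' t) (h0 : 0 < σ t) :
    HasDerivAt (fun τ => Im V q m (σ τ, π τ))
      (∑ e, (π' e / σ t * (Im V q (e ::ₘ m) (σ t, π t) - (π t e - q e) * Im V q m (σ t, π t)) +
        σ' / (2 * σ t ^ 2) * (Im V q (e ::ₘ e ::ₘ m) (σ t, π t) -
          2 * (π t e - q e) * Im V q (e ::ₘ m) (σ t, π t) +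
          (π t e - q e) ^ 2 * Im V q m (σ t, π t)))) t := by
  have h := (PG.mono q m).curve hV hσ hπ h0
  refine h.congr_deriv ?_
  have hi : ∀ n : Multiset ι,
      Integrable fun y : Euc ι => (n.map fun e => y e - q e).prod * wx V (σ t, π t) y :=
    fun n => (PG.mono q n).int hV h0
  have hp : ∀ y : Euc ι, (m.map fun e => y e - q e).prod * (wx V (σ t, π t) y *
        (‖y - π t‖ ^ 2 / (2 * σ t ^ 2) * σ' + 1 / σ t * ⟪y - π t, π'⟫)) =
      ∑ e, (π' e / σ t * (((e ::ₘ m).map fun e => y e - q e).prod * wx V (σ t, π t) y -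
          (π t e - q e) * ((m.map fun e => y e - q e).prod * wx V (σ t, π t) y)) +
        σ' / (2 * σ t ^ 2) * (((e ::ₘ e ::ₘ m).map fun e => y e - q e).prod * wx V (σ t, π t) y -
          2 * (π t e - q e) * (((e ::ₘ m).map fun e => y e - q e).prod * wx V (σ t, π t) y) +
          (π t e - q e) ^ 2 * ((m.map fun e => y e - q e).prod * wx V (σ t, π t) y))) := by
    intro y
    rw [EuclideanSpace.real_norm_sq_eq, PiLp.inner_apply, Finset.sum_div, Finset.sum_mul,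
      Finset.mul_sum, ← Finset.sum_add_distrib, Finset.mul_sum, Finset.mul_sum]
    refine Finset.sum_congr rfl fun e _ => ?_
    simp only [Multiset.map_cons, Multiset.prod_cons, PiLp.sub_apply, RCLike.inner_apply,
      conj_trivial]
    ring
  simp only [hp]
  rw [integral_finsetSum]
  · refine Finset.sum_congr rfl fun e _ => ?_
    rw [integral_add, integral_const_mul, integral_const_mul, integral_sub, integral_add,
      integral_sub, integral_const_mul, integral_const_mul, integral_const_mul]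
    · rfl
    · exact hi _
    · exact (hi _).const_mul _
    · exact (hi _).sub ((hi _).const_mul _)
    · exact (hi _).const_mul _
    · exact hi _
    · exact (hi _).const_mul _
    · exact ((hi _).sub ((hi _).const_mul _)).const_mul _
    · exact (((hi _).sub ((hi _).const_mul _)).add ((hi _).const_mul _)).const_mul _
  · intro e _
    exact (((hi _).sub ((hi _).const_mul _)).const_mul _).add
      ((((hi _).sub ((hi _).const_mul _)).add ((hi _).const_mul _)).const_mul _)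

/-- Change of variables `y = p + √s ζ`. -/
lemma wx_gauss {s : ℝ} (hs : 0 < s) (p : Euc ι) :
    ∫ ζ, Real.exp (-V (p + √s • ζ)) ∂(gam ι) =
      (2 * Real.pi * s) ^ (-(dm ι / 2)) * ∫ y, wx V (s, p) y := by
  rw [gam_density, integral_withDensity_eq_integral_toReal_smul (by fun_prop) (by simp)]
  have hc : 0 < (2 * Real.pi) ^ (-(dm ι / 2)) := Real.rpow_pos_of_pos (by positivity) _
  have h1 : ∀ ζ : Euc ι, (ENNReal.ofReal ((2 * Real.pi) ^ (-(dm ι / 2)) *
      Real.exp (-(‖ζ‖ ^ 2 / 2)))).toReal • Real.exp (-V (p + √s • ζ)) =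
      (2 * Real.pi) ^ (-(dm ι / 2)) * wx V (s, p) (p + √s • ζ) := by
    intro ζ
    rw [ENNReal.toReal_ofReal (by positivity), smul_eq_mul, mul_assoc, ← Real.exp_add, wx]
    congr 2
    simp only [add_sub_cancel_left, norm_smul, mul_pow, Real.norm_eq_abs, sq_abs,
      Real.sq_sqrt hs.le]
    field_simp
    ring
  simp only [h1]
  rw [integral_const_mul,
    Measure.integral_comp_smul_of_nonneg volume (fun y => wx V (s, p) (p + y)) √s
      (hR := Real.sqrt_nonneg s), integral_add_left_eq_self (fun y => wx V (s, p) y) p,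
    Real.mul_rpow (by positivity) hs.le, smul_eq_mul, mul_assoc]
  congr 2
  rw [finrank_euclideanSpace, Real.sqrt_eq_rpow, ← Real.rpow_natCast, ← Real.rpow_mul hs.le,
    Real.rpow_neg hs.le]
  congr 2
  ring

end Vale.Agent.P347.HA
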