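import Vale.Agent.P347.HeatBX

/-! Moment bounds for the posterior and crude bounds on the derivatives `T`. -/

open MeasureTheory ProbabilityTheory
open scoped RealInnerProductSpace ENNReal

namespace Vale.Agent.P347

variable {ι : Type} [Fintype ι] [DecidableEq ι] {V : Euc ι → ℝ}

omit [DecidableEq ι] in
lemma mom_eq (V : Euc ι → ℝ) (q : Euc ι) (m : Multiset ι) (s : ℝ) (p : Euc ι) :
    mom V q m s p = Iw V (1 / s) p (fun y => (m.map fun e => y e - q e).prod) /
      Iw V (1 / s) p fun _ => 1 := by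
  have e : ∀ y, wt V s p y = Wa V (1 / s) p y := by
    intro y; rw [wt, Wa]; congr 1; ring
  simp only [mom, Iw, e, one_mul]

omit [DecidableEq ι] in
lemma abs_prod_le (q y : Euc ι) (m : Multiset ι) :
    |(m.map fun e => y e - q e).prod| ≤ ‖y - q‖ ^ Multiset.card m := by
  induction m using Multiset.induction_on with
  | empty => simp
  | cons e m ih =>
    rw [Multiset.map_cons, Multiset.prod_cons, abs_mul, Multiset.card_cons, pow_succ']
    refine mul_le_mul ?_ ih (abs_nonneg _) (norm_nonneg _)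
    rw [← Real.norm_eq_abs]; exact PiLp.norm_apply_le (y - q) e

omit [DecidableEq ι] in
lemma Pg.prod (q : Euc ι) (m : Multiset ι) : Pg fun y => (m.map fun e => y e - q e).prod := by
  induction m using Multiset.induction_on with
  | empty => simpa using Pg.const 1
  | cons e m ih =>
    simp only [Multiset.map_cons, Multiset.prod_cons]
    exact (Pg.coord q e).mul ih

omit [DecidableEq ι] in
lemma mom_abs_le (m : Multiset ι) : ∃ K : ℝ, 0 ≤ K ∧ ∀ V : Euc ι → ℝ, InClass V → ∀ s : ℝ,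
    0 < s → ∀ p q : Euc ι, Ga V (1 / s) p q = 0 → |mom V q m s p| ≤ K := by
  obtain ⟨K, hK, h⟩ := mom_bound (ι := ι) (Multiset.card m)
  refine ⟨1 + K, by positivity, fun V hV s hs p q hq => ?_⟩
  have ha : 0 ≤ 1 / s := by positivity
  have hZ := Iw_one_pos hV ha p
  have hR : Pg fun y => 1 + (‖y - q‖ ^ 2) ^ Multiset.card m :=
    (Pg.const 1).add (((Pg.norm_sub q).pow 2).pow _)
  have hb : ∀ y : Euc ι, |(m.map fun e => y e - q e).prod| ≤
      1 + (‖y - q‖ ^ 2) ^ Multiset.card m := by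
    intro y
    refine (abs_prod_le q y m).trans ?_
    rw [← pow_mul, mul_comm 2, pow_mul]
    nlinarith [sq_nonneg (‖y - q‖ ^ Multiset.card m - 1)]
  have h1 : Iw V (1 / s) p (fun y => 1 + (‖y - q‖ ^ 2) ^ Multiset.card m) ≤
      (1 + K) * Iw V (1 / s) p fun _ => 1 := by
    rw [Iw_add hV ha (Pg.const 1) (((Pg.norm_sub q).pow 2).pow _)]
    linarith [h V hV _ ha p q hq]
  have h2 := Iw_mono (p := p) hV ha (Pg.prod q m) hR fun y => (le_abs_self _).trans (hb y)
  have h3 := Iw_mono (p := p) hV ha ((Pg.const (-1)).mul (Pg.prod q m)) hR fun y => by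
    have := (neg_le_abs _).trans (hb y)
    linarith
  rw [Iw_const_mul] at h3
  rw [mom_eq, abs_div, abs_of_pos hZ, div_le_iff₀ hZ, abs_le]
  constructor <;> linarith

omit [DecidableEq ι] in
lemma ev1_bound {r : R1 ι}
    (hr : r ∈ Algebra.adjoin ℝ (Set.range fun n : Multiset ι => (MvPolynomial.X (HS.nu n) : R1 ι))) :
    ∃ K : ℝ, 0 ≤ K ∧ ∀ V : Euc ι → ℝ, InClass V → ∀ s : ℝ,
      0 < s → ∀ p q : Euc ι, Ga V (1 / s) p q = 0 → |ev1 V q s p r| ≤ K := by
  induction hr using Algebra.adjoin_induction with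
  | mem x hx =>
    obtain ⟨n, rfl⟩ := hx
    simpa [ev1] using mom_abs_le n
  | algebraMap c => exact ⟨|c|, abs_nonneg _, fun V _ s _ p q _ => by rw [AlgHom.commutes]; rfl⟩
  | add x y _ _ hx hy =>
    obtain ⟨K, hK, hx⟩ := hx
    obtain ⟨L, hL, hy⟩ := hy
    refine ⟨K + L, by positivity, fun V hV s hs p q hq => ?_⟩
    rw [map_add]
    exact (abs_add_le _ _).trans (add_le_add (hx V hV s hs p q hq) (hy V hV s hs p q hq))
  | mul x y _ _ hx hy =>
    obtain ⟨K, hK, hx⟩ := hx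
    obtain ⟨L, hL, hy⟩ := hy
    refine ⟨K * L, by positivity, fun V hV s hs p q hq => ?_⟩
    rw [map_mul, abs_mul]
    exact mul_le_mul (hx V hV s hs p q hq) (hy V hV s hs p q hq) (abs_nonneg _) hK

/-- Crude (dimension dependent) uniform bound. -/
theorem T_crude (hV : InClass V) (m : Multiset ι) (hm : 2 ≤ Multiset.card m) :
    ∃ C : ℝ, 0 ≤ C ∧ ∀ s : ℝ, 0 < s → s ≤ 1 → ∀ p, |T V m s p| ≤ C / s ^ Multiset.card m := by
  obtain ⟨k, r, hr, h⟩ := T_poly m hm
  obtain ⟨K, hK, hb⟩ := ev1_bound hr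
  refine ⟨|k| + K, by positivity, fun s hs hs1 p => ?_⟩
  obtain ⟨q, hq⟩ := exists_mode hV (a := 1 / s) (by positivity) p
  rw [h V hV s hs q p, add_div]
  refine (abs_add_le _ _).trans (add_le_add ?_ ?_)
  · rw [abs_div, abs_of_pos hs]
    refine div_le_div_of_nonneg_left (abs_nonneg _) (by positivity) ?_
    exact pow_le_of_le_one hs.le hs1 (by omega)
  · rw [abs_mul, abs_of_pos (by positivity), one_div_pow, mul_comm, ← div_eq_mul_one_div]
    exact div_le_div_of_nonneg_right (hb V hV s hs p q hq) (by positivity)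

omit [DecidableEq ι] in
lemma inner_sum_coord (u v : Euc ι) : ⟪u, v⟫ = ∑ e, v e * u e := by
  simp [PiLp.inner_apply]

omit [DecidableEq ι] in
lemma Iw_lin (hV : InClass V) {a : ℝ} (ha : 0 ≤ a) (p q v : Euc ι) :
    Iw V a p (fun y => ⟪y - q, v⟫) = ∑ e, v e * Iw V a p fun y => y e - q e := by
  simp only [← Iw_const_mul]
  rw [← Iw_sum hV ha _ fun e _ => (Pg.const _).mul (Pg.coord q e)]
  simp only [inner_sum_coord, PiLp.sub_apply]

omit [DecidableEq ι] in
lemma Iw_quad (hV : InClass V) {a : ℝ} (ha : 0 ≤ a) (p q v : Euc ι) :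
    Iw V a p (fun y => ⟪y - q, v⟫ ^ 2) =
      ∑ e, ∑ f, v e * v f * Iw V a p fun y => (y e - q e) * (y f - q f) := by
  have hP : ∀ e f, Pg fun y : Euc ι => v e * v f * ((y e - q e) * (y f - q f)) := fun e f =>
    (Pg.const _).mul ((Pg.coord q e).mul (Pg.coord q f))
  simp only [← Iw_const_mul]
  rw [Finset.sum_congr rfl fun e _ => (Iw_sum hV ha _ fun f _ => hP e f).symm,
    ← Iw_sum hV ha _ fun e _ => Pg.sum _ fun f _ => hP e f]
  congr 1
  funext y
  simp only [inner_sum_coord, PiLp.sub_apply, sq, Finset.sum_mul_sum]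
  exact Finset.sum_congr rfl fun e _ => Finset.sum_congr rfl fun f _ => by ring

omit [DecidableEq ι] in
/-- The mean of the score vanishes. -/
lemma ibp_zero (hV : InClass V) {a : ℝ} (ha : 0 ≤ a) (p v : Euc ι) :
    a * Iw V a p (fun y => ⟪y - p, v⟫) + Iw V a p (fun y => ⟪gradient V y, v⟫) = 0 := by
  have h := Iw_ibp hV ha p v (Pg.const 1) (Pg.const 0) fun y => hasDerivAt_const _ _
  rw [← Iw_const_mul, ← Iw_add hV ha ((Pg.const _).mul (Pg.inner_sub p v)) (Pg.grad hV v)]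
  simp only [one_mul, Ga_inner] at h
  rw [← h, Iw_const, zero_mul]

lemma fs_inner (hV : InClass V) {s : ℝ} (hs : 0 < s) (p v : Euc ι) :
    ⟪fs V s p, v⟫ * Iw V (1 / s) p (fun _ => 1) = Iw V (1 / s) p fun y => ⟪gradient V y, v⟫ := by
  have ha : 0 ≤ 1 / s := by positivity
  have hZ := Iw_one_pos hV ha p
  have h := ibp_zero hV ha p v
  rw [Iw_lin hV ha] at h
  rw [eq_neg_of_add_eq_zero_right h, inner_sum_coord, Finset.sum_mul, Finset.mul_sum,
    ← Finset.sum_neg_distrib]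
  refine Finset.sum_congr rfl fun e _ => ?_
  rw [fs_apply, T_single hV hs p p, mom_eq]
  simp only [Multiset.map_singleton, Multiset.prod_singleton]
  field_simp
  ring

omit [DecidableEq ι] in
lemma mode_near (hV : InClass V) {s : ℝ} (hs : 0 < s) {p q : Euc ι} (hq : Ga V (1 / s) p q = 0) :
    ‖q - p‖ ≤ 2 * s * ‖p‖ := by
  have e : p = q + s • gradient V q := by
    have h1 : gradient V q = -((1 / s) • (q - p)) := eq_neg_of_add_eq_zero_right hq
    rw [h1, smul_neg, smul_smul, mul_one_div_cancel hs.ne', one_smul]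
    abel
  have h1 := hV.grad_mono q 0
  rw [hV.2.2.1, sub_zero, sub_zero] at h1
  have h2 : ‖q‖ ^ 2 ≤ ‖p‖ * ‖q‖ := by
    refine le_trans ?_ (real_inner_le_norm p q)
    rw [e, inner_add_left, real_inner_smul_left, real_inner_self_eq_norm_sq]
    have := mul_nonneg hs.le ((sq_nonneg _).trans h1)
    linarith
  have h3 : ‖q‖ ≤ ‖p‖ := by
    by_contra hc
    push Not at hc
    nlinarith [norm_nonneg p]
  have h4 : ‖q - p‖ = s * ‖gradient V q‖ := by
    rw [norm_sub_rev]
    conv_lhs => rw [e]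
    rw [add_sub_cancel_left, norm_smul, Real.norm_eq_abs, abs_of_pos hs]
  rw [h4]
  have h5 := mul_le_mul_of_nonneg_left ((hV.grad_le q).trans
    (mul_le_mul_of_nonneg_left h3 zero_le_two)) hs.le
  linarith

omit [DecidableEq ι] in
lemma mom_two' (hV : InClass V) {s : ℝ} (hs : 0 < s) {p q : Euc ι} (hq : Ga V (1 / s) p q = 0) :
    Iw V (1 / s) p (fun y => ‖y - q‖ ^ 2) ≤ s * dm ι * Iw V (1 / s) p fun _ => 1 := by
  have h := mul_le_mul_of_nonneg_left (mom_two hV (by positivity) hq) hs.le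
  have h0 : 0 ≤ Iw V (1 / s) p fun y => ‖y - q‖ ^ 2 := Iw_nonneg fun y => by positivity
  have h1 := mul_nonneg hs.le h0
  rw [← mul_assoc, mul_add, mul_one_div_cancel hs.ne', ← mul_assoc] at h
  linarith

theorem fs_sub_grad (hV : InClass V) {s : ℝ} (hs : 0 < s) (hs1 : s ≤ 1) (p : Euc ι) :
    ‖fs V s p - gradient V p‖ ≤ 2 * √(s * dm ι) + 4 * s * ‖p‖ := by
  have _ := hs1
  have ha : 0 ≤ 1 / s := by positivity
  have hZ := Iw_one_pos hV ha p
  obtain ⟨q, hq⟩ := exists_mode hV ha p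
  have h1 := Iw_le_of_sq hV ha (Pg.norm_sub q) (mom_two' hV hs hq)
  have h2 := mode_near hV hs hq
  obtain ⟨v, hv⟩ : ∃ v, v = fs V s p - gradient V p := ⟨_, rfl⟩
  rw [← hv]
  have h3 : Iw V (1 / s) p (fun y => ⟪gradient V y, v⟫) ≤ Iw V (1 / s) p
      fun y => (⟪gradient V p, v⟫ + 4 * s * ‖p‖ * ‖v‖) + 2 * ‖v‖ * ‖y - q‖ := by
    refine Iw_mono hV ha (Pg.grad hV v)
      ((Pg.const _).add ((Pg.const _).mul (Pg.norm_sub q))) fun y => ?_
    have h4 := real_inner_le_norm (gradient V y - gradient V p) v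
    have h5 := hV.grad_lip y p
    have h6 : ‖y - p‖ ≤ ‖y - q‖ + ‖q - p‖ := norm_sub_le_norm_sub_add_norm_sub y q p
    have h7 : ‖gradient V y - gradient V p‖ * ‖v‖ ≤ (2 * ‖y - q‖ + 4 * s * ‖p‖) * ‖v‖ :=
      mul_le_mul_of_nonneg_right (by linarith) (norm_nonneg _)
    rw [inner_sub_left] at h4
    linarith
  rw [Iw_add hV ha (Pg.const _) ((Pg.const _).mul (Pg.norm_sub q)), Iw_const, Iw_const_mul,
    ← fs_inner hV hs] at h3
  have h8 := mul_le_mul_of_nonneg_left h1 (by positivity : 0 ≤ 2 * ‖v‖)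
  have h9 : ‖v‖ ^ 2 = ⟪fs V s p, v⟫ - ⟪gradient V p, v⟫ := by
    rw [← inner_sub_left, ← hv, real_inner_self_eq_norm_sq]
  have h10 : ‖v‖ ^ 2 * Iw V (1 / s) p (fun _ => 1) ≤
      (‖v‖ * (2 * √(s * dm ι) + 4 * s * ‖p‖)) * Iw V (1 / s) p fun _ => 1 := by
    rw [h9]; linarith
  have h11 := le_of_mul_le_mul_right h10 hZ
  rcases (norm_nonneg v).eq_or_lt with h0 | h0
  · rw [← h0]; positivity
  · rw [sq] at h11
    exact le_of_mul_le_mul_left h11 h0

lemma Ms_form (hV : InClass V) {s : ℝ} (hs : 0 < s) (p v : Euc ι) :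
    ⟪v, Ms V s p v⟫ = ‖v‖ ^ 2 / s -
      (Iw V (1 / s) p (fun y => ⟪y - p, v⟫ ^ 2) / Iw V (1 / s) p (fun _ => 1) -
        (Iw V (1 / s) p (fun y => ⟪y - p, v⟫) / Iw V (1 / s) p (fun _ => 1)) ^ 2) / s ^ 2 := by
  have ha : 0 ≤ 1 / s := by positivity
  rw [Iw_lin hV ha, Iw_quad hV ha, inner_sum_coord, EuclideanSpace.real_norm_sq_eq]
  simp only [Ms_apply, T_pair hV hs p p, mom_eq, Multiset.map_cons, Multiset.prod_cons,
    Multiset.map_singleton, Multiset.prod_singleton]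
  generalize Iw V (1 / s) p (fun _ => 1) = Z
  rw [Finset.sum_div _ _ Z, Finset.sum_div _ _ Z, sq (∑ _, _), Finset.sum_mul_sum]
  simp only [Finset.sum_div, sub_div, sub_mul,
    Finset.sum_sub_distrib, Finset.sum_mul, ite_div, ite_mul, zero_div, zero_mul,
    Finset.sum_ite_eq, Finset.mem_univ, if_true]
  congr 1
  · exact Finset.sum_congr rfl fun e _ => by ring
  congr 1
  · exact Finset.sum_congr rfl fun e _ => Finset.sum_congr rfl fun f _ => by ring
  · exact Finset.sum_congr rfl fun e _ => Finset.sum_congr rfl fun f _ => by ring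

/-- The smoothed Hessian is the mean Hessian minus the covariance of the gradient. -/
lemma Ms_form' (hV : InClass V) {s : ℝ} (hs : 0 < s) (p v : Euc ι) {H : Euc ι → ℝ} (hH : Pg H)
    (hd : ∀ x, HasLineDerivAt ℝ (fun y => ⟪gradient V y, v⟫) (H x) x v) :
    ⟪v, Ms V s p v⟫ * Iw V (1 / s) p (fun _ => 1) ^ 2 =
      Iw V (1 / s) p H * Iw V (1 / s) p (fun _ => 1) -
        (Iw V (1 / s) p (fun y => ⟪gradient V y, v⟫ ^ 2) * Iw V (1 / s) p (fun _ => 1) -
          Iw V (1 / s) p (fun y => ⟪gradient V y, v⟫) ^ 2) := by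
  have ha : 0 ≤ 1 / s := by positivity
  have hZ := Iw_one_pos hV ha p
  have pl := Pg.inner_sub p v
  have ph := Pg.grad hV v
  have h0 := ibp_zero hV ha p v
  have h1 := Iw_ibp hV ha p v pl (Pg.const (‖v‖ ^ 2)) fun y => by
    have h := ((hasDerivAt_id (0 : ℝ)).mul_const (‖v‖ ^ 2)).const_add ⟪y - p, v⟫
    unfold HasLineDerivAt
    simp only [add_sub_right_comm y, inner_add_left, real_inner_smul_left,
      real_inner_self_eq_norm_sq]
    simpa using h
  have h2 := Iw_ibp hV ha p v ph hH hd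
  have e1 : (fun y => ⟪y - p, v⟫ * ⟪Ga V (1 / s) p y, v⟫) =
      fun y => 1 / s * ⟪y - p, v⟫ ^ 2 + ⟪y - p, v⟫ * ⟪gradient V y, v⟫ := by
    funext y; rw [Ga_inner]; ring
  have e2 : (fun y => ⟪gradient V y, v⟫ * ⟪Ga V (1 / s) p y, v⟫) =
      fun y => 1 / s * (⟪y - p, v⟫ * ⟪gradient V y, v⟫) + ⟪gradient V y, v⟫ ^ 2 := by
    funext y; rw [Ga_inner]; ring
  rw [e1, Iw_add hV ha ((Pg.const _).mul (pl.pow 2)) (pl.mul ph), Iw_const_mul, Iw_const] at h1
  rw [e2, Iw_add hV ha ((Pg.const _).mul (pl.mul ph)) (ph.pow 2), Iw_const_mul] at h2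
  rw [Ms_form hV hs, h2, eq_neg_of_add_eq_zero_right h0, eq_div_of_mul_eq hZ.ne' h1]
  field_simp
  ring

theorem T_two_crude (hV : InClass V) {s : ℝ} (hs : 0 < s) (hs1 : s ≤ 1) (p v : Euc ι) :
    (1 - 4 * s * dm ι) * ‖v‖ ^ 2 ≤ ⟪v, Ms V s p v⟫ ∧ ⟪v, Ms V s p v⟫ ≤ 2 * ‖v‖ ^ 2 := by
  have _ := hs1
  have ha : 0 ≤ 1 / s := by positivity
  have hZ := Iw_one_pos hV ha p
  obtain ⟨H, cH, hd, hb⟩ := hV.hess v
  have hH : Pg H := (Pg.const (2 * ‖v‖ ^ 2)).of_le cH fun y => by
    rw [abs_of_nonneg ((sq_nonneg _).trans (hb y).1)]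
    exact (hb y).2.trans (le_abs_self _)
  have ph := Pg.grad hV v
  have key := Ms_form' hV hs p v hH hd
  have hl := Iw_mono (p := p) hV ha (Pg.const _) hH fun y => (hb y).1
  have hu := Iw_mono (p := p) hV ha hH (Pg.const _) fun y => (hb y).2
  rw [Iw_const] at hl hu
  have hcs := Iw_cs (p := p) hV ha ph
  obtain ⟨q, hq⟩ := exists_mode hV ha p
  have h1 := Iw_sq_dev (p := p) hV ha ph ⟪gradient V q, v⟫
  have h2 : Iw V (1 / s) p (fun y => (⟪gradient V y, v⟫ - ⟪gradient V q, v⟫) ^ 2) ≤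
      Iw V (1 / s) p fun y => 4 * ‖v‖ ^ 2 * ‖y - q‖ ^ 2 := by
    refine Iw_mono hV ha ((ph.sub (Pg.const _)).pow 2)
      ((Pg.const _).mul ((Pg.norm_sub q).pow 2)) fun y => ?_
    rw [← inner_sub_left, ← sq_abs]
    have h3 := (abs_real_inner_le_norm (gradient V y - gradient V q) v).trans
      (mul_le_mul_of_nonneg_right (hV.grad_lip y q) (norm_nonneg v))
    refine (pow_le_pow_left₀ (abs_nonneg _) h3 2).trans (le_of_eq ?_)
    ring
  rw [Iw_const_mul, h1] at h2
  have h4 := h2.trans (mul_le_mul_of_nonneg_left (mom_two' hV hs hq) (by positivity))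
  clear h1 h2
  generalize Iw V (1 / s) p (fun _ => 1) = Z at *
  generalize Iw V (1 / s) p (fun y => ⟪gradient V y, v⟫ ^ 2) = S at *
  generalize Iw V (1 / s) p (fun y => ⟪gradient V y, v⟫) = m at *
  generalize Iw V (1 / s) p H = A at *
  generalize ⟪gradient V q, v⟫ = c at *
  have h5 := mul_le_mul_of_nonneg_right h4 hZ.le
  have h6 := mul_le_mul_of_nonneg_right hl hZ.le
  have h7 := mul_le_mul_of_nonneg_right hu hZ.le
  have h8 := sq_nonneg (m - c * Z)
  have hZ2 : 0 < Z ^ 2 := by positivity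
  constructor
  · refine le_of_mul_le_mul_right ?_ hZ2
    rw [key]; linarith
  · refine le_of_mul_le_mul_right ?_ hZ2
    rw [key]; linarith

omit [DecidableEq ι] in
lemma Wa_zero (V : Euc ι → ℝ) (y : Euc ι) : Wa V 0 0 y = Real.exp (-V y) := by simp [Wa]

omit [DecidableEq ι] in
lemma gibbs_Z (hV : InClass V) :
    ∫⁻ x, ENNReal.ofReal (Real.exp (-V x)) = ENNReal.ofReal (Iw V 0 0 fun _ => 1) := by
  have h := (Pg.const 1).int hV le_rfl 0
  simp only [one_mul, Iw, Wa_zero] at h ⊢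
  exact (ofReal_integral_eq_lintegral_ofReal h
    (Filter.Eventually.of_forall fun _ => (Real.exp_pos _).le)).symm

omit [DecidableEq ι] in
theorem gibbs_prob (hV : InClass V) : IsProbabilityMeasure (gibbs V) := by
  constructor
  rw [gibbs, Measure.smul_apply, withDensity_apply _ MeasurableSet.univ, Measure.restrict_univ,
    smul_eq_mul, gibbs_Z hV]
  exact ENNReal.inv_mul_cancel (ENNReal.ofReal_pos.2 (Iw_one_pos hV le_rfl 0)).ne'
    ENNReal.ofReal_ne_top

omit [DecidableEq ι] in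
lemma gibbs_integral (hV : InClass V) (f : Euc ι → ℝ) :
    ∫ x, f x ∂(gibbs V) = Iw V 0 0 f / Iw V 0 0 fun _ => 1 := by
  have hc := hV.cont
  rw [gibbs, integral_smul_measure, gibbs_Z hV, integral_withDensity_eq_integral_toReal_smul
    (by fun_prop) (Filter.Eventually.of_forall fun _ => ENNReal.ofReal_lt_top), ENNReal.toReal_inv,
    ENNReal.toReal_ofReal (Iw_one_pos hV le_rfl 0).le, smul_eq_mul, ← div_eq_inv_mul]
  simp only [Iw, Wa_zero, ENNReal.toReal_ofReal (Real.exp_pos _).le, smul_eq_mul, mul_comm]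

omit [DecidableEq ι] in
lemma Iw_norm_le (hV : InClass V) :
    Iw V 0 0 (fun y => ‖y‖) ≤ √(dm ι) * Iw V 0 0 fun _ => 1 := by
  have hq : Ga V 0 0 0 = 0 := by simp [Ga, hV.2.2.1]
  refine Iw_le_of_sq hV le_rfl Pg.norm ?_
  simpa using mom_two hV le_rfl hq

omit [DecidableEq ι] in
theorem gibbs_norm (hV : InClass V) : EB (gibbs V) (fun x => x) √(dm ι) := by
  have hc := hV.cont
  have hZ := Iw_one_pos hV le_rfl 0
  refine EB.of_integral ?_ ?_
  · rw [gibbs, gibbs_Z hV]
    refine Integrable.smul_measure ?_ (ENNReal.inv_ne_top.2 (ENNReal.ofReal_pos.2 hZ).ne')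
    rw [integrable_withDensity_iff (by fun_prop)
      (Filter.Eventually.of_forall fun _ => ENNReal.ofReal_lt_top)]
    simpa only [Wa_zero, ENNReal.toReal_ofReal (Real.exp_pos _).le] using
      Pg.norm.int hV le_rfl 0
  · rw [gibbs_integral hV, div_le_iff₀ hZ]
    exact Iw_norm_le hV

omit [DecidableEq ι] in
lemma shift_pt (hV : InClass V) (v y : Euc ι) :
    ‖Wa V 0 0 (y - v) - Wa V 0 0 y‖ₑ ≤ ∫⁻ t in Set.Ioc (0 : ℝ) 1,
      ENNReal.ofReal (2 * ‖v‖ * (‖y - t • v‖ * Wa V 0 0 (y - t • v))) := by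
  have hd : ∀ t : ℝ, HasDerivAt (fun t : ℝ => Wa V 0 0 (y - t • v))
      (⟪gradient V (y - t • v), v⟫ * Wa V 0 0 (y - t • v)) t := by
    intro t
    have h1 : HasDerivAt (fun t : ℝ => y - t • v) (-v) t := by
      simpa using ((hasDerivAt_id t).smul_const v).const_sub y
    have h2 := ((hV.hasGrad (y - t • v)).hasFDerivAt.comp_hasDerivAt t h1).neg.exp
    simp only [Wa_zero]
    refine h2.congr_deriv ?_
    simp
    ring
  have hc : Continuous fun t : ℝ => ⟪gradient V (y - t • v), v⟫ * Wa V 0 0 (y - t • v) := by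
    have h1 := hV.grad_cont
    have h2 := Wa_cont hV 0 0
    fun_prop
  have h := intervalIntegral.integral_eq_sub_of_hasDerivAt (a := 0) (b := 1)
    (fun t _ => hd t) (hc.intervalIntegrable _ _)
  simp only [one_smul, zero_smul, sub_zero] at h
  rw [← h, intervalIntegral.integral_of_le zero_le_one]
  refine (enorm_integral_le_lintegral_enorm _).trans (lintegral_mono fun t => ?_)
  rw [← ofReal_norm, Real.norm_eq_abs, abs_mul, abs_of_pos (Wa_pos _ _ _ _)]
  refine ENNReal.ofReal_le_ofReal ?_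
  have h3 := (abs_real_inner_le_norm (gradient V (y - t • v)) v).trans
    (mul_le_mul_of_nonneg_right (hV.grad_le _) (norm_nonneg v))
  refine (mul_le_mul_of_nonneg_right h3 (Wa_pos _ _ _ _).le).trans (le_of_eq ?_)
  ring

omit [DecidableEq ι] in
lemma shift_l1 (hV : InClass V) (v : Euc ι) :
    ∫⁻ y, ‖Wa V 0 0 (y - v) - Wa V 0 0 y‖ₑ ≤
      ENNReal.ofReal (2 * ‖v‖ * Iw V 0 0 fun y => ‖y‖) := by
  have h2 := Wa_cont hV 0 0
  refine (lintegral_mono fun y => shift_pt hV v y).trans (le_of_eq ?_)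
  rw [lintegral_lintegral_swap (Measurable.aemeasurable (by fun_prop))]
  have e : ∀ t : ℝ, ∫⁻ y, ENNReal.ofReal (2 * ‖v‖ * (‖y - t • v‖ * Wa V 0 0 (y - t • v))) =
      ENNReal.ofReal (2 * ‖v‖ * Iw V 0 0 fun y => ‖y‖) := by
    intro t
    rw [lintegral_sub_right_eq_self
      (fun y => ENNReal.ofReal (2 * ‖v‖ * (‖y‖ * Wa V 0 0 y))) (t • v), Iw, ← integral_const_mul]
    exact (ofReal_integral_eq_lintegral_ofReal ((Pg.norm.int hV le_rfl 0).const_mul _)
      (Filter.Eventually.of_forall fun y => by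
        have := Wa_pos V 0 0 y
        positivity)).symm
  simp only [e]
  simp

omit [DecidableEq ι] in
/-- Translation moves the Gibbs law by at most `2 √d ‖v‖` in total variation. -/
theorem gibbs_shift (hV : InClass V) (v : Euc ι) {B : Set (Euc ι)} (hB : MeasurableSet B) :
    |(gibbs V ((fun x => x + v) ⁻¹' B)).toReal - (gibbs V B).toReal| ≤ 2 * √(dm ι) * ‖v‖ := by
  have hZ := Iw_one_pos hV le_rfl 0
  have hW : Integrable (Wa V 0 0) := by simpa using (Pg.const 1).int hV le_rfl 0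
  have hW' : Integrable fun y => Wa V 0 0 (y - v) := hW.comp_sub_right v
  have e : ∀ A : Set (Euc ι), MeasurableSet A → (gibbs V A).toReal =
      (∫ y, A.indicator (Wa V 0 0) y) / Iw V 0 0 fun _ => 1 := by
    intro A hA
    rw [← measureReal_def, ← integral_indicator_one hA, gibbs_integral hV, Iw]
    congr 2
    funext y
    by_cases hy : y ∈ A <;> simp [hy]
  have e2 : ∫ y, ((fun x => x + v) ⁻¹' B).indicator (Wa V 0 0) y =
      ∫ y, B.indicator (fun y => Wa V 0 0 (y - v)) y := by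
    rw [← integral_add_right_eq_self (B.indicator fun y => Wa V 0 0 (y - v)) v]
    congr 1
    funext y
    by_cases hy : y + v ∈ B <;> simp [hy]
  rw [e _ (measurable_add_const v hB), e _ hB, e2, ← sub_div, abs_div, abs_of_pos hZ,
    div_le_iff₀ hZ, ← integral_sub (hW'.indicator hB) (hW.indicator hB)]
  have h0 : 0 ≤ Iw V 0 0 fun y => ‖y‖ := Iw_nonneg fun y => norm_nonneg y
  have h1 : ‖∫ y, (B.indicator (fun y => Wa V 0 0 (y - v)) y - B.indicator (Wa V 0 0) y)‖ₑ ≤
      ENNReal.ofReal (2 * ‖v‖ * Iw V 0 0 fun y => ‖y‖) := by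
    refine (enorm_integral_le_lintegral_enorm _).trans
      ((lintegral_mono fun y => ?_).trans (shift_l1 hV v))
    by_cases hy : y ∈ B <;> simp [hy]
  rw [← ofReal_norm, ENNReal.ofReal_le_ofReal_iff (by positivity),
    Real.norm_eq_abs] at h1
  have h2 := mul_le_mul_of_nonneg_left (Iw_norm_le hV) (by positivity : 0 ≤ 2 * ‖v‖)
  linarith

omit [DecidableEq ι] in
theorem gibbs_quad : gibbs (fun x : Euc ι => ‖x‖ ^ 2 / 2) = gam ι := by
  have e : gam ι = ENNReal.ofReal ((2 * Real.pi) ^ (-(dm ι / 2))) •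
      volume.withDensity fun x : Euc ι => ENNReal.ofReal (Real.exp (-(‖x‖ ^ 2 / 2))) := by
    rw [gam_density, ← withDensity_smul _ (by fun_prop)]
    congr 1
    funext x
    rw [ENNReal.ofReal_mul (by positivity)]
    rfl
  have h : gam ι Set.univ = 1 := measure_univ
  rw [e, Measure.smul_apply, withDensity_apply _ MeasurableSet.univ, Measure.restrict_univ,
    smul_eq_mul] at h
  rw [e, gibbs, ENNReal.eq_inv_of_mul_eq_one_left h]

end Vale.Agent.P347
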