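import Vale.Agent.P347.HeatA

/-! Integration by parts and moment bounds for the weights `exp (-a ‖y - p‖² / 2 - V y)`. -/

open MeasureTheory ProbabilityTheory
open scoped RealInnerProductSpace ENNReal

namespace Vale.Agent.P347

variable {ι : Type} [Fintype ι] {V : Euc ι → ℝ} {a : ℝ} {p : Euc ι}

/-- The weight with curvature `a` centred at `p`. -/
noncomputable def Wa (V : Euc ι → ℝ) (a : ℝ) (p y : Euc ι) : ℝ :=
  Real.exp (-(a * ‖y - p‖ ^ 2 / 2) - V y)

/-- The gradient of minus the logarithm of the weight. -/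
noncomputable def Ga (V : Euc ι → ℝ) (a : ℝ) (p y : Euc ι) : Euc ι := a • (y - p) + gradient V y

/-- Continuous functions of polynomial growth. -/
def Pg (f : Euc ι → ℝ) : Prop :=
  Continuous f ∧ ∃ C : ℝ, ∃ N : ℕ, 0 ≤ C ∧ ∀ y, |f y| ≤ C * (1 + ‖y‖) ^ N

section Pg
variable {f g : Euc ι → ℝ}

lemma Pg.of_le (h : Pg g) (hf : Continuous f) (hle : ∀ y, |f y| ≤ |g y|) : Pg f := by
  obtain ⟨-, C, N, hC, h⟩ := h
  exact ⟨hf, C, N, hC, fun y => (hle y).trans (h y)⟩

lemma Pg.const (c : ℝ) : Pg (ι := ι) fun _ => c :=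
  ⟨continuous_const, |c|, 0, abs_nonneg _, fun _ => by simp⟩

lemma Pg.norm : Pg (ι := ι) fun y => ‖y‖ :=
  ⟨continuous_norm, 1, 1, zero_le_one, fun y => by simp⟩

lemma Pg.add (hf : Pg f) (hg : Pg g) : Pg fun y => f y + g y := by
  obtain ⟨cf, C, N, hC, hf⟩ := hf
  obtain ⟨cg, D, M, hD, hg⟩ := hg
  refine ⟨cf.add cg, C + D, N + M, by positivity, fun w => ?_⟩
  have h1 : (1 : ℝ) ≤ 1 + ‖w‖ := by simp
  have h2 := pow_le_pow_right₀ h1 (Nat.le_add_right N M)
  have h3 := pow_le_pow_right₀ h1 (Nat.le_add_left M N)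
  have h4 := mul_le_mul_of_nonneg_left h2 hC
  have h5 := mul_le_mul_of_nonneg_left h3 hD
  have h6 := abs_add_le (f w) (g w)
  have h7 := hf w
  have h8 := hg w
  rw [add_mul]
  linarith

lemma Pg.mul (hf : Pg f) (hg : Pg g) : Pg fun y => f y * g y := by
  obtain ⟨cf, C, N, hC, hf⟩ := hf
  obtain ⟨cg, D, M, hD, hg⟩ := hg
  refine ⟨cf.mul cg, C * D, N + M, by positivity, fun w => ?_⟩
  rw [abs_mul, pow_add]
  calc |f w| * |g w| ≤ (C * (1 + ‖w‖) ^ N) * (D * (1 + ‖w‖) ^ M) :=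
        mul_le_mul (hf w) (hg w) (abs_nonneg _) (by positivity)
    _ = _ := by ring

lemma Pg.neg (hf : Pg f) : Pg fun y => -f y := hf.of_le hf.1.neg fun _ => by simp

lemma Pg.sub (hf : Pg f) (hg : Pg g) : Pg fun y => f y - g y := by
  simpa only [sub_eq_add_neg] using hf.add hg.neg

lemma Pg.pow (hf : Pg f) (n : ℕ) : Pg fun y => f y ^ n := by
  induction n with
  | zero => simpa using Pg.const 1
  | succ n ih => simpa only [pow_succ] using ih.mul hf

lemma Pg.sum {κ : Type} (t : Finset κ) {F : κ → Euc ι → ℝ} (h : ∀ k ∈ t, Pg (F k)) :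
    Pg fun y => ∑ k ∈ t, F k y := by
  classical
  induction t using Finset.induction_on with
  | empty => simpa using Pg.const 0
  | insert a t ha ih =>
    simp only [Finset.sum_insert ha]
    exact (h a (Finset.mem_insert_self _ _)).add
      (ih fun k hk => h k (Finset.mem_insert_of_mem hk))

lemma Pg.norm_sub (q : Euc ι) : Pg fun y => ‖y - q‖ :=
  (Pg.norm.add (Pg.const ‖q‖)).of_le (by fun_prop) fun y => by
    rw [abs_norm]; exact (norm_sub_le y q).trans (le_abs_self _)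

lemma Pg.inner_sub (q v : Euc ι) : Pg fun y => ⟪y - q, v⟫ :=
  ((Pg.norm_sub q).mul (Pg.const ‖v‖)).of_le (by fun_prop) fun y =>
    (abs_real_inner_le_norm _ _).trans (le_abs_self _)

lemma Pg.coord (q : Euc ι) (e : ι) : Pg fun y => y e - q e :=
  (Pg.norm_sub q).of_le (by fun_prop) fun y => by
    rw [abs_norm, ← Real.norm_eq_abs]; exact PiLp.norm_apply_le (y - q) e

lemma Pg.grad (hV : InClass V) (v : Euc ι) : Pg fun y => ⟪gradient V y, v⟫ :=
  (((Pg.const 2).mul Pg.norm).mul (Pg.const ‖v‖)).of_le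
    (hV.grad_cont.inner continuous_const) fun y => by
      refine (abs_real_inner_le_norm _ _).trans (le_trans ?_ (le_abs_self _))
      exact mul_le_mul_of_nonneg_right (hV.grad_le y) (norm_nonneg _)

lemma Ga_inner (V : Euc ι → ℝ) (a : ℝ) (p y v : Euc ι) :
    ⟪Ga V a p y, v⟫ = a * ⟪y - p, v⟫ + ⟪gradient V y, v⟫ := by
  rw [Ga, inner_add_left, real_inner_smul_left]

lemma Pg.ga (hV : InClass V) (a : ℝ) (p v : Euc ι) : Pg fun y => ⟪Ga V a p y, v⟫ := by
  simp only [Ga_inner]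
  exact ((Pg.const a).mul (Pg.inner_sub p v)).add (Pg.grad hV v)

end Pg

lemma Wa_pos (V : Euc ι → ℝ) (a : ℝ) (p y : Euc ι) : 0 < Wa V a p y := Real.exp_pos _

lemma Wa_cont (hV : InClass V) (a : ℝ) (p : Euc ι) : Continuous (Wa V a p) := by
  have := hV.cont
  unfold Wa
  fun_prop

lemma gauss_int (n : ℕ) :
    Integrable fun y : Euc ι => (1 + ‖y‖) ^ n * Real.exp (-(‖y‖ ^ 2 / 2)) := by
  have h := gam_int_pow (ι := ι) n
  have hc : 0 < (2 * Real.pi) ^ (-(dm ι / 2)) := by positivity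
  rw [gam_density, integrable_withDensity_iff (by fun_prop)
    (Filter.Eventually.of_forall fun _ => ENNReal.ofReal_lt_top)] at h
  refine (h.const_mul ((2 * Real.pi) ^ (-(dm ι / 2)))⁻¹).congr
    (Filter.Eventually.of_forall fun y => ?_)
  simp only
  rw [ENNReal.toReal_ofReal (by positivity)]
  field_simp

lemma Pg.int {f : Euc ι → ℝ} (hf : Pg f) (hV : InClass V) (ha : 0 ≤ a) (p : Euc ι) :
    Integrable fun y => f y * Wa V a p y := by
  obtain ⟨cf, C, N, hC, hf⟩ := hf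
  refine ((gauss_int N).const_mul C).mono' (cf.mul (Wa_cont hV a p)).aestronglyMeasurable
    (Filter.Eventually.of_forall fun y => ?_)
  rw [Real.norm_eq_abs, abs_mul, abs_of_pos (Wa_pos V a p y), ← mul_assoc]
  refine mul_le_mul (hf y) ?_ (Wa_pos V a p y).le (by positivity)
  rw [Wa, Real.exp_le_exp]
  have h1 := hV.lower y
  have h2 : 0 ≤ a * ‖y - p‖ ^ 2 / 2 := by positivity
  linarith

/-- Unnormalized expectation. -/
noncomputable def Iw (V : Euc ι → ℝ) (a : ℝ) (p : Euc ι) (f : Euc ι → ℝ) : ℝ :=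
  ∫ y, f y * Wa V a p y

lemma Iw_add (hV : InClass V) (ha : 0 ≤ a) {f g : Euc ι → ℝ} (hf : Pg f) (hg : Pg g) :
    Iw V a p (fun y => f y + g y) = Iw V a p f + Iw V a p g := by
  simp only [Iw, add_mul]
  exact integral_add (hf.int hV ha p) (hg.int hV ha p)

lemma Iw_sub (hV : InClass V) (ha : 0 ≤ a) {f g : Euc ι → ℝ} (hf : Pg f) (hg : Pg g) :
    Iw V a p (fun y => f y - g y) = Iw V a p f - Iw V a p g := by
  simp only [Iw, sub_mul]
  exact integral_sub (hf.int hV ha p) (hg.int hV ha p)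

lemma Iw_const_mul (c : ℝ) (f : Euc ι → ℝ) : Iw V a p (fun y => c * f y) = c * Iw V a p f := by
  simp only [Iw, mul_assoc]
  exact integral_const_mul _ _

lemma Iw_const (c : ℝ) : Iw V a p (fun _ => c) = c * Iw V a p fun _ => 1 := by
  rw [← Iw_const_mul]; simp

lemma Iw_sum (hV : InClass V) (ha : 0 ≤ a) {κ : Type} (t : Finset κ) {F : κ → Euc ι → ℝ}
    (h : ∀ k ∈ t, Pg (F k)) : Iw V a p (fun y => ∑ k ∈ t, F k y) = ∑ k ∈ t, Iw V a p (F k) := by
  simp only [Iw, Finset.sum_mul]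
  exact integral_finsetSum t fun k hk => (h k hk).int hV ha p

lemma Iw_mono (hV : InClass V) (ha : 0 ≤ a) {f g : Euc ι → ℝ} (hf : Pg f) (hg : Pg g)
    (h : ∀ y, f y ≤ g y) : Iw V a p f ≤ Iw V a p g :=
  integral_mono (hf.int hV ha p) (hg.int hV ha p) fun y =>
    mul_le_mul_of_nonneg_right (h y) (Wa_pos V a p y).le

lemma Iw_one_pos (hV : InClass V) (ha : 0 ≤ a) (p : Euc ι) : 0 < Iw V a p fun _ => 1 := by
  have h := (Pg.const 1).int hV ha p
  simp only [one_mul, Iw] at h ⊢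
  exact integral_exp_pos h

/-- The variance is nonnegative, and the mean minimizes the quadratic deviation. -/
lemma Iw_sq_dev (hV : InClass V) (ha : 0 ≤ a) {f : Euc ι → ℝ} (hf : Pg f) (c : ℝ) :
    Iw V a p (fun y => (f y - c) ^ 2) =
      Iw V a p (fun y => f y ^ 2) - 2 * c * Iw V a p f + c ^ 2 * Iw V a p fun _ => 1 := by
  rw [← Iw_const_mul, ← Iw_const, ← Iw_sub hV ha (hf.pow 2) ((Pg.const _).mul hf),
    ← Iw_add hV ha ((hf.pow 2).sub ((Pg.const _).mul hf)) (Pg.const _)]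
  congr 1
  funext y
  ring

lemma Iw_nonneg {f : Euc ι → ℝ} (h : ∀ y, 0 ≤ f y) : 0 ≤ Iw V a p f :=
  integral_nonneg fun y => mul_nonneg (h y) (Wa_pos V a p y).le

lemma Iw_cs (hV : InClass V) (ha : 0 ≤ a) {f : Euc ι → ℝ} (hf : Pg f) :
    Iw V a p f ^ 2 ≤ Iw V a p (fun y => f y ^ 2) * Iw V a p fun _ => 1 := by
  have hZ := Iw_one_pos hV ha p
  have h := Iw_nonneg (V := V) (a := a) (p := p)
    fun y => sq_nonneg (f y - Iw V a p f / Iw V a p fun _ => 1)
  rw [Iw_sq_dev hV ha hf] at h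
  generalize Iw V a p (fun _ => 1) = Z at h hZ ⊢
  generalize Iw V a p f = m at h ⊢
  generalize Iw V a p (fun y => f y ^ 2) = S at h ⊢
  have e : (S - 2 * (m / Z) * m + (m / Z) ^ 2 * Z) * Z = S * Z - m ^ 2 := by
    field_simp; ring
  have := mul_nonneg h hZ.le
  linarith

lemma Iw_le_of_sq (hV : InClass V) (ha : 0 ≤ a) {f : Euc ι → ℝ} (hf : Pg f) {b : ℝ}
    (h : Iw V a p (fun y => f y ^ 2) ≤ b * Iw V a p fun _ => 1) :
    Iw V a p f ≤ √b * Iw V a p fun _ => 1 := by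
  have hZ := Iw_one_pos hV ha p
  have h1 := Iw_cs (p := p) hV ha hf
  have h0 : 0 ≤ b := by
    have := (Iw_nonneg (V := V) (a := a) (p := p) fun y => sq_nonneg (f y)).trans h
    exact nonneg_of_mul_nonneg_left this hZ
  refine (le_abs_self _).trans (abs_le_of_sq_le_sq ?_ (by positivity))
  rw [mul_pow, Real.sq_sqrt h0]
  nlinarith

lemma logW_line (hV : InClass V) (a : ℝ) (p y v : Euc ι) :
    HasLineDerivAt ℝ (fun y => a * ‖y - p‖ ^ 2 / 2 + V y) ⟪Ga V a p y, v⟫ y v := by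
  have h1 : HasDerivAt (fun t : ℝ => y + t • v - p) v 0 := by
    simpa using (((hasDerivAt_id (0 : ℝ)).smul_const v).const_add y).sub_const p
  have h2 := (h1.norm_sq.const_mul a).div_const 2
  have h3 := (hV.hasGrad y).hasFDerivAt.hasLineDerivAt v
  unfold HasLineDerivAt at h3 ⊢
  refine (h2.add h3).congr_deriv ?_
  rw [Ga_inner]
  simp
  ring

lemma Wa_line (hV : InClass V) (a : ℝ) (p y v : Euc ι) :
    HasLineDerivAt ℝ (Wa V a p) (-(⟪Ga V a p y, v⟫ * Wa V a p y)) y v := by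
  have h := logW_line hV a p y v
  unfold HasLineDerivAt at h ⊢
  have h2 := h.neg.exp
  simp only [Wa, sub_eq_add_neg (-(a * _ / 2)), ← neg_add]
  refine h2.congr_deriv ?_
  simp
  ring

/-- Integration by parts against the weight. -/
lemma Iw_ibp (hV : InClass V) (ha : 0 ≤ a) (p v : Euc ι) {g g' : Euc ι → ℝ} (hg : Pg g)
    (hg' : Pg g') (hd : ∀ y, HasLineDerivAt ℝ g (g' y) y v) :
    Iw V a p g' = Iw V a p fun y => g y * ⟪Ga V a p y, v⟫ := by
  have key := integral_bilinear_hasLineDerivAt_right_eq_neg_left_of_integrable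
    (μ := (volume : Measure (Euc ι))) (B := ContinuousLinearMap.mul ℝ ℝ) (v := v)
    (f := Wa V a p) (f' := fun y => -(⟪Ga V a p y, v⟫ * Wa V a p y)) (g := g) (g' := g')
    (((hg.mul (Pg.ga hV a p v)).int hV ha p).neg.congr
      (Filter.Eventually.of_forall fun w => by simp; ring))
    ((hg'.int hV ha p).congr (Filter.Eventually.of_forall fun w => by simp; ring))
    ((hg.int hV ha p).congr (Filter.Eventually.of_forall fun w => by simp; ring))
    (fun w _ => Wa_line hV a p w v) (fun w _ => hd w)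
  simp only [ContinuousLinearMap.mul_apply', neg_mul, integral_neg, neg_neg] at key
  simp only [Iw, mul_comm (g' _), key]
  congr 1
  funext y
  ring

/-- The mode of the weight. -/
lemma exists_mode (hV : InClass V) (ha : 0 ≤ a) (p : Euc ι) : ∃ q, Ga V a p q = 0 := by
  have hc : Continuous fun y : Euc ι => a * ‖y - p‖ ^ 2 / 2 + V y := by
    have := hV.cont
    fun_prop
  have ht : Filter.Tendsto (fun y : Euc ι => a * ‖y - p‖ ^ 2 / 2 + V y) (Filter.cocompact _)
      Filter.atTop := by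
    refine Filter.tendsto_atTop_mono (f := fun y : Euc ι => ‖y‖ + -(1 / 2)) (fun y => ?_)
      (Filter.tendsto_atTop_add_const_right _ _ tendsto_norm_cocompact_atTop)
    have h1 := hV.lower y
    have h2 : 0 ≤ a * ‖y - p‖ ^ 2 / 2 := by positivity
    nlinarith [sq_nonneg (‖y‖ - 1)]
  obtain ⟨q, hq⟩ := hc.exists_forall_le ht
  refine ⟨q, ?_⟩
  have h := logW_line hV a p q (Ga V a p q)
  unfold HasLineDerivAt at h
  have h0 := IsLocalMin.hasDerivAt_eq_zero (Filter.Eventually.of_forall fun t => by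
    simpa using hq _) h
  exact inner_self_eq_zero.1 h0

lemma Ga_mono (hV : InClass V) {q : Euc ι} (hq : Ga V a p q = 0) (y : Euc ι) :
    (a + 1) * ‖y - q‖ ^ 2 ≤ ⟪Ga V a p y, y - q⟫ := by
  have e : Ga V a p y = a • (y - q) + (gradient V y - gradient V q) := by
    rw [← sub_zero (Ga V a p y), ← hq, Ga, Ga]
    module
  rw [e, inner_add_left, real_inner_smul_left, real_inner_self_eq_norm_sq]
  linarith [hV.grad_mono y q]

/-- The moment recursion about the mode. -/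
lemma mom_rec (hV : InClass V) (ha : 0 ≤ a) {q : Euc ι} (hq : Ga V a p q = 0) (j : ℕ) :
    (a + 1) * Iw V a p (fun y => (‖y - q‖ ^ 2) ^ (j + 1)) ≤
      (dm ι + 2 * j) * Iw V a p fun y => (‖y - q‖ ^ 2) ^ j := by
  classical
  have hR : ∀ k, Pg fun y => (‖y - q‖ ^ 2) ^ k := fun k => ((Pg.norm_sub q).pow 2).pow k
  have hs : ∀ (x : Euc ι) (e : ι), ⟪x, EuclideanSpace.single e (1 : ℝ)⟫ = x e := by
    intro x e; simp [EuclideanSpace.inner_single_right]
  have hg' : ∀ e, Pg fun y => (‖y - q‖ ^ 2) ^ j +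
      (y e - q e) * (j * (‖y - q‖ ^ 2) ^ (j - 1) * (2 * (y e - q e))) := fun e =>
    (hR j).add ((Pg.coord q e).mul (((Pg.const _).mul (hR _)).mul
      ((Pg.const 2).mul (Pg.coord q e))))
  have hg : ∀ e, Pg fun y => (y e - q e) * (‖y - q‖ ^ 2) ^ j := fun e => (Pg.coord q e).mul (hR j)
  have key : ∀ e, _ := fun e => Iw_ibp hV ha p (EuclideanSpace.single e 1) (hg e) (hg' e) fun y => by
    have h1 : HasDerivAt (fun t : ℝ => y + t • EuclideanSpace.single e (1 : ℝ) - q)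
        (EuclideanSpace.single e 1) 0 := by
      simpa using (((hasDerivAt_id (0 : ℝ)).smul_const
        (EuclideanSpace.single e (1 : ℝ))).const_add y).sub_const q
    have h2 : HasDerivAt (fun t : ℝ => (y + t • EuclideanSpace.single e (1 : ℝ)) e - q e) 1 0 := by
      simpa using ((hasDerivAt_id (0 : ℝ)).const_add (y e)).sub_const (q e)
    have h3 := h2.mul (h1.norm_sq.pow j)
    unfold HasLineDerivAt
    refine h3.congr_deriv ?_
    simp [hs]
  have hsum := Finset.sum_congr (s₁ := Finset.univ) rfl fun e _ => key e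
  rw [← Iw_sum hV ha _ fun e _ => hg' e,
    ← Iw_sum hV ha _ fun e _ => (hg e).mul (Pg.ga hV a p _)] at hsum
  have e1 : ∀ y : Euc ι, ∑ e, ((‖y - q‖ ^ 2) ^ j +
      (y e - q e) * (j * (‖y - q‖ ^ 2) ^ (j - 1) * (2 * (y e - q e)))) =
        (dm ι + 2 * j) * (‖y - q‖ ^ 2) ^ j := by
    intro y
    have h1 : ∀ c : ℝ, ∑ e, (y e - q e) * (c * (2 * (y e - q e))) = 2 * (c * ‖y - q‖ ^ 2) := by
      intro c
      rw [EuclideanSpace.real_norm_sq_eq, Finset.mul_sum, Finset.mul_sum]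
      exact Finset.sum_congr rfl fun e _ => by simp; ring
    have h2 : (j : ℝ) * (‖y - q‖ ^ 2) ^ (j - 1) * ‖y - q‖ ^ 2 = j * (‖y - q‖ ^ 2) ^ j := by
      rcases j with _ | j
      · simp
      · simp only [Nat.add_sub_cancel]; ring
    rw [Finset.sum_add_distrib, h1, h2]
    simp
    ring
  have e2 : ∀ y : Euc ι, ∑ e, (y e - q e) * (‖y - q‖ ^ 2) ^ j *
      ⟪Ga V a p y, EuclideanSpace.single e (1 : ℝ)⟫ =
        (‖y - q‖ ^ 2) ^ j * ⟪Ga V a p y, y - q⟫ := by
    intro y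
    simp only [hs]
    rw [PiLp.inner_apply, Finset.mul_sum]
    exact Finset.sum_congr rfl fun e _ => by simp; ring
  have hP : Pg fun y => (‖y - q‖ ^ 2) ^ j * ⟪Ga V a p y, y - q⟫ := by
    simp only [← e2]
    exact Pg.sum _ fun e _ => (hg e).mul (Pg.ga hV a p _)
  simp only [e1, e2, Iw_const_mul] at hsum
  rw [hsum, ← Iw_const_mul]
  refine Iw_mono hV ha ((Pg.const _).mul (hR _)) hP fun y => ?_
  have := mul_le_mul_of_nonneg_left (Ga_mono hV hq y) (by positivity : 0 ≤ (‖y - q‖ ^ 2) ^ j)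
  refine le_trans (le_of_eq ?_) this
  ring

lemma mom_two (hV : InClass V) (ha : 0 ≤ a) {q : Euc ι} (hq : Ga V a p q = 0) :
    (a + 1) * Iw V a p (fun y => ‖y - q‖ ^ 2) ≤ dm ι * Iw V a p fun _ => 1 := by
  simpa using mom_rec hV ha hq 0

lemma mom_bound (j : ℕ) : ∃ K : ℝ, 0 ≤ K ∧ ∀ V : Euc ι → ℝ, InClass V → ∀ a : ℝ, 0 ≤ a →
    ∀ p q : Euc ι, Ga V a p q = 0 →
      Iw V a p (fun y => (‖y - q‖ ^ 2) ^ j) ≤ K * Iw V a p fun _ => 1 := by
  induction j with
  | zero => exact ⟨1, zero_le_one, fun V _ a _ p q _ => by simp⟩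
  | succ j ih =>
    obtain ⟨K, hK, ih⟩ := ih
    refine ⟨(dm ι + 2 * j) * K, by positivity, fun V hV a ha p q hq => ?_⟩
    have h1 := mom_rec hV ha hq j
    have h2 := mul_le_mul_of_nonneg_left (ih V hV a ha p q hq)
      (by positivity : (0 : ℝ) ≤ dm ι + 2 * j)
    have h3 : 0 ≤ Iw V a p fun y => (‖y - q‖ ^ 2) ^ (j + 1) := Iw_nonneg fun y => by positivity
    have h4 := mul_nonneg ha h3
    rw [mul_assoc]
    linarith

end Vale.Agent.P347
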