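import Vale.Agent.P347.Flat

/-! Ideal circuits: nested combinations of smoothed gradients around a centre. -/

open MeasureTheory ProbabilityTheory

namespace Vale.Agent.P347

/-- Uniform bounds for the inner nodes of a circuit. -/
structure Bar (κ : Type) where
  s : ℝ
  ab : κ → ℝ
  Sb : ℝ
  Tb : ℝ
  Nb : ℕ

variable {ι : Type} [Fintype ι] [DecidableEq ι] {κ : Type} [Fintype κ]

/-- Functions of the potential, the centre and the vector variables. -/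
abbrev Fn (ι κ : Type) : Type := (Euc ι → ℝ) → Euc ι → (κ → Euc ι) → Euc ι

/-- `NL B y S T N`: `y` is a sum of at most `N` terms `c • ∇V_{s'}(node)`, with coefficient sum
`S` and absolute coefficient sum at most `T`, all inner nodes obeying the bounds `B`. -/
inductive NL (B : Bar κ) : Fn ι κ → ℝ → ℝ → ℕ → Prop
  | zero : NL B (fun _ _ _ => 0) 0 0 0
  | term (c s' : ℝ) (a : κ → ℝ) (y : Fn ι κ) (S T : ℝ) (N : ℕ) : NL B y S T N →
      (∀ j, |a j| ≤ B.ab j) → |S| ≤ B.Sb → T ≤ B.Tb → N ≤ B.Nb → B.s / 4 ≤ s' → s' ≤ B.s →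
      NL B (fun V p v => c • fs V s' (p + (∑ j, a j • v j + y V p v))) c |c| 1
  | add (y₁ y₂ : Fn ι κ) (S₁ S₂ T₁ T₂ : ℝ) (N₁ N₂ : ℕ) : NL B y₁ S₁ T₁ N₁ → NL B y₂ S₂ T₂ N₂ →
      NL B (fun V p v => y₁ V p v + y₂ V p v) (S₁ + S₂) (T₁ + T₂) (N₁ + N₂)
  | mono (y : Fn ι κ) (S T T' : ℝ) (N N' : ℕ) : NL B y S T N → T ≤ T' → N ≤ N' →
      NL B y S T' N'

/-- A linear part plus a circuit. -/
def Vec (B : Bar κ) (y : Fn ι κ) (a : κ → ℝ) (S T : ℝ) (N : ℕ) : Prop :=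
  ∃ nl : Fn ι κ, NL B nl S T N ∧ ∀ V p v, y V p v = ∑ j, a j • v j + nl V p v

variable {B : Bar κ} {y y₁ y₂ : Fn ι κ} {a a₁ a₂ : κ → ℝ} {S T S₁ S₂ T₁ T₂ : ℝ} {N N₁ N₂ : ℕ}

lemma NL.congr (h : NL B y₁ S T N) (e : ∀ V p v, y₂ V p v = y₁ V p v) {S' : ℝ} (eS : S' = S) :
    NL B y₂ S' T N := by
  have : y₂ = y₁ := by funext V p v; exact e V p v
  rw [this, eS]; exact h

lemma NL.nonneg (h : NL B y S T N) : |S| ≤ T := by
  induction h with
  | zero => simp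
  | term => exact le_rfl
  | add _ _ _ _ _ _ _ _ _ _ h₁ h₂ => exact (abs_add_le _ _).trans (add_le_add h₁ h₂)
  | mono _ _ _ _ _ _ _ hT _ h => exact h.trans hT

lemma NL.smul (h : NL B y S T N) (r : ℝ) :
    NL B (fun V p v => r • y V p v) (r * S) (|r| * T) N := by
  induction h with
  | zero =>
    exact NL.mono _ _ _ _ _ _ (NL.zero.congr (fun _ _ _ => smul_zero r) (mul_zero r))
      (by simp) le_rfl
  | term c s' a y S T N h h1 h2 h3 h4 h5 h6 _ =>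
    exact NL.mono _ _ _ _ _ _ ((NL.term (r * c) s' a y S T N h h1 h2 h3 h4 h5 h6).congr
      (fun _ _ _ => smul_smul _ _ _) rfl) (abs_mul r c).le le_rfl
  | add _ _ _ _ _ _ _ _ _ _ h₁ h₂ =>
    exact NL.mono _ _ _ _ _ _ ((NL.add _ _ _ _ _ _ _ _ h₁ h₂).congr
      (fun _ _ _ => smul_add _ _ _) (mul_add _ _ _)) (mul_add _ _ _).ge le_rfl
  | mono _ _ _ _ _ _ _ hT hN h =>
    exact NL.mono _ _ _ _ _ _ h (mul_le_mul_of_nonneg_left hT (abs_nonneg r)) hN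

lemma NL.sum {L : Type} (t : Finset L) {yl : L → Fn ι κ} {Sl Tl : L → ℝ} {Nl : L → ℕ}
    (h : ∀ l ∈ t, NL B (yl l) (Sl l) (Tl l) (Nl l)) :
    NL B (fun V p v => ∑ l ∈ t, yl l V p v) (∑ l ∈ t, Sl l) (∑ l ∈ t, Tl l) (∑ l ∈ t, Nl l) := by
  classical
  induction t using Finset.induction_on with
  | empty => simpa using NL.zero
  | insert a t ha ih =>
    simp only [Finset.sum_insert ha]
    exact NL.add _ _ _ _ _ _ _ _ (h a (Finset.mem_insert_self _ _))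
      (ih fun l hl => h l (Finset.mem_insert_of_mem hl))

lemma NL.vec (h : NL B y S T N) : Vec B y (fun _ => 0) S T N := by
  exact ⟨y, h, fun V p v => by simp⟩

lemma Vec.nl (h : Vec B y (fun _ => 0) S T N) : NL B y S T N := by
  obtain ⟨nl, h, e⟩ := h
  exact h.congr (fun V p v => by simpa using e V p v) rfl

lemma Vec.var [DecidableEq κ] (B : Bar κ) (j : κ) :
    Vec B (fun (_ : Euc ι → ℝ) _ v => v j) (fun i => if i = j then 1 else 0) 0 0 0 := by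
  exact ⟨_, NL.zero, fun V p v => by simp [ite_smul]⟩

lemma Vec.zero (B : Bar κ) : Vec B (fun (_ : Euc ι → ℝ) _ _ => 0) (fun _ => 0) 0 0 0 := by
  exact NL.zero.vec

lemma Vec.congr (h : Vec B y₁ a₁ S₁ T N) (e : ∀ V p v, y₂ V p v = y₁ V p v)
    (ea : ∀ j, a₂ j = a₁ j) (eS : S₂ = S₁) : Vec B y₂ a₂ S₂ T N := by
  obtain ⟨nl, h, e'⟩ := h
  exact ⟨nl, h.congr (fun _ _ _ => rfl) eS, fun V p v => by simp only [e, e', ea]⟩

lemma Vec.mono (h : Vec B y a S T₁ N₁) (hT : T₁ ≤ T₂) (hN : N₁ ≤ N₂) : Vec B y a S T₂ N₂ := by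
  obtain ⟨nl, h, e⟩ := h
  exact ⟨nl, NL.mono _ _ _ _ _ _ h hT hN, e⟩

lemma Vec.add (h₁ : Vec B y₁ a₁ S₁ T₁ N₁) (h₂ : Vec B y₂ a₂ S₂ T₂ N₂) :
    Vec B (fun V p v => y₁ V p v + y₂ V p v) (fun j => a₁ j + a₂ j) (S₁ + S₂) (T₁ + T₂)
      (N₁ + N₂) := by
  obtain ⟨n₁, h₁, e₁⟩ := h₁
  obtain ⟨n₂, h₂, e₂⟩ := h₂
  refine ⟨_, NL.add _ _ _ _ _ _ _ _ h₁ h₂, fun V p v => ?_⟩
  simp only [e₁, e₂, add_smul, Finset.sum_add_distrib]
  abel

lemma Vec.smul (h : Vec B y a S T N) (r : ℝ) :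
    Vec B (fun V p v => r • y V p v) (fun j => r * a j) (r * S) (|r| * T) N := by
  obtain ⟨nl, h, e⟩ := h
  refine ⟨_, h.smul r, fun V p v => ?_⟩
  simp only [e, smul_add, Finset.smul_sum, smul_smul]

lemma Vec.T_nonneg (h : Vec B y a S T N) : 0 ≤ T := by
  obtain ⟨nl, h, -⟩ := h
  exact (abs_nonneg _).trans h.nonneg

lemma Vec.term (h : Vec B y a S T N) (ha : ∀ j, |a j| ≤ B.ab j) (hS : |S| ≤ B.Sb)
    (hT : T ≤ B.Tb) (hN : N ≤ B.Nb) (c : ℝ) {s' : ℝ} (h1 : B.s / 4 ≤ s') (h2 : s' ≤ B.s) :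
    NL B (fun V p v => c • fs V s' (p + y V p v)) c |c| 1 := by
  obtain ⟨nl, h, e⟩ := h
  exact (NL.term c s' a nl S T N h ha hS hT hN h1 h2).congr (fun V p v => by rw [e]) rfl

variable {V : Euc ι → ℝ}

/-- Lipschitz bound in the centre and the variables. -/
theorem NL.lip (h : NL B y S T N) (hV : InClass V) (hs : 0 < B.s) (hs1 : B.s ≤ 1 / 16)
    (hT : B.Tb ≤ 1 / 4) (hab : ∀ j, 0 ≤ B.ab j) (p p' : Euc ι) (v v' : κ → Euc ι) :
    ‖y V p v - y V p' v'‖ ≤ 4 * T * (‖p - p'‖ + ∑ j, B.ab j * ‖v j - v' j‖) := by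
  obtain ⟨A, hA⟩ : ∃ A, A = ∑ j, B.ab j * ‖v j - v' j‖ := ⟨_, rfl⟩
  have hA0 : 0 ≤ A := hA ▸ Finset.sum_nonneg fun j _ => mul_nonneg (hab j) (norm_nonneg _)
  rw [← hA]
  have hp := norm_nonneg (p - p')
  induction h with
  | zero => simp
  | term c s' a y S T N h h1 h2 h3 h4 h5 h6 ih =>
    have e1 : ‖∑ j, a j • v j - ∑ j, a j • v' j‖ ≤ A := by
      rw [← Finset.sum_sub_distrib, hA]
      refine (norm_sum_le _ _).trans (Finset.sum_le_sum fun j _ => ?_)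
      rw [← smul_sub, norm_smul, Real.norm_eq_abs]
      exact mul_le_mul_of_nonneg_right (h1 j) (norm_nonneg _)
    have e2 : ‖y V p v - y V p' v'‖ ≤ ‖p - p'‖ + A :=
      ih.trans (mul_le_of_le_one_left (by positivity) (by linarith))
    have e3 : ‖(p + (∑ j, a j • v j + y V p v)) - (p' + (∑ j, a j • v' j + y V p' v'))‖ ≤
        2 * (‖p - p'‖ + A) := by
      rw [add_sub_add_comm, add_sub_add_comm]
      refine (norm_add_le _ _).trans ?_
      have := norm_add_le (∑ j, a j • v j - ∑ j, a j • v' j) (y V p v - y V p' v')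
      linarith
    have e4 := fs_lip hV (s := s') (by linarith) (by linarith)
      (p + (∑ j, a j • v j + y V p v)) (p' + (∑ j, a j • v' j + y V p' v'))
    rw [← smul_sub, norm_smul, Real.norm_eq_abs]
    calc _ ≤ |c| * (2 * (2 * (‖p - p'‖ + A))) := by gcongr; exact e4.trans (by linarith)
      _ = _ := by ring
  | add y₁ y₂ _ _ _ _ _ _ _ _ h₁ h₂ =>
    show ‖(y₁ V p v + y₂ V p v) - (y₁ V p' v' + y₂ V p' v')‖ ≤ _
    rw [add_sub_add_comm]
    refine (norm_add_le _ _).trans ?_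
    linarith
  | mono _ _ _ _ _ _ _ hT _ h => exact h.trans (by gcongr)

/-- Size bound. -/
theorem NL.size (h : NL B y S T N) (hV : InClass V) (hs : 0 < B.s) (hs1 : B.s ≤ 1 / 16)
    (hT : B.Tb ≤ 1 / 4) (hab : ∀ j, 0 ≤ B.ab j) (hSb : 0 ≤ B.Sb) (p : Euc ι) (v : κ → Euc ι) :
    ‖y V p v‖ ≤ 2 * |S| * ‖p‖ + T * (4 * ∑ j, B.ab j * ‖v j‖ + 8 * B.Sb * ‖p‖ +
      4 * √(B.s * dm ι) + 8 * B.s * ‖p‖) := by
  obtain ⟨A, hA⟩ : ∃ A, A = ∑ j, B.ab j * ‖v j‖ := ⟨_, rfl⟩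
  have hA0 : 0 ≤ A := hA ▸ Finset.sum_nonneg fun j _ => mul_nonneg (hab j) (norm_nonneg _)
  rw [← hA]
  have hp := norm_nonneg p
  obtain ⟨X, hX⟩ : ∃ X, X = 4 * A + 8 * B.Sb * ‖p‖ + 4 * √(B.s * dm ι) + 8 * B.s * ‖p‖ := ⟨_, rfl⟩
  have hX0 : 0 ≤ X := by rw [hX]; positivity
  rw [← hX]
  have fin : ∀ {y : Fn ι κ} {S T : ℝ}, ‖y V p v - S • gradient V p‖ ≤ T * X →
      ‖y V p v‖ ≤ 2 * |S| * ‖p‖ + T * X := by
    intro y S T h
    have e1 := norm_add_le (y V p v - S • gradient V p) (S • gradient V p)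
    rw [sub_add_cancel, norm_smul, Real.norm_eq_abs] at e1
    have e2 := mul_le_mul_of_nonneg_left (hV.grad_le p) (abs_nonneg S)
    linarith
  refine fin ?_
  induction h with
  | zero => simp
  | term c s' a y S T N h h1 h2 h3 h4 h5 h6 ih =>
    have e0 := fin ih
    have e1 : ‖∑ j, a j • v j‖ ≤ A := by
      rw [hA]
      refine (norm_sum_le _ _).trans (Finset.sum_le_sum fun j _ => ?_)
      rw [norm_smul, Real.norm_eq_abs]
      exact mul_le_mul_of_nonneg_right (h1 j) (norm_nonneg _)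
    have e2 : T * X ≤ 1 / 4 * X := mul_le_mul_of_nonneg_right (by linarith) hX0
    have e3 : |S| * ‖p‖ ≤ B.Sb * ‖p‖ := mul_le_mul_of_nonneg_right h2 hp
    have e4 := fs_lip hV (s := s') (by linarith) (by linarith)
      (p + (∑ j, a j • v j + y V p v)) p
    rw [add_sub_cancel_left] at e4
    have e5 := fs_sub_grad hV (s := s') (by linarith) (by linarith) p
    have e6 := norm_add_le (∑ j, a j • v j) (y V p v)
    have e7 : √(s' * dm ι) ≤ √(B.s * dm ι) := by gcongr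
    have e8 : s' * ‖p‖ ≤ B.s * ‖p‖ := mul_le_mul_of_nonneg_right h6 hp
    have e9 := norm_sub_le_norm_sub_add_norm_sub
      (fs V s' (p + (∑ j, a j • v j + y V p v))) (fs V s' p) (gradient V p)
    rw [← smul_sub, norm_smul, Real.norm_eq_abs]
    refine mul_le_mul_of_nonneg_left ?_ (abs_nonneg c)
    linarith
  | add y₁ y₂ _ _ _ _ _ _ _ _ h₁ h₂ =>
    show ‖(y₁ V p v + y₂ V p v) - _‖ ≤ _
    rw [add_smul, add_sub_add_comm]
    refine (norm_add_le _ _).trans ?_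
    linarith
  | mono _ _ _ _ _ _ _ hT _ h => exact h.trans (by gcongr)

theorem NL.cont (h : NL B y S T N) (hV : InClass V) (hs : 0 < B.s) :
    Continuous fun q : Euc ι × (κ → Euc ι) => y V q.1 q.2 := by
  induction h with
  | zero => exact continuous_const
  | term c s' a y S T N h h1 h2 h3 h4 h5 h6 ih =>
    refine Continuous.const_smul ((fs_cont hV (by linarith)).comp ?_) c
    exact continuous_fst.add (Continuous.add (by fun_prop) ih)
  | add _ _ _ _ _ _ _ _ _ _ h₁ h₂ => exact h₁.add h₂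
  | mono _ _ _ _ _ _ _ _ _ h => exact h

end Vale.Agent.P347
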