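import Vale.Agent.P347.WD

/-! Oracle computations and simulation of Gaussians centred at ideal points. -/

open MeasureTheory ProbabilityTheory

namespace Vale.Agent.P347

variable {ι : Type} [Fintype ι]

/-- `Comp q X F`: the vector `F V x` is computed from `x` with at most `q` oracle queries. -/
inductive Comp : ℕ → (X : Type) → [MeasurableSpace X] → ((Euc ι → ℝ) → X → Euc ι) → Prop
  | ret (q : ℕ) (X : Type) [MeasurableSpace X] (g : X → Euc ι) : Measurable g →
      Comp q X (fun _ x => g x)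
  | ask (q : ℕ) (X : Type) [MeasurableSpace X] (g : X → Euc ι)
      (F : (Euc ι → ℝ) → X × (ℝ × Euc ι) → Euc ι) : Measurable g → Comp q (X × (ℝ × Euc ι)) F →
      Comp (q + 1) X (fun V x => F V (x, (V (g x), gradient V (g x))))

/-- A probability space generated by finitely many independent Gaussian reals. -/
def Seed {S : Type} [MeasurableSpace S] (ν : Measure S) : Prop :=
  ∃ m : ℕ, ∃ ψ : (Fin m → ℝ) → S, Measurable ψ ∧
    (Measure.pi fun _ : Fin m => gaussianReal 0 1).map ψ = ν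

/-- The Gaussian `N(x, σ²)` centred at the ideal point `x V ω` can be sampled from `ω` with `q`
queries up to `W₁` error `err V ω`. -/
def Sim {Ω : Type} [MeasurableSpace Ω] (x : (Euc ι → ℝ) → Ω → Euc ι) (σ : ℝ) (q : ℕ)
    (err : (Euc ι → ℝ) → Ω → ℝ) : Prop :=
  ∃ (S : Type) (_ : MeasurableSpace S) (ν : Measure S), Seed ν ∧
    ∃ F : (Euc ι → ℝ) → Ω × S → Euc ι, Comp q (Ω × S) F ∧ ∀ V, InClass V → ∀ ω,
      WD ν (fun g => F V (ω, g)) (gam ι) (fun ζ => x V ω + σ • ζ) (err V ω)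

/-- The law `μ V` can be sampled with `q` queries up to `W₁` error `e`. -/
def Samp (μ : (Euc ι → ℝ) → Measure (Euc ι)) (q : ℕ) (e : ℝ) : Prop :=
  ∃ (S : Type) (_ : MeasurableSpace S) (ν : Measure S), Seed ν ∧
    ∃ F : (Euc ι → ℝ) → S → Euc ι, Comp q S F ∧ ∀ V, InClass V → WD ν (F V) (μ V) (fun x => x) e

section Comp
variable {X Y : Type} [MeasurableSpace X] [MeasurableSpace Y] {q q' : ℕ}
  {F : (Euc ι → ℝ) → X → Euc ι}

lemma Comp.meas (h : Comp q X F) {V : Euc ι → ℝ} (hV : InClass V) : Measurable (F V) := by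
  induction h with
  | ret q X g hg => exact hg
  | ask q X g F hg _ ih =>
    exact ih.comp (measurable_id.prodMk
      ((hV.cont.measurable.comp hg).prodMk (hV.grad_cont.measurable.comp hg)))

lemma Comp.mono (h : Comp q X F) (hq : q ≤ q') : Comp q' X F := by
  induction h generalizing q' with
  | ret q X g hg => exact Comp.ret q' X g hg
  | ask q X g F hg _ ih =>
    obtain ⟨k, rfl⟩ : ∃ k, q' = k + 1 := ⟨q' - 1, by omega⟩
    exact Comp.ask k X g F hg (ih (by omega))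

lemma Comp.comap (h : Comp q X F) {π : Y → X} (hπ : Measurable π) :
    Comp q Y (fun V y => F V (π y)) := by
  rename_i mX mY
  induction h generalizing Y mY with
  | ret q X g hg => exact Comp.ret q Y _ (hg.comp hπ)
  | ask q X g F hg _ ih =>
    exact Comp.ask q Y (fun y => g (π y)) (fun V w => F V (π w.1, w.2)) (hg.comp hπ)
      (ih (π := fun w : Y × (ℝ × Euc ι) => (π w.1, w.2))
        ((hπ.comp measurable_fst).prodMk measurable_snd))

lemma Comp.bind (h : Comp q X F) {G : (Euc ι → ℝ) → X × Euc ι → Euc ι}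
    (h' : Comp q' (X × Euc ι) G) : Comp (q + q') X (fun V x => G V (x, F V x)) := by
  induction h with
  | ret q X g hg =>
    exact (h'.comap (π := fun x => (x, g x)) (measurable_id.prodMk hg)).mono (by omega)
  | ask q X g F hg _ ih =>
    exact (Comp.ask _ X g (fun V w => G V (w.1, F V w)) hg
      (ih (h'.comap (π := fun w : (X × (ℝ × Euc ι)) × Euc ι => (w.1.1, w.2))
        (measurable_fst.fst.prodMk measurable_snd)))).mono (by omega)

lemma Comp.post (h : Comp q X F) {g : X × Euc ι → Euc ι} (hg : Measurable g) :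
    Comp q X (fun V x => g (x, F V x)) :=
  h.bind (Comp.ret 0 _ g hg)

lemma Comp.add (h : Comp q X F) {G : (Euc ι → ℝ) → X → Euc ι} (h' : Comp q' X G) :
    Comp (q + q') X (fun V x => F V x + G V x) :=
  h.bind ((h'.comap (π := fun w : X × Euc ι => w.1) measurable_fst).post
    (g := fun w => w.1.2 + w.2) (measurable_fst.snd.add measurable_snd))

lemma Comp.grad {g : X → Euc ι} (hg : Measurable g) :
    Comp 1 X (fun V x => gradient V (g x)) :=
  Comp.ask 0 X g (fun _ w => w.2.2) hg (Comp.ret 0 _ _ measurable_snd.snd)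

/-- The transcript of a general query rule. -/
noncomputable def trG {X : Type} (qu : ℕ → X × (ℕ → ℝ × Euc ι) → Euc ι) (V : Euc ι → ℝ) (x : X) :
    ℕ → (ℕ → ℝ × Euc ι)
  | 0 => fun _ => 0
  | i + 1 => Function.update (trG qu V x i) i
      (V (qu i (x, trG qu V x i)), gradient V (qu i (x, trG qu V x i)))

/-- The query rule that first asks at `g x` and then follows `qu`. -/
def quCons {X : Type} (g : X → Euc ι)
    (qu : ℕ → (X × (ℝ × Euc ι)) × (ℕ → ℝ × Euc ι) → Euc ι) : ℕ → X × (ℕ → ℝ × Euc ι) → Euc ι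
  | 0 => fun w => g w.1
  | i + 1 => fun w => qu i ((w.1, w.2 0), fun j => w.2 (j + 1))

lemma trG_cons {X : Type} (g : X → Euc ι)
    (qu : ℕ → (X × (ℝ × Euc ι)) × (ℕ → ℝ × Euc ι) → Euc ι) (V : Euc ι → ℝ) (x : X) (i : ℕ) :
    trG (quCons g qu) V x (i + 1) 0 = (V (g x), gradient V (g x)) ∧
      (fun j => trG (quCons g qu) V x (i + 1) (j + 1)) =
        trG qu V (x, (V (g x), gradient V (g x))) i := by
  induction i with
  | zero => exact ⟨by simp [trG, quCons], by funext j; simp [trG]⟩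
  | succ i ih =>
    obtain ⟨h1, h2⟩ := ih
    constructor
    · rw [trG, Function.update_of_ne (by omega), h1]
    · funext j
      have e : quCons g qu (i + 1) (x, trG (quCons g qu) V x (i + 1)) =
          qu i ((x, (V (g x), gradient V (g x))), trG qu V (x, (V (g x), gradient V (g x))) i) := by
        simp only [quCons, h1, h2]
      rw [trG, e, trG.eq_2 qu]
      by_cases hj : j = i
      · rw [hj, Function.update_self, Function.update_self]
      · rw [Function.update_of_ne (by omega), Function.update_of_ne hj, ← h2]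

lemma Comp.toTr (h : Comp q X F) : ∃ (qu : ℕ → X × (ℕ → ℝ × Euc ι) → Euc ι)
    (out : X × (ℕ → ℝ × Euc ι) → Euc ι), (∀ i, Measurable (qu i)) ∧ Measurable out ∧
      ∀ V x, out (x, trG qu V x q) = F V x := by
  induction h with
  | ret q X g hg =>
    exact ⟨fun _ _ => 0, fun w => g w.1, fun _ => measurable_const, hg.comp measurable_fst,
      fun _ _ => rfl⟩
  | ask q X g F hg _ ih =>
    obtain ⟨qu, out, mq, mo, h⟩ := ih
    have mπ : Measurable fun w : X × (ℕ → ℝ × Euc ι) => ((w.1, w.2 0), fun j => w.2 (j + 1)) := by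
      fun_prop
    refine ⟨quCons g qu, fun w => out ((w.1, w.2 0), fun j => w.2 (j + 1)), ?_, mo.comp mπ,
      fun V x => ?_⟩
    · rintro (_ | i)
      · exact hg.comp measurable_fst
      · exact (mq i).comp mπ
    · obtain ⟨h1, h2⟩ := trG_cons g qu V x q
      simp only [h1, h2, h]

/-- A computation on Gaussian seeds is an algorithm in the sense of the statement. -/
theorem Comp.toAlg {m : ℕ} {F : (Euc ι → ℝ) → (Fin m → ℝ) → Euc ι} (h : Comp q (Fin m → ℝ) F) :
    ∃ A : Alg ι, ∀ V, outLaw A q V = (Measure.pi fun _ : Fin m => gaussianReal 0 1).map (F V) := by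
  obtain ⟨qu, out, mq, mo, h⟩ := h.toTr
  refine ⟨⟨m, qu, out, mq, mo⟩, fun V => ?_⟩
  have e : ∀ g i, transcript ⟨m, qu, out, mq, mo⟩ V g i = trG qu V g i := by
    intro g i
    induction i with
    | zero => rfl
    | succ i ih => rw [transcript, trG, ih]
  simp only [outLaw, e, h]

end Comp

section Seed
variable {S S' : Type} [MeasurableSpace S] [MeasurableSpace S'] {ν : Measure S} {ν' : Measure S'}

lemma Seed.of_fintype {κ : Type} [Fintype κ] {ψ : (κ → ℝ) → S} (hψ : Measurable ψ)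
    (h : (Measure.pi fun _ : κ => gaussianReal 0 1).map ψ = ν) : Seed ν := by
  have h1 := measurePreserving_piCongrLeft (α := fun _ : κ => ℝ) (fun _ => gaussianReal 0 1)
    (Fintype.equivFin κ).symm
  refine ⟨_, _, hψ.comp h1.measurable, ?_⟩
  rw [← Measure.map_map hψ h1.measurable, h1.map_eq, h]

lemma Seed.prob (h : Seed ν) : IsProbabilityMeasure ν := by
  obtain ⟨m, ψ, hψ, rfl⟩ := h
  exact Measure.isProbabilityMeasure_map hψ.aemeasurable

lemma Seed.prod (h : Seed ν) (h' : Seed ν') : Seed (ν.prod ν') := by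
  obtain ⟨m, ψ, hψ, rfl⟩ := h
  obtain ⟨m', ψ', hψ', rfl⟩ := h'
  have h1 := measurePreserving_sumPiEquivProdPi (X := fun _ : Fin m ⊕ Fin m' => ℝ)
    fun _ => gaussianReal 0 1
  refine Seed.of_fintype (κ := Fin m ⊕ Fin m') ((hψ.prodMap hψ').comp h1.measurable) ?_
  rw [← Measure.map_map (hψ.prodMap hψ') h1.measurable, h1.map_eq, Measure.map_prod_map _ _ hψ hψ']

lemma Seed.gam : Seed (gam ι) :=
  Seed.of_fintype (κ := ι) (ψ := WithLp.toLp 2) (by fun_prop) map_pi_eq_stdGaussian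

end Seed

section Tools
variable {S S' S'' : Type} [MeasurableSpace S] [MeasurableSpace S'] [MeasurableSpace S'']
  {P : Measure S} {P' : Measure S'} {P'' : Measure S''}

lemma WD.refl0 {F : S → Euc ι} : WD P F P F 0 := fun _ _ _ => by simp

lemma WD.const_add {F : S → Euc ι} {F' : S' → Euc ι} {a : ℝ} (h : WD P F P' F' a) (c : Euc ι) :
    WD P (fun w => c + F w) P' (fun w => c + F' w) a := by
  simpa only [one_mul] using h.lip (Ψ := fun y => c + y) zero_le_one fun x y => by simp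

lemma WD.prod_left0 [IsProbabilityMeasure P] [IsProbabilityMeasure P'] [IsProbabilityMeasure P'']
    {F : S × S' → Euc ι} {F' : S × S'' → Euc ι} (mF : Measurable F) (mF' : Measurable F') {c : ℝ}
    (h : ∀ x, WD P' (fun y => F (x, y)) P'' (fun y => F' (x, y)) c) :
    WD (P.prod P') F (P.prod P'') F' c := by
  simpa only [mul_zero, add_zero] using WD.prod_left (H := fun _ => (0 : ℝ)) (c := c) (c₁ := 0)
    (a := 0) mF mF' measurable_const (EB.const fun _ => by simp) le_rfl le_rfl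
    fun x => by simpa only [zero_mul, add_zero] using h x

lemma WD.add_noise [IsProbabilityMeasure P] [IsProbabilityMeasure P'] {F : S → Euc ι}
    {F' : S' → Euc ι} {a : ℝ} (h : WD P F P' F' a) (mF : Measurable F) (mF' : Measurable F')
    (σ : ℝ) : WD (P.prod (gam ι)) (fun w => F w.1 + σ • w.2) (P'.prod (gam ι))
      (fun w => F' w.1 + σ • w.2) a := by
  simpa only [one_mul] using h.prod_lip (P'' := gam ι) mF mF'
    (Ψ := fun w => w.1 + σ • w.2) (L := 1) (by fun_prop) zero_le_one fun x y z => by simp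

lemma WD.conv (u : Euc ι) {a b c : ℝ} (h : a ^ 2 + b ^ 2 = c ^ 2) :
    WD ((gam ι).prod (gam ι)) (fun w => u + a • w.1 + b • w.2) (gam ι) (fun ζ => u + c • ζ) 0 := by
  simpa only [add_assoc] using
    (WD.of_map (by fun_prop) (by fun_prop) (gam_conv (ι := ι) a b c h)).const_add u

lemma eb_three [IsProbabilityMeasure P] {F : S → Euc ι} {a β β' : ℝ} (h : EB P F a)
    (mF : Measurable F) (ha : 0 ≤ a) (hβ : 0 ≤ β) (hβ' : 0 ≤ β') :
    EB (P.prod ((gam ι).prod (gam ι))) (fun w => β * ‖F w.1‖ + β' * (‖w.2.1‖ + ‖w.2.2‖))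
      (β * a + β' * (2 * √(dm ι))) := by
  have b1 : EB ((gam ι).prod (gam ι)) (fun w => ‖w.1‖ + ‖w.2‖)
      (0 + 1 * √(dm ι) + 1 * √(dm ι)) :=
    (EB.gam.fst (P' := gam ι) measurable_norm).dom2 (EB.gam.snd (P := gam ι) measurable_norm)
      measurable_fst.norm (Real.sqrt_nonneg _) (Real.sqrt_nonneg _) le_rfl zero_le_one zero_le_one
      fun w => by
        rw [zero_add, one_mul, one_mul, Real.norm_eq_abs, abs_of_nonneg (by positivity)]
  refine ((h.fst (P' := (gam ι).prod (gam ι)) mF.norm).dom2 (c := 0)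
    (b1.snd (P := P) (by fun_prop)) (mF.comp measurable_fst).norm ha (by positivity) le_rfl hβ hβ'
    fun w => ?_).mono (le_of_eq (by ring))
  rw [zero_add, Real.norm_eq_abs, Real.norm_eq_abs, abs_of_nonneg (by positivity),
    abs_of_nonneg (by positivity)]

end Tools

section Sim
variable {Ω Ω' : Type} [MeasurableSpace Ω] [MeasurableSpace Ω']
  {x y : (Euc ι → ℝ) → Ω → Euc ι} {σ σ' : ℝ} {q q' : ℕ} {e e' : (Euc ι → ℝ) → Ω → ℝ}

lemma Sim.known {k : Ω → Euc ι} (hk : Measurable k) (σ : ℝ) :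
    Sim (fun _ ω => k ω) σ 0 (fun _ _ => 0) :=
  ⟨Euc ι, inferInstance, gam ι, Seed.gam, fun _ w => k w.1 + σ • w.2,
    Comp.ret 0 _ _ ((hk.comp measurable_fst).add (measurable_snd.const_smul σ)),
    fun _ _ _ => WD.refl0⟩

lemma Sim.mono (h : Sim x σ q e) (hq : q ≤ q') (he : ∀ V, InClass V → ∀ ω, e V ω ≤ e' V ω) :
    Sim x σ q' e' := by
  obtain ⟨S, mS, ν, hν, F, hF, h⟩ := h
  exact ⟨S, mS, ν, hν, F, hF.mono hq, fun V hV ω => (h V hV ω).mono (he V hV ω)⟩

lemma Sim.congr (h : Sim x σ q e) (hx : ∀ V, InClass V → ∀ ω, y V ω = x V ω) : Sim y σ q e := by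
  obtain ⟨S, mS, ν, hν, F, hF, h⟩ := h
  exact ⟨S, mS, ν, hν, F, hF, fun V hV ω => by rw [hx V hV ω]; exact h V hV ω⟩

lemma Sim.add (h : Sim x σ q e) (h' : Sim y σ' q' e') {τ : ℝ} (hτ : σ ^ 2 + σ' ^ 2 = τ ^ 2) :
    Sim (fun V ω => x V ω + y V ω) τ (q + q') (fun V ω => e V ω + e' V ω) := by
  obtain ⟨S, mS, ν, hν, F, hF, h⟩ := h
  obtain ⟨S', mS', ν', hν', F', hF', h'⟩ := h'
  have := hν.prob
  have := hν'.prob
  refine ⟨S × S', inferInstance, ν.prod ν', hν.prod hν',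
    fun V w => F V (w.1, w.2.1) + F' V (w.1, w.2.2),
    (hF.comap (measurable_fst.prodMk measurable_snd.fst)).add
      (hF'.comap (measurable_fst.prodMk measurable_snd.snd)), fun V hV ω => ?_⟩
  have m1 : Measurable fun g => F V (ω, g) := (hF.meas hV).comp measurable_prodMk_left
  have m2 : Measurable fun g => F' V (ω, g) := (hF'.meas hV).comp measurable_prodMk_left
  have a1 := (h V hV ω).prod_lip (P'' := ν') m1 (by fun_prop)
    (Ψ := fun w => w.1 + F' V (ω, w.2)) (L := 1)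
    (measurable_fst.add (m2.comp measurable_snd)) zero_le_one fun a b z => by simp
  have a2 : WD ((gam ι).prod ν') (fun w => (x V ω + σ • w.1) + F' V (ω, w.2))
      ((gam ι).prod (gam ι)) (fun w => (x V ω + σ • w.1) + (y V ω + σ' • w.2)) (e' V ω) :=
    WD.prod_left0 (Measurable.add (by fun_prop) (m2.comp measurable_snd)) (by fun_prop)
      fun ζ => (h' V hV ω).const_add (x V ω + σ • ζ)
  have a3 := WD.conv (x V ω + y V ω) hτ
  simp only [add_add_add_comm (x V ω) _ (y V ω)] at a2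
  exact ((a1.trans (by simpa only [add_add_add_comm (x V ω) _ (y V ω)] using a2)).trans
    (by simpa only [add_assoc] using a3)).mono (le_of_eq (by ring))

lemma Sim.noise (h : Sim x σ q e) (hσ : σ ^ 2 ≤ σ' ^ 2) : Sim x σ' q e := by
  have h1 := h.add (Sim.known (k := fun _ : Ω => (0 : Euc ι)) measurable_const √(σ' ^ 2 - σ ^ 2))
    (τ := σ') (by rw [Real.sq_sqrt (by linarith)]; ring)
  exact (h1.congr fun _ _ _ => (add_zero _).symm).mono le_rfl fun _ _ _ => (add_zero _).le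

lemma Sim.smul (h : Sim x σ q e) (r : ℝ) :
    Sim (fun V ω => r • x V ω) (r * σ) q (fun V ω => |r| * e V ω) := by
  obtain ⟨S, mS, ν, hν, F, hF, h⟩ := h
  refine ⟨S, mS, ν, hν, fun V w => r • F V w,
    hF.post (g := fun w => r • w.2) (measurable_snd.const_smul r), fun V hV ω => ?_⟩
  have a1 := (h V hV ω).lip (Ψ := fun a => r • a) (abs_nonneg r) fun a b => by
    rw [← smul_sub, norm_smul, Real.norm_eq_abs]
  simpa only [smul_add, smul_smul] using a1

lemma Sim.add_known (h : Sim x σ q e) {k : Ω → Euc ι} (hk : Measurable k) :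
    Sim (fun V ω => k ω + x V ω) σ q e := by
  obtain ⟨S, mS, ν, hν, F, hF, h⟩ := h
  refine ⟨S, mS, ν, hν, fun V w => k w.1 + F V w,
    hF.post (g := fun w => k w.1.1 + w.2) ((hk.comp measurable_fst.fst).add measurable_snd),
    fun V hV ω => ?_⟩
  simpa only [add_assoc] using (h V hV ω).const_add (k ω)

lemma Sim.comap (h : Sim x σ q e) {π : Ω' → Ω} (hπ : Measurable π) :
    Sim (fun V ω => x V (π ω)) σ q (fun V ω => e V (π ω)) := by
  obtain ⟨S, mS, ν, hν, F, hF, h⟩ := h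
  exact ⟨S, mS, ν, hν, fun V w => F V (π w.1, w.2),
    hF.comap ((hπ.comp measurable_fst).prodMk measurable_snd), fun V hV ω => h V hV (π ω)⟩

/-- One gradient query at a known point. -/
lemma Sim.naive {k : Ω → Euc ι} (hk : Measurable k) (c σ : ℝ)
    (h : ∀ V, InClass V → ∀ ω, ‖c • gradient V (k ω) - x V ω‖ ≤ e V ω) : Sim x σ 1 e := by
  refine ⟨Euc ι, inferInstance, gam ι, Seed.gam, fun V w => c • gradient V (k w.1) + σ • w.2,
    (Comp.grad (hk.comp measurable_fst)).post (g := fun w => c • w.2 + σ • w.1.2) (by fun_prop),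
    fun V hV ω => ?_⟩
  refine WD.of_EB (F := fun ζ => c • gradient V (k ω) + σ • ζ)
    (measurable_const.add (measurable_id.const_smul σ)) (by fun_prop)
    ((norm_nonneg _).trans (h V hV ω))
    (EB.const fun ζ => ?_)
  simpa only [add_sub_add_right_eq_sub] using h V hV ω

/-- The sequential step: sample the centre, draw two fresh Gaussians, and continue. -/
theorem Sim.bind {p : (Euc ι → ℝ) → Ω → Euc ι} {r σ₁ σ₂ τ Λ β β' : ℝ} {q₁ q₂ : ℕ}
    {e₁ e₃ α : (Euc ι → ℝ) → Ω → ℝ} (h₁ : Sim p r q₁ e₁)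
    {Y : (Euc ι → ℝ) → Ω × (Euc ι × Euc ι × Euc ι) → Euc ι}
    (h₂ : Sim Y σ₂ q₂ (fun V w => α V w.1 + β * ‖w.2.1 - p V w.1‖ + β' * (‖w.2.2.1‖ + ‖w.2.2.2‖)))
    (hβ : 0 ≤ β) (hβ' : 0 ≤ β') (hΛ : 0 ≤ Λ) (hr : 0 ≤ r)
    (cY : ∀ V, InClass V → ∀ ω, Continuous fun u => Y V (ω, u))
    (lY : ∀ V, InClass V → ∀ ω a a' z ζ, ‖Y V (ω, (a, z, ζ)) - Y V (ω, (a', z, ζ))‖ ≤ Λ * ‖a - a'‖)
    (h₃ : ∀ V, InClass V → ∀ ω, WD (((gam ι).prod (gam ι)).prod (gam ι))
      (fun w => Y V (ω, (p V ω + r • w.1.1, w.1.2, w.2))) (gam ι) (fun ζ => x V ω + σ₁ • ζ)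
      (e₃ V ω))
    (hτ : σ₁ ^ 2 + σ₂ ^ 2 = τ ^ 2) :
    Sim x τ (q₁ + q₂) (fun V ω => e₃ V ω + Λ * e₁ V ω + α V ω + β * (r * √(dm ι) + e₁ V ω) +
      β' * (2 * √(dm ι))) := by
  obtain ⟨S₁, mS₁, ν₁, hν₁, F₁, hF₁, h₁⟩ := h₁
  obtain ⟨S₂, mS₂, ν₂, hν₂, F₂, hF₂, h₂⟩ := h₂
  have := hν₁.prob
  have := hν₂.prob
  refine ⟨(S₁ × (Euc ι × Euc ι)) × S₂, inferInstance, (ν₁.prod ((gam ι).prod (gam ι))).prod ν₂,
    (hν₁.prod (Seed.gam.prod Seed.gam)).prod hν₂,
    fun V w => F₂ V ((w.1, (F₁ V (w.1, w.2.1.1), w.2.1.2)), w.2.2),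
    Comp.bind (X := Ω × (S₁ × (Euc ι × Euc ι)) × S₂) (F := fun V w => F₁ V (w.1, w.2.1.1))
      (G := fun V w => F₂ V ((w.1.1, (w.2, w.1.2.1.2)), w.1.2.2))
      (hF₁.comap (by fun_prop)) (hF₂.comap (by fun_prop)), fun V hV ω => ?_⟩
  have m0 := hF₁.meas hV
  have m1 : Measurable fun g => F₁ V (ω, g) := m0.comp measurable_prodMk_left
  have m2 := hF₂.meas hV
  have mY := (cY V hV ω).measurable
  have he₁ := (h₁ V hV ω).nonneg
  have b1 : EB ν₁ (fun g => F₁ V (ω, g) - p V ω) (r * √(dm ι) + e₁ V ω) := by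
    have c1 := (h₁ V hV ω).lip (Ψ := fun a => a - p V ω) zero_le_one fun a b => by simp
    rw [one_mul] at c1
    refine c1.toEB (by fun_prop) (by fun_prop) (by positivity) ?_
    have c2 := (EB.gam (ι := ι)).dom1 (F := fun ζ => p V ω + r • ζ - p V ω) (c := 0)
      (Real.sqrt_nonneg _) le_rfl hr fun ζ => by simp [norm_smul, abs_of_nonneg hr]
    rwa [zero_add] at c2
  have b2 := eb_three (ι := ι) b1 (by fun_prop) (by positivity) hβ hβ'
  have a1 : WD ((ν₁.prod ((gam ι).prod (gam ι))).prod ν₂)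
      (fun w => F₂ V ((ω, (F₁ V (ω, w.1.1), w.1.2)), w.2))
      ((ν₁.prod ((gam ι).prod (gam ι))).prod (gam ι))
      (fun w => Y V (ω, (F₁ V (ω, w.1.1), w.1.2)) + σ₂ • w.2) _ :=
    WD.prod_left (c := α V ω) (c₁ := 1) (by fun_prop)
      ((mY.comp (by fun_prop)).add (by fun_prop)) (by fun_prop) b2 (by positivity) zero_le_one
      fun u => (h₂ V hV (ω, (F₁ V (ω, u.1), u.2))).mono (by
        rw [one_mul]
        exact (add_assoc _ _ _).trans_le (add_le_add le_rfl (le_abs_self _)))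
  have a2 := (h₁ V hV ω).prod_lip (P'' := (gam ι).prod (gam ι)) m1 (by fun_prop)
    (Ψ := fun u => Y V (ω, u)) mY hΛ fun a b z => lY V hV ω a b z.1 z.2
  have a3 : WD ((gam ι).prod ((gam ι).prod (gam ι)))
      (fun w => Y V (ω, (p V ω + r • w.1, w.2))) (gam ι) (fun ζ => x V ω + σ₁ • ζ) (e₃ V ω) :=
    WD.of_comp_map MeasurableEquiv.prodAssoc.measurable Measure.prodAssoc_prod
      (mY.comp (by fun_prop)) (h₃ V hV ω)
  have a4 := (a2.trans a3).add_noise (mY.comp (by fun_prop)) (by fun_prop) σ₂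
  exact ((a1.trans a4).trans (WD.conv (x V ω) hτ)).mono (le_of_eq (by ring))

end Sim

/-- One outer step: from a sample `a`, draw `ξ` and simulate a Gaussian centred at `Y (a, ξ)`. -/
theorem Samp.step {μ μ' : (Euc ι → ℝ) → Measure (Euc ι)} {q q' : ℕ} {e e' r L α β β' m : ℝ}
    (h : Samp μ q e) {Y : (Euc ι → ℝ) → Euc ι × Euc ι → Euc ι}
    (h₂ : Sim Y r q' (fun _ w => α + β * ‖w.1‖ + β' * ‖w.2‖)) (hβ : 0 ≤ β) (hβ' : 0 ≤ β')
    (hL : 0 ≤ L) (hm : 0 ≤ m) (pμ : ∀ V, InClass V → IsProbabilityMeasure (μ V))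
    (pμ' : ∀ V, InClass V → IsProbabilityMeasure (μ' V))
    (mμ : ∀ V, InClass V → EB (μ V) (fun x => x) m)
    (cY : ∀ V, InClass V → Continuous (Y V))
    (lY : ∀ V, InClass V → ∀ a a' ξ, ‖Y V (a, ξ) - Y V (a', ξ)‖ ≤ L * ‖a - a'‖)
    (h₃ : ∀ V, InClass V → WD ((μ V).prod (gam ι)) (Y V) (μ' V) (fun x => x) e') :
    Samp (fun V => ((μ' V).prod (gam ι)).map fun w => w.1 + r • w.2) (q + q')
      (e' + L * e + α + β * (m + e) + β' * √(dm ι)) := by
  obtain ⟨S₁, mS₁, ν₁, hν₁, F₁, hF₁, h₁⟩ := h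
  obtain ⟨S₂, mS₂, ν₂, hν₂, F₂, hF₂, h₂⟩ := h₂
  have := hν₁.prob
  have := hν₂.prob
  refine ⟨(S₁ × Euc ι) × S₂, inferInstance, (ν₁.prod (gam ι)).prod ν₂,
    (hν₁.prod Seed.gam).prod hν₂, fun V w => F₂ V ((F₁ V w.1.1, w.1.2), w.2),
    Comp.bind (X := (S₁ × Euc ι) × S₂) (F := fun V w => F₁ V w.1.1)
      (G := fun V w => F₂ V ((w.2, w.1.1.2), w.1.2))
      (hF₁.comap (by fun_prop)) (hF₂.comap (by fun_prop)), fun V hV => ?_⟩
  have := pμ V hV
  have := pμ' V hV
  have m1 := hF₁.meas hV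
  have m2 := hF₂.meas hV
  have mY := (cY V hV).measurable
  have he := (h₁ V hV).nonneg
  have b1 : EB ν₁ (F₁ V) (m + e) := (h₁ V hV).toEB m1 measurable_id hm (mμ V hV)
  have b2 : EB (ν₁.prod (gam ι)) (fun w => β * ‖F₁ V w.1‖ + β' * ‖w.2‖)
      (0 + β * (m + e) + β' * √(dm ι)) :=
    (b1.fst (P' := gam ι) m1.norm).dom2 (EB.gam.snd (P := ν₁) measurable_norm)
      (m1.comp measurable_fst).norm (by positivity) (Real.sqrt_nonneg _) le_rfl hβ hβ' fun w => by
        rw [zero_add, Real.norm_eq_abs, abs_of_nonneg (by positivity)]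
  have a1 : WD ((ν₁.prod (gam ι)).prod ν₂) (fun w => F₂ V ((F₁ V w.1.1, w.1.2), w.2))
      ((ν₁.prod (gam ι)).prod (gam ι)) (fun w => Y V (F₁ V w.1.1, w.1.2) + r • w.2) _ :=
    WD.prod_left (c := α) (c₁ := 1) (by fun_prop) (by fun_prop) (by fun_prop) b2
      (by positivity) zero_le_one fun u => (h₂ V hV (F₁ V u.1, u.2)).mono (by
        rw [one_mul]
        exact (add_assoc _ _ _).trans_le (add_le_add le_rfl (le_abs_self _)))
  have a2 := (h₁ V hV).prod_lip (P'' := gam ι) m1 measurable_id mY hL (lY V hV)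
  have a3 := (a2.trans (h₃ V hV)).add_noise (by fun_prop) measurable_id r
  exact (WD.of_comp_map (T := fun w : Euc ι × Euc ι => w.1 + r • w.2) (by fun_prop) rfl
    measurable_id (a1.trans a3).symm).symm.mono (le_of_eq (by ring))

lemma Samp.mono {μ μ' : (Euc ι → ℝ) → Measure (Euc ι)} {q q' : ℕ} {e e' : ℝ} (h : Samp μ q e)
    (hq : q ≤ q') (he : e ≤ e') (hμ : ∀ V, InClass V → μ' V = μ V) : Samp μ' q' e' := by
  obtain ⟨S, mS, ν, hν, F, hF, h⟩ := h
  exact ⟨S, mS, ν, hν, F, hF.mono hq, fun V hV => by rw [hμ V hV]; exact (h V hV).mono he⟩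

lemma Samp.zero {μ : (Euc ι → ℝ) → Measure (Euc ι)} {m : ℝ} (hm : 0 ≤ m)
    (pμ : ∀ V, InClass V → IsProbabilityMeasure (μ V))
    (mμ : ∀ V, InClass V → EB (μ V) (fun x => x) m) : Samp μ 0 m := by
  refine ⟨Euc ι, inferInstance, gam ι, Seed.gam, fun _ _ => 0, Comp.ret 0 _ _ measurable_const,
    fun V hV => ?_⟩
  have := pμ V hV
  have a1 : WD (gam ι) (fun _ => (0 : Euc ι)) (μ V) (fun _ => 0) 0 :=
    WD.of_map measurable_const measurable_const (by simp)
  have a2 : WD (μ V) (fun _ => (0 : Euc ι)) (μ V) (fun x => x) m :=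
    WD.of_EB measurable_const measurable_id hm ((mμ V hV).of_le fun w => by simp)
  simpa only [zero_add] using a1.trans a2

lemma Samp.trans {μ μ' : (Euc ι → ℝ) → Measure (Euc ι)} {q : ℕ} {e e' : ℝ} (h : Samp μ q e)
    (h' : ∀ V, InClass V → WD (μ V) (fun x => x) (μ' V) (fun x => x) e') : Samp μ' q (e + e') := by
  obtain ⟨S, mS, ν, hν, F, hF, h⟩ := h
  exact ⟨S, mS, ν, hν, F, hF, fun V hV => (h V hV).trans (h' V hV)⟩

end Vale.Agent.P347
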