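import Vale.Agent.P347.RecD

/-! The recursion: circuits can be simulated to high order with few queries. -/

open MeasureTheory ProbabilityTheory Filter

namespace Vale.Agent.P347

/-- The maximal rank of the recursion at level `n`. -/
def rk (n : ℕ) : ℕ := n * (3 * n ^ 2 + 1) + 3 * n ^ 2 + 1

lemma exp_small (M : ℕ) : ∃ b₀ : ℕ, ∀ b : ℕ, b₀ ≤ b → Real.exp (-(b : ℝ)) ≤ 1 / (b : ℝ) ^ M := by
  have h := (Real.tendsto_pow_mul_exp_neg_atTop_nhds_zero M).comp tendsto_natCast_atTop_atTop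
  obtain ⟨b₀, hb⟩ := eventually_atTop.1 (h.eventually (eventually_le_nhds one_pos))
  refine ⟨max b₀ 1, fun b hb' => ?_⟩
  have h1 := hb b (le_trans (le_max_left _ _) hb')
  have h2 : (0 : ℝ) < b := by exact_mod_cast le_trans (le_max_right _ _) hb'
  rw [le_div_iff₀ (by positivity), mul_comm]
  exact h1

lemma one_sub_pow_le {x : ℝ} (hx : x ≤ 1) (N : ℕ) : (1 - x) ^ N ≤ Real.exp (-(N * x)) := by
  calc (1 - x) ^ N ≤ Real.exp (-x) ^ N :=
        pow_le_pow_left₀ (by linarith) (by linarith [Real.add_one_le_exp (-x)]) N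
    _ = _ := by rw [← Real.exp_nat_mul]; congr 1; ring

lemma good_exists (n G : ℕ) (hn : 1 ≤ n) (hG : 8 * rk n + 8 ≤ G) {C : ℝ} (hC : 1 ≤ C) (Nb : ℕ) :
    ∃ b₀ : ℕ, ∀ b : ℕ, b₀ ≤ b → Good ⟨b, G, n⟩ C Nb (3 * n ^ 2 * G + 1) := by
  obtain ⟨b₁, h₁⟩ := exp_small (2 * (3 * n ^ 2 * G))
  refine ⟨max (max b₁ 10000) (max ⌈18 * C⌉₊ Nb), fun b hb => ?_⟩
  simp only [max_le_iff] at hb
  obtain ⟨⟨e1, e2⟩, e3, e4⟩ := hb
  have hβ : (10000 : ℝ) ≤ b := by exact_mod_cast e2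
  have e5 : 18 * C ≤ b := (Nat.le_ceil _).trans (by exact_mod_cast e3)
  have hl : (⟨b, G, n⟩ : Num).lz ^ n = 1 / (b : ℝ) ^ (3 * n ^ 2 * G) := by
    simp only [Num.lz, Num.g, one_div, inv_pow, ← pow_mul]
    congr 2; ring
  refine ⟨e2, hC, e5, e4, hn, by simpa [Num.r, Num.J, rk] using hG, ?_, ?_⟩
  · show 2 * C * (1 / (b : ℝ)) ^ _ ≤ _ ^ n
    rw [hl, one_div_pow, pow_succ, mul_one_div, div_le_div_iff₀ (by positivity) (by positivity)]
    have : 0 < (b : ℝ) ^ (3 * n ^ 2 * G) := by positivity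
    nlinarith
  · show (1 - (1 / (b : ℝ)) ^ 2) ^ (b ^ 3) ≤ (_ ^ n) ^ 2
    rw [hl, one_div_pow, one_div_pow, ← pow_mul, mul_comm _ 2]
    refine le_trans ((one_sub_pow_le ?_ _).trans (le_of_eq ?_)) (h₁ b e1)
    · rw [div_le_one (by positivity)]; exact one_le_pow₀ (by linarith)
    · congr 1; push_cast; field_simp

theorem sim_top (n G : ℕ) (hn : 1 ≤ n) (hG : 8 * rk n + 8 ≤ G) (C₀ : ℝ) (N₀ : ℕ) :
    ∃ b₀ : ℕ, ∀ b : ℕ, b₀ ≤ b → ∀ (ι : Type) [Fintype ι] [DecidableEq ι] (B : Bar Unit)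
      (y : Fn ι Unit) (S T r : ℝ) (N : ℕ), 0 < B.s → B.s ≤ 1 / (b : ℝ) ^ (6 * n * G + G) →
      0 ≤ B.ab () → B.ab () ≤ C₀ * √B.s → 0 ≤ B.Sb → B.Sb ≤ C₀ * B.s → B.Tb ≤ C₀ * B.s →
      B.Nb ≤ N₀ → NL B y S T N → N ≤ N₀ → T ≤ C₀ * B.s → √B.s / (b : ℝ) ^ 2 ≤ r →
      Sim (fun V (w : Euc ι × Euc ι) => y V w.1 (fun _ => w.2)) r (b ^ (8 * rk n + 3))
        (fun _ w => (b : ℝ) ^ (8 * rk n + 3) * r / (b : ℝ) ^ (3 * n ^ 2 * G) *
          ((b : ℝ) ^ 3 * √(dm ι) + ‖w.1‖ + ‖w.2‖)) := by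
  obtain ⟨C, Nb, hC, -, hsch⟩ := scheme (3 * n ^ 2 * G + 1)
  obtain ⟨b₁, h₁⟩ := good_exists n G hn hG hC Nb
  obtain ⟨b₂, h₂⟩ := good_exists n G hn hG (le_max_right C₀ 1) N₀
  refine ⟨max b₁ b₂, fun b hb ι _ _ B y S T r N hs hs1 ha0 ha hS0 hS hT hN hy hN' hT' hr => ?_⟩
  have H := h₁ b (le_trans (le_max_left _ _) hb)
  have H' := h₂ b (le_trans (le_max_right _ _) hb)
  set P : Num := ⟨b, G, n⟩ with hP
  have hts := ts_all (ι := ι) H (hsch ι)
  obtain ⟨C₁, hC₁⟩ : ∃ C₁, C₁ = max C₀ 1 := ⟨_, rfl⟩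
  rw [← hC₁] at H'
  have c0 : C₀ ≤ C₁ := hC₁ ▸ le_max_left _ _
  have c1 := H'.hC1
  have c2 : 18 * C₁ ≤ b := H'.hC
  have hβ : (10000 : ℝ) ≤ b := H.β
  have hβ0 : (0 : ℝ) < b := H.β0
  have hg0 := H.g0
  have hlam := H.lam0 n
  have ht0 : 0 < √B.s := Real.sqrt_pos.2 hs
  have hsm : B.s ≤ P.smax := by
    refine hs1.trans (le_of_eq ?_)
    simp only [hP, Num.smax, Num.lam, Num.lz, Num.g, one_div, inv_pow, ← pow_mul, ← mul_inv,
      ← pow_add]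
    congr 2; ring
  have hsg : B.s ≤ P.g := hsm.trans H.smax_g
  have hs16 : B.s ≤ 1 / 16 := hsg.trans H.g16
  have hrk : P.r n 0 = rk n := by simp [hP, Num.r, Num.J, rk]
  have hbg : (b : ℝ) * P.g ≤ 1 := by simpa using H.gb (m := 1) (le_trans (by norm_num) H.G8)
  have hCs : 18 * (C₁ * B.s) ≤ 1 := by
    calc 18 * (C₁ * B.s) = 18 * C₁ * B.s := by ring
      _ ≤ b * P.g := by gcongr
      _ ≤ 1 := hbg
  have hd : ∀ a : Euc ι, √(dm ι) ≤ (b : ℝ) ^ 3 * √(dm ι) + ‖a‖ := fun a =>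
    (le_mul_of_one_le_left (Real.sqrt_nonneg _) (one_le_pow₀ H.β1)).trans
      (le_add_of_nonneg_right (norm_nonneg _))
  have E : Env P B (fun _ (w : Euc ι × Euc ι) => w.1) (fun _ w _ => w.2)
      (fun _ w => 2 * ((b : ℝ) ^ 3 * √(dm ι) + ‖w.1‖ + ‖w.2‖)) 1 n (rk n + 1) := by
    refine ⟨le_trans (by norm_num) H.hb, le_rfl, hs, hsm, hN.trans H'.hN, fun V _ w => ?_,
      ⟨fun w => w.1, measurable_fst, ?_⟩, ?_, ?_⟩
    · have : 0 ≤ (b : ℝ) ^ 3 * √(dm ι) := by positivity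
      show (b : ℝ) ^ 3 * √(dm ι) ≤ _
      linarith [norm_nonneg w.1, norm_nonneg w.2]
    · intro a y S T N hy ha' hS' hT'' V hV w
      have ht1 : √B.s ≤ 1 := Real.sqrt_le_one.2 (by linarith)
      have hp : √B.s * ‖w.1‖ ≤ (b : ℝ) ^ 3 * √(dm ι) + ‖w.1‖ :=
        (mul_le_of_le_one_left (norm_nonneg _) ht1).trans (le_add_of_nonneg_left (by positivity))
      have hnear := node_near (C := C₁) hy hV hs hs16 (by nlinarith) (fun _ => ha0) c1
        (fun _ => ha.trans (by gcongr)) hS0 (hS.trans (by gcongr)) ha' hS' hT'' w.1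
        (fun _ => w.2) (hd w.1) hp
      rw [Fintype.sum_unique (fun _ : Unit => ‖w.2‖)] at hnear
      obtain ⟨U, hU⟩ : ∃ U, U = (b : ℝ) ^ 3 * √(dm ι) + ‖w.1‖ + ‖w.2‖ := ⟨_, rfl⟩
      rw [← hU] at hnear ⊢
      have hU0 : 0 ≤ U := by rw [hU]; positivity
      obtain ⟨u, hu⟩ : ∃ u, u = ∑ j, a j • w.2 + y V w.1 fun _ => w.2 := ⟨_, rfl⟩
      rw [← hu] at hnear ⊢
      constructor
      · have e1 : √B.s * ‖w.1 + u‖ ≤ √B.s * ‖w.1‖ + √B.s * ‖u‖ := by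
          rw [← mul_add]; exact mul_le_mul_of_nonneg_left (norm_add_le _ _) ht0.le
        have e2 : √B.s * ‖u‖ ≤ 8 * (C₁ * B.s) * U := by
          calc √B.s * ‖u‖ ≤ √B.s * (8 * C₁ * √B.s * U) := mul_le_mul_of_nonneg_left hnear ht0.le
            _ = 8 * (C₁ * (√B.s * √B.s)) * U := by ring
            _ = _ := by rw [Real.mul_self_sqrt hs.le]
        have e3 : 8 * (C₁ * B.s) * U ≤ 1 * U := mul_le_mul_of_nonneg_right (by nlinarith) hU0
        have e4 : √B.s * ‖w.1‖ ≤ U := by rw [hU]; linarith [norm_nonneg w.2]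
        linarith
      · rw [add_sub_cancel_left]
        refine hnear.trans ?_
        show _ ≤ (b : ℝ) / 2 * √B.s * (2 * U)
        have : 0 ≤ √B.s * U := by positivity
        nlinarith
    · intro a _ l _ _
      refine (Sim.known (k := fun w : Euc ι × Euc ι => w.1 + ∑ j, a j • w.2) (by fun_prop) _).mono
        (Nat.zero_le _) fun V _ w => ?_
      have := H.lz0
      positivity
    · intro l _ hl
      have e2 := H.gb (m := rk n + 1 + 3) (by show _ ≤ G; omega)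
      have hl0 := H.lam0 l
      rw [le_div_iff₀ (by positivity)]
      calc B.Tb * (4 * (b : ℝ) ^ (rk n + 1 + 2))
          ≤ C₁ * (P.lam l * P.g) * (4 * (b : ℝ) ^ (rk n + 1 + 2)) := by
            gcongr
            refine hT.trans (le_trans (by gcongr) (mul_le_mul_of_nonneg_left (hsm.trans ?_)
              (by linarith)))
            exact mul_le_mul_of_nonneg_right (H.lam_anti hl.le) hg0.le
        _ = P.lam l * (4 * C₁ * ((b : ℝ) ^ (rk n + 1 + 2) * P.g)) := by ring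
        _ ≤ P.lam l * (b * ((b : ℝ) ^ (rk n + 1 + 2) * P.g)) := by gcongr; linarith
        _ = P.lam l * ((b : ℝ) ^ (rk n + 1 + 3) * P.g) := by ring
        _ ≤ P.lam l * 1 := by gcongr
        _ = _ := mul_one _
  have ns0 := E.ns0 (fun l hl => by have := P.r_lt (j := 0) hl; omega)
    (fun l hl hl' => hts l hl hl'.le)
  have ns := E.ns le_rfl (by omega) (hts n hn le_rfl) ns0
  have hr0 : 0 < r := lt_of_lt_of_le (by positivity) hr
  have hNb : N ≤ b := hN'.trans H'.hN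
  have hNb' : (N : ℝ) ≤ b := by exact_mod_cast hNb
  have h := ns y S T N hy (r / b) (by positivity) (by
    have e2 := H.gb (m := 4) (le_trans (by norm_num) H.G8)
    calc T * √B.s ≤ b * (P.lam n * P.g) * √B.s := by
          gcongr
          exact hT'.trans (mul_le_mul (by linarith) hsm hs.le hβ0.le)
      _ = P.lam n * ((b : ℝ) ^ 4 * P.g) * (√B.s / (b : ℝ) ^ 2 / b) := by field_simp
      _ ≤ P.lam n * 1 * (r / b) := by gcongr
      _ = _ := by ring)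
  rw [hrk] at h
  refine (h.noise ?_).mono ?_ fun V _ w => ?_
  · refine pow_le_pow_left₀ (by positivity) ?_ 2
    rw [div_mul_eq_mul_div, div_le_iff₀ hβ0]
    exact mul_le_mul_of_nonneg_left (sqrt_nat_le hNb) hr0.le
  · have := H.hb
    calc N * (2 * 1 * b ^ (8 * rk n)) ≤ b * (b * b * b ^ (8 * rk n)) :=
          Nat.mul_le_mul hNb (Nat.mul_le_mul_right _ (by show 2 * 1 ≤ P.b * P.b; nlinarith))
      _ = _ := by ring
  · have hl : P.lz ^ n = 1 / (b : ℝ) ^ (3 * n ^ 2 * G) := by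
      simp only [hP, Num.lz, Num.g, one_div, inv_pow, ← pow_mul]
      congr 2; ring
    obtain ⟨U, hU⟩ : ∃ U, U = (b : ℝ) ^ 3 * √(dm ι) + ‖w.1‖ + ‖w.2‖ := ⟨_, rfl⟩
    have hU0 : 0 ≤ U := by rw [hU]; positivity
    show (N : ℝ) * ((b : ℝ) ^ (8 * rk n) * (r / b) * P.lz ^ n * (2 * _)) ≤ _
    rw [← hU, hl]
    calc _ ≤ b * ((b : ℝ) ^ (8 * rk n) * (r / b) * (1 / (b : ℝ) ^ (3 * n ^ 2 * G)) *
          ((b : ℝ) ^ 3 * U)) := by
          gcongr
          calc (2 : ℝ) ≤ b := by linarith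
            _ ≤ _ := le_self_pow₀ H.β1 (by norm_num)
      _ = _ := by field_simp; ring

end Vale.Agent.P347
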