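import Vale.Agent.P347.SchemeC
import Vale.Agent.P347.Oracle

/-! The recursion, part A: centres, term statements and circuits. -/

open MeasureTheory ProbabilityTheory

namespace Vale.Agent.P347

/-- Numerical data of the recursion. -/
structure Num where
  b : ℕ
  G : ℕ
  nm : ℕ

namespace Num
variable (P : Num)

noncomputable def g : ℝ := 1 / (P.b : ℝ) ^ P.G
noncomputable def lz : ℝ := P.g ^ (3 * P.nm)
noncomputable def lam (l : ℕ) : ℝ := P.lz * P.g ^ (3 * l)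
def J : ℕ := 3 * P.nm ^ 2
def r (l j : ℕ) : ℕ := l * (P.J + 1) + (P.J - j) + 1
noncomputable def smax : ℝ := P.lam P.nm * P.g

end Num

variable {ι : Type} [Fintype ι] [DecidableEq ι]

/-- Hypotheses on a centre. -/
def Ctr (P : Num) (n rank q : ℕ) {Ω : Type} [MeasurableSpace Ω] (p : (Euc ι → ℝ) → Ω → Euc ι)
    (s : ℝ) (R : (Euc ι → ℝ) → Ω → ℝ) : Prop :=
  (∀ V, InClass V → ∀ ω, (P.b : ℝ) ^ 3 * √(dm ι) ≤ R V ω ∧ √s * ‖p V ω‖ ≤ R V ω) ∧
  (∃ k : Ω → Euc ι, Measurable k ∧ ∀ V, InClass V → ∀ ω, ‖p V ω - k ω‖ ≤ P.b * √s * R V ω) ∧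
  ∀ l, 1 ≤ l → l < n → Sim p (√s / (P.b : ℝ) ^ (rank + 1)) (q * P.b ^ (8 * P.r l 0 + 3))
    (fun V ω => (P.b : ℝ) ^ (8 * P.r l 0 + 1) * (√s / (P.b : ℝ) ^ (rank + 1)) * P.lz ^ l * R V ω)

/-- The statement for one term at level `n` and depth `j`. -/
def TS (ι : Type) [Fintype ι] [DecidableEq ι] (P : Num) (n j : ℕ) : Prop :=
  ∀ (Ω : Type) [MeasurableSpace Ω] (p : (Euc ι → ℝ) → Ω → Euc ι) (R : (Euc ι → ℝ) → Ω → ℝ)
    (s c σ : ℝ) (q : ℕ), 0 < s → s ≤ P.smax → 0 < σ → |c| * √s ≤ P.lam n * P.g ^ j * σ → 1 ≤ q →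
    Ctr P n (P.r n j) q p s R →
    Sim (fun V ω => c • fs V s (p V ω)) σ (q * P.b ^ (8 * P.r n j))
      (fun V ω => (P.b : ℝ) ^ (8 * P.r n j) * σ * P.lz ^ n * R V ω)

/-- All nodes of a circuit stay near the centre. -/
lemma node_near {κ : Type} [Fintype κ] {B : Bar κ} {y : Fn ι κ} {S T C R : ℝ} {N : ℕ}
    {a : κ → ℝ} (h : NL B y S T N) {V : Euc ι → ℝ} (hV : InClass V) (hs : 0 < B.s)
    (hs1 : B.s ≤ 1 / 16) (hT : B.Tb ≤ 1 / 4) (hab : ∀ j, 0 ≤ B.ab j) (hC : 1 ≤ C)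
    (hab' : ∀ j, B.ab j ≤ C * √B.s) (hSb : 0 ≤ B.Sb) (hSb' : B.Sb ≤ C * B.s)
    (ha : ∀ j, |a j| ≤ B.ab j) (hS : |S| ≤ B.Sb) (hT' : T ≤ B.Tb) (p : Euc ι) (v : κ → Euc ι)
    (hd : √(dm ι) ≤ R) (hp : √B.s * ‖p‖ ≤ R) :
    ‖∑ j, a j • v j + y V p v‖ ≤ 8 * C * √B.s * (R + ∑ j, ‖v j‖) := by
  have h1 := h.size hV hs hs1 hT hab hSb p v
  have hT0 : 0 ≤ T := (abs_nonneg _).trans h.nonneg
  set t := √B.s with ht
  have ht0 : 0 < t := Real.sqrt_pos.2 hs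
  have hts : B.s = t * t := (Real.mul_self_sqrt hs.le).symm
  set Z := ∑ j, ‖v j‖ with hZ
  have hZ0 : 0 ≤ Z := Finset.sum_nonneg fun _ _ => norm_nonneg _
  have hR0 : 0 ≤ R := (Real.sqrt_nonneg _).trans hd
  have h2 : ∑ j, B.ab j * ‖v j‖ ≤ C * t * Z := by
    rw [hZ, Finset.mul_sum]
    exact Finset.sum_le_sum fun j _ => mul_le_mul_of_nonneg_right (hab' j) (norm_nonneg _)
  have h2' : 0 ≤ ∑ j, B.ab j * ‖v j‖ :=
    Finset.sum_nonneg fun j _ => mul_nonneg (hab j) (norm_nonneg _)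
  have h3 : ‖∑ j, a j • v j‖ ≤ C * t * Z := by
    refine (norm_sum_le _ _).trans (le_trans ?_ h2)
    refine Finset.sum_le_sum fun j _ => ?_
    rw [norm_smul, Real.norm_eq_abs]
    exact mul_le_mul_of_nonneg_right (ha j) (norm_nonneg _)
  have h4 : B.s * ‖p‖ ≤ t * R := by
    rw [hts, mul_assoc]; exact mul_le_mul_of_nonneg_left hp ht0.le
  have h5 : B.Sb * ‖p‖ ≤ C * t * R := by
    calc B.Sb * ‖p‖ ≤ C * B.s * ‖p‖ := mul_le_mul_of_nonneg_right hSb' (norm_nonneg _)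
      _ = C * (B.s * ‖p‖) := by ring
      _ ≤ C * (t * R) := mul_le_mul_of_nonneg_left h4 (by linarith)
      _ = C * t * R := by ring
  have h6 : √(B.s * dm ι) ≤ t * R := by
    rw [Real.sqrt_mul hs.le]; exact mul_le_mul_of_nonneg_left hd ht0.le
  have h7 : |S| * ‖p‖ ≤ C * t * R := (mul_le_mul_of_nonneg_right hS (norm_nonneg _)).trans h5
  have htR : 0 ≤ t * R := mul_nonneg ht0.le hR0
  have htR' : t * R ≤ C * t * R := by nlinarith
  have htZ : 0 ≤ C * t * Z := by positivity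
  have h8 : 4 * ∑ j, B.ab j * ‖v j‖ + 8 * B.Sb * ‖p‖ + 4 * √(B.s * dm ι) + 8 * B.s * ‖p‖ ≤
      4 * (C * t * Z) + 20 * (C * t * R) := by nlinarith
  have h9 : 0 ≤ 4 * (C * t * Z) + 20 * (C * t * R) := by nlinarith
  have h10 : T * (4 * ∑ j, B.ab j * ‖v j‖ + 8 * B.Sb * ‖p‖ + 4 * √(B.s * dm ι) +
      8 * B.s * ‖p‖) ≤ 1 / 4 * (4 * (C * t * Z) + 20 * (C * t * R)) :=
    (mul_le_mul_of_nonneg_left h8 hT0).trans (mul_le_mul_of_nonneg_right (hT'.trans hT) h9)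
  calc ‖∑ j, a j • v j + y V p v‖ ≤ ‖∑ j, a j • v j‖ + ‖y V p v‖ := norm_add_le _ _
    _ ≤ 8 * C * t * (R + Z) := by nlinarith

section Circ
variable {κ : Type} [Fintype κ] {Ω : Type} [MeasurableSpace Ω]

/-- Simulation of circuits over a fixed centre and variables at level `n`, depth `j`. -/
def NS (P : Num) (B : Bar κ) (c0 : (Euc ι → ℝ) → Ω → Euc ι) (v : (Euc ι → ℝ) → Ω → κ → Euc ι)
    (R : (Euc ι → ℝ) → Ω → ℝ) (q n j : ℕ) : Prop :=
  ∀ (y : Fn ι κ) (S T : ℝ) (N : ℕ), NL B y S T N → ∀ r₁ : ℝ, 0 < r₁ →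
    T * √B.s ≤ P.lam n * P.g ^ j * r₁ →
    Sim (fun V ω => y V (c0 V ω) (v V ω)) (r₁ * √N) (N * (2 * q * P.b ^ (8 * P.r n j)))
      (fun V ω => N * ((P.b : ℝ) ^ (8 * P.r n j) * r₁ * P.lz ^ n * R V ω))

/-- The environment in which circuits are simulated. -/
structure Env (P : Num) (B : Bar κ) (c0 : (Euc ι → ℝ) → Ω → Euc ι)
    (v : (Euc ι → ℝ) → Ω → κ → Euc ι) (R : (Euc ι → ℝ) → Ω → ℝ) (q n rank : ℕ) : Prop where
  hb : 4 ≤ P.b
  hq : 1 ≤ q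
  hs : 0 < B.s
  hs1 : B.s ≤ P.smax
  hN : B.Nb ≤ P.b
  hR : ∀ V, InClass V → ∀ ω, (P.b : ℝ) ^ 3 * √(dm ι) ≤ R V ω
  near : ∃ k : Ω → Euc ι, Measurable k ∧ ∀ (a : κ → ℝ) (y : Fn ι κ) (S T : ℝ) (N : ℕ),
    NL B y S T N → (∀ j, |a j| ≤ B.ab j) → |S| ≤ B.Sb → T ≤ B.Tb → ∀ V, InClass V → ∀ ω,
      √B.s * ‖c0 V ω + (∑ j, a j • v V ω j + y V (c0 V ω) (v V ω))‖ ≤ R V ω ∧
      ‖c0 V ω + (∑ j, a j • v V ω j + y V (c0 V ω) (v V ω)) - k ω‖ ≤ P.b / 2 * √B.s * R V ω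
  aff : ∀ a : κ → ℝ, (∀ j, |a j| ≤ B.ab j) → ∀ l, 1 ≤ l → l < n →
    Sim (fun V ω => c0 V ω + ∑ j, a j • v V ω j) (√B.s / (4 * (P.b : ℝ) ^ rank))
      (q * P.b ^ (8 * P.r l 0 + 3))
      (fun V ω => (P.b : ℝ) ^ (8 * P.r l 0 + 1) * (√B.s / (4 * (P.b : ℝ) ^ rank)) * P.lz ^ l * R V ω)
  thr : ∀ l, 1 ≤ l → l < n → B.Tb ≤ P.lam l / (4 * (P.b : ℝ) ^ (rank + 2))

lemma Num.g_pos (P : Num) (hb : 1 ≤ P.b) : 0 < P.g := by
  have : (0 : ℝ) < P.b := by exact_mod_cast hb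
  unfold Num.g; positivity

lemma Num.lz_pos (P : Num) (hb : 1 ≤ P.b) : 0 < P.lz := pow_pos (P.g_pos hb) _

lemma Num.lam_pos (P : Num) (hb : 1 ≤ P.b) (l : ℕ) : 0 < P.lam l :=
  mul_pos (P.lz_pos hb) (pow_pos (P.g_pos hb) _)

lemma sqrt_half {s s' : ℝ} (h : s / 4 ≤ s') : √s / 2 ≤ √s' := by
  have : √(s / 4) = √s / 2 := by
    rw [Real.sqrt_div' _ (by norm_num : (0 : ℝ) ≤ 4)]
    congr 1
    rw [show (4 : ℝ) = 2 ^ 2 by norm_num, Real.sqrt_sq (by norm_num)]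
  rw [← this]; exact Real.sqrt_le_sqrt h

lemma sqrt_nat_le {N b : ℕ} (h : N ≤ b) : √(N : ℝ) ≤ b := by
  rw [Real.sqrt_le_left (by positivity)]
  have : (N : ℝ) ≤ b := by exact_mod_cast h
  rcases Nat.eq_zero_or_pos b with h0 | h0
  · subst h0; simpa using this
  · have : (1 : ℝ) ≤ b := by exact_mod_cast h0
    nlinarith

variable {P : Num} {B : Bar κ} {c0 : (Euc ι → ℝ) → Ω → Euc ι}
  {v : (Euc ι → ℝ) → Ω → κ → Euc ι} {R : (Euc ι → ℝ) → Ω → ℝ} {q n rank : ℕ}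

/-- Inner nodes are admissible centres. -/
lemma Env.ctr (E : Env P B c0 v R q n rank) {n' rank' : ℕ} (hn : n' ≤ n) (hr : rank' + 1 ≤ rank)
    (ih : ∀ l, 1 ≤ l → l < n' → NS P B c0 v R q l 0) {a : κ → ℝ} {y : Fn ι κ} {S T s' : ℝ}
    {N : ℕ} (h : NL B y S T N) (ha : ∀ j, |a j| ≤ B.ab j) (hS : |S| ≤ B.Sb) (hT : T ≤ B.Tb)
    (hN : N ≤ B.Nb) (h1 : B.s / 4 ≤ s') (h2 : s' ≤ B.s) :
    Ctr P n' rank' (2 * q)
      (fun V ω => c0 V ω + (∑ j, a j • v V ω j + y V (c0 V ω) (v V ω))) s' R := by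
  obtain ⟨k, mk, hk⟩ := E.near
  have hb1 : 1 ≤ P.b := le_trans (by norm_num) E.hb
  have hβ : (4 : ℝ) ≤ P.b := by exact_mod_cast E.hb
  have hβ0 : (0 : ℝ) < P.b := by linarith
  have hss : √s' ≤ √B.s := Real.sqrt_le_sqrt h2
  have hss' := sqrt_half h1
  have ht0 : 0 < √B.s := Real.sqrt_pos.2 E.hs
  have hR0 : ∀ V, InClass V → ∀ ω, 0 ≤ R V ω := fun V hV ω =>
    le_trans (by positivity) (E.hR V hV ω)
  refine ⟨fun V hV ω => ⟨E.hR V hV ω, ?_⟩, ⟨k, mk, fun V hV ω => ?_⟩, fun l hl hl' => ?_⟩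
  · exact (mul_le_mul_of_nonneg_right hss (norm_nonneg _)).trans (hk a y S T N h ha hS hT V hV ω).1
  · refine (hk a y S T N h ha hS hT V hV ω).2.trans ?_
    refine mul_le_mul_of_nonneg_right ?_ (hR0 V hV ω)
    nlinarith
  · set ρ := √B.s / (4 * (P.b : ℝ) ^ rank) with hρ
    have hρ0 : 0 < ρ := by positivity
    have hA := E.aff a ha l hl (lt_of_lt_of_le hl' hn)
    have hthr := E.thr l hl (lt_of_lt_of_le hl' hn)
    have hlam := P.lam_pos hb1 l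
    have hB := ih l hl hl' y S T N h (ρ / P.b) (by positivity) (by
      have e1 : T * √B.s ≤ P.lam l / (4 * (P.b : ℝ) ^ (rank + 2)) * √B.s :=
        mul_le_mul_of_nonneg_right (hT.trans hthr) ht0.le
      refine e1.trans ?_
      rw [pow_zero, mul_one, hρ, div_mul_eq_mul_div, div_div, ← mul_div_assoc]
      refine div_le_div_of_nonneg_left (by positivity) (by positivity) ?_
      have : (P.b : ℝ) ^ (rank + 2) = P.b ^ rank * P.b * P.b := by ring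
      rw [this]
      have : 0 < (P.b : ℝ) ^ rank * P.b := by positivity
      nlinarith)
    have hNb : N ≤ P.b := hN.trans E.hN
    have hNb' : (N : ℝ) ≤ P.b := by exact_mod_cast hNb
    have hsN := sqrt_nat_le hNb
    have hn1 : ρ / P.b * √N ≤ ρ := by
      rw [div_mul_eq_mul_div, div_le_iff₀ hβ0]
      exact mul_le_mul_of_nonneg_left hsN hρ0.le
    have hn0 : 0 ≤ ρ / P.b * √N := by positivity
    have hn2 : 2 * ρ ≤ √s' / (P.b : ℝ) ^ (rank' + 1) := by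
      have e1 : (P.b : ℝ) ^ (rank' + 1) ≤ (P.b : ℝ) ^ rank :=
        pow_le_pow_right₀ (by linarith) hr
      calc 2 * ρ = √B.s / 2 / (P.b : ℝ) ^ rank := by rw [hρ]; field_simp; ring
        _ ≤ √s' / (P.b : ℝ) ^ rank := div_le_div_of_nonneg_right hss' (by positivity)
        _ ≤ √s' / (P.b : ℝ) ^ (rank' + 1) :=
          div_le_div_of_nonneg_left (Real.sqrt_nonneg _) (by positivity) e1
    have hsum := hA.add hB (τ := √(ρ ^ 2 + (ρ / P.b * √N) ^ 2))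
      (Real.sq_sqrt (by positivity)).symm
    refine ((hsum.noise (σ' := √s' / (P.b : ℝ) ^ (rank' + 1)) ?_).mono ?_ ?_).congr ?_
    · rw [Real.sq_sqrt (by positivity)]
      nlinarith
    · have e1 : N * (2 * q * P.b ^ (8 * P.r l 0)) ≤ q * P.b ^ (8 * P.r l 0 + 3) := by
        have e2 : N * 2 ≤ P.b ^ 3 := by
          have := E.hb
          calc N * 2 ≤ P.b * P.b := Nat.mul_le_mul hNb (by omega)
            _ ≤ P.b * P.b * P.b := Nat.le_mul_of_pos_right _ (by omega)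
            _ = P.b ^ 3 := by ring
        calc N * (2 * q * P.b ^ (8 * P.r l 0)) = N * 2 * (q * P.b ^ (8 * P.r l 0)) := by ring
          _ ≤ P.b ^ 3 * (q * P.b ^ (8 * P.r l 0)) := Nat.mul_le_mul_right _ e2
          _ = q * P.b ^ (8 * P.r l 0 + 3) := by ring
      calc _ ≤ q * P.b ^ (8 * P.r l 0 + 3) + q * P.b ^ (8 * P.r l 0 + 3) :=
            Nat.add_le_add_left e1 _
        _ = 2 * q * P.b ^ (8 * P.r l 0 + 3) := by ring
    · intro V hV ω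
      have hlz := P.lz_pos hb1
      have hR := hR0 V hV ω
      set Z := (P.b : ℝ) ^ (8 * P.r l 0) * P.lz ^ l * R V ω with hZ
      have hZ0 : 0 ≤ Z := by positivity
      have e1 : (N : ℝ) * ((P.b : ℝ) ^ (8 * P.r l 0) * (ρ / P.b) * P.lz ^ l * R V ω) =
          N / P.b * ρ * Z := by rw [hZ]; ring
      have e2 : (P.b : ℝ) ^ (8 * P.r l 0 + 1) * ρ * P.lz ^ l * R V ω = P.b * ρ * Z := by
        rw [hZ]; ring
      have e3 : (P.b : ℝ) ^ (8 * P.r l 0 + 1) * (√s' / (P.b : ℝ) ^ (rank' + 1)) * P.lz ^ l *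
          R V ω = P.b * (√s' / (P.b : ℝ) ^ (rank' + 1)) * Z := by rw [hZ]; ring
      rw [e1, e2, e3, ← add_mul]
      refine mul_le_mul_of_nonneg_right ?_ hZ0
      have e4 : (N : ℝ) / P.b ≤ P.b := by
        rw [div_le_iff₀ hβ0]; nlinarith
      nlinarith
    · intro V _ ω
      simp only [add_assoc]

/-- From the term statement to circuits. -/
lemma Env.ns (E : Env P B c0 v R q n rank) {n' j : ℕ} (hn : n' ≤ n) (hr : P.r n' j + 1 ≤ rank)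
    (hT : TS ι P n' j) (ih : ∀ l, 1 ≤ l → l < n' → NS P B c0 v R q l 0) :
    NS P B c0 v R q n' j := by
  intro y S T N h r₁ hr₁ hle
  have hb1 : 1 ≤ P.b := le_trans (by norm_num) E.hb
  have ht0 : 0 < √B.s := Real.sqrt_pos.2 E.hs
  have hR0 : ∀ V, InClass V → ∀ ω, 0 ≤ R V ω := fun V hV ω =>
    le_trans (by positivity) (E.hR V hV ω)
  have hlz := P.lz_pos hb1
  induction h with
  | zero =>
    refine (Sim.known (k := fun _ => (0 : Euc ι)) measurable_const _).mono (Nat.zero_le _) ?_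
    intro V _ ω
    simp
  | term c s' a y S T N h ha hS hT' hN h1 h2 _ =>
    have hc := E.ctr hn hr ih h ha hS hT' hN h1 h2
    have hs' : 0 < s' := lt_of_lt_of_le (by linarith [E.hs]) h1
    have := hT Ω _ R s' c r₁ (2 * q) hs' (h2.trans E.hs1) hr₁
      ((mul_le_mul_of_nonneg_left (Real.sqrt_le_sqrt h2) (abs_nonneg _)).trans hle)
      (by have := E.hq; omega) hc
    simpa using this
  | add y₁ y₂ S₁ S₂ T₁ T₂ N₁ N₂ h₁ h₂ ih₁ ih₂ =>
    have t1 : 0 ≤ T₁ := (abs_nonneg _).trans h₁.nonneg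
    have t2 : 0 ≤ T₂ := (abs_nonneg _).trans h₂.nonneg
    have a1 := ih₁ (le_trans (mul_le_mul_of_nonneg_right (by linarith) ht0.le) hle)
    have a2 := ih₂ (le_trans (mul_le_mul_of_nonneg_right (by linarith) ht0.le) hle)
    refine (a1.add a2 (τ := r₁ * √((N₁ + N₂ : ℕ) : ℝ)) ?_).mono (le_of_eq (by ring)) ?_
    · rw [mul_pow, mul_pow, mul_pow, Real.sq_sqrt (by positivity), Real.sq_sqrt (by positivity),
        Real.sq_sqrt (by positivity)]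
      push_cast; ring
    · intro V _ ω
      push_cast; exact le_of_eq (by ring)
  | mono y S T T' N N' h hTT hNN ih' =>
    have a1 := ih' (le_trans (mul_le_mul_of_nonneg_right hTT ht0.le) hle)
    have hN' : (N : ℝ) ≤ N' := by exact_mod_cast hNN
    refine (a1.noise ?_).mono (Nat.mul_le_mul_right _ hNN) ?_
    · rw [mul_pow, mul_pow, Real.sq_sqrt (by positivity), Real.sq_sqrt (by positivity)]
      exact mul_le_mul_of_nonneg_left hN' (by positivity)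
    · intro V hV ω
      have := hR0 V hV ω
      exact mul_le_mul_of_nonneg_right hN' (by positivity)

lemma Num.r_lt (P : Num) {l n j : ℕ} (h : l < n) : P.r l 0 + 1 ≤ P.r n j := by
  unfold Num.r
  have : (l + 1) * (P.J + 1) ≤ n * (P.J + 1) := Nat.mul_le_mul_right _ h
  have e : (l + 1) * (P.J + 1) = l * (P.J + 1) + P.J + 1 := by ring
  omega

lemma Env.ns0 (E : Env P B c0 v R q n rank) (hr : ∀ l, l < n → P.r l 0 + 1 ≤ rank)
    (hT : ∀ l, 1 ≤ l → l < n → TS ι P l 0) :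
    ∀ l, 1 ≤ l → l < n → NS P B c0 v R q l 0 := by
  intro l
  induction l using Nat.strong_induction_on with
  | _ l ih =>
    intro hl hl'
    exact E.ns hl'.le (hr l hl') (hT l hl hl') fun m hm hm' => ih m hm' hm (hm'.trans hl')

end Circ

end Vale.Agent.P347
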