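import Vale.Agent.P347.RecA

/-! The recursion, part B: numerical facts, the naive step and the environment of one step. -/

open MeasureTheory ProbabilityTheory

namespace Vale.Agent.P347

/-- Numerical hypotheses. -/
structure Good (P : Num) (C : ℝ) (Nb K : ℕ) : Prop where
  hb : 10000 ≤ P.b
  hC1 : 1 ≤ C
  hC : 18 * C ≤ P.b
  hN : Nb ≤ P.b
  hnm : 1 ≤ P.nm
  hG : 8 * P.r P.nm 0 + 8 ≤ P.G
  hK : 2 * C * (1 / (P.b : ℝ)) ^ K ≤ P.lz ^ P.nm
  hexp : (1 - (1 / (P.b : ℝ)) ^ 2) ^ (P.b ^ 3) ≤ (P.lz ^ P.nm) ^ 2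

namespace Good
variable {P : Num} {C : ℝ} {Nb K : ℕ} (H : Good P C Nb K)
include H

lemma b1 : 1 ≤ P.b := le_trans (by norm_num) H.hb
lemma β : (10000 : ℝ) ≤ P.b := by exact_mod_cast H.hb
lemma β0 : (0 : ℝ) < P.b := by linarith [H.β]
lemma β1 : (1 : ℝ) ≤ P.b := by linarith [H.β]
lemma g0 : 0 < P.g := P.g_pos H.b1
lemma lz0 : 0 < P.lz := P.lz_pos H.b1
lemma lam0 (l : ℕ) : 0 < P.lam l := P.lam_pos H.b1 l

lemma gb {m : ℕ} (hm : m ≤ P.G) : (P.b : ℝ) ^ m * P.g ≤ 1 := by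
  have := H.β0
  unfold Num.g
  rw [mul_one_div, div_le_one (by positivity)]
  exact pow_le_pow_right₀ H.β1 hm

lemma G8 : 16 ≤ P.G := by
  have := H.hG
  have : 1 ≤ P.r P.nm 0 := by unfold Num.r; omega
  omega

lemma g1 : P.g ≤ 1 := by simpa using H.gb (Nat.zero_le _)

lemma gpow1 (m : ℕ) : P.g ^ m ≤ 1 := pow_le_one₀ H.g0.le H.g1

lemma lz_g : P.lz ≤ P.g := by
  have := H.hnm
  calc P.lz = P.g ^ (3 * P.nm) := rfl
    _ ≤ P.g ^ 1 := pow_le_pow_of_le_one H.g0.le H.g1 (by omega)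
    _ = P.g := pow_one _

lemma lz1 : P.lz ≤ 1 := H.lz_g.trans H.g1

lemma lam_lz (l : ℕ) : P.lam l ≤ P.lz := mul_le_of_le_one_right H.lz0.le (H.gpow1 _)

lemma lam_anti {l n : ℕ} (h : l ≤ n) : P.lam n ≤ P.lam l :=
  mul_le_mul_of_nonneg_left (pow_le_pow_of_le_one H.g0.le H.g1 (by omega)) H.lz0.le

lemma lam_step {l n : ℕ} (h : l < n) : P.lam n ≤ P.lam l * P.g ^ 3 := by
  refine (H.lam_anti (Nat.succ_le_of_lt h)).trans (le_of_eq ?_)
  unfold Num.lam
  rw [Nat.succ_eq_add_one]; ring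

lemma lam_g3 {n : ℕ} (h : 1 ≤ n) : P.lam n ≤ P.g ^ 3 :=
  (H.lam_step h).trans (mul_le_of_le_one_left (pow_pos H.g0 _).le ((H.lam_lz 0).trans H.lz1))

lemma smax_lam {n : ℕ} (h : n ≤ P.nm) : P.smax ≤ P.lam n :=
  (mul_le_of_le_one_right (H.lam0 _).le H.g1).trans (H.lam_anti h)

lemma smax_g : P.smax ≤ P.g := (H.smax_lam le_rfl).trans ((H.lam_lz _).trans H.lz_g)

lemma g_le {m : ℕ} (hm : m ≤ P.G) : P.g ≤ 1 / (P.b : ℝ) ^ m := by
  have := H.β0
  rw [le_div_iff₀ (by positivity), mul_comm]; exact H.gb hm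

lemma g16 : P.g ≤ 1 / 16 := by
  have h := H.g_le (m := 1) (le_trans (by norm_num) H.G8)
  rw [pow_one] at h
  exact h.trans (one_div_le_one_div_of_le (by norm_num) (by linarith [H.β]))

omit H in
lemma r_le {n j : ℕ} (h : n ≤ P.nm) : P.r n j ≤ P.r P.nm 0 := by
  unfold Num.r
  have := Nat.mul_le_mul_right (P.J + 1) h
  omega

lemma lzpow {n : ℕ} (h : n ≤ P.nm) : P.lz ^ P.nm ≤ P.lz ^ n :=
  pow_le_pow_of_le_one H.lz0.le H.lz1 h

lemma last {n : ℕ} (h : n ≤ P.nm) : P.lam n * P.g ^ P.J ≤ P.lz ^ n := by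
  calc P.lam n * P.g ^ P.J ≤ 1 * P.g ^ P.J :=
        mul_le_mul_of_nonneg_right ((H.lam_lz _).trans H.lz1) (pow_pos H.g0 _).le
    _ = P.lz ^ P.nm := by unfold Num.lz Num.J; rw [one_mul, ← pow_mul]; congr 1; ring
    _ ≤ _ := H.lzpow h

end Good

variable {ι : Type} [Fintype ι] [DecidableEq ι]

lemma naive {P : Num} {n rank q : ℕ} {Ω : Type} [MeasurableSpace Ω]
    {p : (Euc ι → ℝ) → Ω → Euc ι} {s c : ℝ} {R : (Euc ι → ℝ) → Ω → ℝ} (hb : 1 ≤ P.b)
    (h : Ctr P n rank q p s R) (hs : 0 < s) (hs1 : s ≤ 1) {E : ℝ} (hc : |c| * √s ≤ E) (σ' : ℝ) :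
    Sim (fun V ω => c • fs V s (p V ω)) σ' 1 (fun V ω => (6 + 2 * P.b) * E * R V ω) := by
  obtain ⟨h1, ⟨k, mk, hk⟩, -⟩ := h
  refine Sim.naive mk c σ' fun V hV ω => ?_
  have hβ : (1 : ℝ) ≤ P.b := by exact_mod_cast hb
  obtain ⟨a1, a2⟩ := h1 V hV ω
  have a3 := hk V hV ω
  have a4 := fs_sub_grad hV hs hs1 (p V ω)
  have a5 := hV.grad_lip (k ω) (p V ω)
  set t := √s with ht
  have ht0 : 0 < t := Real.sqrt_pos.2 hs
  have hts : s = t * t := (Real.mul_self_sqrt hs.le).symm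
  have hd : √(dm ι) ≤ R V ω :=
    le_trans (le_mul_of_one_le_left (Real.sqrt_nonneg _) (one_le_pow₀ hβ)) a1
  have hR : 0 ≤ R V ω := (Real.sqrt_nonneg _).trans hd
  have a6 : √(s * dm ι) ≤ t * R V ω := by
    rw [Real.sqrt_mul hs.le]; exact mul_le_mul_of_nonneg_left hd ht0.le
  have a7 : s * ‖p V ω‖ ≤ t * R V ω := by
    rw [hts, mul_assoc]; exact mul_le_mul_of_nonneg_left a2 ht0.le
  have a8 : ‖gradient V (k ω) - fs V s (p V ω)‖ ≤ (6 + 2 * P.b) * (t * R V ω) := by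
    have e : gradient V (k ω) - fs V s (p V ω) = (gradient V (k ω) - gradient V (p V ω)) -
        (fs V s (p V ω) - gradient V (p V ω)) := by abel
    rw [e]
    refine (norm_sub_le _ _).trans ?_
    rw [norm_sub_rev (k ω)] at a5
    nlinarith
  rw [← smul_sub, norm_smul, Real.norm_eq_abs]
  calc |c| * ‖gradient V (k ω) - fs V s (p V ω)‖ ≤ |c| * ((6 + 2 * P.b) * (t * R V ω)) :=
        mul_le_mul_of_nonneg_left a8 (abs_nonneg _)
    _ = (6 + 2 * P.b) * (|c| * t) * R V ω := by ring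
    _ ≤ (6 + 2 * P.b) * E * R V ω := by gcongr

section Step
variable {Ω : Type} [MeasurableSpace Ω]

/-- The variables of one step. -/
noncomputable def vStep (P : Num) (s : ℝ) (p : (Euc ι → ℝ) → Ω → Euc ι) (V : Euc ι → ℝ)
    (w : Ω × (Euc ι × Euc ι × Euc ι)) : Fin 3 → Euc ι :=
  ![((P.b : ℝ) / √s) • (w.2.1 - p V w.1), w.2.2.1, w.2.2.2]

/-- The weight after one step. -/
noncomputable def RStep (P : Num) (s : ℝ) (p : (Euc ι → ℝ) → Ω → Euc ι)
    (R : (Euc ι → ℝ) → Ω → ℝ) (V : Euc ι → ℝ) (w : Ω × (Euc ι × Euc ι × Euc ι)) : ℝ :=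
  (1 + 1 / (P.b : ℝ) ^ 3) * (R V w.1 + ∑ j, ‖vStep P s p V w j‖)

lemma env_step {P : Num} {C : ℝ} {Nb K : ℕ} (H : Good P C Nb K) {n j q : ℕ} (hn : n ≤ P.nm)
    (hn1 : 1 ≤ n) {p : (Euc ι → ℝ) → Ω → Euc ι} {R : (Euc ι → ℝ) → Ω → ℝ} {s : ℝ} (hs : 0 < s)
    (hs1 : s ≤ P.smax) (hq : 1 ≤ q) (h : Ctr P n (P.r n j) q p s R) :
    Env P (⟨s, fun _ => C * √s * (1 / P.b), C * s, C * (P.lam n / P.g ^ 2), Nb⟩ : Bar (Fin 3))
      (fun V (w : Ω × (Euc ι × Euc ι × Euc ι)) => p V w.1) (vStep P s p) (RStep P s p R) q n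
      (P.r n j) := by
  obtain ⟨h1, -, h3⟩ := h
  have hβ := H.β
  have hβ0 := H.β0
  have hg0 := H.g0
  have hC1 := H.hC1
  have hC := H.hC
  set t := √s with ht
  have ht0 : 0 < t := Real.sqrt_pos.2 hs
  have hts : s = t * t := (Real.mul_self_sqrt hs.le).symm
  have hη : 0 < 1 / (P.b : ℝ) ^ 3 := by positivity
  have hd : ∀ V, InClass V → ∀ ω, √(dm ι) ≤ R V ω := fun V hV ω =>
    le_trans (le_mul_of_one_le_left (Real.sqrt_nonneg _) (one_le_pow₀ H.β1)) (h1 V hV ω).1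
  have hR0 : ∀ V, InClass V → ∀ ω, 0 ≤ R V ω := fun V hV ω =>
    (Real.sqrt_nonneg _).trans (hd V hV ω)
  have hZ : ∀ V w, 0 ≤ ∑ j, ‖vStep P s p V w j‖ := fun V w =>
    Finset.sum_nonneg fun _ _ => norm_nonneg _
  have hRR : ∀ V, InClass V → ∀ w : Ω × (Euc ι × Euc ι × Euc ι),
      R V w.1 + ∑ j, ‖vStep P s p V w j‖ ≤ RStep P s p R V w := fun V hV w =>
    le_mul_of_one_le_left (add_nonneg (hR0 V hV _) (hZ V w)) (by linarith)
  have hκ : P.lam n / P.g ^ 2 ≤ P.g := by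
    rw [div_le_iff₀ (by positivity)]
    exact (H.lam_g3 hn1).trans (le_of_eq (by ring))
  have hg4 : P.g ≤ 1 / (P.b : ℝ) ^ 4 := H.g_le (le_trans (by norm_num) H.G8)
  have hCg : C * P.g * 8 ≤ 1 / (P.b : ℝ) ^ 3 := by
    calc C * P.g * 8 ≤ C * (1 / (P.b : ℝ) ^ 4) * 8 := by gcongr
      _ = (8 * C / P.b) * (1 / (P.b : ℝ) ^ 3) := by field_simp
      _ ≤ 1 * (1 / (P.b : ℝ) ^ 3) := by
        gcongr; rw [div_le_one hβ0]; linarith
      _ = _ := one_mul _
  have hη1 : 1 / (P.b : ℝ) ^ 3 ≤ 1 := by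
    rw [div_le_one (by positivity)]; exact one_le_pow₀ H.β1
  have hsg : s ≤ P.g := hs1.trans H.smax_g
  refine ⟨le_trans (by norm_num) H.hb, hq, hs, hs1, H.hN, fun V hV w => ?_,
    ⟨fun w => w.2.1, by fun_prop, ?_⟩, ?_, ?_⟩
  · exact (h1 V hV w.1).1.trans (le_trans (by linarith [hZ V w]) (hRR V hV w))
  · intro a y S T N hy ha hS hT V hV w
    have hnear := node_near (C := C) (R := R V w.1) hy hV hs (hsg.trans H.g16)
      (by
        show C * (P.lam n / P.g ^ 2) ≤ 1 / 4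
        have : C * (P.lam n / P.g ^ 2) ≤ C * P.g := by gcongr
        linarith)
      (fun _ => by positivity) hC1
      (fun _ => by
        show C * √s * (1 / P.b) ≤ C * √s
        refine mul_le_of_le_one_right (by positivity) ?_
        rw [div_le_one hβ0]; linarith)
      (by show 0 ≤ C * s; positivity) le_rfl ha hS hT (p V w.1) (vStep P s p V w)
      (hd V hV _) (h1 V hV _).2
    simp only at hnear ⊢
    rw [← ht] at hnear
    set U := R V w.1 + ∑ j, ‖vStep P s p V w j‖ with hU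
    have hU0 : 0 ≤ U := add_nonneg (hR0 V hV _) (hZ V w)
    have hRU : R V w.1 ≤ U := by rw [hU]; linarith [hZ V w]
    set u := ∑ j, a j • vStep P s p V w j + y V (p V w.1) (vStep P s p V w) with hu
    constructor
    · have e1 : t * ‖p V w.1 + u‖ ≤ t * ‖p V w.1‖ + t * ‖u‖ := by
        rw [← mul_add]; exact mul_le_mul_of_nonneg_left (norm_add_le _ _) ht0.le
      have e2 : t * ‖u‖ ≤ 8 * C * s * U := by
        calc t * ‖u‖ ≤ t * (8 * C * t * U) := mul_le_mul_of_nonneg_left hnear ht0.le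
          _ = 8 * C * s * U := by rw [hts]; ring
      have e3 : 8 * C * s * U ≤ 1 / (P.b : ℝ) ^ 3 * U := by
        refine mul_le_mul_of_nonneg_right (le_trans ?_ hCg) hU0
        nlinarith
      have e4 := (h1 V hV w.1).2
      show t * ‖p V w.1 + u‖ ≤ (1 + 1 / (P.b : ℝ) ^ 3) * U
      linarith
    · have e0 : ‖vStep P s p V w 0‖ ≤ U := by
        have : ‖vStep P s p V w 0‖ ≤ ∑ j, ‖vStep P s p V w j‖ :=
          Finset.single_le_sum (f := fun j => ‖vStep P s p V w j‖) (fun _ _ => norm_nonneg _)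
            (Finset.mem_univ _)
        linarith [hR0 V hV w.1]
      have e1 : ‖w.2.1 - p V w.1‖ ≤ t * U := by
        have e2 : ‖vStep P s p V w 0‖ = P.b / t * ‖w.2.1 - p V w.1‖ := by
          simp only [vStep, Matrix.cons_val_zero, norm_smul, Real.norm_eq_abs, ← ht]
          rw [abs_of_pos (by positivity)]
        rw [e2, div_mul_eq_mul_div, div_le_iff₀ ht0] at e0
        nlinarith [norm_nonneg (w.2.1 - p V w.1)]
      have e2 : p V w.1 + u - w.2.1 = u - (w.2.1 - p V w.1) := by abel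
      rw [e2]
      refine (norm_sub_le _ _).trans ?_
      have e3 : t * U ≤ t * RStep P s p R V w := mul_le_mul_of_nonneg_left (hRR V hV w) ht0.le
      have e4 : 0 ≤ t * U := by positivity
      nlinarith
  · intro a ha l hl hl'
    have hθ : |1 - a 0 * (P.b / t)| ≤ 2 * C := by
      have e1 : |a 0 * (P.b / t)| ≤ C := by
        rw [abs_mul, abs_of_pos (show 0 < (P.b : ℝ) / t by positivity)]
        calc |a 0| * (P.b / t) ≤ C * t * (1 / P.b) * (P.b / t) :=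
              mul_le_mul_of_nonneg_right (ha 0) (by positivity)
          _ = C := by field_simp
      have := abs_sub (1 : ℝ) (a 0 * (P.b / t))
      rw [abs_one] at this
      linarith
    have hsim := (((h3 l hl hl').comap (Ω' := Ω × (Euc ι × Euc ι × Euc ι))
      measurable_fst).smul (1 - a 0 * (P.b / t))).add_known
      (k := fun w : Ω × (Euc ι × Euc ι × Euc ι) =>
        (a 0 * (P.b / t)) • w.2.1 + a 1 • w.2.2.1 + a 2 • w.2.2.2) (by fun_prop)
    have hρ : |1 - a 0 * (P.b / t)| * (t / (P.b : ℝ) ^ (P.r n j + 1)) ≤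
        t / (4 * (P.b : ℝ) ^ P.r n j) := by
      calc _ ≤ 2 * C * (t / (P.b : ℝ) ^ (P.r n j + 1)) :=
            mul_le_mul_of_nonneg_right hθ (by positivity)
        _ = (8 * C / P.b) * (t / (4 * (P.b : ℝ) ^ P.r n j)) := by field_simp; ring
        _ ≤ 1 * (t / (4 * (P.b : ℝ) ^ P.r n j)) := by
          gcongr; rw [div_le_one hβ0]; linarith
        _ = _ := one_mul _
    refine ((hsim.noise ?_).mono le_rfl ?_).congr ?_
    · rw [← sq_abs, abs_mul, abs_of_pos (show 0 < t / (P.b : ℝ) ^ (P.r n j + 1) by positivity)]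
      exact pow_le_pow_left₀ (by positivity) hρ 2
    · intro V hV w
      have e1 : R V w.1 ≤ RStep P s p R V w := le_trans (by linarith [hZ V w]) (hRR V hV w)
      have hlz := H.lz0
      have := hR0 V hV w.1
      calc _ = (P.b : ℝ) ^ (8 * P.r l 0 + 1) * (|1 - a 0 * (P.b / t)| *
            (t / (P.b : ℝ) ^ (P.r n j + 1))) * P.lz ^ l * R V w.1 := by ring
        _ ≤ _ := by gcongr
    · intro V _ w
      simp only [vStep, Fin.sum_univ_three, Matrix.cons_val_zero, Matrix.cons_val_one,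
        Matrix.cons_val_two, Matrix.head_cons, Matrix.tail_cons, ← ht]
      module
  · intro l _ hl'
    show C * (P.lam n / P.g ^ 2) ≤ _
    have e1 : P.lam n / P.g ^ 2 ≤ P.lam l * P.g := by
      rw [div_le_iff₀ (by positivity)]
      exact (H.lam_step hl').trans (le_of_eq (by ring))
    have e2 := H.gb (m := P.r n j + 3) (by have := Good.r_le (j := j) hn; have := H.hG; omega)
    have hl0 := H.lam0 l
    rw [le_div_iff₀ (by positivity)]
    calc C * (P.lam n / P.g ^ 2) * (4 * (P.b : ℝ) ^ (P.r n j + 2))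
        ≤ C * (P.lam l * P.g) * (4 * (P.b : ℝ) ^ (P.r n j + 2)) := by gcongr
      _ = P.lam l * (4 * C * ((P.b : ℝ) ^ (P.r n j + 2) * P.g)) := by ring
      _ ≤ P.lam l * (P.b * ((P.b : ℝ) ^ (P.r n j + 2) * P.g)) := by gcongr; linarith
      _ = P.lam l * ((P.b : ℝ) ^ (P.r n j + 3) * P.g) := by ring
      _ ≤ P.lam l * 1 := by gcongr
      _ = _ := mul_one _

end Step

end Vale.Agent.P347
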