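import Vale.Agent.P347.RecB

/-! The recursion, part C: the chain of noise-cancellation steps. -/

open MeasureTheory ProbabilityTheory

namespace Vale.Agent.P347

/-- The conclusion of `scheme` in a fixed dimension. -/
def SchemeAt (ι : Type) [Fintype ι] [DecidableEq ι] (C : ℝ) (Nb K : ℕ) : Prop :=
  ∀ (s h ℓ κ₀ c : ℝ), 0 < s → s ≤ κ₀ → 0 < h →
    h ≤ 1 / C → 0 < ℓ → |c| * s ≤ ℓ → ℓ ≤ κ₀ → κ₀ ≤ h / C →
    ∃ yP yO : Fn ι (Fin 3), ∃ S : ℝ, |S| ≤ C * s ∧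
      NL ⟨s, fun _ => C * √s * h, C * s, C * κ₀, Nb⟩ yP S (C * κ₀) Nb ∧
      NL ⟨s, fun _ => C * √s * h, C * s, C * κ₀, Nb⟩ yO 0
        (C * ℓ ^ 2 / (κ₀ * h * √s)) Nb ∧
      ∀ V : Euc ι → ℝ, InClass V → ∀ p : Euc ι,
        WD (((gam ι).prod (gam ι)).prod (gam ι))
          (fun w => w.1.2 + (c * √s) • fs V (s * (1 - h ^ 2))
              (p + ((√s * h) • w.1.1 + yP V p ![w.1.1, w.1.2, w.2])) +
            yO V p ![w.1.1, w.1.2, w.2])
          (gam ι) (fun ζ => (c * √s) • fs V s p + ζ)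
          (C * h ^ K * (√(dm ι) + √s * ‖p‖))

variable {ι : Type} [Fintype ι] [DecidableEq ι] {P : Num} {C : ℝ} {Nb K : ℕ}

lemma vStep_zero {Ω : Type} (hb : 1 ≤ P.b) {s : ℝ} (hs : 0 < s) (p : (Euc ι → ℝ) → Ω → Euc ι)
    (V : Euc ι → ℝ) (w : Ω × (Euc ι × Euc ι × Euc ι)) :
    p V w.1 + (√s * (1 / P.b)) • vStep P s p V w 0 = w.2.1 := by
  have : (0 : ℝ) < P.b := by exact_mod_cast hb
  have ht0 : 0 < √s := Real.sqrt_pos.2 hs
  simp only [vStep, Matrix.cons_val_zero, smul_smul]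
  rw [show √s * (1 / (P.b : ℝ)) * (P.b / √s) = 1 by field_simp, one_smul]
  abel

/-- The new centre of a step is admissible with the same rank and cost. -/
lemma ctr_next {Ω : Type} [MeasurableSpace Ω] (H : Good P C Nb K) {n j q : ℕ}
    {p : (Euc ι → ℝ) → Ω → Euc ι} {R : (Euc ι → ℝ) → Ω → ℝ} {s : ℝ} (hs : 0 < s) {κ₀ S : ℝ}
    (E : Env P (⟨s, fun _ => C * √s * (1 / P.b), C * s, C * κ₀, Nb⟩ : Bar (Fin 3))
      (fun V (w : Ω × (Euc ι × Euc ι × Euc ι)) => p V w.1) (vStep P s p) (RStep P s p R) q n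
      (P.r n j))
    (ns : ∀ l, 1 ≤ l → l < n →
      NS P (⟨s, fun _ => C * √s * (1 / P.b), C * s, C * κ₀, Nb⟩ : Bar (Fin 3))
      (fun V (w : Ω × (Euc ι × Euc ι × Euc ι)) => p V w.1) (vStep P s p) (RStep P s p R) q l 0)
    {yP : Fn ι (Fin 3)} (hS : |S| ≤ C * s)
    (hP : NL ⟨s, fun _ => C * √s * (1 / P.b), C * s, C * κ₀, Nb⟩ yP S (C * κ₀) Nb) {s' : ℝ}
    (h1 : s / 4 ≤ s') (h2 : s' ≤ s) :
    Ctr P n (P.r n j) q (fun V (w : Ω × (Euc ι × Euc ι × Euc ι)) =>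
      w.2.1 + yP V (p V w.1) (vStep P s p V w)) s' (RStep P s p R) := by
  have hβ := H.β
  have hβ0 := H.β0
  have hC1 := H.hC1
  have hss : √s' ≤ √s := Real.sqrt_le_sqrt h2
  have hss' := sqrt_half h1
  have ht0 : 0 < √s := Real.sqrt_pos.2 hs
  have hR0 : ∀ V, InClass V → ∀ w, 0 ≤ RStep P s p R V w := fun V hV w =>
    le_trans (by positivity) (E.hR V hV w)
  obtain ⟨k, mk, hk⟩ := E.near
  have near := fun V hV w => hk ![√s * (1 / P.b), 0, 0] yP S _ Nb hP (by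
    intro j
    have : 0 < √s * (1 / (P.b : ℝ)) := by positivity
    show _ ≤ C * √s * (1 / P.b)
    fin_cases j
    · simp only [Fin.zero_eta, Matrix.cons_val_zero]
      rw [abs_of_pos this]; nlinarith
    · simp only [Fin.mk_one, Matrix.cons_val_one, Matrix.cons_val_zero, abs_zero]; positivity
    · simp only [Fin.reduceFinMk, Matrix.cons_val, abs_zero]; positivity) hS le_rfl V hV w
  have e0 : ∀ V (w : Ω × (Euc ι × Euc ι × Euc ι)),
      p V w.1 + (∑ j, ![√s * (1 / P.b), 0, 0] j • vStep P s p V w j +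
        yP V (p V w.1) (vStep P s p V w)) = w.2.1 + yP V (p V w.1) (vStep P s p V w) := by
    intro V w
    rw [← vStep_zero H.b1 hs p V w]
    simp [Fin.sum_univ_three, add_assoc]
  simp only [e0] at near
  refine ⟨fun V hV w => ⟨E.hR V hV w, ?_⟩, ⟨k, mk, fun V hV w => ?_⟩, fun l hl hl' => ?_⟩
  · exact (mul_le_mul_of_nonneg_right hss (norm_nonneg _)).trans (near V hV w).1
  · refine (near V hV w).2.trans (mul_le_mul_of_nonneg_right ?_ (hR0 V hV w))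
    nlinarith
  · set r₁ := √s / (2 * (P.b : ℝ) ^ (P.r n j + 2)) with hr₁
    have hr0 : 0 < r₁ := by positivity
    have hthr := E.thr l hl hl'
    have hlam := H.lam0 l
    have hB := (ns l hl hl' yP S _ Nb hP r₁ hr0 (by
      show C * κ₀ * √s ≤ _
      refine (mul_le_mul_of_nonneg_right hthr ht0.le).trans ?_
      rw [pow_zero, mul_one, hr₁, div_mul_eq_mul_div, ← mul_div_assoc]
      refine div_le_div_of_nonneg_left (by positivity) (by positivity) ?_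
      have : 0 < (P.b : ℝ) ^ (P.r n j + 2) := by positivity
      linarith)).add_known (k := fun w : Ω × (Euc ι × Euc ι × Euc ι) => w.2.1) (by fun_prop)
    have hNb' : (Nb : ℝ) ≤ P.b := by exact_mod_cast H.hN
    have hsN := sqrt_nat_le H.hN
    have hn2 : r₁ * P.b ≤ √s' / (P.b : ℝ) ^ (P.r n j + 1) := by
      calc r₁ * P.b = √s / 2 / (P.b : ℝ) ^ (P.r n j + 1) := by rw [hr₁]; field_simp; ring
        _ ≤ _ := div_le_div_of_nonneg_right hss' (by positivity)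
    refine (hB.noise ?_).mono ?_ ?_
    · exact pow_le_pow_left₀ (by positivity)
        ((mul_le_mul_of_nonneg_left hsN hr0.le).trans hn2) 2
    · have e2 : Nb * 2 ≤ P.b ^ 3 := by
        have := H.hb
        calc Nb * 2 ≤ P.b * P.b := Nat.mul_le_mul H.hN (by omega)
          _ ≤ P.b * P.b * P.b := Nat.le_mul_of_pos_right _ (by omega)
          _ = P.b ^ 3 := by ring
      calc Nb * (2 * q * P.b ^ (8 * P.r l 0)) = Nb * 2 * (q * P.b ^ (8 * P.r l 0)) := by ring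
        _ ≤ P.b ^ 3 * (q * P.b ^ (8 * P.r l 0)) := Nat.mul_le_mul_right _ e2
        _ = q * P.b ^ (8 * P.r l 0 + 3) := by ring
    · intro V hV w
      have hlz := H.lz0
      have hR := hR0 V hV w
      have e1 : r₁ ≤ √s' / (P.b : ℝ) ^ (P.r n j + 1) :=
        le_trans (le_mul_of_one_le_right hr0.le H.β1) hn2
      calc (Nb : ℝ) * ((P.b : ℝ) ^ (8 * P.r l 0) * r₁ * P.lz ^ l * RStep P s p R V w)
          ≤ P.b * ((P.b : ℝ) ^ (8 * P.r l 0) * (√s' / (P.b : ℝ) ^ (P.r n j + 1)) * P.lz ^ l *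
            RStep P s p R V w) := by gcongr
        _ = _ := by ring

lemma s_next (H : Good P C Nb K) {s : ℝ} (hs : 0 < s) :
    s / 4 ≤ s * (1 - (1 / (P.b : ℝ)) ^ 2) ∧ s * (1 - (1 / (P.b : ℝ)) ^ 2) ≤ s := by
  have hβ := H.β
  have e1 : 1 / (P.b : ℝ) ≤ 1 / 2 := one_div_le_one_div_of_le (by norm_num) (by linarith)
  have e2 : 0 < 1 / (P.b : ℝ) := by positivity
  have e3 : (1 / (P.b : ℝ)) ^ 2 ≤ 1 / 4 := by nlinarith
  have e4 : 0 ≤ (1 / (P.b : ℝ)) ^ 2 := by positivity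
  constructor <;> nlinarith

/-- Numerical facts for one step. -/
lemma step_num (H : Good P C Nb K) {n j : ℕ} (hn1 : 1 ≤ n) {m : ℝ}
    (hm : m = √(2 * (P.b : ℝ) ^ 3 + 1)) :
    1 ≤ m ∧ P.lam n ≤ P.lam n / P.g ^ 2 ∧ P.lam n * P.g ^ j * m ≤ P.lam n / P.g ^ 2 ∧
      P.lam n / P.g ^ 2 ≤ 1 / P.b / C ∧ 4 * C * (C * (P.lam n / P.g ^ 2)) ≤ 1 ∧
      C * (P.lam n * P.g ^ j * m) ^ 2 / (P.lam n / P.g ^ 2 * (1 / P.b)) ≤
        P.lam n * P.g ^ (j + 1) * (1 / P.b) := by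
  have hβ := H.β
  have hβ0 := H.β0
  have hg0 := H.g0
  have hC1 := H.hC1
  have hC := H.hC
  have hlam := H.lam0 n
  have hm2 : m ^ 2 = 2 * (P.b : ℝ) ^ 3 + 1 := by rw [hm]; exact Real.sq_sqrt (by positivity)
  have hb3 : (1 : ℝ) ≤ (P.b : ℝ) ^ 3 := one_le_pow₀ H.β1
  have hm1 : 1 ≤ m := by rw [hm, Real.one_le_sqrt]; linarith
  have hm3 : m ^ 2 ≤ (P.b : ℝ) ^ 4 := by
    rw [hm2]; have : (P.b : ℝ) ^ 4 = P.b * (P.b : ℝ) ^ 3 := by ring
    nlinarith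
  have hgj := H.gpow1 j
  have hgj0 : 0 < P.g ^ j := pow_pos hg0 _
  have hκ : P.lam n / P.g ^ 2 ≤ P.g := by
    rw [div_le_iff₀ (by positivity)]
    exact (H.lam_g3 hn1).trans (le_of_eq (by ring))
  have hg8 := H.gb (m := 8) (le_trans (by norm_num) H.G8)
  have hgm : m * P.g ^ 2 ≤ 1 := by
    have e1 : m ≤ (P.b : ℝ) ^ 8 := by
      have : (P.b : ℝ) ^ 4 ≤ (P.b : ℝ) ^ 8 := pow_le_pow_right₀ H.β1 (by norm_num)
      nlinarith
    calc m * P.g ^ 2 = m * P.g * P.g := by ring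
      _ ≤ (P.b : ℝ) ^ 8 * P.g * 1 := by gcongr; exact H.g1
      _ ≤ 1 := by rw [mul_one]; exact hg8
  have hg2 : P.g ≤ 1 / (P.b : ℝ) ^ 2 := H.g_le (le_trans (by norm_num) H.G8)
  have hCb : C ≤ P.b := by linarith
  refine ⟨hm1, ?_, ?_, ?_, ?_, ?_⟩
  · rw [le_div_iff₀ (by positivity)]
    exact mul_le_of_le_one_right hlam.le (H.gpow1 2)
  · rw [le_div_iff₀ (by positivity)]
    calc P.lam n * P.g ^ j * m * P.g ^ 2 = P.lam n * (P.g ^ j * (m * P.g ^ 2)) := by ring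
      _ ≤ P.lam n * (1 * 1) := by gcongr
      _ = _ := by ring
  · refine hκ.trans (hg2.trans ?_)
    rw [div_div, sq]
    exact one_div_le_one_div_of_le (by positivity) (by gcongr)
  · have e := H.gb (m := 2) (le_trans (by norm_num) H.G8)
    calc 4 * C * (C * (P.lam n / P.g ^ 2)) ≤ P.b * (P.b * P.g) := by gcongr; linarith
      _ = (P.b : ℝ) ^ 2 * P.g := by ring
      _ ≤ 1 := e
  · have e := H.gb (m := 7) (le_trans (by norm_num) H.G8)
    calc _ = P.lam n * P.g ^ (j + 1) * (1 / P.b) * (P.g ^ j * (C * m ^ 2 * P.b ^ 2 * P.g)) := by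
          field_simp; ring
      _ ≤ P.lam n * P.g ^ (j + 1) * (1 / P.b) * (1 * (P.b * P.b ^ 4 * P.b ^ 2 * P.g)) := by
          gcongr
      _ = P.lam n * P.g ^ (j + 1) * (1 / P.b) * ((P.b : ℝ) ^ 7 * P.g) := by ring
      _ ≤ P.lam n * P.g ^ (j + 1) * (1 / P.b) * 1 := by gcongr
      _ = _ := mul_one _

/-- Lipschitz dependence of a circuit on the sampled centre. -/
lemma step_lip {Ω : Type} (H : Good P C Nb K) {s Sb Tb S T : ℝ} {N : ℕ} (hs : 0 < s)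
    (hs1 : s ≤ 1 / 16) (hT : Tb ≤ 1 / 4) {y : Fn ι (Fin 3)}
    (h : NL ⟨s, fun _ => C * √s * (1 / P.b), Sb, Tb, Nb⟩ y S T N) {V : Euc ι → ℝ}
    (hV : InClass V) (p : (Euc ι → ℝ) → Ω → Euc ι) (ω : Ω) (a a' z ζ : Euc ι) :
    ‖y V (p V ω) (vStep P s p V (ω, a, z, ζ)) - y V (p V ω) (vStep P s p V (ω, a', z, ζ))‖ ≤
      4 * T * C * ‖a - a'‖ := by
  have hβ0 := H.β0
  have hC1 := H.hC1
  have ht0 : 0 < √s := Real.sqrt_pos.2 hs
  refine (h.lip hV hs hs1 hT (fun _ => by positivity) _ _ _ _).trans (le_of_eq ?_)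
  simp only [vStep, Fin.sum_univ_three, Matrix.cons_val_zero, Matrix.cons_val_one,
    Matrix.cons_val_two, Matrix.head_cons, Matrix.tail_cons, sub_self, norm_zero, ← smul_sub,
    norm_smul, Real.norm_eq_abs, sub_sub_sub_cancel_right]
  rw [abs_of_pos (by positivity)]
  field_simp
  ring

lemma step_cont {Ω : Type} {B : Bar (Fin 3)} {S T s : ℝ} {N : ℕ} (hs : 0 < B.s)
    {y : Fn ι (Fin 3)} (h : NL B y S T N) {V : Euc ι → ℝ}
    (hV : InClass V) (p : (Euc ι → ℝ) → Ω → Euc ι) (ω : Ω) :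
    Continuous fun u : Euc ι × Euc ι × Euc ι => y V (p V ω) (vStep P s p V (ω, u)) := by
  have h1 : Continuous fun u : Euc ι × Euc ι × Euc ι => vStep P s p V (ω, u) := by
    refine continuous_pi fun j => ?_
    fin_cases j <;> simp only [vStep] <;> simp <;> fun_prop
  exact (h.cont hV hs).comp (continuous_const.prodMk h1)

lemma RStep_eq {Ω : Type} (hb : 1 ≤ P.b) {s : ℝ} (hs : 0 < s) (p : (Euc ι → ℝ) → Ω → Euc ι)
    (R : (Euc ι → ℝ) → Ω → ℝ) (V : Euc ι → ℝ) (w : Ω × (Euc ι × Euc ι × Euc ι)) :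
    RStep P s p R V w = (1 + 1 / (P.b : ℝ) ^ 3) *
      (R V w.1 + P.b / √s * ‖w.2.1 - p V w.1‖ + (‖w.2.2.1‖ + ‖w.2.2.2‖)) := by
  have : (0 : ℝ) < P.b := by exact_mod_cast hb
  have ht0 : 0 < √s := Real.sqrt_pos.2 hs
  simp only [RStep, vStep, Fin.sum_univ_three, Matrix.cons_val_zero, Matrix.cons_val_one,
    Matrix.cons_val_two, Matrix.head_cons, Matrix.tail_cons, norm_smul, Real.norm_eq_abs]
  rw [abs_of_pos (by positivity)]
  ring

/-- The final inequality of one step. -/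
lemma step_arith {β σ lz R d e₁ EA A Λ t E₃ : ℝ} {n : ℕ} (hn : 1 ≤ n) (hβ : 1 ≤ β) (hσ : 0 ≤ σ)
    (hlz : 0 ≤ lz) (hR : 0 ≤ R) (hd : β ^ 3 * d ≤ R) (hd0 : 0 ≤ d) (ht : 0 < t) (hA : 0 ≤ A)
    (hEA : 0 ≤ EA) (he : e₁ = EA * (t / β) * lz ^ (n - 1) * R) (hEA' : EA * lz ^ (n - 1) ≤ 1 / β ^ 3)
    (hΛ : Λ * t ≤ β * lz * σ) (h3 : E₃ ≤ σ * lz ^ n * R) :
    E₃ + Λ * e₁ + A * σ * lz ^ n * (1 + 1 / β ^ 3) * R +
        A * σ * lz ^ n * (1 + 1 / β ^ 3) * (β / t) * (t * (1 / β) * d + e₁) +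
        A * σ * lz ^ n * (1 + 1 / β ^ 3) * (2 * d) ≤
      (1 + EA + A * (1 + 9 / β ^ 3)) * σ * lz ^ n * R := by
  obtain ⟨k, rfl⟩ : ∃ k, n = k + 1 := ⟨n - 1, by omega⟩
  simp only [Nat.add_sub_cancel] at he hEA'
  have hβ0 : 0 < β := by linarith
  set η := 1 / β ^ 3 with hη
  have hη0 : 0 < η := by positivity
  have hη1 : η ≤ 1 := by rw [hη, div_le_one (by positivity)]; exact one_le_pow₀ hβ
  have hd' : d ≤ η * R := by
    rw [hη, one_div_mul_eq_div, le_div_iff₀ (by positivity)]; linarith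
  have e1 : Λ * e₁ ≤ EA * (σ * lz ^ (k + 1) * R) := by
    calc Λ * e₁ = (Λ * t) * (EA / β * lz ^ k * R) := by rw [he]; ring
      _ ≤ (β * lz * σ) * (EA / β * lz ^ k * R) := by gcongr
      _ = _ := by field_simp; ring
  have e2 : β / t * (t * (1 / β) * d + e₁) = d + EA * lz ^ k * R := by
    rw [he]; field_simp
  have e3 : R + (d + EA * lz ^ k * R) + 2 * d ≤ (1 + 4 * η) * R := by nlinarith
  have e4 : (1 + η) * ((1 + 4 * η) * R) ≤ (1 + 9 * η) * R := by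
    rw [← mul_assoc]; refine mul_le_mul_of_nonneg_right ?_ hR; nlinarith
  have e5 : 0 ≤ A * σ * lz ^ (k + 1) := by positivity
  have e6 : A * σ * lz ^ (k + 1) * ((1 + η) * (R + (d + EA * lz ^ k * R) + 2 * d)) ≤
      A * σ * lz ^ (k + 1) * ((1 + 9 * η) * R) :=
    mul_le_mul_of_nonneg_left ((mul_le_mul_of_nonneg_left e3 (by linarith)).trans e4) e5
  have e7 : 9 / β ^ 3 = 9 * η := by rw [hη]; ring
  rw [mul_assoc (A * σ * lz ^ (k + 1) * (1 + η)), e2, e7]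
  nlinarith

end Vale.Agent.P347
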