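import Vale.Agent.P347.RecC

/-! The recursion, part D: the chain and the double induction. -/

open MeasureTheory ProbabilityTheory

namespace Vale.Agent.P347

variable {ι : Type} [Fintype ι] [DecidableEq ι] {P : Num} {C : ℝ} {Nb K : ℕ}

/-- The ideal point after one step. -/
noncomputable def YStep {Ω : Type} (P : Num) (s c σ₁ : ℝ) (p : (Euc ι → ℝ) → Ω → Euc ι)
    (yP yO : Fn ι (Fin 3)) (V : Euc ι → ℝ) (w : Ω × (Euc ι × Euc ι × Euc ι)) : Euc ι :=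
  σ₁ • w.2.2.1 + (c • fs V (s * (1 - (1 / (P.b : ℝ)) ^ 2))
    (w.2.1 + yP V (p V w.1) (vStep P s p V w)) + σ₁ • yO V (p V w.1) (vStep P s p V w))

lemma YStep_wd {Ω : Type} (hb : 1 ≤ P.b) {s c σ₁ e : ℝ} (hs : 0 < s) (hσ : 0 < σ₁)
    (p : (Euc ι → ℝ) → Ω → Euc ι) (yP yO : Fn ι (Fin 3)) (V : Euc ι → ℝ) (ω : Ω)
    (hW : WD (((gam ι).prod (gam ι)).prod (gam ι))
      (fun w => w.1.2 + (c / (√s * σ₁) * √s) • fs V (s * (1 - (1 / (P.b : ℝ)) ^ 2))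
          (p V ω + ((√s * (1 / P.b)) • w.1.1 + yP V (p V ω) ![w.1.1, w.1.2, w.2])) +
        yO V (p V ω) ![w.1.1, w.1.2, w.2])
      (gam ι) (fun ζ => (c / (√s * σ₁) * √s) • fs V s (p V ω) + ζ) e) :
    WD (((gam ι).prod (gam ι)).prod (gam ι))
      (fun w => YStep P s c σ₁ p yP yO V (ω, (p V ω + (√s * (1 / P.b)) • w.1.1, w.1.2, w.2)))
      (gam ι) (fun ζ => c • fs V s (p V ω) + σ₁ • ζ) (σ₁ * e) := by
  have hβ : (0 : ℝ) < P.b := by exact_mod_cast hb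
  have ht0 : 0 < √s := Real.sqrt_pos.2 hs
  have h1 := hW.lip (Ψ := fun x => σ₁ • x) hσ.le (fun x y => by
    rw [← smul_sub, norm_smul, Real.norm_eq_abs, abs_of_pos hσ])
  have e1 : σ₁ * (c / (√s * σ₁) * √s) = c := by field_simp
  have e2 : ∀ x z ζ : Euc ι, vStep P s p V (ω, (p V ω + (√s * (1 / P.b)) • x, z, ζ)) =
      ![x, z, ζ] := by
    intro x z ζ
    simp only [vStep, add_sub_cancel_left, smul_smul]
    rw [show (P.b : ℝ) / √s * (√s * (1 / P.b)) = 1 by field_simp, one_smul]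
  simp only [smul_add, smul_smul, e1] at h1
  simp only [YStep, e2]
  simpa only [add_assoc] using h1

lemma YStep_lip {Ω : Type} (H : Good P C Nb K) {s c σ₁ Sb κ₀ S TO : ℝ} (hs : 0 < s)
    (hs1 : s ≤ 1 / 16) (hσ : 0 < σ₁) (hκ : 4 * C * (C * κ₀) ≤ 1) {yP yO : Fn ι (Fin 3)}
    (hP : NL ⟨s, fun _ => C * √s * (1 / P.b), Sb, C * κ₀, Nb⟩ yP S (C * κ₀) Nb)
    (hO : NL ⟨s, fun _ => C * √s * (1 / P.b), Sb, C * κ₀, Nb⟩ yO 0 TO Nb)
    (p : (Euc ι → ℝ) → Ω → Euc ι) {V : Euc ι → ℝ} (hV : InClass V) (ω : Ω) (a a' z ζ : Euc ι) :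
    ‖YStep P s c σ₁ p yP yO V (ω, (a, z, ζ)) - YStep P s c σ₁ p yP yO V (ω, (a', z, ζ))‖ ≤
      (4 * |c| + σ₁ * (4 * TO * C)) * ‖a - a'‖ := by
  have hC1 := H.hC1
  have h0 : 0 ≤ C * κ₀ := (abs_nonneg _).trans hP.nonneg
  have hT : C * κ₀ ≤ 1 / 4 := by nlinarith
  have h1 := step_lip H hs hs1 hT hP hV p ω a a' z ζ
  have h2 := step_lip H hs hs1 hT hO hV p ω a a' z ζ
  have hs' := s_next H hs
  have h3 := fs_lip hV (lt_of_lt_of_le (by linarith) hs'.1) (hs'.2.trans hs1)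
    (a + yP V (p V ω) (vStep P s p V (ω, a, z, ζ)))
    (a' + yP V (p V ω) (vStep P s p V (ω, a', z, ζ)))
  have h4 : ‖a + yP V (p V ω) (vStep P s p V (ω, a, z, ζ)) -
      (a' + yP V (p V ω) (vStep P s p V (ω, a', z, ζ)))‖ ≤ 2 * ‖a - a'‖ := by
    rw [add_sub_add_comm]
    refine (norm_add_le _ _).trans ?_
    have : 4 * (C * κ₀) * C * ‖a - a'‖ ≤ 1 * ‖a - a'‖ :=
      mul_le_mul_of_nonneg_right (by linarith) (norm_nonneg _)
    linarith
  simp only [YStep]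
  rw [add_sub_add_left_eq_sub, add_sub_add_comm, ← smul_sub, ← smul_sub]
  refine (norm_add_le _ _).trans ?_
  rw [norm_smul, norm_smul, Real.norm_eq_abs, Real.norm_eq_abs, abs_of_pos hσ, add_mul]
  refine add_le_add ?_ ?_
  · calc _ ≤ |c| * (2 * (2 * ‖a - a'‖)) :=
          mul_le_mul_of_nonneg_left (h3.trans (by linarith)) (abs_nonneg _)
      _ = _ := by ring
  · rw [mul_assoc]; exact mul_le_mul_of_nonneg_left h2 hσ.le

lemma YStep_cont {Ω : Type} (H : Good P C Nb K) {B : Bar (Fin 3)} {s c σ₁ S S' T T' : ℝ}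
    {N N' : ℕ} (hs : 0 < s) (hB : 0 < B.s) {yP yO : Fn ι (Fin 3)} (hP : NL B yP S T N)
    (hO : NL B yO S' T' N') (p : (Euc ι → ℝ) → Ω → Euc ι) {V : Euc ι → ℝ} (hV : InClass V)
    (ω : Ω) : Continuous fun u => YStep P s c σ₁ p yP yO V (ω, u) := by
  have h1 := step_cont (P := P) (s := s) hB hP hV p ω
  have h2 := step_cont (P := P) (s := s) hB hO hV p ω
  have h3 := fs_cont hV (lt_of_lt_of_le (by linarith) (s_next H hs).1)
  simp only [YStep]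
  exact (continuous_snd.fst.const_smul σ₁).add
    (((h3.comp (continuous_fst.add h1)).const_smul c).add (h2.const_smul σ₁))

/-- One step of the chain. -/
lemma chain_step (H : Good P C Nb K) (hsch : SchemeAt ι C Nb K) {n j : ℕ} (hn : n ≤ P.nm)
    (hn2 : 2 ≤ n) (hj : j < P.J) (hT : ∀ l, 1 ≤ l → l < n → TS ι P l 0) (hT' : TS ι P n (j + 1))
    {c σ σ₁ σ₀ α : ℝ} {Q : ℕ} (hσ : 0 < σ) (hσ₁ : σ₁ = σ / √(2 * (P.b : ℝ) ^ 3 + 1))
    (hα : 0 ≤ α) {Ω : Type} [MeasurableSpace Ω] {p : (Euc ι → ℝ) → Ω → Euc ι}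
    {R : (Euc ι → ℝ) → Ω → ℝ} {s : ℝ} {q : ℕ} (hs : 0 < s) (hs1 : s ≤ P.smax)
    (hc : |c| * √s ≤ P.lam n * P.g ^ j * σ) (hq : 1 ≤ q) (h : Ctr P n (P.r n j) q p s R)
    (ih : ∀ (p' : (Euc ι → ℝ) → Ω × (Euc ι × Euc ι × Euc ι) → Euc ι)
      (R' : (Euc ι → ℝ) → Ω × (Euc ι × Euc ι × Euc ι) → ℝ),
      Ctr P n (P.r n j) q p' (s * (1 - (1 / (P.b : ℝ)) ^ 2)) R' →
      Sim (fun V w => c • fs V (s * (1 - (1 / (P.b : ℝ)) ^ 2)) (p' V w)) σ₀ Q
        (fun V w => α * σ * P.lz ^ n * R' V w)) {τ : ℝ} (hτ : σ₀ ^ 2 + 2 * σ₁ ^ 2 = τ ^ 2) :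
    Sim (fun V ω => c • fs V s (p V ω)) τ
      (q * P.b ^ (8 * P.r (n - 1) 0 + 3) + (Q + Nb * (2 * q * P.b ^ (8 * P.r n (j + 1)))))
      (fun V ω => (1 + (P.b : ℝ) ^ (8 * P.r (n - 1) 0 + 1) +
        (α + (P.b : ℝ) ^ (8 * P.r n (j + 1))) * (1 + 9 / (P.b : ℝ) ^ 3)) * σ * P.lz ^ n * R V ω) := by
  have hβ0 := H.β0
  have hg0 := H.g0
  have hC1 := H.hC1
  have hC := H.hC
  have hlam := H.lam0 n
  have hlz := H.lz0
  have hn1 : 1 ≤ n := by omega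
  have ht0 : 0 < √s := Real.sqrt_pos.2 hs
  obtain ⟨m, hm⟩ : ∃ m, m = √(2 * (P.b : ℝ) ^ 3 + 1) := ⟨_, rfl⟩
  obtain ⟨hm1, n1, n2, n3, n4, n5⟩ := step_num H (j := j) hn1 hm
  rw [← hm] at hσ₁
  have hσ1 : 0 < σ₁ := by rw [hσ₁]; positivity
  have hσσ : σ₁ ≤ σ := by rw [hσ₁]; exact div_le_self hσ.le hm1
  have hσm : σ₁ * m = σ := by rw [hσ₁]; field_simp
  obtain ⟨yP, yO, S, hS, hP, hO, hW⟩ := hsch s (1 / P.b) (P.lam n * P.g ^ j * m)
    (P.lam n / P.g ^ 2) (c / (√s * σ₁)) hs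
    ((hs1.trans (H.smax_lam hn)).trans n1) (by positivity)
    (one_div_le_one_div_of_le (by linarith) (by linarith)) (by positivity)
    (by
      rw [abs_div, abs_of_pos (show 0 < √s * σ₁ by positivity), div_mul_eq_mul_div,
        div_le_iff₀ (by positivity)]
      calc |c| * s = |c| * √s * √s := by rw [mul_assoc, Real.mul_self_sqrt hs.le]
        _ ≤ P.lam n * P.g ^ j * σ * √s := mul_le_mul_of_nonneg_right hc ht0.le
        _ = _ := by rw [← hσm]; ring) n2 n3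
  have E := env_step H hn hn1 hs hs1 hq h
  have ns0 := E.ns0 (fun l hl => P.r_lt hl) hT
  have hr1 : P.r n (j + 1) + 1 ≤ P.r n j := by unfold Num.r; omega
  have ns1 := E.ns le_rfl hr1 hT' ns0
  have hs' := s_next H hs
  have hs16 : s ≤ 1 / 16 := (hs1.trans H.smax_g).trans H.g16
  have a1 := ih _ _ (ctr_next H hs E ns0 hS hP hs'.1 hs'.2)
  obtain ⟨TO, hTO⟩ : ∃ TO, TO = C * (P.lam n * P.g ^ j * m) ^ 2 /
    (P.lam n / P.g ^ 2 * (1 / P.b) * √s) := ⟨_, rfl⟩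
  have hTO' : TO * √s ≤ P.lam n * P.g ^ (j + 1) * (1 / P.b) := by
    refine le_trans (le_of_eq ?_) n5
    rw [hTO]; field_simp
  rw [← hTO] at hO
  have hTO0 : 0 ≤ TO := (abs_nonneg _).trans hO.nonneg
  have hNb' : (Nb : ℝ) ≤ P.b := by exact_mod_cast H.hN
  have a2 := ((ns1 yO 0 TO Nb hO (1 / P.b) (by positivity) hTO').noise (σ' := 1) (by
    refine pow_le_pow_left₀ (by positivity) ?_ 2
    rw [one_div_mul_eq_div, div_le_one hβ0]; exact sqrt_nat_le H.hN)).smul σ₁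
  have a3 := (a1.add a2 (τ := √(σ₀ ^ 2 + σ₁ ^ 2))
    (by rw [Real.sq_sqrt (by positivity), mul_one])).add_known
    (k := fun w : Ω × (Euc ι × Euc ι × Euc ι) => σ₁ • w.2.2.1) (by fun_prop)
  obtain ⟨A, hA⟩ : ∃ A, A = α + (P.b : ℝ) ^ (8 * P.r n (j + 1)) := ⟨_, rfl⟩
  have hA0 : 0 ≤ A := by rw [hA]; positivity
  obtain ⟨κe, hκe⟩ : ∃ κe, κe = A * σ * P.lz ^ n * (1 + 1 / (P.b : ℝ) ^ 3) := ⟨_, rfl⟩
  have hκe0 : 0 ≤ κe := by rw [hκe]; positivity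
  have a4 : Sim (YStep P s c σ₁ p yP yO) √(σ₀ ^ 2 + σ₁ ^ 2)
      (Q + Nb * (2 * q * P.b ^ (8 * P.r n (j + 1))))
      (fun V w => κe * R V w.1 + κe * (P.b / √s) * ‖w.2.1 - p V w.1‖ +
        κe * (‖w.2.2.1‖ + ‖w.2.2.2‖)) := by
    refine (a3.mono le_rfl fun V hV w => ?_).congr fun V _ w => rfl
    have hR : 0 ≤ RStep P s p R V w := le_trans (by positivity) (E.hR V hV w)
    have e1 : |σ₁| * (Nb * ((P.b : ℝ) ^ (8 * P.r n (j + 1)) * (1 / P.b) * P.lz ^ n *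
        RStep P s p R V w)) ≤ (P.b : ℝ) ^ (8 * P.r n (j + 1)) * σ * P.lz ^ n *
        RStep P s p R V w := by
      rw [abs_of_pos hσ1]
      calc _ ≤ σ * (P.b * ((P.b : ℝ) ^ (8 * P.r n (j + 1)) * (1 / P.b) * P.lz ^ n *
            RStep P s p R V w)) := by gcongr
        _ = _ := by field_simp
    refine (add_le_add le_rfl e1).trans (le_of_eq ?_)
    rw [RStep_eq H.b1 hs, hκe, hA]; ring
  have a5 := ((h.2.2 (n - 1) (by omega) (by omega)).noise (σ' := √s * (1 / P.b)) (by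
    refine pow_le_pow_left₀ (by positivity) ?_ 2
    rw [mul_one_div]
    exact div_le_div_of_nonneg_left ht0.le hβ0 (le_self_pow₀ H.β1 (by omega)))).mono le_rfl
    (e' := fun V ω => (P.b : ℝ) ^ (8 * P.r (n - 1) 0 + 1) * (√s / P.b) * P.lz ^ (n - 1) * R V ω)
    (fun V hV ω => by
      have hR : 0 ≤ R V ω := le_trans (by positivity) (h.1 V hV ω).1
      have : √s / (P.b : ℝ) ^ (P.r n j + 1) ≤ √s / P.b :=
        div_le_div_of_nonneg_left ht0.le hβ0 (le_self_pow₀ H.β1 (by omega))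
      gcongr)
  have hβe : 0 ≤ κe * (P.b / √s) := by positivity
  have hΛ : 0 ≤ 4 * |c| + σ₁ * (4 * TO * C) := by positivity
  have hr : 0 ≤ √s * (1 / (P.b : ℝ)) := by positivity
  have hτ' : σ₁ ^ 2 + √(σ₀ ^ 2 + σ₁ ^ 2) ^ 2 = τ ^ 2 := by
    rw [Real.sq_sqrt (by positivity)]; linarith
  refine (Sim.bind (α := fun V ω => κe * R V ω) a5 a4 hβe hκe0 hΛ hr
    (fun V hV ω => YStep_cont H hs hs hP hO p hV ω)
    (fun V hV ω => YStep_lip H hs hs16 hσ1 n4 hP hO p hV ω)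
    (fun V hV ω => YStep_wd H.b1 hs hσ1 p yP yO V ω (hW V hV (p V ω)))
    hτ').mono le_rfl fun V hV ω => ?_
  obtain ⟨b1, b2⟩ := h.1 V hV ω
  have hR : 0 ≤ R V ω := le_trans (by positivity) b1
  rw [hκe, ← hA]
  refine step_arith hn1 H.β1 hσ.le hlz.le hR b1 (Real.sqrt_nonneg _) ht0 hA0 (by positivity) rfl
    ?_ ?_ ?_
  · have e1 : P.lz ^ (n - 1) ≤ P.g :=
      (pow_le_of_le_one hlz.le H.lz1 (by omega)).trans H.lz_g
    have e2 := H.gb (m := 8 * P.r (n - 1) 0 + 4)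
      (by have := Good.r_le (P := P) (n := n - 1) (j := 0) (by omega); have := H.hG; omega)
    rw [le_div_iff₀ (by positivity)]
    calc _ ≤ (P.b : ℝ) ^ (8 * P.r (n - 1) 0 + 1) * P.g * (P.b : ℝ) ^ 3 := by gcongr
      _ = (P.b : ℝ) ^ (8 * P.r (n - 1) 0 + 4) * P.g := by ring
      _ ≤ 1 := e2
  · have e1 : |c| * √s ≤ P.lz * σ := hc.trans (mul_le_mul_of_nonneg_right
      ((mul_le_of_le_one_right hlam.le (H.gpow1 _)).trans (H.lam_lz _)) hσ.le)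
    have e2 : TO * √s ≤ P.lz := by
      refine hTO'.trans (le_trans (mul_le_of_le_one_right (by positivity) ?_)
        ((mul_le_of_le_one_right hlam.le (H.gpow1 _)).trans (H.lam_lz _)))
      rw [div_le_one hβ0]; exact H.β1
    calc _ = 4 * (|c| * √s) + 4 * C * σ₁ * (TO * √s) := by ring
      _ ≤ 4 * (P.lz * σ) + 4 * C * σ * P.lz := by gcongr
      _ = (4 + 4 * C) * P.lz * σ := by ring
      _ ≤ P.b * P.lz * σ := by gcongr; linarith
  · have hd : √(dm ι) ≤ R V ω :=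
      le_trans (le_mul_of_one_le_left (Real.sqrt_nonneg _) (one_le_pow₀ H.β1)) b1
    calc _ ≤ σ * (C * (1 / (P.b : ℝ)) ^ K * (R V ω + R V ω)) := by gcongr
      _ = σ * (2 * C * (1 / (P.b : ℝ)) ^ K) * R V ω := by ring
      _ ≤ σ * P.lz ^ n * R V ω := by gcongr; exact H.hK.trans (H.lzpow hn)

/-- The chain. -/
lemma chain (H : Good P C Nb K) (hsch : SchemeAt ι C Nb K) {n j : ℕ} (hn : n ≤ P.nm)
    (hn2 : 2 ≤ n) (hj : j < P.J) (hT : ∀ l, 1 ≤ l → l < n → TS ι P l 0) (hT' : TS ι P n (j + 1))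
    {c σ σ₁ X : ℝ} {Xc : ℕ} (hσ : 0 < σ) (hσ₁ : σ₁ = σ / √(2 * (P.b : ℝ) ^ 3 + 1))
    (hX : X = 1 + (P.b : ℝ) ^ (8 * P.r (n - 1) 0 + 1) + 10 * (P.b : ℝ) ^ (8 * P.r n (j + 1)))
    (hXc : Xc = P.b ^ (8 * P.r (n - 1) 0 + 3) + Nb * (2 * P.b ^ (8 * P.r n (j + 1)))) (i : ℕ) :
    ∀ (Ω : Type) [MeasurableSpace Ω] (p : (Euc ι → ℝ) → Ω → Euc ι) (R : (Euc ι → ℝ) → Ω → ℝ)
      (s : ℝ) (q : ℕ), 0 < s → s ≤ P.smax → |c| * √s ≤ P.lam n * P.g ^ j * σ →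
      c ^ 2 * s * (1 - (1 / (P.b : ℝ)) ^ 2) ^ i ≤ (P.lz ^ n * σ) ^ 2 → 1 ≤ q →
      Ctr P n (P.r n j) q p s R →
      Sim (fun V ω => c • fs V s (p V ω)) (√(2 * i + 1) * σ₁) (q * (i * Xc + 1))
        (fun V ω => (1 + 9 / (P.b : ℝ) ^ 3) ^ i * (6 + 2 * P.b + i * X) * σ * P.lz ^ n * R V ω) := by
  have hβ0 := H.β0
  have hlz := H.lz0
  have hX0 : 0 ≤ X := by rw [hX]; positivity
  induction i with
  | zero =>
    intro Ω _ p R s q hs hs1 _ h2 hq h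
    have e : |c| * √s ≤ P.lz ^ n * σ := by
      refine abs_le_of_sq_le_sq' ?_ (by positivity) |>.2
      rw [mul_pow, sq_abs, Real.sq_sqrt hs.le]; simpa using h2
    refine (naive H.b1 h hs (((hs1.trans H.smax_g).trans H.g16).trans (by norm_num)) e _).mono
      (by simpa using hq) fun V _ ω => le_of_eq (by push_cast; ring)
  | succ i ih =>
    intro Ω _ p R s q hs hs1 h1 h2 hq h
    have hs' := s_next H hs
    refine (chain_step H hsch hn hn2 hj hT hT' hσ hσ₁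
      (α := (1 + 9 / (P.b : ℝ) ^ 3) ^ i * (6 + 2 * P.b + i * X)) (by positivity) hs hs1 h1 hq h
      (fun p' R' h' => ih _ p' R' _ q (lt_of_lt_of_le (by linarith) hs'.1) (hs'.2.trans hs1)
        ((mul_le_mul_of_nonneg_left (Real.sqrt_le_sqrt hs'.2) (abs_nonneg _)).trans h1)
        (le_trans (le_of_eq (by ring)) h2) hq h') ?_).mono (le_of_eq ?_) fun V hV ω => ?_
    · rw [mul_pow, mul_pow, Real.sq_sqrt (by positivity), Real.sq_sqrt (by positivity)]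
      push_cast; ring
    · rw [hXc]; ring
    · have hR : 0 ≤ R V ω := le_trans (by positivity) (h.1 V hV ω).1
      refine mul_le_mul_of_nonneg_right (mul_le_mul_of_nonneg_right
        (mul_le_mul_of_nonneg_right ?_ hσ.le) (by positivity)) hR
      obtain ⟨u, hu⟩ : ∃ u, u = 1 + 9 / (P.b : ℝ) ^ 3 := ⟨_, rfl⟩
      have hu1 : 1 ≤ u := by rw [hu]; exact le_add_of_nonneg_right (by positivity)
      have hu2 : u ≤ 10 := by
        have : 9 / (P.b : ℝ) ^ 3 ≤ 9 := div_le_self (by norm_num) (one_le_pow₀ H.β1)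
        linarith
      rw [← hu]
      have e1 : X ≤ u ^ (i + 1) * X := le_mul_of_one_le_left hX0 (one_le_pow₀ hu1)
      have e2 : (P.b : ℝ) ^ (8 * P.r n (j + 1)) * u ≤ (P.b : ℝ) ^ (8 * P.r n (j + 1)) * 10 := by
        gcongr
      push_cast
      have e3 : u ^ (i + 1) * (6 + 2 * P.b + (i + 1) * X) =
          u ^ i * (6 + 2 * P.b + i * X) * u + u ^ (i + 1) * X := by ring
      rw [e3, add_mul]
      linarith

lemma ts_naive (H : Good P C Nb K) {n j : ℕ} (h : P.lam n * P.g ^ j ≤ P.lz ^ n) : TS ι P n j := by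
  intro Ω _ p R s c σ q hs hs1 hσ hc hq hctr
  have hβ := H.β
  have hlz := H.lz0
  have hr : 1 ≤ P.r n j := by unfold Num.r; omega
  refine (naive H.b1 hctr hs (((hs1.trans H.smax_g).trans H.g16).trans (by norm_num))
    (hc.trans (mul_le_mul_of_nonneg_right h hσ.le)) σ).mono ?_ fun V hV ω => ?_
  · exact Nat.mul_pos hq (pow_pos H.b1 _)
  · have hR : 0 ≤ R V ω := le_trans (by positivity) (hctr.1 V hV ω).1
    have e1 : 6 + 2 * (P.b : ℝ) ≤ (P.b : ℝ) ^ (8 * P.r n j) := by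
      calc 6 + 2 * (P.b : ℝ) ≤ (P.b : ℝ) ^ 2 := by nlinarith
        _ ≤ _ := pow_le_pow_right₀ H.β1 (by omega)
    calc _ ≤ (P.b : ℝ) ^ (8 * P.r n j) * (P.lz ^ n * σ) * R V ω := by gcongr
      _ = _ := by ring

lemma exp9 {β : ℝ} (hβ : 10000 ≤ β) (N : ℕ) (hN : (N : ℝ) = β ^ 3) : (1 + 9 / β ^ 3) ^ N ≤ β := by
  have h0 : 0 < β ^ 3 := by positivity
  calc (1 + 9 / β ^ 3) ^ N ≤ (Real.exp (9 / β ^ 3)) ^ N :=
        pow_le_pow_left₀ (by positivity) (by linarith [Real.add_one_le_exp (9 / β ^ 3)]) N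
    _ = Real.exp 1 ^ 9 := by
        rw [← Real.exp_nat_mul, hN, ← Real.exp_nat_mul]; congr 1; push_cast; field_simp
    _ ≤ 2.7182818286 ^ 9 := pow_le_pow_left₀ (Real.exp_pos _).le Real.exp_one_lt_d9.le 9
    _ ≤ β := le_trans (by norm_num) hβ

lemma ts_step (H : Good P C Nb K) (hsch : SchemeAt ι C Nb K) {n j : ℕ} (hn : n ≤ P.nm)
    (hn2 : 2 ≤ n) (hj : j < P.J) (hT : ∀ l, 1 ≤ l → l < n → TS ι P l 0)
    (hT' : TS ι P n (j + 1)) : TS ι P n j := by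
  intro Ω _ p R s c σ q hs hs1 hσ hc hq hctr
  have hβ := H.β
  have hβ0 := H.β0
  have hlz := H.lz0
  have hlam := H.lam0 n
  have hg0 := H.g0
  have h := chain H hsch hn hn2 hj hT hT' hσ rfl rfl rfl (P.b ^ 3) Ω p R s q hs hs1 hc (by
    have e1 : |c| * √s ≤ σ := hc.trans (mul_le_of_le_one_left hσ.le
      (mul_le_one₀ ((H.lam_lz _).trans H.lz1) (by positivity) (H.gpow1 _)))
    have e2 : c ^ 2 * s ≤ σ ^ 2 := by
      have := pow_le_pow_left₀ (by positivity) e1 2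
      rwa [mul_pow, sq_abs, Real.sq_sqrt hs.le] at this
    have e3 := H.hexp.trans (pow_le_pow_left₀ (by positivity) (H.lzpow hn) 2)
    have e4 : 0 ≤ 1 - (1 / (P.b : ℝ)) ^ 2 := by
      have := (s_next H one_pos).1; linarith
    calc _ ≤ σ ^ 2 * (P.lz ^ n) ^ 2 := by gcongr
      _ = _ := by ring) hq hctr
  obtain ⟨r, hr⟩ : ∃ r, P.r n j = r + 1 := ⟨P.r n j - 1, by unfold Num.r; omega⟩
  have r1 : P.r (n - 1) 0 ≤ r := by have := P.r_lt (l := n - 1) (n := n) (j := j) (by omega); omega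
  have r2 : P.r n (j + 1) ≤ r := by unfold Num.r at hr ⊢; omega
  have hb := H.hb
  refine (h.noise (le_of_eq ?_)).mono (Nat.mul_le_mul_left _ ?_) fun V hV ω => ?_
  · push_cast
    have : 0 < √(2 * (P.b : ℝ) ^ 3 + 1) := by positivity
    field_simp
  · have e1 : P.b ^ (8 * P.r (n - 1) 0 + 3) ≤ P.b ^ (8 * r + 3) :=
      Nat.pow_le_pow_right H.b1 (by omega)
    have e2 : Nb * (2 * P.b ^ (8 * P.r n (j + 1))) ≤ P.b ^ (8 * r + 3) := by
      calc _ ≤ P.b * (P.b * P.b ^ (8 * r + 1)) := Nat.mul_le_mul H.hN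
            (Nat.mul_le_mul (by omega) (Nat.pow_le_pow_right H.b1 (by omega)))
        _ = _ := by ring
    have e3 : 1 ≤ P.b ^ (8 * r + 6) := Nat.one_le_pow _ _ H.b1
    calc _ ≤ P.b ^ 3 * (P.b ^ (8 * r + 3) + P.b ^ (8 * r + 3)) + P.b ^ (8 * r + 6) :=
          Nat.add_le_add (Nat.mul_le_mul_left _ (Nat.add_le_add e1 e2)) e3
      _ = 3 * P.b ^ (8 * r + 6) := by ring
      _ ≤ P.b * P.b * P.b ^ (8 * r + 6) := Nat.mul_le_mul_right _ (by nlinarith)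
      _ = P.b ^ (8 * P.r n j) := by rw [hr]; ring
  · have hR : 0 ≤ R V ω := le_trans (by positivity) (hctr.1 V hV ω).1
    refine mul_le_mul_of_nonneg_right (mul_le_mul_of_nonneg_right
      (mul_le_mul_of_nonneg_right ?_ hσ.le) (by positivity)) hR
    have e0 := exp9 hβ (P.b ^ 3) (by push_cast; rfl)
    obtain ⟨Z, hZ⟩ : ∃ Z, Z = (P.b : ℝ) ^ (8 * r + 1) := ⟨_, rfl⟩
    have z1 : (P.b : ℝ) ≤ Z := by rw [hZ]; exact le_self_pow₀ H.β1 (by omega)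
    have z2 : (P.b : ℝ) ^ (8 * P.r (n - 1) 0 + 1) ≤ Z := by
      rw [hZ]; exact pow_le_pow_right₀ H.β1 (by omega)
    have z3 : (P.b : ℝ) ^ (8 * P.r n (j + 1)) ≤ Z := by
      rw [hZ]; exact pow_le_pow_right₀ H.β1 (by omega)
    have z4 : (1 : ℝ) ≤ (P.b : ℝ) ^ 3 := one_le_pow₀ H.β1
    have z5 : Z ≤ (P.b : ℝ) ^ 3 * Z := le_mul_of_one_le_left (by linarith) z4
    push_cast
    calc _ ≤ P.b * (6 + 2 * P.b + (P.b : ℝ) ^ 3 * (12 * Z)) := by gcongr; linarith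
      _ ≤ P.b * (P.b * ((P.b : ℝ) ^ 3 * Z)) := by gcongr; nlinarith
      _ = (P.b : ℝ) ^ (8 * r + 6) := by rw [hZ]; ring
      _ ≤ _ := pow_le_pow_right₀ H.β1 (by omega)

theorem ts_all (H : Good P C Nb K) (hsch : SchemeAt ι C Nb K) :
    ∀ n, 1 ≤ n → n ≤ P.nm → TS ι P n 0 := by
  intro n
  induction n using Nat.strong_induction_on with
  | _ n ih =>
    intro hn1 hn
    rcases Nat.lt_or_ge n 2 with h2 | h2
    · obtain rfl : n = 1 := by omega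
      exact ts_naive H (by simpa using H.lam_lz 1)
    · have key : ∀ k, k ≤ P.J → TS ι P n (P.J - k) := by
        intro k
        induction k with
        | zero => intro _; exact ts_naive H (H.last hn)
        | succ k ihk =>
          intro hk
          refine ts_step H hsch hn h2 (by omega) (fun l hl hl' => ih l hl' hl (by omega)) ?_
          rw [show P.J - (k + 1) + 1 = P.J - k by omega]
          exact ihk (by omega)
      simpa using key P.J le_rfl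

end Vale.Agent.P347
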