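import Vale.Agent.P347.HeatA

/-! The formal differential ring of the local (coupled) probability flow: pure algebra. -/

open MvPolynomial

namespace Vale.Agent.P347

/-- Symbols: time `rho`, coordinates `x e`, `z e`, normalized derivatives `t m`. -/
inductive FS (ι : Type) : Type
  | rho : FS ι
  | x : ι → FS ι
  | z : ι → FS ι
  | t : Multiset ι → FS ι

abbrev R2 (ι : Type) : Type := MvPolynomial (FS ι) ℝ

variable {ι : Type} [Fintype ι] [DecidableEq ι]

noncomputable abbrev rh : R2 ι := X FS.rho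
noncomputable abbrev xv (e : ι) : R2 ι := X (FS.x e)
noncomputable abbrev zv (e : ι) : R2 ι := X (FS.z e)
noncomputable abbrev tv (m : Multiset ι) : R2 ι := X (FS.t m)

noncomputable def dx (e : ι) : Derivation ℝ (R2 ι) (R2 ι) := mkDerivation ℝ fun
  | FS.rho => 0
  | FS.x f => if f = e then 1 else 0
  | FS.z _ => 0
  | FS.t m => rh * tv (e ::ₘ m)

noncomputable def dz (e : ι) : Derivation ℝ (R2 ι) (R2 ι) := mkDerivation ℝ fun
  | FS.rho => 0
  | FS.x _ => 0
  | FS.z f => if f = e then 1 else 0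
  | FS.t _ => 0

/-- Partial derivative in one of the `2 d` coordinates. -/
noncomputable def dd : ι ⊕ ι → Derivation ℝ (R2 ι) (R2 ι) := Sum.elim dx dz

noncomputable def drho : Derivation ℝ (R2 ι) (R2 ι) := mkDerivation ℝ fun
  | FS.rho => 1
  | FS.x _ => 0
  | FS.z _ => 0
  | FS.t m => ∑ e, xv e * tv (e ::ₘ m) - rh * (∑ e, tv (e ::ₘ e ::ₘ m) -
      ∑ e, ((Multiset.antidiagonal m).map fun ab => tv (e ::ₘ ab.1) * tv (e ::ₘ ab.2)).sum)

/-- Gradient of minus the log-density. -/
noncomputable def Wd : ι ⊕ ι → R2 ι := Sum.elim (fun e => xv e + rh * tv {e}) zv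

/-- The adjoint of `dd i`. -/
noncomputable def del (i : ι ⊕ ι) (r : R2 ι) : R2 ι := Wd i * r - dd i r

/-- The vector field of the coupled flow with coupling `c`. -/
noncomputable def bb (c : ℝ) : ι ⊕ ι → R2 ι :=
  Sum.elim (fun e => -tv {e} - C c * ∑ f, tv (e ::ₘ {f}) * zv f)
    (fun e => C c * ∑ f, del (Sum.inl f) (tv (f ::ₘ {e})))

/-- The derivative along the coupled flow. -/
noncomputable def DD (c : ℝ) : Derivation ℝ (R2 ι) (R2 ι) := drho + ∑ i, bb c i • dd i

/-- The drift of the observable `Q`. -/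
noncomputable def bq (c : ℝ) (e : ι) : R2 ι :=
  rh * C (c ^ 2) * ∑ f, tv (e ::ₘ {f}) * ∑ g, tv (f ::ₘ {g}) * zv g

/-- The multiset of values of `γ` on `S`. -/
def msOn {L : Type} (γ : L → ι) (S : Finset L) : Multiset ι := S.val.map γ

/-- The multiset of all values of `γ`. -/
def ms {L : Type} [Fintype L] (γ : L → ι) : Multiset ι := msOn γ Finset.univ

omit [Fintype ι] [DecidableEq ι] in
lemma der_sum_apply {κ : Type} (t : Finset κ) (D : κ → Derivation ℝ (R2 ι) (R2 ι)) (r : R2 ι) :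
    (∑ k ∈ t, D k) r = ∑ k ∈ t, D k r := by
  classical
  induction t using Finset.induction_on with
  | empty => simp
  | insert a t ha ih => rw [Finset.sum_insert ha, Finset.sum_insert ha, Derivation.add_apply, ih]

omit [Fintype ι] [DecidableEq ι] in
lemma der_mul (D : Derivation ℝ (R2 ι) (R2 ι)) (a b : R2 ι) : D (a * b) = a * D b + D a * b := by
  rw [Derivation.leibniz, smul_eq_mul, smul_eq_mul, mul_comm b]

omit [Fintype ι] [DecidableEq ι] in
lemma der_C_mul (D : Derivation ℝ (R2 ι) (R2 ι)) (c : ℝ) (b : R2 ι) : D (C c * b) = C c * D b := by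
  rw [der_mul, derivation_C, zero_mul, add_zero]

omit [Fintype ι] [DecidableEq ι] in
lemma der_ite (D : Derivation ℝ (R2 ι) (R2 ι)) (P : Prop) [Decidable P] :
    D (if P then 1 else 0) = 0 := by
  split_ifs
  · exact D.map_one_eq_zero
  · exact map_zero D

omit [Fintype ι] [DecidableEq ι] in
lemma comm_of_gen (D E : Derivation ℝ (R2 ι) (R2 ι)) (h : ∀ n, D (E (X n)) = E (D (X n)))
    (r : R2 ι) : D (E r) = E (D r) := by
  have h0 : ⁅D, E⁆ = 0 := derivation_ext fun n => by
    rw [Derivation.commutator_apply, h, sub_self, Derivation.zero_apply]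
  have h1 := Derivation.commutator_apply (D1 := D) (D2 := E) r
  rw [h0, Derivation.zero_apply] at h1
  exact sub_eq_zero.1 h1.symm

omit [Fintype ι] [DecidableEq ι] in
lemma pair_comm' (e f : ι) : (e ::ₘ {f} : Multiset ι) = f ::ₘ {e} := Multiset.cons_swap e f 0

lemma DD_apply (c : ℝ) (r : R2 ι) : DD c r = drho r + ∑ i, bb c i * dd i r := by
  rw [DD, Derivation.add_apply, der_sum_apply]
  rfl

omit [Fintype ι] in
lemma dd_rh (i : ι ⊕ ι) : dd i (rh : R2 ι) = 0 := by
  rcases i with e | e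
  · exact mkDerivation_X _ _ _
  · exact mkDerivation_X _ _ _

omit [Fintype ι] in
lemma dd_tv_inl (e : ι) (m : Multiset ι) : dd (Sum.inl e) (tv m) = rh * tv (e ::ₘ m) :=
  mkDerivation_X _ _ _

omit [Fintype ι] in
lemma dd_tv_inr (e : ι) (m : Multiset ι) : dd (Sum.inr e) (tv m) = 0 :=
  mkDerivation_X _ _ _

omit [Fintype ι] in
lemma dd_zv (i : ι ⊕ ι) (f : ι) : dd i (zv f) = if i = Sum.inr f then 1 else 0 := by
  rcases i with e | e
  · rw [if_neg Sum.inl_ne_inr]; exact mkDerivation_X _ _ _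
  · simp only [Sum.inr.injEq, eq_comm (a := e)]; exact mkDerivation_X _ _ _

omit [Fintype ι] in
lemma dd_xv (i : ι ⊕ ι) (f : ι) : dd i (xv f) = if i = Sum.inl f then 1 else 0 := by
  rcases i with e | e
  · simp only [Sum.inl.injEq, eq_comm (a := e)]; exact mkDerivation_X _ _ _
  · rw [if_neg Sum.inr_ne_inl]; exact mkDerivation_X _ _ _

omit [Fintype ι] in
lemma dd_comm (i j : ι ⊕ ι) (r : R2 ι) : dd i (dd j r) = dd j (dd i r) := by
  refine comm_of_gen _ _ ?_ r
  rintro (_ | f | f | m)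
  · simp only [dd_rh, map_zero]
  · simp only [dd_xv, der_ite]
  · simp only [dd_zv, der_ite]
  · rcases i with e | e <;> rcases j with f | f <;>
      simp only [dd_tv_inl, dd_tv_inr, der_mul, dd_rh, map_zero, zero_mul, mul_zero, add_zero]
    rw [Multiset.cons_swap]

/-- The quadratic term of the Hamilton-Jacobi hierarchy. -/
noncomputable def quadT (m : Multiset ι) : R2 ι :=
  ∑ e, ((Multiset.antidiagonal m).map fun ab => tv (e ::ₘ ab.1) * tv (e ::ₘ ab.2)).sum

omit [DecidableEq ι] in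
lemma drho_tv (m : Multiset ι) : drho (tv m) =
    ∑ e, xv e * tv (e ::ₘ m) - rh * (∑ e, tv (e ::ₘ e ::ₘ m) - quadT m) :=
  mkDerivation_X _ _ _

omit [DecidableEq ι] in
lemma drho_rh : drho (rh : R2 ι) = 1 := mkDerivation_X _ _ _

omit [DecidableEq ι] in
lemma drho_xv (e : ι) : drho (xv e : R2 ι) = 0 := mkDerivation_X _ _ _

omit [DecidableEq ι] in
lemma drho_zv (e : ι) : drho (zv e : R2 ι) = 0 := mkDerivation_X _ _ _

omit [Fintype ι] [DecidableEq ι] in
lemma der_msum {κ : Type} (D : Derivation ℝ (R2 ι) (R2 ι)) (s : Multiset κ) (f : κ → R2 ι) :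
    D (s.map f).sum = (s.map fun k => D (f k)).sum := by
  rw [map_multiset_sum, Multiset.map_map]; rfl

lemma dd_quadT_inl (e : ι) (m : Multiset ι) :
    dd (Sum.inl e) (quadT m) = rh * quadT (e ::ₘ m) := by
  rw [quadT, quadT, map_sum, Finset.mul_sum]
  refine Finset.sum_congr rfl fun f _ => ?_
  rw [der_msum, Multiset.antidiagonal_cons, Multiset.map_add, Multiset.map_map, Multiset.map_map,
    Multiset.sum_add, ← Multiset.sum_map_add, ← Multiset.sum_map_mul_left]
  congr 1
  refine Multiset.map_congr rfl fun ab _ => ?_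
  simp only [der_mul, dd_tv_inl, Function.comp, Prod.map, id, Multiset.cons_swap e f]
  ring

lemma dd_quadT_inr (e : ι) (m : Multiset ι) : dd (Sum.inr e) (quadT m) = 0 := by
  rw [quadT, map_sum]
  refine Finset.sum_eq_zero fun f _ => ?_
  rw [der_msum]
  simp only [der_mul, dd_tv_inr, mul_zero, zero_mul, add_zero, Multiset.map_const',
    Multiset.sum_replicate, smul_zero]

lemma dd_drho (i : ι ⊕ ι) (r : R2 ι) : dd i (drho r) = drho (dd i r) := by
  refine comm_of_gen _ _ ?_ r
  rintro (_ | f | f | m)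
  · simp only [dd_rh, drho_rh, map_zero, Derivation.map_one_eq_zero]
  · simp only [dd_xv, drho_xv, der_ite, map_zero]
  · simp only [dd_zv, drho_zv, der_ite, map_zero]
  · rcases i with e | e
    · simp only [drho_tv, dd_tv_inl, der_mul, map_sub, map_sum, dd_rh, dd_xv, dd_quadT_inl,
        drho_rh, zero_mul, add_zero, one_mul, Finset.sum_add_distrib, Sum.inl.injEq, ite_mul,
        Finset.sum_ite_eq, Finset.mem_univ, if_true, Multiset.cons_swap e, mul_sub,
        Finset.mul_sum, mul_left_comm (xv _) rh]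
      ring
    · simp only [drho_tv, dd_tv_inr, der_mul, map_sub, map_sum, dd_rh, dd_xv, dd_quadT_inr,
        zero_mul, mul_zero, add_zero, map_zero, reduceCtorEq, if_false, Finset.sum_const_zero,
        sub_zero]

omit [Fintype ι] in
/-- The Hessian of minus the log-density. -/
lemma dd_Wd (i j : ι ⊕ ι) : dd i (Wd j) = (if i = j then 1 else 0) +
    Sum.elim (fun e => Sum.elim (fun f => rh ^ 2 * tv (e ::ₘ {f})) (fun _ => 0) j) (fun _ => 0) i := by
  rcases i with e | e <;> rcases j with f | f <;>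
    simp only [Wd, Sum.elim_inl, Sum.elim_inr, map_add, der_mul, dd_xv, dd_zv, dd_rh, dd_tv_inl,
      dd_tv_inr, zero_mul, mul_zero, add_zero]
  ring

omit [Fintype ι] in
lemma dd_del (i j : ι ⊕ ι) (r : R2 ι) : dd i (del j r) = del j (dd i r) + dd i (Wd j) * r := by
  rw [del, del, map_sub, der_mul, dd_comm]
  ring

omit [Fintype ι] in
lemma del_mul (i : ι ⊕ ι) (a r : R2 ι) : del i a * r = del i (a * r) + a * dd i r := by
  rw [del, del, der_mul]
  ring

omit [Fintype ι] in
lemma del_mul' (i : ι ⊕ ι) (a r : R2 ι) : del i (a * r) = del i a * r - a * dd i r := by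
  rw [del_mul]; ring

omit [Fintype ι] in
lemma del_sub (i : ι ⊕ ι) (a b : R2 ι) : del i (a - b) = del i a - del i b := by
  rw [del, del, del, map_sub]; ring

omit [Fintype ι] in
lemma del_neg (i : ι ⊕ ι) (a : R2 ι) : del i (-a) = -del i a := by
  rw [del, del, map_neg]; ring

omit [Fintype ι] in
lemma del_C_mul (i : ι ⊕ ι) (c : ℝ) (a : R2 ι) : del i (C c * a) = C c * del i a := by
  rw [del, del, der_C_mul]; ring

omit [Fintype ι] in
lemma del_sum {κ : Type} (t : Finset κ) (i : ι ⊕ ι) (a : κ → R2 ι) :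
    del i (∑ k ∈ t, a k) = ∑ k ∈ t, del i (a k) := by
  simp only [del, map_sum, Finset.mul_sum, Finset.sum_sub_distrib]

omit [Fintype ι] in
lemma del_inl_tv (e : ι) (m : Multiset ι) :
    del (Sum.inl e) (tv m) = xv e * tv m + rh * (tv {e} * tv m) - rh * tv (e ::ₘ m) := by
  rw [del, dd_tv_inl, Wd, Sum.elim_inl]; ring

omit [Fintype ι] in
lemma del_inr_tv (e : ι) (m : Multiset ι) : del (Sum.inr e) (tv m) = tv m * zv e := by
  rw [del, dd_tv_inr, Wd, Sum.elim_inr]; ring

omit [Fintype ι] in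
lemma del_inr_del_inl (e f : ι) (m : Multiset ι) :
    del (Sum.inr e) (del (Sum.inl f) (tv m)) = del (Sum.inl f) (tv m) * zv e := by
  rw [del, dd_del, dd_tv_inr, dd_Wd]
  simp only [del, Wd, Sum.elim_inr, reduceCtorEq, if_false, map_zero]
  ring

lemma DD_rh (c : ℝ) : DD c (rh : R2 ι) = 1 := by
  simp only [DD_apply, drho_rh, dd_rh, mul_zero, Finset.sum_const_zero, add_zero]

lemma DD_xv (c : ℝ) (e : ι) : DD c (xv e) = bb c (Sum.inl e) := by
  simp only [DD_apply, drho_xv, dd_xv, mul_ite, mul_one, mul_zero, Finset.sum_ite_eq',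
    Finset.mem_univ, if_true, zero_add]

lemma DD_zv (c : ℝ) (e : ι) : DD c (zv e) = bb c (Sum.inr e) := by
  simp only [DD_apply, drho_zv, dd_zv, mul_ite, mul_one, mul_zero, Finset.sum_ite_eq',
    Finset.mem_univ, if_true, zero_add]

omit [DecidableEq ι] in
lemma quadT_zero : quadT (0 : Multiset ι) = ∑ e, tv {e} * tv {e} := by
  simp [quadT]

/-- The continuity equation. -/
lemma div_bb (c : ℝ) : ∑ i, del i (bb c i) = -drho (tv (0 : Multiset ι)) := by
  have h1 : ∑ e : ι, del (Sum.inl e) (tv {e}) = drho (tv (0 : Multiset ι)) := by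
    simp only [del_inl_tv, drho_tv, quadT_zero, Finset.sum_sub_distrib, Finset.sum_add_distrib,
      ← Finset.mul_sum, Multiset.cons_zero]
    ring
  have h2 : ∑ e : ι, ∑ f : ι, del (Sum.inl e) (tv (e ::ₘ {f}) * zv f) =
      ∑ e : ι, ∑ f : ι, del (Sum.inr e) (del (Sum.inl f) (tv (f ::ₘ {e}))) := by
    rw [Finset.sum_comm]
    refine Finset.sum_congr rfl fun e _ => Finset.sum_congr rfl fun f _ => ?_
    rw [del_inr_del_inl, del_mul', dd_zv, if_neg Sum.inl_ne_inr, mul_zero, sub_zero]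
  simp only [Fintype.sum_sum_type, bb, Sum.elim_inl, Sum.elim_inr, del_sub, del_neg, del_C_mul,
    del_sum, Finset.sum_sub_distrib, Finset.sum_neg_distrib, ← Finset.mul_sum]
  rw [h1, h2]
  ring

lemma DD_split (c : ℝ) (r : R2 ι) : DD c r = drho r - ∑ e, tv {e} * dd (Sum.inl e) r -
    C c * ∑ e, (∑ f, tv (e ::ₘ {f}) * zv f) * dd (Sum.inl e) r +
    C c * ∑ e, (∑ f, del (Sum.inl f) (tv (f ::ₘ {e}))) * dd (Sum.inr e) r := by
  simp only [DD_apply, Fintype.sum_sum_type, bb, Sum.elim_inl, Sum.elim_inr, sub_mul, neg_mul,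
    mul_assoc (C c), Finset.sum_sub_distrib, Finset.sum_neg_distrib, ← Finset.mul_sum]
  ring

lemma DD0_apply (r : R2 ι) : DD 0 r = drho r - ∑ e, tv {e} * dd (Sum.inl e) r := by
  rw [DD_split, map_zero, zero_mul, zero_mul, sub_zero, add_zero]

lemma DD0_dd (i : ι ⊕ ι) (r : R2 ι) : DD 0 (dd i r) = dd i (DD 0 r) +
    Sum.elim (fun e => rh * ∑ f, tv (e ::ₘ {f}) * dd (Sum.inl f) r) (fun _ => 0) i := by
  rw [DD0_apply, DD0_apply, map_sub, map_sum, dd_drho]
  simp only [der_mul, dd_comm i, Finset.sum_add_distrib]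
  rcases i with e | e
  · simp only [dd_tv_inl, Sum.elim_inl, mul_assoc rh, ← Finset.mul_sum]
    ring
  · simp only [dd_tv_inr, Sum.elim_inr, zero_mul, Finset.sum_const_zero, add_zero]

lemma DD0_tv_gen (m : Multiset ι) : DD 0 (tv m) = ∑ e, del (Sum.inl e) (tv (e ::ₘ m)) +
    rh * (quadT m - 2 * ∑ e, tv {e} * tv (e ::ₘ m)) := by
  simp only [DD0_apply, drho_tv, dd_tv_inl, del_inl_tv, Finset.sum_sub_distrib,
    Finset.sum_add_distrib, mul_left_comm (tv _) rh, ← Finset.mul_sum]
  ring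

lemma DD0_tv_one (e : ι) : DD 0 (tv {e}) = ∑ f, del (Sum.inl f) (tv (f ::ₘ {e})) := by
  have h : quadT {e} = 2 * ∑ f, tv {f} * tv (f ::ₘ {e}) := by
    rw [quadT, Finset.mul_sum, ← Multiset.cons_zero e, Multiset.antidiagonal_cons]
    refine Finset.sum_congr rfl fun f _ => ?_
    simp only [Multiset.antidiagonal_zero, Multiset.map_singleton, Multiset.map_add,
      Multiset.sum_add, Multiset.sum_singleton, Prod.map, id, Multiset.cons_zero]
    ring
  rw [DD0_tv_gen, h, sub_self, mul_zero, add_zero]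

lemma DD0_tv_two (e f : ι) : DD 0 (tv (e ::ₘ {f})) =
    ∑ g, del (Sum.inl g) (tv (g ::ₘ e ::ₘ {f})) +
      2 * rh * ∑ g, tv (g ::ₘ {e}) * tv (g ::ₘ {f}) := by
  have h : quadT (e ::ₘ {f}) = 2 * ∑ g, tv {g} * tv (g ::ₘ e ::ₘ {f}) +
      2 * ∑ g, tv (g ::ₘ {e}) * tv (g ::ₘ {f}) := by
    rw [quadT, Finset.mul_sum, Finset.mul_sum, ← Finset.sum_add_distrib, ← Multiset.cons_zero f,
      Multiset.antidiagonal_cons, Multiset.antidiagonal_cons]
    refine Finset.sum_congr rfl fun g _ => ?_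
    simp only [Multiset.antidiagonal_zero, Multiset.map_singleton, Multiset.map_add,
      Multiset.sum_add, Multiset.sum_singleton, Prod.map, id, Multiset.cons_zero]
    ring
  rw [DD0_tv_gen, h]
  ring

lemma DD0_del (i : ι ⊕ ι) (r : R2 ι) : DD 0 (del i r) = del i (DD 0 r) +
    Sum.elim (fun e => ∑ f, del (Sum.inl f) (rh * tv (f ::ₘ {e}) * r)) (fun _ => 0) i := by
  rw [del, del, map_sub, der_mul, DD0_dd]
  rcases i with e | e
  · have h : ∀ f, del (Sum.inl f) (rh * tv (f ::ₘ {e}) * r) =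
        rh * (del (Sum.inl f) (tv (f ::ₘ {e})) * r) - rh * (tv (e ::ₘ {f}) * dd (Sum.inl f) r) := by
      intro f
      rw [pair_comm' e f, del, del, der_mul, der_mul, dd_rh]
      ring
    simp only [Wd, Sum.elim_inl, map_add, der_mul, DD_xv, DD_rh, DD0_tv_one, bb, map_zero, h,
      Finset.sum_sub_distrib, ← Finset.mul_sum, ← Finset.sum_mul]
    ring
  · simp only [Wd, Sum.elim_inr, DD_zv, bb, map_zero]
    ring

omit [Fintype ι] [DecidableEq ι] in
lemma msOn_insert {L : Type} [DecidableEq L] (γ : L → ι) {a : L} {S : Finset L} (h : a ∉ S) :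
    msOn γ (insert a S) = γ a ::ₘ msOn γ S := by
  rw [msOn, msOn, Finset.insert_val_of_notMem h, Multiset.map_cons]

omit [Fintype ι] [DecidableEq ι] in
lemma antidiag_msOn {L M : Type} [DecidableEq L] [AddCommMonoid M] (γ : L → ι) (S : Finset L)
    (F : Multiset ι → Multiset ι → M) :
    ((Multiset.antidiagonal (msOn γ S)).map fun ab => F ab.1 ab.2).sum =
      ∑ U ∈ S.powerset, F (msOn γ U) (msOn γ (S \ U)) := by
  induction S using Finset.induction_on generalizing F with
  | empty => simp [msOn]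
  | insert a S ha ih =>
    rw [msOn_insert γ ha, Multiset.antidiagonal_cons, Multiset.map_add, Multiset.map_map,
      Multiset.map_map, Multiset.sum_add, Finset.sum_powerset_insert ha]
    congr 1
    · refine (ih fun x y => F x (γ a ::ₘ y)).trans (Finset.sum_congr rfl fun U hU => ?_)
      have hU' : a ∉ U := fun h => ha (Finset.mem_powerset.1 hU h)
      rw [Finset.insert_sdiff_of_notMem _ hU', msOn_insert γ fun h => ha (Finset.mem_sdiff.1 h).1]
    · refine (ih fun x y => F (γ a ::ₘ x) y).trans (Finset.sum_congr rfl fun U hU => ?_)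
      have hU' : a ∉ U := fun h => ha (Finset.mem_powerset.1 hU h)
      rw [Finset.insert_sdiff_insert, Finset.sdiff_insert_of_notMem ha, msOn_insert γ hU']

omit [Fintype ι] [DecidableEq ι] in
lemma sum_proper {L M : Type} [Fintype L] [DecidableEq L] [Nonempty L] [AddCommMonoid M]
    (G : Finset L → M) : ∑ U, G U = G ∅ + G Finset.univ +
      ∑ U ∈ (Finset.univ : Finset (Finset L)).filter (fun U => U.Nonempty ∧ Uᶜ.Nonempty), G U := by
  have hne : (∅ : Finset L) ≠ Finset.univ := Finset.univ_nonempty.ne_empty.symm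
  rw [← Finset.sum_filter_not_add_sum_filter Finset.univ (fun U => U.Nonempty ∧ Uᶜ.Nonempty),
    ← Finset.sum_pair hne]
  congr 2
  ext U
  simp only [Finset.mem_filter, Finset.mem_univ, true_and, not_and_or, Finset.not_nonempty_iff_eq_empty,
    Finset.compl_eq_empty_iff, Finset.mem_insert, Finset.mem_singleton]

/-- The evolution of the tensors along the uncoupled flow. -/
lemma DD0_tv {L : Type} [Fintype L] [DecidableEq L] [Nonempty L] (γ : L → ι) :
    DD 0 (tv (ms γ)) = ∑ e, del (Sum.inl e) (tv (e ::ₘ ms γ)) +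
      rh * ∑ U ∈ (Finset.univ : Finset (Finset L)).filter (fun U => U.Nonempty ∧ Uᶜ.Nonempty),
        ∑ e, tv (e ::ₘ msOn γ U) * tv (e ::ₘ msOn γ Uᶜ) := by
  have h : quadT (ms γ) = ∑ U : Finset L, ∑ e, tv (e ::ₘ msOn γ U) * tv (e ::ₘ msOn γ Uᶜ) := by
    rw [quadT, Finset.sum_comm]
    refine Finset.sum_congr rfl fun e _ => ?_
    rw [ms, antidiag_msOn γ Finset.univ fun a b => tv (e ::ₘ a) * tv (e ::ₘ b),
      Finset.powerset_univ]
    rfl
  have h0 : msOn γ ∅ = 0 := rfl
  rw [DD0_tv_gen, h, sum_proper]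
  simp only [Finset.compl_empty, Finset.compl_univ, h0, Multiset.cons_zero, ms,
    mul_comm _ (tv {_})]
  ring

/-- The coupling part of the flow in divergence form. -/
lemma DD_sub (c : ℝ) (r : R2 ι) : DD c r = DD 0 r +
    (∑ e, del (Sum.inl e) (C c * ∑ f, tv (e ::ₘ {f}) * dd (Sum.inr f) r) -
      ∑ f, del (Sum.inr f) (C c * ∑ e, tv (f ::ₘ {e}) * dd (Sum.inl e) r)) := by
  have h1 : ∑ e, ∑ f, del (Sum.inl e) (tv (e ::ₘ {f})) * dd (Sum.inr f) r =
      ∑ e, (∑ f, del (Sum.inl f) (tv (f ::ₘ {e}))) * dd (Sum.inr e) r := by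
    rw [Finset.sum_comm]
    simp only [Finset.sum_mul]
  have h2 : ∑ f, ∑ e, del (Sum.inr f) (tv (f ::ₘ {e})) * dd (Sum.inl e) r =
      ∑ e, (∑ f, tv (e ::ₘ {f}) * zv f) * dd (Sum.inl e) r := by
    rw [Finset.sum_comm]
    simp only [Finset.sum_mul]
    refine Finset.sum_congr rfl fun e _ => Finset.sum_congr rfl fun f _ => ?_
    rw [del_inr_tv, pair_comm' e f]
  have h3 : ∑ e, ∑ f, tv (e ::ₘ {f}) * dd (Sum.inl e) (dd (Sum.inr f) r) =
      ∑ f, ∑ e, tv (f ::ₘ {e}) * dd (Sum.inr f) (dd (Sum.inl e) r) := by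
    rw [Finset.sum_comm]
    refine Finset.sum_congr rfl fun e _ => Finset.sum_congr rfl fun f _ => ?_
    rw [dd_comm, pair_comm' e f]
  rw [DD_split, DD0_apply]
  simp only [del_C_mul, del_sum, ← Finset.mul_sum]
  simp only [del_mul', Finset.sum_sub_distrib]
  rw [h1, h2, h3]
  ring

lemma DD_tv_one (c : ℝ) (e : ι) : DD c (tv {e}) = ∑ f, del (Sum.inl f) (tv (f ::ₘ {e})) -
    rh * C c * ∑ f, tv (e ::ₘ {f}) * ∑ g, tv (f ::ₘ {g}) * zv g := by
  have h : ∑ f, (∑ g, tv (f ::ₘ {g}) * zv g) * dd (Sum.inl f) (tv {e}) =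
      rh * ∑ f, tv (e ::ₘ {f}) * ∑ g, tv (f ::ₘ {g}) * zv g := by
    rw [Finset.mul_sum]
    refine Finset.sum_congr rfl fun f _ => ?_
    rw [dd_tv_inl, pair_comm' e f]
    ring
  rw [DD_split, ← DD0_apply, DD0_tv_one, h]
  simp only [dd_tv_inr, mul_zero, Finset.sum_const_zero, add_zero]
  ring

/-- The observable `Q = z - c (t₁ - μ)` has drift `bq`. -/
lemma DD_Q (c μ : ℝ) (e : ι) : DD c (zv e - C c * (tv {e} - C μ)) = bq c e := by
  rw [map_sub, der_C_mul, map_sub, derivation_C, DD_zv, DD_tv_one, bb, bq, Sum.elim_inr, map_pow]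
  ring

/-- Telescoping for the truncated exponential series. -/
lemma DD_taylor (c t : ℝ) (K : ℕ) (r : R2 ι) :
    DD c (∑ j ∈ Finset.range (K + 1),
        C (1 / (j.factorial : ℝ)) * (C t - rh) ^ j * (DD c)^[j] r) =
      C (1 / (K.factorial : ℝ)) * (C t - rh) ^ K * (DD c)^[K + 1] r := by
  induction K with
  | zero => simp
  | succ K ih =>
    have h1 : DD c ((C t - rh : R2 ι) ^ (K + 1)) = -(C ((K : ℝ) + 1) * (C t - rh) ^ K) := by
      rw [Derivation.leibniz_pow, map_sub, derivation_C, DD_rh, Nat.add_sub_cancel, smul_eq_mul,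
        nsmul_eq_mul, map_add, map_natCast, map_one]
      push_cast
      ring
    have h2 : (C (1 / (K.factorial : ℝ)) : R2 ι) =
        C (1 / ((K + 1).factorial : ℝ)) * C ((K : ℝ) + 1) := by
      rw [← map_mul, Nat.factorial_succ]
      congr 1
      push_cast
      field_simp
    rw [Finset.sum_range_succ, map_add, ih, mul_assoc (C (1 / ((K + 1).factorial : ℝ))),
      der_C_mul, der_mul, h1, h2, ← Function.iterate_succ_apply' (DD c) (K + 1)]
    ring

end Vale.Agent.P347
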