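import Vale.Agent.P347.Ring
import Vale.Agent.P347.HeatB

/-! Evaluation of the formal ring, integration by parts and invariance along the flow. -/

open MeasureTheory ProbabilityTheory MvPolynomial

namespace Vale.Agent.P347

variable {ι : Type} [Fintype ι] [DecidableEq ι]

noncomputable def ev (V : Euc ι → ℝ) (s : ℝ) (p : Euc ι) (ρ : ℝ) (w : Euc ι × Euc ι) :
    R2 ι →ₐ[ℝ] ℝ := aeval fun
  | FS.rho => ρ
  | FS.x e => w.1 e
  | FS.z e => w.2 e
  | FS.t m => √s ^ Multiset.card m * T V m (s * (1 - ρ ^ 2)) (p + (√s * ρ) • w.1)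

/-- The law at time `ρ` of the local probability flow with centre `p` and scale `s`. -/
noncomputable def loc (V : Euc ι → ℝ) (s : ℝ) (p : Euc ι) (ρ : ℝ) : Measure (Euc ι) :=
  (gam ι).withDensity fun x => ENNReal.ofReal
    (Real.exp (T V 0 s p - T V 0 (s * (1 - ρ ^ 2)) (p + (√s * ρ) • x)))

/-- The joint law of `(x, z)`. -/
noncomputable def mu (V : Euc ι → ℝ) (s : ℝ) (p : Euc ι) (ρ : ℝ) : Measure (Euc ι × Euc ι) :=
  (loc V s p ρ).prod (gam ι)

/-- Expectation of a ring element. -/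
noncomputable def Ex (V : Euc ι → ℝ) (s : ℝ) (p : Euc ι) (ρ : ℝ) (r : R2 ι) : ℝ :=
  ∫ w, ev V s p ρ w r ∂(mu V s p ρ)

/-- Coordinate directions. -/
noncomputable def dir : ι ⊕ ι → Euc ι × Euc ι :=
  Sum.elim (fun e => (EuclideanSpace.single e 1, 0)) (fun e => (0, EuclideanSpace.single e 1))

variable {V : Euc ι → ℝ} {s : ℝ} {ρ : ℝ}

lemma loc_zero (V : Euc ι → ℝ) (s : ℝ) (p : Euc ι) : loc V s p 0 = gam ι := by
  simp [loc]

lemma ev_X_t (V : Euc ι → ℝ) (s : ℝ) (p : Euc ι) (ρ : ℝ) (w : Euc ι × Euc ι) (m : Multiset ι) :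
    ev V s p ρ w (tv m) =
      √s ^ Multiset.card m * T V m (s * (1 - ρ ^ 2)) (p + (√s * ρ) • w.1) := by
  simp [ev]

lemma ev_X_rho (V : Euc ι → ℝ) (s : ℝ) (p : Euc ι) (ρ : ℝ) (w : Euc ι × Euc ι) :
    ev V s p ρ w rh = ρ := by
  simp [ev]

lemma ev_X_x (V : Euc ι → ℝ) (s : ℝ) (p : Euc ι) (ρ : ℝ) (w : Euc ι × Euc ι) (e : ι) :
    ev V s p ρ w (xv e) = w.1 e := by
  simp [ev]

lemma ev_X_z (V : Euc ι → ℝ) (s : ℝ) (p : Euc ι) (ρ : ℝ) (w : Euc ι × Euc ι) (e : ι) :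
    ev V s p ρ w (zv e) = w.2 e := by
  simp [ev]

lemma ev_const (V : Euc ι → ℝ) (s : ℝ) (p : Euc ι) (ρ : ℝ) (w : Euc ι × Euc ι) (c : ℝ) :
    ev V s p ρ w (C c) = c := by
  simp [ev]

omit [Fintype ι] [DecidableEq ι] in
/-- A chain rule that holds on the generators holds on the whole ring. -/
lemma curve_rule (D : Derivation ℝ (R2 ι) (R2 ι)) (E : ℝ → R2 ι →ₐ[ℝ] ℝ) (t : ℝ)
    (h : ∀ n, HasDerivAt (fun τ => E τ (X n)) (E t (D (X n))) t) (r : R2 ι) :
    HasDerivAt (fun τ => E τ r) (E t (D r)) t := by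
  induction r using MvPolynomial.induction_on with
  | C a =>
    have e : (fun τ => E τ (C a)) = fun _ => a := by
      funext τ; exact (E τ).commutes a
    rw [e, derivation_C, map_zero]
    exact hasDerivAt_const t a
  | add p q hp hq =>
    simp only [map_add]
    exact hp.add hq
  | mul_X p n hp =>
    have h1 := hp.mul (h n)
    simp only [map_mul, Derivation.leibniz, smul_eq_mul, map_add]
    refine h1.congr_deriv ?_
    ring

lemma one_sub_sq_pos (hρ : |ρ| < 1) : 0 < 1 - ρ ^ 2 := by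
  have := abs_lt.1 hρ
  nlinarith

lemma ev_line_t (hV : InClass V) (hs : 0 < s) (p : Euc ι) (hρ : |ρ| < 1) (e : ι)
    (m : Multiset ι) (x : Euc ι) :
    HasDerivAt (fun τ : ℝ => √s ^ Multiset.card m * T V m (s * (1 - ρ ^ 2))
        (p + (√s * ρ) • (x + τ • EuclideanSpace.single e (1 : ℝ))))
      (ρ * (√s ^ Multiset.card (e ::ₘ m) *
        T V (e ::ₘ m) (s * (1 - ρ ^ 2)) (p + (√s * ρ) • x))) 0 := by
  have hπ : HasDerivAt (fun τ : ℝ => p + (√s * ρ) • (x + τ • EuclideanSpace.single e (1 : ℝ)))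
      ((√s * ρ) • EuclideanSpace.single e (1 : ℝ)) 0 := by
    have h1 := ((((hasDerivAt_id (0 : ℝ)).smul_const (EuclideanSpace.single e (1 : ℝ))).const_add
      x).const_smul (√s * ρ)).const_add p
    simpa using h1
  have h := (T_deriv hV m (hasDerivAt_const (0 : ℝ) (s * (1 - ρ ^ 2))) hπ
    (mul_pos hs (one_sub_sq_pos hρ))).const_mul (√s ^ Multiset.card m)
  refine h.congr_deriv ?_
  rw [zero_mul, add_zero, Finset.sum_eq_single e]
  · simp [pow_succ]; ring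
  · intro f _ hf; simp [hf]
  · simp

lemma ev_line (hV : InClass V) (hs : 0 < s) (p : Euc ι) (hρ : |ρ| < 1) (i : ι ⊕ ι) (r : R2 ι)
    (w : Euc ι × Euc ι) :
    HasLineDerivAt ℝ (fun w => ev V s p ρ w r) (ev V s p ρ w (dd i r)) w (dir i) := by
  have h := curve_rule (dd i) (fun τ : ℝ => ev V s p ρ (w + τ • dir i)) 0 ?_ r
  · simpa [HasLineDerivAt] using h
  intro n
  have hl : ∀ (x : Euc ι) (e f : ι), HasDerivAt
      (fun τ : ℝ => (x + τ • EuclideanSpace.single e (1 : ℝ)) f) (if f = e then 1 else 0) 0 := by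
    intro x e f
    have h1 := ((hasDerivAt_id (0 : ℝ)).mul_const (if f = e then (1 : ℝ) else 0)).const_add (x f)
    simpa [PiLp.single_apply] using h1
  rcases i with e | e <;> rcases n with _ | f | f | m
  · simp only [ev_X_rho, dd_rh, map_zero]; exact hasDerivAt_const _ _
  · have := hl w.1 e f
    simp only [ev_X_x, dd_xv, dir, Sum.elim_inl, Sum.inl.injEq, Prod.fst_add, Prod.smul_mk]
    refine this.congr_deriv ?_
    by_cases hef : e = f
    · simp [hef]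
    · simp [hef, Ne.symm hef]
  · simp only [ev_X_z, dd_zv, dir, Sum.elim_inl, Prod.snd_add, Prod.smul_mk, smul_zero, add_zero]
    simpa using hasDerivAt_const (0 : ℝ) (w.2 f)
  · have := ev_line_t hV hs p hρ e m w.1
    simpa only [ev_X_t, dd_tv_inl, dir, Sum.elim_inl, Prod.fst_add, Prod.smul_mk, map_mul,
      ev_X_rho, zero_smul, add_zero] using this
  · simp only [ev_X_rho, dd_rh, map_zero]; exact hasDerivAt_const _ _
  · simp only [ev_X_x, dd_xv, dir, Sum.elim_inr, Prod.fst_add, Prod.smul_mk, smul_zero, add_zero]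
    simpa using hasDerivAt_const (0 : ℝ) (w.1 f)
  · have := hl w.2 e f
    simp only [ev_X_z, dd_zv, dir, Sum.elim_inr, Sum.inr.injEq, Prod.snd_add, Prod.smul_mk]
    refine this.congr_deriv ?_
    by_cases hef : e = f
    · simp [hef]
    · simp [hef, Ne.symm hef]
  · simp only [ev_X_t, dd_tv_inr, dir, Sum.elim_inr, Prod.fst_add, Prod.smul_mk, smul_zero,
      add_zero, map_zero]
    exact hasDerivAt_const _ _

lemma ev_antidiag (hs : 0 < s) (p : Euc ι) (w : Euc ι × Euc ι) (e : ι) (m : Multiset ι) :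
    ev V s p ρ w ((Multiset.antidiagonal m).map
        fun ab => tv (e ::ₘ ab.1) * tv (e ::ₘ ab.2)).sum =
      √s ^ Multiset.card m * s * ((Multiset.antidiagonal m).map fun ab =>
        T V (e ::ₘ ab.1) (s * (1 - ρ ^ 2)) (p + (√s * ρ) • w.1) *
          T V (e ::ₘ ab.2) (s * (1 - ρ ^ 2)) (p + (√s * ρ) • w.1)).sum := by
  rw [map_multiset_sum, Multiset.map_map, ← Multiset.sum_map_mul_left]
  congr 1
  refine Multiset.map_congr rfl fun ab hab => ?_
  have hm : Multiset.card m = Multiset.card ab.1 + Multiset.card ab.2 := by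
    rw [← Multiset.mem_antidiagonal.1 hab, Multiset.card_add]
  have h2 : √s * √s = s := Real.mul_self_sqrt hs.le
  simp only [Function.comp, map_mul, ev_X_t, Multiset.card_cons, hm, pow_add, pow_one]
  linear_combination (√s ^ Multiset.card ab.1 * √s ^ Multiset.card ab.2 *
    T V (e ::ₘ ab.1) (s * (1 - ρ ^ 2)) (p + (√s * ρ) • w.1) *
      T V (e ::ₘ ab.2) (s * (1 - ρ ^ 2)) (p + (√s * ρ) • w.1)) * h2

lemma ev_rho_t (hV : InClass V) (hs : 0 < s) (p : Euc ι) (hρ : |ρ| < 1) (m : Multiset ι)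
    (w : Euc ι × Euc ι) :
    HasDerivAt (fun τ => ev V s p τ w (tv m)) (ev V s p ρ w (drho (tv m))) ρ := by
  have hπ : HasDerivAt (fun τ : ℝ => p + (√s * τ) • w.1) (√s • w.1) ρ := by
    have h1 := ((((hasDerivAt_id ρ).const_mul √s)).smul_const w.1).const_add p
    simpa using h1
  have hσ : HasDerivAt (fun τ : ℝ => s * (1 - τ ^ 2)) (-(2 * s * ρ)) ρ := by
    have h1 := ((hasDerivAt_pow 2 ρ).const_sub 1).const_mul s
    refine h1.congr_deriv ?_
    simp; ring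
  have h := (T_deriv hV m hσ hπ (mul_pos hs (one_sub_sq_pos hρ))).const_mul
    (√s ^ Multiset.card m)
  simp only [ev_X_t]
  refine h.congr_deriv ?_
  have h2 : √s * √s = s := Real.mul_self_sqrt hs.le
  rw [drho, mkDerivation_X]
  simp only [map_sub, map_mul, map_sum, ev_antidiag hs, ev_X_t, ev_X_x, ev_X_rho,
    Multiset.card_cons, pow_succ, PiLp.smul_apply, smul_eq_mul, mul_assoc (√s ^ _) √s √s, h2,
    mul_add, mul_sub, Finset.mul_sum]
  congr 1
  · exact Finset.sum_congr rfl fun e _ => by ring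
  · rw [← Finset.sum_sub_distrib, ← Finset.sum_sub_distrib, ← Finset.sum_neg_distrib]
    exact Finset.sum_congr rfl fun e _ => by ring

lemma ev_rho (hV : InClass V) (hs : 0 < s) (p : Euc ι) (hρ : |ρ| < 1) (r : R2 ι)
    (w : Euc ι × Euc ι) :
    HasDerivAt (fun τ => ev V s p τ w r) (ev V s p ρ w (drho r)) ρ := by
  refine curve_rule drho (fun τ : ℝ => ev V s p τ w) ρ ?_ r
  rintro (_ | f | f | m)
  · simp only [ev_X_rho, drho, mkDerivation_X, map_one]; exact hasDerivAt_id' ρ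
  · simp only [ev_X_x, drho, mkDerivation_X, map_zero]; exact hasDerivAt_const _ _
  · simp only [ev_X_z, drho, mkDerivation_X, map_zero]; exact hasDerivAt_const _ _
  · exact ev_rho_t hV hs p hρ m w

lemma ev_cont (hV : InClass V) (hs : 0 < s) (p : Euc ι) (hρ : |ρ| < 1) (r : R2 ι) :
    Continuous fun w => ev V s p ρ w r := by
  induction r using MvPolynomial.induction_on with
  | C a => simp only [ev_const]; exact continuous_const
  | add p q hp hq => simp only [map_add]; exact hp.add hq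
  | mul_X q n hq =>
    simp only [map_mul]
    refine hq.mul ?_
    rcases n with _ | f | f | m
    · simp only [ev_X_rho]; exact continuous_const
    · simp only [ev_X_x]; fun_prop
    · simp only [ev_X_z]; fun_prop
    · simp only [ev_X_t]
      refine continuous_const.mul ?_
      exact (T_cont hV m).comp_continuous
        (f := fun w : Euc ι × Euc ι => (s * (1 - ρ ^ 2), p + (√s * ρ) • w.1)) (by fun_prop)
        (fun _ => mul_pos hs (one_sub_sq_pos hρ))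

/-- Polynomial growth, uniformly in time. -/
def Gr (f : ℝ → Euc ι × Euc ι → ℝ) : Prop :=
  ∃ C : ℝ, ∃ N : ℕ, 0 ≤ C ∧ ∀ ρ : ℝ, |ρ| ≤ 3 / 4 → ∀ w, |f ρ w| ≤ C * (1 + ‖w‖) ^ N

section Gr
omit [DecidableEq ι]
variable {f g : ℝ → Euc ι × Euc ι → ℝ}

lemma Gr.of_le (h : Gr g) (hle : ∀ ρ, |ρ| ≤ 3 / 4 → ∀ w, |f ρ w| ≤ |g ρ w|) : Gr f := by
  obtain ⟨C, N, hC, h⟩ := h
  exact ⟨C, N, hC, fun ρ hρ w => (hle ρ hρ w).trans (h ρ hρ w)⟩

lemma Gr.bdd {B : ℝ} (h : ∀ ρ, |ρ| ≤ 3 / 4 → ∀ w, |f ρ w| ≤ B) : Gr f :=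
  ⟨B, 0, (abs_nonneg _).trans (h 0 (by norm_num) 0), fun ρ hρ w => by simpa using h ρ hρ w⟩

lemma Gr.const (c : ℝ) : Gr (ι := ι) fun _ _ => c := Gr.bdd (B := |c|) fun _ _ _ => le_rfl

lemma Gr.norm : Gr (ι := ι) fun _ w => ‖w‖ :=
  ⟨1, 1, zero_le_one, fun _ _ w => by simp⟩

lemma Gr.abs (h : Gr f) : Gr fun ρ w => |f ρ w| := h.of_le fun _ _ _ => by simp

lemma Gr.add (hf : Gr f) (hg : Gr g) : Gr fun ρ w => f ρ w + g ρ w := by
  obtain ⟨C, N, hC, hf⟩ := hf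
  obtain ⟨D, M, hD, hg⟩ := hg
  refine ⟨C + D, N + M, by positivity, fun ρ hρ w => ?_⟩
  have h1 : (1 : ℝ) ≤ 1 + ‖w‖ := by simp
  have h2 := pow_le_pow_right₀ h1 (Nat.le_add_right N M)
  have h3 := pow_le_pow_right₀ h1 (Nat.le_add_left M N)
  have h4 := mul_le_mul_of_nonneg_left h2 hC
  have h5 := mul_le_mul_of_nonneg_left h3 hD
  have h6 := abs_add_le (f ρ w) (g ρ w)
  have h7 := hf ρ hρ w
  have h8 := hg ρ hρ w
  rw [add_mul]
  linarith

lemma Gr.mul (hf : Gr f) (hg : Gr g) : Gr fun ρ w => f ρ w * g ρ w := by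
  obtain ⟨C, N, hC, hf⟩ := hf
  obtain ⟨D, M, hD, hg⟩ := hg
  refine ⟨C * D, N + M, by positivity, fun ρ hρ w => ?_⟩
  rw [abs_mul, pow_add]
  calc |f ρ w| * |g ρ w| ≤ (C * (1 + ‖w‖) ^ N) * (D * (1 + ‖w‖) ^ M) :=
        mul_le_mul (hf ρ hρ w) (hg ρ hρ w) (abs_nonneg _) (by positivity)
    _ = _ := by ring

lemma Gr.neg (hf : Gr f) : Gr fun ρ w => -f ρ w := hf.of_le fun _ _ _ => by simp

lemma Gr.sub (hf : Gr f) (hg : Gr g) : Gr fun ρ w => f ρ w - g ρ w := by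
  simpa only [sub_eq_add_neg] using hf.add hg.neg

lemma Gr.sum {κ : Type} (t : Finset κ) {F : κ → ℝ → Euc ι × Euc ι → ℝ}
    (h : ∀ k ∈ t, Gr (F k)) : Gr fun ρ w => ∑ k ∈ t, F k ρ w := by
  classical
  induction t using Finset.induction_on with
  | empty => simpa using Gr.const 0
  | insert a t ha ih =>
    simp only [Finset.sum_insert ha]
    exact (h a (Finset.mem_insert_self _ _)).add
      (ih fun k hk => h k (Finset.mem_insert_of_mem hk))

lemma Gr.at (hf : Gr f) (hρ : |ρ| ≤ 3 / 4) : Gr fun _ w => f ρ w := by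
  obtain ⟨C, N, hC, hf⟩ := hf
  exact ⟨C, N, hC, fun _ _ w => hf ρ hρ w⟩

lemma Gr.mk' {ψ : Euc ι × Euc ι → ℝ} {C : ℝ} {N : ℕ} (h : ∀ w, |ψ w| ≤ C * (1 + ‖w‖) ^ N) :
    Gr fun _ w => ψ w := by
  refine ⟨C, N, ?_, fun _ _ w => h w⟩
  simpa using (abs_nonneg _).trans (h 0)

end Gr

/-- A quadratic upper bound for the smoothed potential. -/
lemma T_zero_le (hV : InClass V) : ∃ K : ℝ, ∀ σ : ℝ, 0 < σ → σ ≤ 1 → ∀ P : Euc ι,
    T V 0 σ P ≤ 2 * ‖P‖ ^ 2 + K := by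
  have hb : ∀ {F : Euc ι → ℝ}, Continuous F → (∀ x, 0 ≤ F x) →
      Integrable (fun x => Real.exp (-F x)) (gam ι) := by
    intro F hF h0
    refine Integrable.of_bound (C := 1) (by fun_prop) (Filter.Eventually.of_forall fun x => ?_)
    rw [Real.norm_eq_abs, abs_of_pos (Real.exp_pos _), Real.exp_le_one_iff]
    linarith [h0 x]
  have hi : Integrable (fun x : Euc ι => Real.exp (-(2 * ‖x‖ ^ 2))) (gam ι) :=
    hb (by fun_prop) fun x => by positivity
  have hκ : 0 < ∫ x : Euc ι, Real.exp (-(2 * ‖x‖ ^ 2)) ∂(gam ι) := integral_exp_pos hi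
  refine ⟨-Real.log (∫ x : Euc ι, Real.exp (-(2 * ‖x‖ ^ 2)) ∂(gam ι)), fun σ h0 h1 P => ?_⟩
  have hc := hV.cont
  have h2 : Real.exp (-(2 * ‖P‖ ^ 2)) * ∫ x : Euc ι, Real.exp (-(2 * ‖x‖ ^ 2)) ∂(gam ι) ≤
      Real.exp (-T V 0 σ P) := by
    rw [T_zero hV h0, ← integral_const_mul]
    refine integral_mono (hi.const_mul _) (hb (by fun_prop) fun x => ?_) fun x => ?_
    · exact le_trans (by positivity) (hV.lower _)
    · simp only [← Real.exp_add, Real.exp_le_exp]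
      have h3 := hV.upper (P + √σ • x)
      have h4 : ‖P + √σ • x‖ ≤ ‖P‖ + ‖x‖ := by
        refine (norm_add_le _ _).trans ?_
        rw [norm_smul, Real.norm_eq_abs, abs_of_nonneg (Real.sqrt_nonneg _)]
        have : √σ * ‖x‖ ≤ 1 * ‖x‖ := by gcongr; exact Real.sqrt_le_one.2 h1
        linarith
      have h5 := pow_le_pow_left₀ (norm_nonneg _) h4 2
      nlinarith [sq_nonneg (‖P‖ - ‖x‖)]
  have h3 := Real.log_le_log (by positivity) h2
  rw [Real.log_mul (Real.exp_pos _).ne' hκ.ne', Real.log_exp, Real.log_exp] at h3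
  linarith

lemma gr_T (hV : InClass V) (hs : 0 < s) (hs1 : s ≤ 1) (p : Euc ι) (m : Multiset ι) :
    Gr fun ρ (w : Euc ι × Euc ι) => T V m (s * (1 - ρ ^ 2)) (p + (√s * ρ) • w.1) := by
  have hσ : ∀ ρ : ℝ, |ρ| ≤ 3 / 4 → s * (7 / 16) ≤ s * (1 - ρ ^ 2) ∧ s * (1 - ρ ^ 2) ≤ 1 := by
    intro ρ hρ
    have h1 := abs_le.1 hρ
    have h2 : ρ ^ 2 ≤ 9 / 16 := by nlinarith
    constructor
    · gcongr; linarith
    · nlinarith [sq_nonneg ρ]
  have hP : ∀ ρ : ℝ, |ρ| ≤ 3 / 4 → ∀ w : Euc ι × Euc ι, ‖p + (√s * ρ) • w.1‖ ≤ ‖p‖ + ‖w‖ := by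
    intro ρ hρ w
    refine (norm_add_le _ _).trans ?_
    rw [norm_smul, Real.norm_eq_abs, abs_mul, abs_of_nonneg (Real.sqrt_nonneg _)]
    have h1 : √s ≤ 1 := Real.sqrt_le_one.2 hs1
    have h2 : √s * |ρ| * ‖w.1‖ ≤ 1 * 1 * ‖w‖ := by
      gcongr
      · linarith
      · exact norm_fst_le w
    linarith
  have hN : Gr (ι := ι) fun _ w => ‖p‖ + ‖w‖ := (Gr.const _).add Gr.norm
  rcases lt_trichotomy (Multiset.card m) 1 with h | h | h
  · obtain rfl : m = 0 := Multiset.card_eq_zero.1 (by omega)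
    obtain ⟨K, hK⟩ := T_zero_le hV
    refine (((Gr.const 2).mul (hN.mul hN)).add (Gr.const K)).of_le fun ρ hρ w => ?_
    obtain ⟨h1, h2⟩ := hσ ρ hρ
    have h0 : 0 < s * (1 - ρ ^ 2) := lt_of_lt_of_le (by positivity) h1
    rw [abs_of_nonneg (T_zero_nonneg hV h0 _)]
    refine (hK _ h0 h2 _).trans (le_trans ?_ (le_abs_self _))
    have := pow_le_pow_left₀ (norm_nonneg _) (hP ρ hρ w) 2
    nlinarith
  · obtain ⟨e, rfl⟩ := Multiset.card_eq_one.1 h
    refine (((Gr.const 6).mul hN).add (Gr.const (2 * √(dm ι)))).of_le fun ρ hρ w => ?_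
    obtain ⟨h1, h2⟩ := hσ ρ hρ
    have h0 : 0 < s * (1 - ρ ^ 2) := lt_of_lt_of_le (by positivity) h1
    have h3 := hP ρ hρ w
    generalize p + (√s * ρ) • w.1 = P at h3 ⊢
    generalize s * (1 - ρ ^ 2) = σ at h0 h2 ⊢
    have h4 := fs_sub_grad hV h0 h2 P
    have h5 := hV.grad_le P
    have h6 : ‖fs V σ P‖ ≤ ‖fs V σ P - gradient V P‖ + ‖gradient V P‖ := by
      simpa using norm_add_le (fs V σ P - gradient V P) (gradient V P)
    have h7 : |T V {e} σ P| ≤ ‖fs V σ P‖ := by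
      rw [← fs_apply, ← Real.norm_eq_abs]; exact PiLp.norm_apply_le _ _
    have h8 : √(σ * dm ι) ≤ √(dm ι) := by
      refine Real.sqrt_le_sqrt ?_
      have : σ * dm ι ≤ 1 * dm ι := by gcongr
      linarith
    have h9 : 4 * σ * ‖P‖ ≤ 4 * 1 * ‖P‖ := by gcongr
    refine le_trans ?_ (le_abs_self _)
    linarith
  · obtain ⟨C, hC, hT⟩ := T_crude hV m h
    refine Gr.bdd (B := C / (s * (7 / 16)) ^ Multiset.card m) fun ρ hρ w => ?_
    obtain ⟨h1, h2⟩ := hσ ρ hρ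
    have h0 : 0 < s * (7 / 16) := by positivity
    refine (hT _ (h0.trans_le h1) h2 _).trans ?_
    gcongr

lemma gr_ev (hV : InClass V) (hs : 0 < s) (hs1 : s ≤ 1) (p : Euc ι) (r : R2 ι) :
    Gr fun ρ w => ev V s p ρ w r := by
  induction r using MvPolynomial.induction_on with
  | C a => simp only [ev_const]; exact Gr.const a
  | add p q hp hq => simp only [map_add]; exact hp.add hq
  | mul_X q n hq =>
    simp only [map_mul]
    refine hq.mul ?_
    rcases n with _ | f | f | m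
    · simp only [ev_X_rho]; exact Gr.bdd fun _ h _ => h
    · simp only [ev_X_x]
      refine Gr.norm.of_le fun _ _ w => ?_
      rw [abs_norm, ← Real.norm_eq_abs]
      exact (PiLp.norm_apply_le _ _).trans (norm_fst_le w)
    · simp only [ev_X_z]
      refine Gr.norm.of_le fun _ _ w => ?_
      rw [abs_norm, ← Real.norm_eq_abs]
      exact (PiLp.norm_apply_le _ _).trans (norm_snd_le w)
    · simp only [ev_X_t]
      exact (Gr.const _).mul (gr_T hV hs hs1 p m)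

lemma ev_growth (hV : InClass V) (hs : 0 < s) (hs1 : s ≤ 1) (p : Euc ι) (r : R2 ι) :
    ∃ C : ℝ, ∃ N : ℕ, 0 ≤ C ∧ ∀ ρ : ℝ, |ρ| ≤ 3 / 4 → ∀ w, |ev V s p ρ w r| ≤ C * (1 + ‖w‖) ^ N :=
  gr_ev hV hs hs1 p r

/-- The density of `mu` with respect to the product of two standard Gaussians. -/
noncomputable def dens (V : Euc ι → ℝ) (s : ℝ) (p : Euc ι) (ρ : ℝ) (w : Euc ι × Euc ι) : ℝ :=
  Real.exp (T V 0 s p - ev V s p ρ w (tv 0))

lemma dens_eq (V : Euc ι → ℝ) (s : ℝ) (p : Euc ι) (ρ : ℝ) (w : Euc ι × Euc ι) :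
    dens V s p ρ w = Real.exp (T V 0 s p - T V 0 (s * (1 - ρ ^ 2)) (p + (√s * ρ) • w.1)) := by
  simp [dens, ev_X_t]

lemma dens_pos (V : Euc ι → ℝ) (s : ℝ) (p : Euc ι) (ρ : ℝ) (w : Euc ι × Euc ι) :
    0 < dens V s p ρ w := Real.exp_pos _

lemma dens_le (hV : InClass V) (hs : 0 < s) (p : Euc ι) (hρ : |ρ| < 1) (w : Euc ι × Euc ι) :
    dens V s p ρ w ≤ Real.exp (T V 0 s p) := by
  rw [dens_eq, Real.exp_le_exp]
  linarith [T_zero_nonneg hV (mul_pos hs (one_sub_sq_pos hρ)) (p + (√s * ρ) • w.1)]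

lemma dens_cont (hV : InClass V) (hs : 0 < s) (p : Euc ι) (hρ : |ρ| < 1) :
    Continuous (dens V s p ρ) :=
  (continuous_const.sub (ev_cont hV hs p hρ _)).rexp

lemma mu_eq (hV : InClass V) (hs : 0 < s) (p : Euc ι) (hρ : |ρ| < 1) :
    mu V s p ρ = ((gam ι).prod (gam ι)).withDensity fun w => ENNReal.ofReal (dens V s p ρ w) := by
  have hc : Continuous fun x : Euc ι => T V 0 (s * (1 - ρ ^ 2)) (p + (√s * ρ) • x) :=
    (T_cont hV 0).comp_continuous
      (f := fun x : Euc ι => (s * (1 - ρ ^ 2), p + (√s * ρ) • x)) (by fun_prop)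
      (fun _ => mul_pos hs (one_sub_sq_pos hρ))
  have hm : Measurable fun x : Euc ι => ENNReal.ofReal
      (Real.exp (T V 0 s p - T V 0 (s * (1 - ρ ^ 2)) (p + (√s * ρ) • x))) :=
    (continuous_const.sub hc).rexp.measurable.ennreal_ofReal
  rw [mu, loc, prod_withDensity_left hm]
  simp only [dens_eq]

omit [Fintype ι] [DecidableEq ι] in
lemma integral_wd {S : Type} [MeasurableSpace S] (P : Measure S) {D : S → ℝ} (mD : Measurable D)
    (h0 : ∀ w, 0 ≤ D w) (ψ : S → ℝ) :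
    ∫ w, ψ w ∂(P.withDensity fun w => ENNReal.ofReal (D w)) = ∫ w, ψ w * D w ∂P := by
  rw [integral_withDensity_eq_integral_toReal_smul mD.ennreal_ofReal
    (Filter.Eventually.of_forall fun _ => ENNReal.ofReal_lt_top)]
  simp only [ENNReal.toReal_ofReal (h0 _), smul_eq_mul, mul_comm]

omit [Fintype ι] [DecidableEq ι] in
lemma integrable_wd {S : Type} [MeasurableSpace S] (P : Measure S) {D : S → ℝ}
    (mD : Measurable D) (h0 : ∀ w, 0 ≤ D w) (ψ : S → ℝ) :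
    Integrable ψ (P.withDensity fun w => ENNReal.ofReal (D w)) ↔
      Integrable (fun w => ψ w * D w) P := by
  rw [integrable_withDensity_iff mD.ennreal_ofReal
    (Filter.Eventually.of_forall fun _ => ENNReal.ofReal_lt_top)]
  simp only [ENNReal.toReal_ofReal (h0 _)]

lemma integral_mu (hV : InClass V) (hs : 0 < s) (p : Euc ι) (hρ : |ρ| < 1)
    (ψ : Euc ι × Euc ι → ℝ) :
    ∫ w, ψ w ∂(mu V s p ρ) = ∫ w, ψ w * dens V s p ρ w ∂((gam ι).prod (gam ι)) := by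
  rw [mu_eq hV hs p hρ, integral_wd _ (dens_cont hV hs p hρ).measurable
    fun w => (dens_pos V s p ρ w).le]

/-- Functions of polynomial growth are integrable. -/
lemma mu_int (hV : InClass V) (hs : 0 < s) (p : Euc ι) (hρ : |ρ| < 1)
    {ψ : Euc ι × Euc ι → ℝ} (mψ : Measurable ψ) {C : ℝ} {N : ℕ}
    (h : ∀ w, |ψ w| ≤ C * (1 + ‖w‖) ^ N) : Integrable ψ (mu V s p ρ) := by
  rw [mu_eq hV hs p hρ, integrable_wd _ (dens_cont hV hs p hρ).measurable
    fun w => (dens_pos V s p ρ w).le]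
  refine (((gam2_int_pow N).const_mul C).mul_const (Real.exp (T V 0 s p))).mono'
    (mψ.mul (dens_cont hV hs p hρ).measurable).aestronglyMeasurable
    (Filter.Eventually.of_forall fun w => ?_)
  rw [Real.norm_eq_abs, abs_mul, abs_of_pos (dens_pos V s p ρ w)]
  exact mul_le_mul (h w) (dens_le hV hs p hρ w) (dens_pos V s p ρ w).le
    ((abs_nonneg _).trans (h w))

lemma Gr.int (hV : InClass V) (hs : 0 < s) (p : Euc ι) (hρ : |ρ| ≤ 3 / 4)
    {f : ℝ → Euc ι × Euc ι → ℝ} (h : Gr f) (m : Measurable (f ρ)) :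
    Integrable (f ρ) (mu V s p ρ) := by
  obtain ⟨C, N, -, h⟩ := h
  exact mu_int hV hs p (by linarith) m (h ρ hρ)

lemma ev_meas (hV : InClass V) (hs : 0 < s) (p : Euc ι) (hρ : |ρ| ≤ 3 / 4) (r : R2 ι) :
    Measurable fun w => ev V s p ρ w r := (ev_cont hV hs p (by linarith) r).measurable

lemma ev_int (hV : InClass V) (hs : 0 < s) (hs1 : s ≤ 1) (p : Euc ι) (hρ : |ρ| ≤ 3 / 4)
    (r : R2 ι) : Integrable (fun w => ev V s p ρ w r) (mu V s p ρ) :=
  (gr_ev hV hs hs1 p r).int hV hs p hρ (ev_meas hV hs p hρ r)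

/-- Minus the log-density, up to a constant. -/
noncomputable def Phi (ι : Type) [Fintype ι] : R2 ι :=
  C (1 / 2) * ∑ e, xv e * xv e + C (1 / 2) * ∑ e, zv e * zv e + tv 0

lemma dd_Phi (i : ι ⊕ ι) : dd i (Phi ι) = Wd i := by
  have hC : ∀ r : R2 ι, dd i (C (1 / 2) * r) = C (1 / 2) * dd i r := by
    intro r
    rw [← smul_eq_C_mul, Derivation.map_smul, smul_eq_C_mul]
  have h2 : ∀ r : R2 ι, C (1 / 2) * (r + r) = r := by
    intro r
    rw [← two_mul, ← mul_assoc, show (2 : R2 ι) = C 2 from rfl, ← map_mul]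
    norm_num
  simp only [Phi, map_add, hC, map_sum, Derivation.leibniz, dd_xv, dd_zv, smul_eq_mul,
    Finset.sum_add_distrib, h2]
  rcases i with e | e
  · simp [Wd, dd_tv_inl]
  · simp [Wd, dd_tv_inr]

lemma ev_Phi (V : Euc ι → ℝ) (s : ℝ) (p : Euc ι) (ρ : ℝ) (w : Euc ι × Euc ι) :
    ev V s p ρ w (Phi ι) = ‖w.1‖ ^ 2 / 2 + ‖w.2‖ ^ 2 / 2 + ev V s p ρ w (tv 0) := by
  simp only [Phi, map_add, map_mul, map_sum, ev_const, ev_X_x, ev_X_z,
    EuclideanSpace.real_norm_sq_eq, ← sq, map_pow]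
  ring

/-- The Lebesgue density of `mu`. -/
noncomputable def densL (V : Euc ι → ℝ) (s : ℝ) (p : Euc ι) (ρ : ℝ) (w : Euc ι × Euc ι) : ℝ :=
  ((2 * Real.pi) ^ (-(dm ι / 2))) ^ 2 * Real.exp (T V 0 s p - ev V s p ρ w (Phi ι))

lemma densL_nonneg (V : Euc ι → ℝ) (s : ℝ) (p : Euc ι) (ρ : ℝ) (w : Euc ι × Euc ι) :
    0 ≤ densL V s p ρ w := by
  unfold densL; positivity

lemma densL_cont (hV : InClass V) (hs : 0 < s) (p : Euc ι) (hρ : |ρ| < 1) :
    Continuous (densL V s p ρ) :=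
  continuous_const.mul (continuous_const.sub (ev_cont hV hs p hρ _)).rexp

lemma mu_eqL (hV : InClass V) (hs : 0 < s) (p : Euc ι) (hρ : |ρ| < 1) :
    mu V s p ρ = ((volume : Measure (Euc ι)).prod volume).withDensity
      fun w => ENNReal.ofReal (densL V s p ρ w) := by
  have hm : Measurable fun x : Euc ι =>
      ENNReal.ofReal ((2 * Real.pi) ^ (-(dm ι / 2)) * Real.exp (-(‖x‖ ^ 2 / 2))) := by
    fun_prop
  have hm2 : Measurable fun z : Euc ι × Euc ι =>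
      ENNReal.ofReal ((2 * Real.pi) ^ (-(dm ι / 2)) * Real.exp (-(‖z.1‖ ^ 2 / 2))) *
      ENNReal.ofReal ((2 * Real.pi) ^ (-(dm ι / 2)) * Real.exp (-(‖z.2‖ ^ 2 / 2))) :=
    (hm.comp measurable_fst).mul (hm.comp measurable_snd)
  rw [mu_eq hV hs p hρ, gam_density, prod_withDensity hm hm, ← withDensity_mul _ hm2
    (dens_cont hV hs p hρ).measurable.ennreal_ofReal]
  congr 1
  funext w
  have hc : 0 ≤ (2 * Real.pi) ^ (-(dm ι / 2)) := by positivity
  simp only [Pi.mul_apply]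
  rw [← ENNReal.ofReal_mul (by positivity), ← ENNReal.ofReal_mul (by positivity), densL, ev_Phi,
    dens]
  congr 1
  have e : T V 0 s p - (‖w.1‖ ^ 2 / 2 + ‖w.2‖ ^ 2 / 2 + ev V s p ρ w (tv 0)) =
      -(‖w.1‖ ^ 2 / 2) + -(‖w.2‖ ^ 2 / 2) + (T V 0 s p - ev V s p ρ w (tv 0)) := by ring
  rw [e, Real.exp_add, Real.exp_add]
  ring

lemma densL_line (hV : InClass V) (hs : 0 < s) (p : Euc ι) (hρ : |ρ| < 1) (i : ι ⊕ ι) (g : R2 ι)
    (w : Euc ι × Euc ι) :
    HasLineDerivAt ℝ (fun w => ev V s p ρ w g * densL V s p ρ w)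
      (-(ev V s p ρ w (del i g) * densL V s p ρ w)) w (dir i) := by
  have h1 := ev_line hV hs p hρ i g w
  have h2 := ev_line hV hs p hρ i (Phi ι) w
  unfold HasLineDerivAt at h1 h2 ⊢
  have h3 := h1.mul (((h2.const_sub (T V 0 s p)).exp).const_mul
    (((2 * Real.pi) ^ (-(dm ι / 2))) ^ 2))
  refine h3.congr_deriv ?_
  simp only [densL, del, dd_Phi, map_sub, map_mul, zero_smul, add_zero]
  ring

lemma ibp' (hV : InClass V) (hs : 0 < s) (hs1 : s ≤ 1) (p : Euc ι) (hρ : |ρ| ≤ 3 / 4)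
    (i : ι ⊕ ι) (g : R2 ι) {ψ ψ' : Euc ι × Euc ι → ℝ} (mψ : Measurable ψ) (mψ' : Measurable ψ')
    (hψ : ∀ w, HasLineDerivAt ℝ ψ (ψ' w) w (dir i))
    (h : Gr fun _ w => ψ w) (h' : Gr fun _ w => ψ' w) :
    ∫ w, ev V s p ρ w g * ψ' w ∂(mu V s p ρ) = ∫ w, ev V s p ρ w (del i g) * ψ w ∂(mu V s p ρ) := by
  have hρ1 : |ρ| < 1 := by linarith
  have i1 := ((gr_ev hV hs hs1 p g).mul h').int hV hs p hρ ((ev_meas hV hs p hρ g).mul mψ')
  have i2 := ((gr_ev hV hs hs1 p g).mul h).int hV hs p hρ ((ev_meas hV hs p hρ g).mul mψ)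
  have i3 := ((gr_ev hV hs hs1 p (del i g)).mul h).int hV hs p hρ
    ((ev_meas hV hs p hρ _).mul mψ)
  have mD := (densL_cont hV hs p hρ1).measurable
  have hD := densL_nonneg V s p ρ
  rw [mu_eqL hV hs p hρ1] at i1 i2 i3 ⊢
  rw [integrable_wd _ mD hD] at i1 i2 i3
  rw [integral_wd _ mD hD, integral_wd _ mD hD]
  have key := integral_bilinear_hasLineDerivAt_right_eq_neg_left_of_integrable
    (μ := (volume : Measure (Euc ι)).prod (volume : Measure (Euc ι)))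
    (B := ContinuousLinearMap.mul ℝ ℝ) (v := dir i)
    (f := fun w => ev V s p ρ w g * densL V s p ρ w)
    (f' := fun w => -(ev V s p ρ w (del i g) * densL V s p ρ w)) (g := ψ) (g' := ψ')
    (i3.neg.congr (Filter.Eventually.of_forall fun w => by simp; ring))
    (i1.congr (Filter.Eventually.of_forall fun w => by simp; ring))
    (i2.congr (Filter.Eventually.of_forall fun w => by simp; ring))
    (fun w _ => densL_line hV hs p hρ1 i g w) (fun w _ => hψ w)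
  simp only [ContinuousLinearMap.mul_apply', neg_mul, integral_neg, neg_neg] at key
  simp only [mul_right_comm _ _ (densL V s p ρ _)]
  exact key

/-- Integration by parts. -/
lemma ibp (hV : InClass V) (hs : 0 < s) (hs1 : s ≤ 1) (p : Euc ι) (hρ : |ρ| ≤ 3 / 4)
    (i : ι ⊕ ι) (g : R2 ι) {ψ ψ' : Euc ι × Euc ι → ℝ} (mψ : Measurable ψ) (mψ' : Measurable ψ')
    (hψ : ∀ w, HasLineDerivAt ℝ ψ (ψ' w) w (dir i)) {C : ℝ} {N : ℕ}
    (h : ∀ w, |ψ w| ≤ C * (1 + ‖w‖) ^ N) (h' : ∀ w, |ψ' w| ≤ C * (1 + ‖w‖) ^ N) :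
    ∫ w, ev V s p ρ w g * ψ' w ∂(mu V s p ρ) = ∫ w, ev V s p ρ w (del i g) * ψ w ∂(mu V s p ρ) :=
  ibp' hV hs hs1 p hρ i g mψ mψ' hψ (Gr.mk' h) (Gr.mk' h')

lemma Ex_del (hV : InClass V) (hs : 0 < s) (hs1 : s ≤ 1) (p : Euc ι) (hρ : |ρ| ≤ 3 / 4)
    (i : ι ⊕ ι) (g r : R2 ι) : Ex V s p ρ (del i g * r) = Ex V s p ρ (g * dd i r) := by
  simp only [Ex, map_mul]
  exact (ibp' hV hs hs1 p hρ i g (ev_meas hV hs p hρ r) (ev_meas hV hs p hρ _)
    (ev_line hV hs p (by linarith) i r) ((gr_ev hV hs hs1 p r).at hρ)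
    ((gr_ev hV hs hs1 p _).at hρ)).symm

lemma Ex_add (hV : InClass V) (hs : 0 < s) (hs1 : s ≤ 1) (p : Euc ι) (hρ : |ρ| ≤ 3 / 4)
    (a b : R2 ι) : Ex V s p ρ (a + b) = Ex V s p ρ a + Ex V s p ρ b := by
  simp only [Ex, map_add]
  exact integral_add (ev_int hV hs hs1 p hρ a) (ev_int hV hs hs1 p hρ b)

lemma Ex_sum (hV : InClass V) (hs : 0 < s) (hs1 : s ≤ 1) (p : Euc ι) (hρ : |ρ| ≤ 3 / 4)
    {κ : Type} (t : Finset κ) (a : κ → R2 ι) :
    Ex V s p ρ (∑ k ∈ t, a k) = ∑ k ∈ t, Ex V s p ρ (a k) := by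
  simp only [Ex, map_sum]
  exact integral_finsetSum t fun k _ => ev_int hV hs hs1 p hρ (a k)

lemma Ex_C_mul (V : Euc ι → ℝ) (s : ℝ) (p : Euc ι) (ρ c : ℝ) (a : R2 ι) :
    Ex V s p ρ (C c * a) = c * Ex V s p ρ a := by
  simp only [Ex, map_mul, ev_const]
  exact integral_const_mul _ _

/-- Differentiation in time under the integral sign. -/
lemma time_deriv (hV : InClass V) (hs : 0 < s) (hs1 : s ≤ 1) (p : Euc ι) (hρ : |ρ| < 3 / 4)
    {ψ ψt : ℝ → Euc ι × Euc ι → ℝ} (g : Gr ψ) (gt : Gr ψt)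
    (m : ∀ τ, |τ| ≤ 3 / 4 → Measurable (ψ τ)) (mt : Measurable (ψt ρ))
    (hd : ∀ τ, |τ| ≤ 3 / 4 → ∀ w, HasDerivAt (fun τ => ψ τ w) (ψt τ w) τ) :
    HasDerivAt (fun τ => ∫ w, ψ τ w ∂(mu V s p τ))
      (∫ w, (ψt ρ w - ψ ρ w * ev V s p ρ w (drho (tv 0))) ∂(mu V s p ρ)) ρ := by
  have hS : {τ : ℝ | |τ| < 3 / 4} ∈ nhds ρ :=
    (isOpen_lt continuous_abs continuous_const).mem_nhds hρ
  obtain ⟨C, N, hC, hb⟩ := gt.sub (g.mul (gr_ev hV hs hs1 p (drho (tv 0))))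
  have hρ1 : |ρ| < 1 := by linarith
  have hi : Integrable (fun w => ψ ρ w * dens V s p ρ w) ((gam ι).prod (gam ι)) := by
    have := g.int hV hs p hρ.le (m ρ hρ.le)
    rwa [mu_eq hV hs p hρ1, integrable_wd _ (dens_cont hV hs p hρ1).measurable
      fun w => (dens_pos V s p ρ w).le] at this
  have key := (hasDerivAt_integral_of_dominated_loc_of_deriv_le (μ := (gam ι).prod (gam ι))
    (F := fun τ w => ψ τ w * dens V s p τ w)
    (F' := fun τ w => (ψt τ w - ψ τ w * ev V s p τ w (drho (tv 0))) * dens V s p τ w)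
    (bound := fun w => C * (1 + ‖w‖) ^ N * Real.exp (T V 0 s p)) hS ?_ hi ?_ ?_ ?_ ?_).2
  · rw [integral_mu hV hs p hρ1]
    refine key.congr_of_eventuallyEq ?_
    filter_upwards [hS] with τ hτ
    exact integral_mu hV hs p (lt_trans hτ (by norm_num)) _
  · filter_upwards [hS] with τ hτ
    exact ((m τ (le_of_lt hτ)).mul
      (dens_cont hV hs p (lt_trans hτ (by norm_num))).measurable).aestronglyMeasurable
  · exact ((mt.sub ((m ρ hρ.le).mul (ev_meas hV hs p hρ.le _))).mul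
      (dens_cont hV hs p hρ1).measurable).aestronglyMeasurable
  · refine Filter.Eventually.of_forall fun w τ hτ => ?_
    rw [Real.norm_eq_abs, abs_mul, abs_of_pos (dens_pos V s p τ w)]
    exact mul_le_mul (hb τ (le_of_lt hτ) w) (dens_le hV hs p (lt_trans hτ (by norm_num)) w)
      (dens_pos V s p τ w).le (by positivity)
  · exact ((gam2_int_pow N).const_mul C).mul_const _
  · refine Filter.Eventually.of_forall fun w τ hτ => ?_
    have h1 := (hd τ (le_of_lt hτ) w).mul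
      (((ev_rho hV hs p (lt_trans hτ (by norm_num)) (tv 0) w).const_sub (T V 0 s p)).exp)
    refine h1.congr_deriv ?_
    simp only [dens]
    ring

/-- The continuity equation in weak form. -/
lemma flow_deriv (hV : InClass V) (hs : 0 < s) (hs1 : s ≤ 1) (p : Euc ι) (hρ : |ρ| < 3 / 4)
    (c : ℝ) {ψ ψt : ℝ → Euc ι × Euc ι → ℝ} {ψi : ι ⊕ ι → Euc ι × Euc ι → ℝ} (g : Gr ψ)
    (gt : Gr ψt) (gi : ∀ i, Gr fun _ w => ψi i w)
    (m : ∀ τ, |τ| ≤ 3 / 4 → Measurable (ψ τ)) (mt : Measurable (ψt ρ))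
    (mi : ∀ i, Measurable (ψi i))
    (hd : ∀ τ, |τ| ≤ 3 / 4 → ∀ w, HasDerivAt (fun τ => ψ τ w) (ψt τ w) τ)
    (hi : ∀ i w, HasLineDerivAt ℝ (ψ ρ) (ψi i w) w (dir i)) :
    HasDerivAt (fun τ => ∫ w, ψ τ w ∂(mu V s p τ))
      (∫ w, (ψt ρ w + ∑ i, ev V s p ρ w (bb c i) * ψi i w) ∂(mu V s p ρ)) ρ := by
  refine (time_deriv hV hs hs1 p hρ g gt m mt hd).congr_deriv ?_
  have i1 := gt.int hV hs p hρ.le mt
  have i2 : ∀ i, Integrable (fun w => ev V s p ρ w (bb c i) * ψi i w) (mu V s p ρ) := fun i =>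
    ((gr_ev hV hs hs1 p (bb c i)).mul (gi i)).int hV hs p hρ.le
      ((ev_meas hV hs p hρ.le _).mul (mi i))
  have i3 : ∀ i, Integrable (fun w => ev V s p ρ w (del i (bb c i)) * ψ ρ w) (mu V s p ρ) :=
    fun i => ((gr_ev hV hs hs1 p (del i (bb c i))).mul g).int hV hs p hρ.le
      ((ev_meas hV hs p hρ.le _).mul (m ρ hρ.le))
  have e : ∀ w, ψt ρ w - ψ ρ w * ev V s p ρ w (drho (tv 0)) =
      ψt ρ w + ∑ i, ev V s p ρ w (del i (bb c i)) * ψ ρ w := by
    intro w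
    rw [← Finset.sum_mul, ← map_sum, div_bb, map_neg]
    ring
  simp only [e]
  rw [integral_add i1 (integrable_finsetSum _ fun i _ => i3 i),
    integral_add i1 (integrable_finsetSum _ fun i _ => i2 i),
    integral_finsetSum _ fun i _ => i3 i, integral_finsetSum _ fun i _ => i2 i]
  congr 1
  exact Finset.sum_congr rfl fun i _ =>
    (ibp' hV hs hs1 p hρ.le i (bb c i) (m ρ hρ.le) (mi i) (hi i) (g.at hρ.le) (gi i)).symm

/-- Invariance of the family `mu` along the coupled flow, for test functions of a finite family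
of ring elements. -/
theorem inv_test (hV : InClass V) (hs : 0 < s) (hs1 : s ≤ 1) (p : Euc ι) (hρ : |ρ| < 3 / 4)
    (c : ℝ) {A G : Type} [Fintype A] [NormedAddCommGroup G] [NormedSpace ℝ G]
    [FiniteDimensional ℝ G] (F : A → R2 ι) (u : A → G) {φ : G → ℝ} (hφ : ContDiff ℝ 1 φ)
    (hφ' : ∀ x, ‖fderiv ℝ φ x‖ ≤ 1) (hB : ∃ B, ∀ x, |φ x| ≤ B) :
    HasDerivAt (fun τ => ∫ w, φ (∑ a, ev V s p τ w (F a) • u a) ∂(mu V s p τ))
      (∫ w, fderiv ℝ φ (∑ a, ev V s p ρ w (F a) • u a)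
        (∑ a, ev V s p ρ w (DD c (F a)) • u a) ∂(mu V s p ρ)) ρ := by
  obtain ⟨B, hB⟩ := hB
  have hc : ∀ (H : A → R2 ι) (τ : ℝ), |τ| ≤ 3 / 4 →
      Continuous fun w => ∑ a, ev V s p τ w (H a) • u a := fun H τ hτ =>
    continuous_finsetSum _ fun a _ => (ev_cont hV hs p (by linarith) _).smul continuous_const
  have hf : Continuous (fderiv ℝ φ) := hφ.continuous_fderiv one_ne_zero
  have hdf : ∀ x, HasFDerivAt φ (fderiv ℝ φ x) x := fun x =>
    (hφ.differentiable one_ne_zero x).hasFDerivAt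
  have hm : ∀ H : A → R2 ι, Measurable fun w => fderiv ℝ φ (∑ a, ev V s p ρ w (F a) • u a)
      (∑ a, ev V s p ρ w (H a) • u a) := fun H =>
    ((hf.comp (hc F ρ hρ.le)).clm_apply (hc H ρ hρ.le)).measurable
  have hg : ∀ H : A → R2 ι, Gr fun τ w => fderiv ℝ φ (∑ a, ev V s p τ w (F a) • u a)
      (∑ a, ev V s p τ w (H a) • u a) := by
    intro H
    refine (Gr.sum Finset.univ (F := fun a τ w => |ev V s p τ w (H a)| * ‖u a‖)
      fun a _ => (gr_ev hV hs hs1 p (H a)).abs.mul (Gr.const _)).of_le fun τ _ w => ?_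
    rw [← Real.norm_eq_abs]
    refine ((fderiv ℝ φ _).le_of_opNorm_le (hφ' _) _).trans (le_trans ?_ (le_abs_self _))
    rw [one_mul]
    refine (norm_sum_le _ _).trans (le_of_eq ?_)
    simp only [norm_smul, Real.norm_eq_abs]
  have key := flow_deriv hV hs hs1 p hρ c
    (ψ := fun τ w => φ (∑ a, ev V s p τ w (F a) • u a))
    (ψt := fun τ w => fderiv ℝ φ (∑ a, ev V s p τ w (F a) • u a)
      (∑ a, ev V s p τ w (drho (F a)) • u a))
    (ψi := fun i w => fderiv ℝ φ (∑ a, ev V s p ρ w (F a) • u a)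
      (∑ a, ev V s p ρ w (dd i (F a)) • u a))
    (Gr.bdd fun _ _ _ => hB _) (hg _) (fun i => (hg fun a => dd i (F a)).at hρ.le)
    (fun τ hτ => (hφ.continuous.comp (hc F τ hτ)).measurable) (hm _) (fun i => hm _)
    (fun τ hτ w => (hdf _).comp_hasDerivAt τ (HasDerivAt.fun_sum fun a _ =>
      (ev_rho hV hs p (by linarith) (F a) w).smul_const (u a))) ?_
  · refine key.congr_deriv ?_
    congr 1
    funext w
    simp only [← smul_eq_mul, ← map_smul, ← map_sum, ← map_add]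
    congr 1
    simp only [DD_apply, map_add, map_sum, map_mul, add_smul, Finset.sum_add_distrib,
      Finset.sum_smul, Finset.smul_sum, mul_smul]
    rw [Finset.sum_comm]
  · intro i w
    have h1 : HasDerivAt (fun t : ℝ => ∑ a, ev V s p ρ (w + t • dir i) (F a) • u a)
        (∑ a, ev V s p ρ w (dd i (F a)) • u a) 0 := HasDerivAt.fun_sum fun a _ =>
      HasDerivAt.smul_const (ev_line hV hs p (by linarith) i (F a) w) (u a)
    have h2 := (hdf _).comp_hasDerivAt 0 h1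
    simp only [zero_smul, add_zero] at h2
    exact h2

theorem Ex_deriv (hV : InClass V) (hs : 0 < s) (hs1 : s ≤ 1) (p : Euc ι) (hρ : |ρ| < 3 / 4)
    (c : ℝ) (r : R2 ι) : HasDerivAt (fun τ => Ex V s p τ r) (Ex V s p ρ (DD c r)) ρ := by
  have key := flow_deriv hV hs hs1 p hρ c (ψ := fun τ w => ev V s p τ w r)
    (ψt := fun τ w => ev V s p τ w (drho r)) (ψi := fun i w => ev V s p ρ w (dd i r))
    (gr_ev hV hs hs1 p r) (gr_ev hV hs hs1 p _) (fun i => (gr_ev hV hs hs1 p _).at hρ.le)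
    (fun τ hτ => ev_meas hV hs p hτ r) (ev_meas hV hs p hρ.le _)
    (fun i => ev_meas hV hs p hρ.le _) (fun τ hτ w => ev_rho hV hs p (by linarith) r w)
    (fun i w => ev_line hV hs p (by linarith) i r w)
  simp only [Ex, DD_apply, map_add, map_sum, map_mul]
  exact key

theorem loc_prob (hV : InClass V) (hs : 0 < s) (hs1 : s ≤ 1) (p : Euc ι) (hρ : |ρ| < 3 / 4) :
    IsProbabilityMeasure (loc V s p ρ) := by
  have hd : ∀ τ ∈ Set.Ioo (-(3 / 4) : ℝ) (3 / 4),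
      HasDerivWithinAt (fun τ => Ex V s p τ 1) 0 (Set.Ioo (-(3 / 4) : ℝ) (3 / 4)) τ := by
    intro τ hτ
    have h := Ex_deriv hV hs hs1 p (abs_lt.2 hτ) 0 1
    rw [Derivation.map_one_eq_zero] at h
    have e : Ex V s p τ 0 = 0 := by simp [Ex]
    rw [e] at h
    exact h.hasDerivWithinAt
  have h := (convex_Ioo _ _).norm_image_sub_le_of_norm_hasDerivWithin_le (C := 0) hd
    (fun _ _ => by simp) (x := 0) (y := ρ) (by norm_num) (abs_lt.1 hρ)
  have e : ∀ τ, Ex V s p τ 1 = (loc V s p τ Set.univ).toReal := by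
    intro τ
    simp only [Ex, map_one, integral_const, smul_eq_mul, mul_one, mu, Measure.real]
    rw [← Set.univ_prod_univ, Measure.prod_prod]
    simp
  rw [zero_mul, norm_le_zero_iff, sub_eq_zero, e, e, loc_zero,
    measure_univ (μ := gam ι), ENNReal.toReal_one, ENNReal.toReal_eq_one_iff] at h
  exact ⟨h⟩

end Vale.Agent.P347
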