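import Vale.Agent.P347.SchemeU

/-! Applying the Hessian twice: Cayley rotation and extrapolation. -/

open MeasureTheory ProbabilityTheory
open scoped RealInnerProductSpace

namespace Vale.Agent.P347

section Def
variable {ι : Type} [Fintype ι] [DecidableEq ι] {K : ℕ}

/-- Approximation of `c s ∇²V_{s'}(p) v`. -/
noncomputable def Mc (W : Wts K) (V : Euc ι → ℝ) (s s' c : ℝ) (p : Euc ι) (h : ℝ) (v : Euc ι) :
    Euc ι := (c * s / s') • Mhat W V s' p h v

/-- Picard iterates for the Cayley rotation. -/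
noncomputable def cay (W : Wts K) (V : Euc ι → ℝ) (s s' c : ℝ) (p : Euc ι) (h τ : ℝ)
    (a b : Euc ι) : Euc ι × Euc ι :=
  (fun Y : Euc ι × Euc ι => (a - τ • (Mc W V s s' c p h b + Mc W V s s' c p h Y.2),
    b + τ • (Mc W V s s' c p h a + Mc W V s s' c p h Y.1)))^[K] (a, b)

/-- Approximation of `(c s ∇²V_{s'}(p))² a`. -/
noncomputable def M2hat (W : Wts K) (V : Euc ι → ℝ) (s s' c : ℝ) (p : Euc ι) (h τ : ℝ)
    (a b : Euc ι) : Euc ι :=
  ∑ l, (W.be l / (4 * (τ * rn l))) •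
    (Mc W V s s' c p h (cay W V s s' c p h (τ * rn l) a b).2 -
      Mc W V s s' c p h (cay W V s s' c p h (-(τ * rn l)) a b).2)

end Def

section Abs
variable {ι : Type} [Fintype ι]

/-- The inverse of `1 + x L²`. -/
lemma rot_inv (L : Euc ι →L[ℝ] Euc ι) {μ x : ℝ} (hμ : 0 ≤ μ) (hL : ∀ v, ‖L v‖ ≤ μ * ‖v‖)
    (hx0 : 0 ≤ x) (hx : x * μ ^ 2 ≤ 1 / 2) : ∃ R : Euc ι →L[ℝ] Euc ι,
      (∀ v, R v + x • L (L (R v)) = v) ∧ (∀ v, R (v + x • L (L v)) = v) ∧
      ∀ v, ‖R v‖ ≤ 2 * ‖v‖ := by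
  have hQ : ∀ v, ‖x • L (L v)‖ ≤ 1 / 2 * ‖v‖ := by
    intro v
    rw [norm_smul, Real.norm_eq_abs, abs_of_nonneg hx0]
    calc x * ‖L (L v)‖ ≤ x * (μ * (μ * ‖v‖)) := by
          gcongr
          exact (hL _).trans (by gcongr; exact hL v)
      _ = x * μ ^ 2 * ‖v‖ := by ring
      _ ≤ _ := by gcongr
  have hn : ‖-(x • (L * L))‖ < 1 := by
    rw [norm_neg]
    refine lt_of_le_of_lt (ContinuousLinearMap.opNorm_le_bound _ (M := 1 / 2) (by norm_num)
      fun v => hQ v) (by norm_num)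
  set u := Units.oneSub _ hn with hu
  have e1 : ∀ v, (u : Euc ι →L[ℝ] Euc ι) v = v + x • L (L v) := by
    intro v
    simp [hu]
  have h1 : ∀ v, (↑u⁻¹ : Euc ι →L[ℝ] Euc ι) v + x • L (L ((↑u⁻¹ : Euc ι →L[ℝ] Euc ι) v)) = v := by
    intro v
    rw [← e1, ← mul_apply_eq_comp, Units.mul_inv, one_apply_eq_self]
  refine ⟨↑u⁻¹, h1, fun v => ?_, fun v => ?_⟩
  · rw [← e1, ← mul_apply_eq_comp, Units.inv_mul, one_apply_eq_self]
  · have h2 := h1 v
    set y := (↑u⁻¹ : Euc ι →L[ℝ] Euc ι) v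
    have h3 : y = v - x • L (L y) := by rw [← h2]; simp
    have h4 : ‖y‖ ≤ ‖v‖ + ‖x • L (L y)‖ := by
      conv_lhs => rw [h3]
      exact norm_sub_le _ _
    linarith [hQ y]

lemma rot_gauss (L R : Euc ι →L[ℝ] Euc ι) (hL : ∀ u v, ⟪L u, v⟫ = ⟪u, L v⟫) (r : ℝ)
    (h1 : ∀ v, R v + r ^ 2 • L (L (R v)) = v) (h2 : ∀ v, R (v + r ^ 2 • L (L v)) = v) :
    ((gam ι).prod (gam ι)).map
        (fun w => (R w.1 - r ^ 2 • L (L (R w.1))) - (2 * r) • L (R w.2)) = gam ι ∧
      ((gam ι).prod (gam ι)).map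
        (fun w => (R w.2 - r ^ 2 • L (L (R w.2))) + (2 * r) • L (R w.1)) = gam ι := by
  have hR : ∀ u v, ⟪R u, v⟫ = ⟪u, R v⟫ := by
    intro u v
    conv_lhs => rw [← h1 v]
    conv_rhs => rw [← h1 u]
    simp only [inner_add_left, inner_add_right, inner_smul_left, inner_smul_right, hL,
      conj_trivial]
  have hc : ∀ v, R (L v) = L (R v) := by
    intro v
    conv_lhs => rw [← h1 v, map_add, map_smul]
    exact h2 _
  have hA : ∀ u v, ⟪(R - r ^ 2 • (L * L * R)) u, v⟫ = ⟪u, (R - r ^ 2 • (L * L * R)) v⟫ := by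
    intro u v
    simp only [_root_.sub_apply, _root_.smul_apply,
      mul_apply_eq_comp, inner_sub_left, inner_sub_right, inner_smul_left,
      inner_smul_right, hL, hR, hc, conj_trivial]
  have hB : ∀ (y : ℝ) u v, ⟪(y • (L * R)) u, v⟫ = ⟪u, (y • (L * R)) v⟫ := by
    intro y u v
    simp only [_root_.smul_apply, mul_apply_eq_comp, inner_smul_left,
      inner_smul_right, hL, hR, hc, conj_trivial]
  have hN : ∀ y : ℝ, y ^ 2 = 4 * r ^ 2 → ∀ v,
      ‖(R - r ^ 2 • (L * L * R)) v‖ ^ 2 + ‖(y • (L * R)) v‖ ^ 2 = ‖v‖ ^ 2 := by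
    intro y hy v
    conv_rhs => rw [← h1 v]
    simp only [_root_.sub_apply, _root_.smul_apply,
      mul_apply_eq_comp]
    rw [norm_sub_sq_real, norm_add_sq_real, inner_smul_right, ← hL, real_inner_self_eq_norm_sq,
      norm_smul y, mul_pow, Real.norm_eq_abs, sq_abs, hy]
    ring
  constructor
  · refine Eq.trans ?_ (gam_lin _ _ hA (hB (-(2 * r))) (hN _ (by ring)))
    congr 1
    funext w
    simp [sub_eq_add_neg]
  · refine Eq.trans ?_ (gam_lin _ _ (hB (2 * r)) hA fun v => by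
      rw [add_comm]; exact hN _ (by ring) v)
    congr 1
    funext w
    simp [add_comm]

lemma rot_series (L : Euc ι →L[ℝ] Euc ι) {x : ℝ} {a y : Euc ι} (h : y + x • L (L y) = a) (n : ℕ) :
    y = ∑ i ∈ Finset.range n, (-x) ^ i • ((L * L) ^ i) a + (-x) ^ n • ((L * L) ^ n) y := by
  induction n with
  | zero => simp
  | succ n ih =>
    rw [Finset.sum_range_succ, add_assoc]
    conv_lhs => rw [ih]
    congr 1
    rw [← h, map_add, map_smul, pow_succ (L * L), pow_succ (-x), mul_apply_eq_comp,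
      mul_apply_eq_comp, smul_add, smul_smul, add_assoc, ← add_smul]
    simp

lemma rot_pow_le (L : Euc ι →L[ℝ] Euc ι) {μ : ℝ} (hμ : 0 ≤ μ) (hL : ∀ v, ‖L v‖ ≤ μ * ‖v‖)
    (n : ℕ) (v : Euc ι) : ‖((L * L) ^ n) v‖ ≤ (μ ^ 2) ^ n * ‖v‖ := by
  induction n with
  | zero => simp
  | succ n ih =>
    rw [pow_succ', mul_apply_eq_comp, mul_apply_eq_comp]
    calc ‖L (L (((L * L) ^ n) v))‖ ≤ μ * (μ * ((μ ^ 2) ^ n * ‖v‖)) :=
          (hL _).trans (by gcongr; exact (hL _).trans (by gcongr))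
      _ = _ := by ring

/-- The Picard map of the Cayley rotation. -/
noncomputable def rotG (M : Euc ι → Euc ι) (r : ℝ) (w Y : Euc ι × Euc ι) : Euc ι × Euc ι :=
  (w.1 - r • (M w.2 + M Y.2), w.2 + r • (M w.1 + M Y.1))

lemma rot_cont {M : Euc ι → Euc ι} {μ : ℝ} (hμ : 0 ≤ μ) (hM : ∀ u v, ‖M u - M v‖ ≤ μ * ‖u - v‖) :
    Continuous M :=
  (LipschitzWith.of_dist_le_mul (K := μ.toNNReal) fun u v => by
    rw [Real.coe_toNNReal _ hμ, dist_eq_norm, dist_eq_norm]
    exact hM u v).continuous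

lemma rot_iter_cont {M : Euc ι → Euc ι} (cM : Continuous M) (r : ℝ) (k : ℕ) :
    Continuous fun w : Euc ι × Euc ι => (rotG M r w)^[k] w := by
  induction k with
  | zero => exact continuous_id
  | succ k ih =>
    simp only [Function.iterate_succ_apply']
    unfold rotG at ih ⊢
    fun_prop

lemma rot_one (L R : Euc ι →L[ℝ] Euc ι) (hL : ∀ u v, ⟪L u, v⟫ = ⟪u, L v⟫) {M : Euc ι → Euc ι}
    {μ δ η r τ : ℝ} (hμ : 0 ≤ μ) (hδ : 0 ≤ δ) (hLn : ∀ v, ‖L v‖ ≤ μ * ‖v‖)
    (hM : ∀ u v, ‖M u - M v‖ ≤ μ * ‖u - v‖) (hE : EB (gam ι) (fun v => M v - L v) δ)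
    (hr : |r| ≤ τ) (hτ : 1 ≤ τ) (hη : μ * τ ≤ η) (hη2 : η ≤ 1 / 2)
    (h1 : ∀ v, R v + r ^ 2 • L (L (R v)) = v) (h2 : ∀ v, R (v + r ^ 2 • L (L v)) = v) (k : ℕ) :
    EB ((gam ι).prod (gam ι)) (fun w => M ((rotG M r w)^[k] w).2 -
      L ((R w.2 - r ^ 2 • L (L (R w.2))) + (2 * r) • L (R w.1))) (5 * δ + η ^ k * √(dm ι)) := by
  obtain ⟨ga, gb⟩ := rot_gauss L R hL r h1 h2
  have cM := rot_cont hμ hM
  have hd := Real.sqrt_nonneg (dm ι)
  have hτ0 : 0 ≤ τ := by linarith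
  have hη0 : 0 ≤ η := le_trans (by positivity) hη
  have hrμ : |r| * μ ≤ η := le_trans (by rw [mul_comm]; gcongr) hη
  set a' : Euc ι × Euc ι → Euc ι := fun w =>
    (R w.1 - r ^ 2 • L (L (R w.1))) - (2 * r) • L (R w.2) with ha'
  set b' : Euc ι × Euc ι → Euc ι := fun w =>
    (R w.2 - r ^ 2 • L (L (R w.2))) + (2 * r) • L (R w.1) with hb'
  have ca : Continuous a' := by rw [ha']; fun_prop
  have cb : Continuous b' := by rw [hb']; fun_prop
  have fab : ∀ a b ya yb : Euc ι, ya + r ^ 2 • L (L ya) = a → yb + r ^ 2 • L (L yb) = b →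
      (ya - r ^ 2 • L (L ya)) - (2 * r) • L yb =
        a - r • L (b + ((yb - r ^ 2 • L (L yb)) + (2 * r) • L ya)) ∧
      (yb - r ^ 2 • L (L yb)) + (2 * r) • L ya =
        b + r • L (a + ((ya - r ^ 2 • L (L ya)) - (2 * r) • L yb)) := by
    rintro _ _ ya yb rfl rfl
    simp only [map_add, map_sub, map_smul]
    constructor <;> module
  have fa : ∀ w, a' w = w.1 - r • L (w.2 + b' w) := fun w => (fab _ _ _ _ (h1 w.1) (h1 w.2)).1
  have fb : ∀ w, b' w = w.2 + r • L (w.1 + a' w) := fun w => (fab _ _ _ _ (h1 w.1) (h1 w.2)).2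
  have mD : Measurable fun v => ‖M v - L v‖ := (cM.sub L.continuous).norm.measurable
  have E1 := EB.fst (P' := gam ι) hE mD
  have E2 := EB.snd (P := gam ι) hE mD
  have Ea := EB.comp_map ca.measurable ga mD hE
  have Eb := EB.comp_map cb.measurable gb mD hE
  have N1 := EB.fst (P' := gam ι) (EB.gam (ι := ι)) measurable_norm
  have N2 := EB.snd (P := gam ι) (EB.gam (ι := ι)) measurable_norm
  have Na := EB.comp_map ca.measurable ga measurable_norm (EB.gam (ι := ι))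
  have Nb := EB.comp_map cb.measurable gb measurable_norm (EB.gam (ι := ι))
  have four : ∀ {F : Euc ι → Euc ι} {x y : ℝ}, 0 ≤ x → 0 ≤ y → Continuous F →
      EB ((gam ι).prod (gam ι)) (fun w => F w.1) x →
      EB ((gam ι).prod (gam ι)) (fun w => F w.2) x →
      EB ((gam ι).prod (gam ι)) (fun w => F (a' w)) x →
      EB ((gam ι).prod (gam ι)) (fun w => F (b' w)) x →
      ∀ G : Euc ι × Euc ι → Euc ι × Euc ι,
      (∀ w, ‖G w‖ ≤ y * (‖F w.1‖ + ‖F w.2‖ + ‖F (a' w)‖ + ‖F (b' w)‖)) →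
      EB ((gam ι).prod (gam ι)) G (4 * y * x) := by
    intro F x y hx hy cF e1 e2 e3 e4 G hG
    refine (EB.domSum (Finset.univ : Finset (Fin 4)) (c := 0) (ci := fun _ => y) (a := fun _ => x)
      (Fi := ![fun w => F w.1, fun w => F w.2, fun w => F (a' w), fun w => F (b' w)])
      (fun i _ => ?_) (fun i _ => ?_) (fun _ _ => hx) le_rfl (fun _ _ => hy) fun w => ?_).mono
      (le_of_eq (by simp; ring))
    · fin_cases i
      exacts [e1, e2, e3, e4]
    · fin_cases i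
      exacts [(cF.comp continuous_fst).norm.measurable, (cF.comp continuous_snd).norm.measurable,
        (cF.comp ca).norm.measurable, (cF.comp cb).norm.measurable]
    · refine (hG w).trans (le_of_eq ?_)
      simp [Fin.sum_univ_four]
      ring
  have pf := picard_fix (P := (gam ι).prod (gam ι)) (Γ := rotG M r) (Y₀ := fun w => w)
    (Ys := fun w => (a' w, b' w)) (L := η) (ε := 4 * τ * δ) (m := 4 * η * √(dm ι)) hη0 hη2
    (by positivity) (by positivity) (by unfold rotG; fun_prop) measurable_id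
    (ca.prodMk cb).measurable
    (fun w x y => by
      have n1 : ‖x.1 - y.1‖ ≤ ‖x - y‖ := norm_fst_le (x - y)
      have n2 : ‖x.2 - y.2‖ ≤ ‖x - y‖ := norm_snd_le (x - y)
      have key : ∀ u v : Euc ι, ‖u - v‖ ≤ ‖x - y‖ → ‖r • (M u - M v)‖ ≤ η * ‖x - y‖ := by
        intro u v huv
        rw [norm_smul, Real.norm_eq_abs]
        calc |r| * ‖M u - M v‖ ≤ |r| * (μ * ‖x - y‖) := by
              gcongr
              exact (hM u v).trans (by gcongr)
          _ = |r| * μ * ‖x - y‖ := by ring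
          _ ≤ _ := by gcongr
      have e1 : (rotG M r w x - rotG M r w y).1 = -(r • (M x.2 - M y.2)) := by
        simp only [rotG, Prod.fst_sub]
        module
      have e2 : (rotG M r w x - rotG M r w y).2 = r • (M x.1 - M y.1) := by
        simp only [rotG, Prod.snd_sub]
        module
      rw [Prod.norm_def, e1, e2, norm_neg]
      exact max_le (key _ _ n2) (key _ _ n1))
    (four (F := fun v => M v - L v) hδ hτ0 (cM.sub L.continuous) E1 E2 Ea Eb _ fun w => by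
      have e1 : (rotG M r w (a' w, b' w) - (a' w, b' w)).1 =
          -(r • ((M w.2 - L w.2) + (M (b' w) - L (b' w)))) := by
        simp only [rotG, Prod.fst_sub]
        rw [fa w, map_add]
        module
      have e2 : (rotG M r w (a' w, b' w) - (a' w, b' w)).2 =
          r • ((M w.1 - L w.1) + (M (a' w) - L (a' w))) := by
        simp only [rotG, Prod.snd_sub]
        rw [fb w, map_add]
        module
      rw [Prod.norm_def, e1, e2, norm_neg, norm_smul, norm_smul, Real.norm_eq_abs]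
      have p1 := norm_nonneg (M w.1 - L w.1)
      have p2 := norm_nonneg (M w.2 - L w.2)
      have p3 := norm_nonneg (M (a' w) - L (a' w))
      have p4 := norm_nonneg (M (b' w) - L (b' w))
      refine max_le (mul_le_mul hr ((norm_add_le _ _).trans ?_) (norm_nonneg _) hτ0)
        (mul_le_mul hr ((norm_add_le _ _).trans ?_) (norm_nonneg _) hτ0) <;> linarith)
    (four (F := fun v => v) hd hη0 continuous_id N1 N2 Na Nb _ fun w => by
      have e1 : (w - (a' w, b' w)).1 = r • L (w.2 + b' w) := by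
        simp only [Prod.fst_sub]
        rw [fa w]
        module
      have e2 : (w - (a' w, b' w)).2 = -(r • L (w.1 + a' w)) := by
        simp only [Prod.snd_sub]
        rw [fb w]
        module
      have key : ∀ u v : Euc ι, ‖r • L (u + v)‖ ≤ η * (‖u‖ + ‖v‖) := by
        intro u v
        rw [norm_smul, Real.norm_eq_abs]
        calc |r| * ‖L (u + v)‖ ≤ |r| * (μ * (‖u‖ + ‖v‖)) := by
              gcongr
              exact (hLn _).trans (by gcongr; exact norm_add_le _ _)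
          _ = |r| * μ * (‖u‖ + ‖v‖) := by ring
          _ ≤ _ := by gcongr
      rw [Prod.norm_def, e1, e2, norm_neg]
      have p1 := norm_nonneg w.1
      have p2 := norm_nonneg w.2
      have p3 := norm_nonneg (a' w)
      have p4 := norm_nonneg (b' w)
      exact max_le ((key _ _).trans (mul_le_mul_of_nonneg_left (by linarith) hη0))
        ((key _ _).trans (mul_le_mul_of_nonneg_left (by linarith) hη0))) k
  refine (EB.dom2 (c := 0) (c₁ := μ) (c₂ := 1) pf Eb
    ((rot_iter_cont cM r k).sub (ca.prodMk cb)).norm.measurable (by positivity) hδ le_rfl hμ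
    zero_le_one fun w => ?_).mono ?_
  · have e : M ((rotG M r w)^[k] w).2 - L (b' w) =
        (M ((rotG M r w)^[k] w).2 - M (b' w)) + (M (b' w) - L (b' w)) := by abel
    rw [e, zero_add, one_mul]
    refine (norm_add_le _ _).trans (add_le_add ((hM _ _).trans ?_) le_rfl)
    gcongr
    exact norm_snd_le ((rotG M r w)^[k] w - (a' w, b' w))
  · have hμη : μ ≤ η := le_trans (le_mul_of_one_le_right hμ hτ) hη
    have q1 : μ * τ * δ ≤ 1 / 2 * δ := by gcongr; linarith
    have q2 : μ * η ≤ 1 / 2 * (1 / 2) := by gcongr; linarith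
    have q3 : 0 ≤ η ^ k * √(dm ι) := by positivity
    nlinarith [mul_le_mul_of_nonneg_right q2 q3]

lemma rot_abs {K : ℕ} (W : Wts K) (L : Euc ι →L[ℝ] Euc ι) (hL : ∀ u v, ⟪L u, v⟫ = ⟪u, L v⟫)
    {M : Euc ι → Euc ι} {μ δ η τ : ℝ} (hμ : 0 ≤ μ) (hδ : 0 ≤ δ) (hLn : ∀ v, ‖L v‖ ≤ μ * ‖v‖)
    (hM : ∀ u v, ‖M u - M v‖ ≤ μ * ‖u - v‖) (hE : EB (gam ι) (fun v => M v - L v) δ)
    (hτ : 1 ≤ τ) (hη : μ * τ ≤ η) (hη2 : η ≤ 1 / 2) :
    EB ((gam ι).prod (gam ι)) (fun w => ∑ l, (W.be l / (4 * (τ * rn l))) •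
      (M ((rotG M (τ * rn l) w)^[K] w).2 - M ((rotG M (-(τ * rn l)) w)^[K] w).2) - L (L w.1))
      (W.C * (K + 1) * (5 * δ + 2 * (η ^ K * √(dm ι)))) := by
  have cM := rot_cont hμ hM
  have hd := Real.sqrt_nonneg (dm ι)
  have hτ0 : 0 < τ := by linarith
  have hη0 : 0 ≤ η := le_trans (by positivity) hη
  have hk : (0 : ℝ) < K + 1 := by positivity
  have hk1 : (1 : ℝ) ≤ K + 1 := by linarith [Nat.cast_nonneg (α := ℝ) K]
  have hμη : μ ≤ η := le_trans (le_mul_of_one_le_right hμ hτ) hη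
  have rn0 : ∀ l : Fin (K + 1), 0 < rn l := fun l => lt_of_lt_of_le (by positivity) (rn_ge l)
  have r1 : ∀ l : Fin (K + 1), τ * rn l ≤ τ := fun l => mul_le_of_le_one_right hτ0.le (rn_le l)
  have r2 : ∀ l : Fin (K + 1), (τ * rn l) ^ 2 * μ ^ 2 ≤ η ^ 2 := fun l => by
    rw [← mul_pow]
    have := rn0 l
    gcongr
    exact le_trans (by rw [mul_comm]; gcongr; exact r1 l) hη
  have hR := fun l : Fin (K + 1) => rot_inv L hμ hLn (sq_nonneg (τ * rn l))
    ((r2 l).trans (by nlinarith))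
  choose R h1 h2 h3 using hR
  set D : Fin (K + 1) → Euc ι × Euc ι → Euc ι := fun l w => (1 / (4 * (τ * rn l))) •
    (M ((rotG M (τ * rn l) w)^[K] w).2 - M ((rotG M (-(τ * rn l)) w)^[K] w).2) -
      L (L (∑ i ∈ Finset.range (K + 1), (-(τ * rn l) ^ 2) ^ i • ((L * L) ^ i) w.1)) with hD
  have cD : ∀ l, Continuous (D l) := by
    intro l
    have c1 := rot_iter_cont cM (τ * rn l) K
    have c2 := rot_iter_cont cM (-(τ * rn l)) K
    rw [hD]
    fun_prop
  have eD : ∀ l, EB ((gam ι).prod (gam ι)) (D l)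
      ((K + 1) * (5 * δ + 2 * (η ^ K * √(dm ι)))) := by
    intro l
    have t0 : 0 < τ * rn l := mul_pos hτ0 (rn0 l)
    have A1 := rot_one L (R l) hL hμ hδ hLn hM hE (r := τ * rn l)
      (by rw [abs_of_pos t0]; exact r1 l) hτ hη hη2 (h1 l) (h2 l) K
    have A2 := rot_one L (R l) hL hμ hδ hLn hM hE (r := -(τ * rn l))
      (by rw [abs_neg, abs_of_pos t0]; exact r1 l) hτ hη hη2
      (by simpa only [neg_sq] using h1 l) (by simpa only [neg_sq] using h2 l) K
    have N1 := EB.fst (P' := gam ι) (EB.gam (ι := ι)) measurable_norm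
    have c1 := rot_iter_cont cM (τ * rn l) K
    have c2 := rot_iter_cont cM (-(τ * rn l)) K
    have A3 := EB.dom2 (F := fun w => M ((rotG M (τ * rn l) w)^[K] w).2 -
        M ((rotG M (-(τ * rn l)) w)^[K] w).2 - (4 * (τ * rn l)) • L (L (R l w.1)))
      (c := 0) (c₁ := 1) (c₂ := 1) A1 A2 (Continuous.measurable (by fun_prop))
      (by positivity) (by positivity) le_rfl zero_le_one zero_le_one fun w => by
        rw [zero_add, one_mul, one_mul]
        refine le_trans (le_of_eq ?_) (norm_sub_le _ _)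
        congr 1
        simp only [map_add, map_sub, map_smul, neg_sq]
        module
    refine (EB.dom2 (c := 0) (c₁ := (K + 1) / 4) (c₂ := η ^ K) A3 N1
      (Continuous.measurable (by fun_prop)) (by positivity) hd le_rfl (by positivity)
      (by positivity) fun w => ?_).mono ?_
    · have e1 := rot_series L (h1 l w.1) (K + 1)
      have e2 : D l w = (1 / (4 * (τ * rn l))) • (M ((rotG M (τ * rn l) w)^[K] w).2 -
          M ((rotG M (-(τ * rn l)) w)^[K] w).2 - (4 * (τ * rn l)) • L (L (R l w.1))) +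
          L (L ((-(τ * rn l) ^ 2) ^ (K + 1) • ((L * L) ^ (K + 1)) (R l w.1))) := by
        rw [hD, smul_sub (1 / (4 * (τ * rn l))) _ ((4 * (τ * rn l)) • _), smul_smul,
          one_div_mul_cancel (by positivity), one_smul]
        conv_rhs => enter [1, 2]; rw [e1, map_add, map_add]
        abel
      rw [e2, zero_add]
      refine (norm_add_le _ _).trans (add_le_add ?_ ?_)
      · rw [norm_smul, Real.norm_eq_abs, abs_of_pos (by positivity)]
        refine mul_le_mul_of_nonneg_right ?_ (norm_nonneg _)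
        rw [div_le_div_iff₀ (by positivity) (by norm_num)]
        have q1 := rn_ge l
        rw [div_le_iff₀ hk] at q1
        have q2 : rn l ≤ τ * rn l := le_mul_of_one_le_left (rn0 l).le hτ
        nlinarith
      · have q1 := rot_pow_le L hμ hLn (K + 1) (R l w.1)
        have q2 : ‖(-(τ * rn l) ^ 2) ^ (K + 1) • ((L * L) ^ (K + 1)) (R l w.1)‖ ≤
            (η ^ 2) ^ (K + 1) * (2 * ‖w.1‖) := by
          rw [norm_smul, Real.norm_eq_abs, abs_pow, abs_neg, abs_of_nonneg (sq_nonneg _)]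
          calc ((τ * rn l) ^ 2) ^ (K + 1) * ‖((L * L) ^ (K + 1)) (R l w.1)‖
              ≤ ((τ * rn l) ^ 2) ^ (K + 1) * ((μ ^ 2) ^ (K + 1) * (2 * ‖w.1‖)) := by
                gcongr
                exact q1.trans (by gcongr; exact h3 l _)
            _ = ((τ * rn l) ^ 2 * μ ^ 2) ^ (K + 1) * (2 * ‖w.1‖) := by rw [mul_pow]; ring
            _ ≤ _ := by gcongr; exact r2 l
        have q3 : (η ^ 2) ^ (K + 1) ≤ η ^ K := by
          rw [← pow_mul]
          exact pow_le_pow_of_le_one hη0 (by linarith) (by omega)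
        calc ‖L (L ((-(τ * rn l) ^ 2) ^ (K + 1) • ((L * L) ^ (K + 1)) (R l w.1)))‖
            ≤ μ * (μ * (η ^ K * (2 * ‖w.1‖))) :=
              (hLn _).trans (by gcongr; exact (hLn _).trans (by gcongr; exact q2.trans (by gcongr)))
          _ = (2 * (μ * μ)) * (η ^ K * ‖w.1‖) := by ring
          _ ≤ η ^ K * ‖w.1‖ := mul_le_of_le_one_left (by positivity) (by nlinarith)
    · have q3 : 0 ≤ η ^ K * √(dm ι) := by positivity
      nlinarith
  refine (EB.domSum Finset.univ (c := 0) (ci := fun l => |W.be l|) (fun l _ => eD l)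
    (fun l _ => (cD l).norm.measurable) (fun _ _ => by positivity) le_rfl
    (fun _ _ => abs_nonneg _) fun w => ?_).mono ?_
  · have e1 : ∑ l, W.be l • (∑ i ∈ Finset.range (K + 1),
        (-(τ * rn l) ^ 2) ^ i • ((L * L) ^ i) w.1) = w.1 := by
      simp only [Finset.smul_sum, smul_smul]
      rw [Finset.sum_comm]
      have : ∀ i ∈ Finset.range (K + 1), ∑ l, (W.be l * (-(τ * rn l) ^ 2) ^ i) •
          ((L * L) ^ i) w.1 = if i = 0 then w.1 else 0 := by
        intro i hi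
        rw [← Finset.sum_smul]
        have e : ∑ l, W.be l * (-(τ * rn l) ^ 2) ^ i =
            (-τ ^ 2) ^ i * ∑ l, W.be l * (rn l ^ 2) ^ i := by
          rw [Finset.mul_sum]
          refine Finset.sum_congr rfl fun l _ => ?_
          rw [show -(τ * rn l) ^ 2 = -τ ^ 2 * rn l ^ 2 by ring, mul_pow]
          ring
        rw [e, W.be_mom i (by simpa [Nat.lt_succ_iff] using hi)]
        split_ifs with h0
        · simp [h0]
        · simp
      rw [Finset.sum_congr rfl this]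
      simp
    have e2 : ∑ l, (W.be l / (4 * (τ * rn l))) •
        (M ((rotG M (τ * rn l) w)^[K] w).2 - M ((rotG M (-(τ * rn l)) w)^[K] w).2) - L (L w.1) =
        ∑ l, W.be l • D l w := by
      have e3 := congrArg (fun v => L (L v)) e1
      rw [← e3, map_sum, map_sum, ← Finset.sum_sub_distrib]
      refine Finset.sum_congr rfl fun l _ => ?_
      rw [hD, smul_sub (W.be l), smul_smul, mul_one_div, map_smul, map_smul]
    rw [e2, zero_add]
    refine (norm_sum_le _ _).trans (Finset.sum_le_sum fun l _ => ?_)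
    rw [norm_smul, Real.norm_eq_abs]
  · rw [zero_add, ← Finset.sum_mul, mul_assoc]
    gcongr
    exact W.be_abs

end Abs

theorem rot_err {K : ℕ} (hK : 1 ≤ K) (W : Wts K) : ∃ C : ℝ, 1 ≤ C ∧
    ∀ (ι : Type) [Fintype ι] [DecidableEq ι] (V : Euc ι → ℝ), InClass V →
    ∀ s s' c h ℓ κ₀ : ℝ, 0 < s → s ≤ 1 / 16 → 3 / 4 * s ≤ s' → s' ≤ s → 0 < h → h ≤ 1 / C →
    0 < ℓ → |c| * s ≤ ℓ → ℓ ≤ κ₀ → κ₀ ≤ h / C → ∀ p : Euc ι,
      EB ((gam ι).prod (gam ι))
        (fun w => M2hat W V s s' c p h (κ₀ / ℓ) w.1 w.2 -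
          c ^ 2 • s • Ms V s' p (s • Ms V s' p w.1))
        (C * h ^ K * (√(dm ι) + √s * ‖p‖)) := by
  obtain ⟨CU, hCU, hU⟩ := schemeU_err hK W
  have hw := W.one_le
  have hk1 : (1 : ℝ) ≤ K + 1 := by linarith [Nat.cast_nonneg (α := ℝ) K]
  have c0 : W.C ≤ W.C * (K + 1) := le_mul_of_one_le_right (by linarith) hk1
  have c1 : 4 * W.C ≤ W.C * (K + 1) * (5 * CU + 2) := by nlinarith
  have c2 : CU ≤ W.C * (K + 1) * (5 * CU + 2) := by nlinarith
  refine ⟨W.C * (K + 1) * (5 * CU + 2), by linarith,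
    fun ι _ _ V hV s s' c h ℓ κ₀ hs hs1 s1 s2 h0 h1 hℓ hc hℓκ hκ p => ?_⟩
  set C := W.C * (K + 1) * (5 * CU + 2) with hC
  have C0 : 0 < C := by linarith
  have s0 : 0 < s' := by linarith
  have hκ0 : 0 < κ₀ := hℓ.trans_le hℓκ
  have hC1 : C * h ≤ 1 := by rwa [le_div_iff₀ C0, mul_comm] at h1
  have hC2 : C * κ₀ ≤ h := by rwa [le_div_iff₀ C0, mul_comm] at hκ
  have h4 : 4 * W.C * h ≤ 1 := le_trans (by gcongr) hC1
  have h5 : 4 * W.C * κ₀ ≤ h := le_trans (by gcongr) hC2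
  have h2 : h ≤ 1 / 2 := by nlinarith
  have hℓ1 : ℓ ≤ 1 := by nlinarith
  have hU1 : h ≤ 1 / CU := h1.trans (div_le_div_of_nonneg_left zero_le_one (by linarith) c2)
  have e1 := ((hU ι V hV s' s0 (s2.trans hs1) p).2 h h0 hU1).1
  have hd := Real.sqrt_nonneg (dm ι)
  set Ξ := √(dm ι) + √s * ‖p‖ with hΞ
  have hΞ0 : 0 ≤ Ξ := by positivity
  have ab : |c * s / s'| * s' = |c| * s := by
    rw [abs_div, abs_mul, abs_of_pos hs, abs_of_pos s0, div_mul_cancel₀ _ s0.ne']
  have key := rot_abs W ((c * s) • Ms V s' p) (M := Mc W V s s' c p h) (μ := 4 * W.C * ℓ)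
    (δ := CU * h ^ K * Ξ) (η := h) (τ := κ₀ / ℓ)
    (fun u v => by
      simp only [_root_.smul_apply, inner_smul_left, inner_smul_right, Ms_symm,
        conj_trivial])
    (by positivity) (by positivity)
    (fun v => by
      rw [_root_.smul_apply, norm_smul, Real.norm_eq_abs, abs_mul, abs_of_pos hs]
      calc |c| * s * ‖Ms V s' p v‖ ≤ ℓ * (2 * ‖v‖) := by
            gcongr
            exact Ms_norm hV s0 (s2.trans hs1) p v
        _ = 2 * ℓ * ‖v‖ := by ring
        _ ≤ _ := by gcongr; linarith)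
    (fun u v => by
      have := Mhat_lip W hV s0 (s2.trans hs1) h0 h2 (by linarith) p p u v
      rw [sub_self, norm_zero, mul_zero, zero_add] at this
      unfold Mc
      rw [← smul_sub, norm_smul, Real.norm_eq_abs]
      calc |c * s / s'| * _ ≤ |c * s / s'| * (4 * W.C * (s' * ‖u - v‖)) := by gcongr
        _ = 4 * W.C * (|c * s / s'| * s') * ‖u - v‖ := by ring
        _ ≤ _ := by rw [ab]; gcongr)
    ((EB.dom1 (c := 0) (c₁ := |c * s / s'|) e1 (by positivity) le_rfl (abs_nonneg _) fun v => by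
      rw [zero_add, ← Real.norm_eq_abs, ← norm_smul, smul_sub, smul_smul,
        div_mul_cancel₀ _ s0.ne']
      exact le_rfl).mono (by
      calc 0 + |c * s / s'| * (CU * h ^ K * s' * (√(dm ι) + √s' * ‖p‖))
          = (|c * s / s'| * s') * (CU * h ^ K * (√(dm ι) + √s' * ‖p‖)) := by ring
        _ ≤ 1 * (CU * h ^ K * Ξ) := by
          rw [ab, hΞ]
          gcongr
          linarith
        _ = _ := one_mul _))
    (by rw [le_div_iff₀ hℓ]; linarith)
    (by rw [mul_assoc, mul_div_cancel₀ _ hℓ.ne']; exact h5) h2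
  refine (EB.of_le key fun w => le_of_eq ?_).mono ?_
  · congr 2
    simp only [_root_.smul_apply, map_smul, smul_smul]
    congr 1
    ring
  · have q : h ^ K * √(dm ι) ≤ h ^ K * Ξ := by
      gcongr
      exact le_add_of_nonneg_right (by positivity)
    calc W.C * (K + 1) * (5 * (CU * h ^ K * Ξ) + 2 * (h ^ K * √(dm ι)))
        ≤ W.C * (K + 1) * (5 * (CU * h ^ K * Ξ) + 2 * (h ^ K * Ξ)) := by gcongr
      _ = _ := by rw [hC]; ring

variable {ι : Type} [Fintype ι] [DecidableEq ι] {K : ℕ} {κ : Type} [Fintype κ]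

lemma rot_Mc_nl (W : Wts K) {B : Bar κ} {yP yv : Fn ι κ} {aP av : κ → ℝ} {SP Sv TP Tv : ℝ}
    {NP Nv : ℕ} (hP : Vec B yP aP SP TP NP) (hv : Vec B yv av Sv Tv Nv) {s' h : ℝ} (c : ℝ)
    (hs : 0 < B.s) (h1 : B.s / 3 ≤ s') (h2 : s' ≤ B.s) (hh : 0 < h) (hh2 : h ≤ 1 / 2)
    (D1 : ∀ j, |aP j| + √B.s * h * |av j| ≤ B.ab j)
    (D2 : |SP| + √B.s * h * |Sv| + B.s * h ^ 2 ≤ B.Sb)
    (D3 : TP + √B.s * h * Tv + W.C * B.s * h ^ 2 ≤ B.Tb) (D4 : NP + Nv + (K + 1) ≤ B.Nb) :
    NL B (fun V p v => Mc W V B.s s' c (p + yP V p v) h (yv V p v)) 0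
      (3 * |c| * (W.C * √B.s / h)) (K + 1) := by
  have s0 : 0 < s' := by linarith
  have hw := W.one_le
  refine NL.mono _ _ _ _ _ _ (((Mhat_nl W hP hv hs h1 h2 hh hh2 D1 D2 D3 D4).smul
    (c * B.s / s')).congr (fun _ _ _ => rfl) (by simp)) ?_ le_rfl
  gcongr
  rw [abs_div, abs_mul, abs_of_pos hs, abs_of_pos s0, div_le_iff₀ s0]
  nlinarith [abs_nonneg c]

theorem M2hat_nl (W : Wts K) {B : Bar κ} {yP ya yb : Fn ι κ} {aP aa ab : κ → ℝ}
    {SP Sa Sb TP Ta Tb : ℝ} {NP Na Nb : ℕ} (hP : Vec B yP aP SP TP NP)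
    (ha : Vec B ya aa Sa Ta Na) (hb : Vec B yb ab Sb Tb Nb) {s' c h ℓ κ₀ : ℝ}
    (hs : 0 < B.s) (h1 : B.s / 3 ≤ s') (h2 : s' ≤ B.s) (hh : 0 < h) (hh2 : h ≤ 1 / 2)
    (hℓ : 0 < ℓ) (hc : |c| * B.s ≤ ℓ) (hκ : 0 < κ₀)
    (D1 : ∀ j, |aP j| + √B.s * h * (|aa j| + |ab j|) ≤ B.ab j)
    (D2 : |SP| + √B.s * h * (|Sa| + |Sb|) + B.s * h ^ 2 ≤ B.Sb)
    (D3 : TP + √B.s * h * (Ta + Tb) + 6 * W.C * κ₀ + W.C * B.s * h ^ 2 ≤ B.Tb)
    (D4 : NP + Na + Nb + 3 * (K + 1) ≤ B.Nb) :
    NL B (fun V p v => M2hat W V B.s s' c (p + yP V p v) h (κ₀ / ℓ) (ya V p v) (yb V p v)) 0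
      (2 * (K + 1) * W.C ^ 2 * ℓ ^ 2 / (κ₀ * h * √B.s)) (2 * (K + 1) ^ 2) := by
  have hw := W.one_le
  have hq : 0 < √B.s := Real.sqrt_pos.2 hs
  have hsh : 0 ≤ √B.s * h := by positivity
  have Ta0 := ha.T_nonneg
  have Tb0 := hb.T_nonneg
  set TM := 3 * |c| * (W.C * √B.s / h) with hTM
  have TM0 : 0 ≤ TM := by positivity
  set TX := 2 * (κ₀ / ℓ) * TM with hTX
  have TX0 : 0 ≤ TX := by positivity
  have hX : √B.s * h * TX ≤ 6 * W.C * κ₀ := by
    have e : √B.s * h * TX = 6 * W.C * κ₀ * (|c| * B.s / ℓ) := by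
      rw [hTX, hTM]
      field_simp
      rw [Real.sq_sqrt hs.le]
      ring
    rw [e]
    exact mul_le_of_le_one_right (by positivity) ((div_le_one hℓ).2 hc)
  have mA : ∀ {y : Fn ι κ}, Vec B y aa Sa (Ta + TX) (Na + 2 * (K + 1)) →
      NL B (fun V p v => Mc W V B.s s' c (p + yP V p v) h (y V p v)) 0 TM (K + 1) := fun hy =>
    rot_Mc_nl W hP hy c hs h1 h2 hh hh2
      (fun j => by linarith [D1 j, mul_nonneg hsh (abs_nonneg (ab j))])
      (by linarith [mul_nonneg hsh (abs_nonneg Sb)]) (by linarith [mul_nonneg hsh Tb0])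
      (by omega)
  have mB : ∀ {y : Fn ι κ}, Vec B y ab Sb (Tb + TX) (Nb + 2 * (K + 1)) →
      NL B (fun V p v => Mc W V B.s s' c (p + yP V p v) h (y V p v)) 0 TM (K + 1) := fun hy =>
    rot_Mc_nl W hP hy c hs h1 h2 hh hh2
      (fun j => by linarith [D1 j, mul_nonneg hsh (abs_nonneg (aa j))])
      (by linarith [mul_nonneg hsh (abs_nonneg Sa)]) (by linarith [mul_nonneg hsh Ta0])
      (by omega)
  have ha' : Vec B ya aa Sa (Ta + TX) (Na + 2 * (K + 1)) := ha.mono (by linarith) (by omega)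
  have hb' : Vec B yb ab Sb (Tb + TX) (Nb + 2 * (K + 1)) := hb.mono (by linarith) (by omega)
  have it : ∀ r : ℝ, |r| ≤ κ₀ / ℓ → ∀ k : ℕ,
      Vec B (fun V p v => ((rotG (Mc W V B.s s' c (p + yP V p v) h) r (ya V p v, yb V p v))^[k]
        (ya V p v, yb V p v)).1) aa Sa (Ta + TX) (Na + 2 * (K + 1)) ∧
      Vec B (fun V p v => ((rotG (Mc W V B.s s' c (p + yP V p v) h) r (ya V p v, yb V p v))^[k]
        (ya V p v, yb V p v)).2) ab Sb (Tb + TX) (Nb + 2 * (K + 1)) := by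
    intro r hr k
    have hT : |r| * (TM + TM) ≤ TX := by
      rw [hTX]
      nlinarith [mul_le_mul_of_nonneg_right hr TM0]
    induction k with
    | zero => exact ⟨ha', hb'⟩
    | succ k ih =>
      constructor
      · refine ((ha.add ((NL.add _ _ _ _ _ _ _ _ (mB hb') (mB ih.2)).smul (-r)).vec).congr
          (fun V p v => ?_) (fun j => by simp) (by simp)).mono ?_ (by omega)
        · rw [Function.iterate_succ_apply']
          simp only [rotG, neg_smul, sub_eq_add_neg]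
        · rw [abs_neg]
          linarith
      · refine ((hb.add ((NL.add _ _ _ _ _ _ _ _ (mA ha') (mA ih.1)).smul r).vec).congr
          (fun V p v => ?_) (fun j => by simp) (by simp)).mono (by linarith) (by omega)
        rw [Function.iterate_succ_apply']
        simp only [rotG]
  have hk : (0 : ℝ) < K + 1 := by positivity
  have rn0 : ∀ l : Fin (K + 1), 0 < rn l := fun l => lt_of_lt_of_le (by positivity) (rn_ge l)
  have r1 : ∀ l : Fin (K + 1), |κ₀ / ℓ * rn l| ≤ κ₀ / ℓ := fun l => by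
    rw [abs_of_pos (mul_pos (by positivity) (rn0 l))]
    exact mul_le_of_le_one_right (by positivity) (rn_le l)
  refine NL.mono _ _ _ _ _ _ ((NL.sum Finset.univ fun l _ =>
    (NL.add _ _ _ _ _ _ _ _ (mB (it _ (r1 l) K).2)
      ((mB (it (-(κ₀ / ℓ * rn l)) (by rw [abs_neg]; exact r1 l) K).2).smul (-1))).smul
        (W.be l / (4 * (κ₀ / ℓ * rn l)))).congr (fun V p v => ?_) (by simp)) ?_ ?_
  · simp only [M2hat, neg_smul, one_smul, ← sub_eq_add_neg]
    rfl
  · have q1 : ∀ l : Fin (K + 1), |W.be l / (4 * (κ₀ / ℓ * rn l))| * (TM + |-1| * TM) ≤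
        |W.be l| * ((K + 1) * ℓ / (2 * κ₀) * TM) := by
      intro l
      have t0 := rn0 l
      have q2 : 1 / (4 * (κ₀ / ℓ * rn l)) ≤ (K + 1) * ℓ / (4 * κ₀) := by
        have q3 := rn_ge l
        rw [div_le_iff₀ hk] at q3
        rw [div_le_div_iff₀ (by positivity) (by positivity)]
        have e : (K + 1) * ℓ * (4 * (κ₀ / ℓ * rn l)) = 4 * κ₀ * (rn l * (K + 1)) := by
          field_simp
        rw [e]
        nlinarith
      rw [abs_div, abs_of_pos (a := 4 * (κ₀ / ℓ * rn l)) (by positivity), abs_neg, abs_one,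
        div_eq_mul_one_div]
      calc |W.be l| * (1 / (4 * (κ₀ / ℓ * rn l))) * (TM + 1 * TM)
          ≤ |W.be l| * ((K + 1) * ℓ / (4 * κ₀)) * (TM + 1 * TM) := by gcongr
        _ = _ := by ring
    refine (Finset.sum_le_sum fun l _ => q1 l).trans ?_
    rw [← Finset.sum_mul]
    have q4 : |c| ≤ ℓ / B.s := by rwa [le_div_iff₀ hs]
    calc (∑ l, |W.be l|) * ((K + 1) * ℓ / (2 * κ₀) * TM)
        ≤ W.C * ((K + 1) * ℓ / (2 * κ₀) * (3 * (ℓ / B.s) * (W.C * √B.s / h))) := by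
          rw [hTM]
          gcongr
          exact W.be_abs
      _ = 3 / 2 * ((K + 1) * W.C ^ 2 * ℓ ^ 2 / (κ₀ * h * √B.s)) := by
          field_simp
          rw [Real.sq_sqrt hs.le]
      _ ≤ 2 * ((K + 1) * W.C ^ 2 * ℓ ^ 2 / (κ₀ * h * √B.s)) := by
          gcongr
          norm_num
      _ = _ := by ring
  · simp only [Finset.sum_const, Finset.card_univ, Fintype.card_fin, smul_eq_mul]
    exact le_of_eq (by ring)

end Vale.Agent.P347
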