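import Vale.Agent.P347.Rot

/-! The coupled scheme: one step of noise cancellation. -/

open MeasureTheory ProbabilityTheory

namespace Vale.Agent.P347

section Circ
variable {ι : Type} [Fintype ι] [DecidableEq ι] {K : ℕ}

/-- The reconstructed Gaussian coordinate. -/
noncomputable def scZ (V : Euc ι → ℝ) (s : ℝ) (p : Euc ι) (c t : ℝ) (Y : Euc ι × Euc ι) : Euc ι :=
  Y.2 + c • (hh V s p t Y.1 - √s • fs V s p)

/-- The approximate vector field of the coupled scheme. -/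
noncomputable def scG (W : Wts K) (V : Euc ι → ℝ) (s : ℝ) (p : Euc ι) (h ℓ κ₀ c : ℝ) (ζ : Euc ι)
    (l : Fin (K + 1)) (Y : Euc ι × Euc ι) : Euc ι × Euc ι :=
  (-hh V s p (h * node l) Y.1 - Mc W V s (s * (1 - (h * node l) ^ 2)) c
      (p + (√s * (h * node l)) • Y.1) h (scZ V s p c (h * node l) Y),
    (h * node l) • M2hat W V s (s * (1 - (h * node l) ^ 2)) c
      (p + (√s * (h * node l)) • Y.1) h (κ₀ / ℓ) (scZ V s p c (h * node l) Y) ζ)

/-- Unit coefficient vectors. -/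
def scE (j : Fin 3) : Fin 3 → ℝ := fun i => if i = j then 1 else 0

lemma scE_abs (j i : Fin 3) : |scE j i| ≤ 1 := by
  unfold scE
  split_ifs <;> simp

/-- The numerical side conditions. -/
structure ScH (W : Wts K) (B : Bar (Fin 3)) (h ℓ κ₀ c : ℝ) : Prop where
  hs : 0 < B.s
  hsκ : B.s ≤ κ₀
  hh : 0 < h
  hh2 : h ≤ 1 / 2
  hℓ : 0 < ℓ
  hc : |c| * B.s ≤ ℓ
  hℓκ : ℓ ≤ κ₀
  ab : ∀ j, 3 * (√B.s * h) ≤ B.ab j
  Sb : 2 * B.s ≤ B.Sb
  Tb : 14 * (K + 1) * W.C ^ 3 * κ₀ ≤ B.Tb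
  Nb : 2 * (K + 1) ^ 3 + (K + 1) * (K + 2) + 3 * (K + 1) + 2 ≤ B.Nb

noncomputable def scT1 (W : Wts K) (s h c : ℝ) : ℝ := √s + 2 * |c| * W.C * √s / h

noncomputable def scT2 (W : Wts K) (s ℓ κ₀ : ℝ) : ℝ := 2 * (K + 1) * W.C ^ 2 * ℓ ^ 2 / (κ₀ * √s)

variable {W : Wts K} {B : Bar (Fin 3)} {h ℓ κ₀ c : ℝ}

lemma ScH.tP (H : ScH W B h ℓ κ₀ c) :
    √B.s * h * (h * W.C * scT1 W B.s h c) ≤ 3 * W.C ^ 2 * κ₀ := by
  have hs := H.hs
  have hh := H.hh
  have hw := W.one_le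
  have hq : √B.s * √B.s = B.s := Real.mul_self_sqrt hs.le
  have e : √B.s * h * (h * W.C * scT1 W B.s h c) =
      W.C * (h * h * B.s) + 2 * W.C ^ 2 * (h * (|c| * B.s)) := by
    unfold scT1
    field_simp
    rw [Real.sq_sqrt hs.le]
  rw [e]
  have hκ : 0 < κ₀ := hs.trans_le H.hsκ
  have h1 : h * h * B.s ≤ κ₀ := by
    have : h * h ≤ 1 := by nlinarith [H.hh2]
    nlinarith [H.hsκ]
  have h2 : h * (|c| * B.s) ≤ κ₀ := by
    have h3 := H.hc.trans H.hℓκ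
    have h4 : 0 ≤ |c| * B.s := by positivity
    nlinarith [H.hh2]
  have h5 : W.C ≤ W.C ^ 2 := by nlinarith
  nlinarith [mul_le_mul_of_nonneg_left h1 (zero_le_one.trans hw),
    mul_le_mul_of_nonneg_left h2 (sq_nonneg W.C), mul_le_mul_of_nonneg_right h5 hκ.le]

lemma ScH.tZ (H : ScH W B h ℓ κ₀ c) :
    √B.s * h * (h * W.C * scT2 W B.s ℓ κ₀ + |c| * (√B.s + √B.s)) ≤
      2 * (K + 1) * W.C ^ 3 * κ₀ + 2 * κ₀ := by
  have hs := H.hs
  have hh := H.hh
  have hw := W.one_le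
  have hℓ := H.hℓ
  have hκ : 0 < κ₀ := hs.trans_le H.hsκ
  have hq : 0 < √B.s := Real.sqrt_pos.2 hs
  have e : √B.s * h * (h * W.C * scT2 W B.s ℓ κ₀ + |c| * (√B.s + √B.s)) =
      2 * (K + 1) * W.C ^ 3 * (h * h * (ℓ ^ 2 / κ₀)) + 2 * (h * (|c| * B.s)) := by
    unfold scT2
    field_simp
    rw [Real.sq_sqrt hs.le]
    ring
  rw [e]
  have h0 : ℓ ^ 2 / κ₀ ≤ κ₀ := by
    rw [div_le_iff₀ hκ]
    nlinarith [H.hℓκ]
  have h1 : h * h * (ℓ ^ 2 / κ₀) ≤ κ₀ := by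
    have : h * h ≤ 1 := by nlinarith [H.hh2]
    have h3 : 0 ≤ ℓ ^ 2 / κ₀ := by positivity
    nlinarith
  have h2 : h * (|c| * B.s) ≤ κ₀ := by
    have h3 := H.hc.trans H.hℓκ
    have h4 : 0 ≤ |c| * B.s := by positivity
    nlinarith [H.hh2]
  gcongr

lemma sc_node (hh : 0 < h) (hh2 : h ≤ 1 / 2) (l : Fin (K + 1)) :
    0 ≤ h * node l ∧ h * node l ≤ h ∧ 3 / 4 ≤ 1 - (h * node l) ^ 2 ∧
      1 - (h * node l) ^ 2 ≤ 1 := by
  have h0 := node_nonneg l
  have h1 := node_le l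
  have h2 : 0 ≤ h * node l := by positivity
  have h3 : h * node l ≤ h := by nlinarith
  exact ⟨h2, h3, by nlinarith, by nlinarith⟩

lemma ScH.ar (H : ScH W B h ℓ κ₀ c) : B.s * h ^ 2 ≤ B.s ∧ 3 * W.C ^ 2 * κ₀ ≤ B.Tb ∧
    3 * W.C ^ 2 * κ₀ + (2 * (K + 1) * W.C ^ 3 * κ₀ + 2 * κ₀) + 6 * W.C * κ₀ +
      W.C * B.s * h ^ 2 ≤ B.Tb ∧ 0 ≤ W.C * κ₀ := by
  have hs := H.hs
  have hh0 := H.hh
  have hw := W.one_le
  have hκ : 0 < κ₀ := hs.trans_le H.hsκ
  have hk : (1 : ℝ) ≤ K + 1 := by linarith [Nat.cast_nonneg (α := ℝ) K]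
  have hh1 : h ^ 2 ≤ 1 := by nlinarith [H.hh2]
  have sh : B.s * h ^ 2 ≤ B.s := by nlinarith
  have w1 : W.C * κ₀ ≤ (K + 1) * W.C ^ 3 * κ₀ := by
    have : W.C ≤ W.C ^ 3 := le_self_pow₀ hw (by norm_num)
    have : W.C ≤ (K + 1) * W.C ^ 3 := by nlinarith
    gcongr
  have w2 : W.C ^ 2 * κ₀ ≤ (K + 1) * W.C ^ 3 * κ₀ := by
    have : W.C ^ 2 ≤ W.C ^ 3 := pow_le_pow_right₀ hw (by norm_num)
    have : W.C ^ 2 ≤ (K + 1) * W.C ^ 3 := by nlinarith [sq_nonneg W.C]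
    gcongr
  have w0 : κ₀ ≤ W.C * κ₀ := by nlinarith
  have w3 : W.C * B.s * h ^ 2 ≤ W.C * κ₀ := by
    rw [mul_assoc]
    gcongr
    exact sh.trans H.hsκ
  have hTb := H.Tb
  exact ⟨sh, by linarith, by linarith, by linarith⟩

lemma sc_scale {s t : ℝ} (hs : 0 < s) (t2 : 3 / 4 ≤ 1 - t ^ 2) (c : ℝ) :
    s / 3 ≤ s * (1 - t ^ 2) ∧ s * (1 - t ^ 2) ≤ s ∧ 0 < s * (1 - t ^ 2) ∧
      |c * s / (s * (1 - t ^ 2))| ≤ 2 * |c| := by
  have s0 : 0 < s * (1 - t ^ 2) := by positivity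
  refine ⟨by nlinarith, by nlinarith, s0, ?_⟩
  rw [abs_div, abs_mul, abs_of_pos hs, abs_of_pos s0, div_le_iff₀ s0]
  nlinarith [abs_nonneg c, mul_nonneg (abs_nonneg c) hs.le]

lemma scG_nl (H : ScH W B h ℓ κ₀ c) {yX yQ : Fn ι (Fin 3)} {SX : ℝ} (hS : |SX| ≤ √B.s * h)
    (hX : Vec B yX (scE 0) SX (h * W.C * scT1 W B.s h c) ((K + 1) * (K + 2)))
    (hQ : Vec B yQ (scE 1) 0 (h * W.C * scT2 W B.s ℓ κ₀) (2 * (K + 1) ^ 3)) (l : Fin (K + 1)) :
    NL B (fun V p v => (scG W V B.s p h ℓ κ₀ c (v 2) l (yX V p v, yQ V p v)).1) (-√B.s)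
        (scT1 W B.s h c) (K + 2) ∧
      NL B (fun V p v => (scG W V B.s p h ℓ κ₀ c (v 2) l (yX V p v, yQ V p v)).2) 0
        (scT2 W B.s ℓ κ₀) (2 * (K + 1) ^ 2) := by
  have hs := H.hs
  have hh0 := H.hh
  have hw := W.one_le
  have hℓ := H.hℓ
  have hκ : 0 < κ₀ := hs.trans_le H.hsκ
  have hq : 0 < √B.s := Real.sqrt_pos.2 hs
  have hqq : √B.s * √B.s = B.s := Real.mul_self_sqrt hs.le
  obtain ⟨t0, t1, t2, -⟩ := sc_node hh0 H.hh2 l
  set t := h * node l with ht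
  obtain ⟨s1, s2, s0, s3⟩ := sc_scale hs t2 c
  obtain ⟨sh, a1, a2, a3⟩ := H.ar
  have hT1 : 0 ≤ h * W.C * scT1 W B.s h c := hX.T_nonneg
  have hrt : |√B.s * t| ≤ √B.s * h := by
    rw [abs_of_nonneg (by positivity)]
    gcongr
  have hP : Vec B (fun V p v => (√B.s * t) • yX V p v) (fun j => √B.s * t * scE 0 j)
      (√B.s * t * SX) (3 * W.C ^ 2 * κ₀) ((K + 1) * (K + 2)) :=
    (hX.smul (√B.s * t)).mono ((mul_le_mul_of_nonneg_right hrt hT1).trans H.tP) le_rfl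
  have hsh : 0 ≤ √B.s * h := by positivity
  have aP : ∀ j, |√B.s * t * scE 0 j| ≤ √B.s * h := fun j => by
    rw [abs_mul]
    exact (mul_le_of_le_one_right (abs_nonneg _) (scE_abs 0 j)).trans hrt
  have aE : ∀ i j, √B.s * h * |scE i j| ≤ √B.s * h := fun i j =>
    mul_le_of_le_one_right hsh (scE_abs i j)
  have sP : |√B.s * t * SX| ≤ B.s * h ^ 2 := by
    rw [abs_mul]
    calc |√B.s * t| * |SX| ≤ (√B.s * h) * (√B.s * h) := by gcongr
      _ = (√B.s * √B.s) * h ^ 2 := by ring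
      _ = B.s * h ^ 2 := by rw [hqq]
  have hNb := H.Nb
  have hSb := H.Sb
  have a4 : 0 ≤ 3 * W.C ^ 2 * κ₀ := by positivity
  have hH : NL B (fun V p v => hh V B.s p t (yX V p v)) √B.s |√B.s| 1 :=
    hP.term (fun j => (aP j).trans (by linarith [H.ab j])) (sP.trans (by linarith))
      a1 (by omega) _ (by linarith) s2
  have hM : NL B (fun (V : Euc ι → ℝ) p _ => √B.s • fs V B.s p) √B.s |√B.s| 1 :=
    ((Vec.zero B).term (fun j => by rw [abs_zero]; linarith [H.ab j])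
      (by rw [abs_zero]; linarith) (a4.trans a1) (Nat.zero_le _) √B.s
      (s' := B.s) (by linarith) le_rfl).congr (fun V p v => by simp) rfl
  have hZ : Vec B (fun V p v => scZ V B.s p c t (yX V p v, yQ V p v)) (scE 1) 0
      (h * W.C * scT2 W B.s ℓ κ₀ + |c| * (√B.s + √B.s)) (2 * (K + 1) ^ 3 + 2) := by
    refine ((hQ.add ((NL.add _ _ _ _ _ _ _ _ hH (hM.smul (-1))).smul c).vec).congr
      (fun V p v => ?_) (fun j => by simp) (by ring)).mono (le_of_eq ?_) le_rfl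
    · simp [scZ, sub_eq_add_neg]
    · rw [abs_of_pos hq]
      simp
  have tZ := H.tZ
  constructor
  · have hMh := Mhat_nl W hP hZ hs s1 s2 hh0 H.hh2
      (fun j => by linarith [aE 1 j, H.ab j, aP j])
      (by rw [abs_zero, mul_zero, add_zero]; linarith) (by linarith) (by omega)
    refine NL.mono _ _ _ _ _ _ ((NL.add _ _ _ _ _ _ _ _ (hH.smul (-1))
      ((hMh.smul (c * B.s / (B.s * (1 - t ^ 2)))).smul (-1))).congr (fun V p v => ?_) (by ring))
      ?_ (by omega)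
    · simp [scG, Mc, sub_eq_add_neg, ht]
    · rw [abs_of_pos hq]
      unfold scT1
      have h3 : 0 ≤ W.C * √B.s / h := by positivity
      simp only [abs_neg, abs_one, one_mul]
      calc √B.s + |c * B.s / (B.s * (1 - t ^ 2))| * (W.C * √B.s / h)
          ≤ √B.s + 2 * |c| * (W.C * √B.s / h) := by gcongr
        _ = _ := by ring
  · have hM2 := M2hat_nl W hP hZ (Vec.var B 2) hs s1 s2 hh0 H.hh2 hℓ H.hc hκ
      (fun j => by
        have h1 := aE 2 j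
        unfold scE at h1
        rw [mul_add]
        linarith [aE 1 j, H.ab j, aP j])
      (by rw [abs_zero, add_zero, mul_zero, add_zero]; linarith)
      (by rw [add_zero]; linarith) (by omega)
    refine NL.mono _ _ _ _ _ _ ((hM2.smul t).congr (fun V p v => ?_) (by ring)) ?_ le_rfl
    · simp [scG, ht]
    · rw [abs_of_nonneg t0]
      unfold scT2
      calc t * (2 * (K + 1) * W.C ^ 2 * ℓ ^ 2 / (κ₀ * h * √B.s))
          ≤ h * (2 * (K + 1) * W.C ^ 2 * ℓ ^ 2 / (κ₀ * h * √B.s)) := by gcongr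
        _ = _ := by field_simp

lemma scT1_nonneg (H : ScH W B h ℓ κ₀ c) : 0 ≤ scT1 W B.s h c := by
  have := H.hh
  have := W.one_le
  unfold scT1
  positivity

lemma scT2_nonneg (H : ScH W B h ℓ κ₀ c) : 0 ≤ scT2 W B.s ℓ κ₀ := by
  have hκ : 0 < κ₀ := H.hs.trans_le H.hsκ
  unfold scT2
  positivity

lemma sc_sum_nl (H : ScH W B h ℓ κ₀ c) {y : Fin (K + 1) → Fn ι (Fin 3)} {S T : ℝ} {N : ℕ}
    (hT : 0 ≤ T) (hy : ∀ l, NL B (y l) S T N) {τ : ℝ} (h0 : 0 ≤ τ) (h1 : τ ≤ 1) :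
    NL B (fun V p v => ∑ l, (h * W.om τ l) • y l V p v) (h * τ * S) (h * W.C * T)
      ((K + 1) * N) := by
  have hh := H.hh
  have hw := W.one_le
  refine NL.mono _ _ _ _ _ _ ((NL.sum Finset.univ
    fun l _ => (hy l).smul (h * W.om τ l)).congr (fun _ _ _ => rfl) ?_) ?_ (by simp)
  · have := W.om_mom τ 0 (Nat.zero_le _)
    simp only [pow_zero, mul_one, zero_add, pow_one, Nat.cast_zero, div_one] at this
    rw [← Finset.sum_mul, ← Finset.mul_sum, this]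
  · rw [← Finset.sum_mul]
    refine mul_le_mul_of_nonneg_right ?_ hT
    simp only [abs_mul, abs_of_pos hh]
    rw [← Finset.mul_sum]
    have := W.om_abs τ h0 h1
    have h2 : W.C * τ ≤ W.C := by nlinarith
    gcongr
    linarith

/-- The circuit property of a state. -/
def ScV (W : Wts K) (B : Bar (Fin 3)) (h ℓ κ₀ c : ℝ)
    (Y : (Euc ι → ℝ) → Euc ι → (Fin 3 → Euc ι) → Euc ι × Euc ι) : Prop :=
  ∃ y₁ y₂ : Fn ι (Fin 3), ∃ S : ℝ, |S| ≤ √B.s * h ∧
    NL B y₁ S (h * W.C * scT1 W B.s h c) ((K + 1) * (K + 2)) ∧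
    NL B y₂ 0 (h * W.C * scT2 W B.s ℓ κ₀) (2 * (K + 1) ^ 3) ∧
    ∀ V p v, Y V p v = (v 0 + y₁ V p v, v 1 + y₂ V p v)

lemma sc_vec {y : Fn ι (Fin 3)} {S T : ℝ} {N : ℕ} (hy : NL B y S T N) (j : Fin 3) :
    Vec B (fun V p v => v j + y V p v) (scE j) S T N :=
  (((Vec.var B j).add hy.vec).congr (fun _ _ _ => rfl) (fun i => by simp [scE]) (by simp)).mono
    (by simp) (by simp)

lemma ScV.g (H : ScH W B h ℓ κ₀ c) {Y : (Euc ι → ℝ) → Euc ι → (Fin 3 → Euc ι) → Euc ι × Euc ι}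
    (hY : ScV W B h ℓ κ₀ c Y) (l : Fin (K + 1)) :
    NL B (fun V p v => (scG W V B.s p h ℓ κ₀ c (v 2) l (Y V p v)).1) (-√B.s)
        (scT1 W B.s h c) (K + 2) ∧
      NL B (fun V p v => (scG W V B.s p h ℓ κ₀ c (v 2) l (Y V p v)).2) 0
        (scT2 W B.s ℓ κ₀) (2 * (K + 1) ^ 2) := by
  obtain ⟨y₁, y₂, S, hS, h1, h2, e⟩ := hY
  simp only [e]
  exact scG_nl H hS (sc_vec h1 0) (sc_vec h2 1) l

lemma scV_base (H : ScH W B h ℓ κ₀ c) :
    ScV (ι := ι) W B h ℓ κ₀ c fun _ _ v => (v 0, v 1) := by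
  have hh := H.hh
  have hw := W.one_le
  have h1 := scT1_nonneg H
  have h2 := scT2_nonneg H
  refine ⟨fun _ _ _ => 0, fun _ _ _ => 0, 0, by simpa using (by positivity : 0 ≤ √B.s * h),
    NL.mono _ _ _ _ _ _ NL.zero (by positivity) (Nat.zero_le _),
    NL.mono _ _ _ _ _ _ NL.zero (by positivity) (Nat.zero_le _), fun V p v => by simp⟩

lemma scV_outp (H : ScH W B h ℓ κ₀ c)
    {Y : Fin (K + 1) → (Euc ι → ℝ) → Euc ι → (Fin 3 → Euc ι) → Euc ι × Euc ι}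
    (hY : ∀ l, ScV W B h ℓ κ₀ c (Y l)) {τ : ℝ} (h0 : 0 ≤ τ) (h1 : τ ≤ 1) :
    ScV W B h ℓ κ₀ c fun V p v =>
      outp W h (scG W V B.s p h ℓ κ₀ c (v 2)) (v 0, v 1) (fun l => Y l V p v) τ := by
  have hh := H.hh
  refine ⟨_, _, _, ?_, sc_sum_nl H (scT1_nonneg H) (fun l => ((hY l).g H l).1) h0 h1,
    NL.mono _ _ _ _ _ _ ((sc_sum_nl H (scT2_nonneg H) (fun l => ((hY l).g H l).2) h0 h1).congr
      (fun _ _ _ => rfl) (by ring)) le_rfl (le_of_eq (by ring)), fun V p v => ?_⟩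
  · rw [mul_neg, abs_neg, abs_of_nonneg (by positivity)]
    have : 0 ≤ √B.s * h := by positivity
    nlinarith
  · refine Prod.ext ?_ ?_
    · simp [outp, Prod.fst_sum]
    · simp [outp, Prod.snd_sum]

lemma scV_pic (H : ScH W B h ℓ κ₀ c) (k : ℕ) : ∀ l, ScV (ι := ι) W B h ℓ κ₀ c fun V p v =>
    pic W h (scG W V B.s p h ℓ κ₀ c (v 2)) (v 0, v 1) k l := by
  induction k with
  | zero => exact fun l => scV_base H
  | succ k ih => exact fun l => scV_outp H ih (node_nonneg l) (node_le l)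

variable {V : Euc ι → ℝ}

lemma scG_cont (H : ScH W B h ℓ κ₀ c) (hV : InClass V) (p : Euc ι) (l : Fin (K + 1)) :
    Continuous fun q : Euc ι × (Euc ι × Euc ι) => scG W V B.s p h ℓ κ₀ c q.1 l q.2 := by
  obtain ⟨h1, h2⟩ := (scV_base (ι := ι) H).g H l
  have hc : Continuous fun q : Euc ι × (Euc ι × Euc ι) =>
      ((p, ![q.2.1, q.2.2, q.1]) : Euc ι × (Fin 3 → Euc ι)) := by
    refine continuous_const.prodMk (continuous_pi fun i => ?_)
    fin_cases i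
    · exact continuous_snd.fst
    · exact continuous_snd.snd
    · exact continuous_fst
  have c1 := (h1.cont hV H.hs).comp hc
  have c2 := (h2.cont hV H.hs).comp hc
  simp only [Function.comp_def, Matrix.cons_val_zero, Matrix.cons_val_one, Matrix.cons_val,
    Prod.mk.eta] at c1 c2
  exact continuous_prodMk.2 ⟨c1, c2⟩

lemma scG_lip (H : ScH W B h ℓ κ₀ c) (hV : InClass V) (hs1 : B.s ≤ 1 / 16) (hT : B.Tb ≤ 1 / 4)
    {a : ℝ} (ha : ∀ j, B.ab j = a) (h1 : 8 * scT1 W B.s h c * a ≤ 1)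
    (h2 : 8 * scT2 W B.s ℓ κ₀ * a ≤ 1) (p ζ : Euc ι) (l : Fin (K + 1)) (Y Y' : Euc ι × Euc ι) :
    ‖scG W V B.s p h ℓ κ₀ c ζ l Y - scG W V B.s p h ℓ κ₀ c ζ l Y'‖ ≤ 1 * ‖Y - Y'‖ := by
  obtain ⟨g1, g2⟩ := (scV_base (ι := ι) H).g H l
  have hh := H.hh
  have hab : ∀ j, 0 ≤ B.ab j := fun j => le_trans (by positivity) (H.ab j)
  have ha0 : 0 ≤ a := by rw [← ha 0]; exact hab 0
  have l1 := g1.lip hV H.hs hs1 hT hab p p ![Y.1, Y.2, ζ] ![Y'.1, Y'.2, ζ]
  have l2 := g2.lip hV H.hs hs1 hT hab p p ![Y.1, Y.2, ζ] ![Y'.1, Y'.2, ζ]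
  have e : ‖p - p‖ + ∑ j, B.ab j * ‖![Y.1, Y.2, ζ] j - ![Y'.1, Y'.2, ζ] j‖ ≤
      2 * a * ‖Y - Y'‖ := by
    have n1 : ‖Y.1 - Y'.1‖ ≤ ‖Y - Y'‖ := norm_fst_le (Y - Y')
    have n2 : ‖Y.2 - Y'.2‖ ≤ ‖Y - Y'‖ := norm_snd_le (Y - Y')
    simp only [Fin.sum_univ_three, ha, sub_self, norm_zero, zero_add, Matrix.cons_val_zero,
      Matrix.cons_val_one, Matrix.cons_val, mul_zero, add_zero]
    nlinarith
  have t1 := scT1_nonneg H
  have t2 := scT2_nonneg H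
  have n0 := norm_nonneg (Y - Y')
  rw [one_mul, Prod.norm_def, max_le_iff]
  constructor
  · refine le_trans l1 ((mul_le_mul_of_nonneg_left e (by positivity)).trans ?_)
    nlinarith
  · refine le_trans l2 ((mul_le_mul_of_nonneg_left e (by positivity)).trans ?_)
    nlinarith

lemma sc_hh_cont (hV : InClass V) {s t : ℝ} (hs : 0 < s * (1 - t ^ 2)) (p : Euc ι) :
    Continuous (hh V s p t) := by
  unfold hh
  have h1 : Continuous fun x : Euc ι => p + (√s * t) • x := by fun_prop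
  exact ((fs_cont hV hs).comp h1).const_smul √s

lemma sc_comp2 {X A B C : Type} [TopologicalSpace X] [TopologicalSpace A] [TopologicalSpace B]
    [TopologicalSpace C] (g : A → B → C) (hg : Continuous fun q : A × B => g q.1 q.2)
    {a : X → A} {b : X → B} (ha : Continuous a) (hb : Continuous b) :
    Continuous fun x => g (a x) (b x) := hg.comp (ha.prodMk hb)

lemma sc_MM_cont (hV : InClass V) {s t : ℝ} (hs : 0 < s * (1 - t ^ 2)) (p : Euc ι) {X : Type}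
    [TopologicalSpace X] {x v : X → Euc ι} (hx : Continuous x) (hv : Continuous v) :
    Continuous fun a => MM V s p t (x a) (v a) := by
  unfold MM
  have h1 : Continuous fun a => (p + (√s * t) • x a, v a) := by fun_prop
  exact ((Ms_cont hV hs).comp h1).const_smul s

lemma sc_hh_lip (hV : InClass V) {s t : ℝ} (hs : 0 < s) (hs1 : s ≤ 1 / 16) (t0 : 0 ≤ t)
    (t2 : 3 / 4 ≤ 1 - t ^ 2) (p x y : Euc ι) :
    ‖hh V s p t x - hh V s p t y‖ ≤ 2 * s * t * ‖x - y‖ := by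
  obtain ⟨-, s2, s0, -⟩ := sc_scale hs t2 0
  have h1 := fs_lip hV s0 (s2.trans hs1) (p + (√s * t) • x) (p + (√s * t) • y)
  rw [add_sub_add_left_eq_sub, ← smul_sub, norm_smul, Real.norm_eq_abs,
    abs_of_nonneg (by positivity)] at h1
  unfold hh
  rw [← smul_sub, norm_smul, Real.norm_eq_abs, abs_of_nonneg (Real.sqrt_nonneg s)]
  calc √s * _ ≤ √s * (2 * (√s * t * ‖x - y‖)) := by gcongr
    _ = 2 * (√s * √s) * t * ‖x - y‖ := by ring
    _ = _ := by rw [Real.mul_self_sqrt hs.le]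

/-- The ideal state at time `t`. -/
noncomputable def scY (V : Euc ι → ℝ) (s : ℝ) (p : Euc ι) (c t : ℝ) (w : Euc ι × Euc ι) :
    Euc ι × Euc ι := (w.1, w.2 - c • (hh V s p t w.1 - √s • fs V s p))

/-- The ideal drift at time `t`. -/
noncomputable def scF (V : Euc ι → ℝ) (s : ℝ) (p : Euc ι) (c t : ℝ) (w : Euc ι × Euc ι) :
    Euc ι × Euc ι := (-hh V s p t w.1 - c • MM V s p t w.1 w.2,
      (t * c ^ 2) • MM V s p t w.1 (MM V s p t w.1 w.2))

lemma scYF_cont (hV : InClass V) {s t : ℝ} (hs : 0 < s * (1 - t ^ 2)) (p : Euc ι) (c : ℝ) :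
    Continuous fun w => (scY V s p c t w, scF V s p c t w) := by
  have h1 : Continuous fun w : Euc ι × Euc ι => hh V s p t w.1 :=
    (sc_hh_cont hV hs p).comp continuous_fst
  have h2 : Continuous fun w : Euc ι × Euc ι => MM V s p t w.1 w.2 :=
    sc_MM_cont hV hs p continuous_fst continuous_snd
  have h3 := sc_MM_cont hV hs p continuous_fst h2
  unfold scY scF
  exact (continuous_fst.prodMk (continuous_snd.sub ((h1.sub continuous_const).const_smul c))).prodMk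
    ((h1.neg.sub (h2.const_smul c)).prodMk (h3.const_smul (t * c ^ 2)))

lemma sc_mu_prob (hV : InClass V) {s t : ℝ} (hs : 0 < s) (hs1 : s ≤ 1 / 16) (p : Euc ι)
    (t0 : 0 ≤ t) (t1 : t ≤ 1 / 2) :
    IsProbabilityMeasure (loc V s p t) ∧ IsProbabilityMeasure (mu V s p t) := by
  have := loc_prob hV hs (by linarith) p (ρ := t) (by rw [abs_of_nonneg t0]; linarith)
  refine ⟨this, ?_⟩
  unfold mu
  infer_instance

end Circ

lemma sc_div_le {h C C' : ℝ} (hh : 0 ≤ h) (h0 : 0 < C') (h1 : C' ≤ C) : h / C ≤ h / C' :=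
  div_le_div_of_nonneg_left hh h0 h1

section Err
variable {ι : Type} [Fintype ι] [DecidableEq ι] {K : ℕ} {V : Euc ι → ℝ}

lemma sc_Mhat_meas (W : Wts K) (hV : InClass V) {s h : ℝ} (hs : 0 < s) (hs1 : s ≤ 1 / 16)
    (h0 : 0 < h) (h2 : h ≤ 1 / 2) (h3 : W.C * h ≤ 1) (P : Euc ι) :
    Measurable fun v => ‖Mhat W V s P h v - s • Ms V s P v‖ := by
  have cM : Continuous (Mhat W V s P h) := by
    refine (LipschitzWith.of_dist_le_mul (K := (4 * W.C * s).toNNReal)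
      fun v v' => ?_).continuous
    have := Mhat_lip W hV hs hs1 h0 h2 h3 P P v v'
    have hw := W.one_le
    rw [Real.coe_toNNReal _ (by positivity), dist_eq_norm, dist_eq_norm]
    rw [sub_self, norm_zero, mul_zero, zero_add, ← mul_assoc] at this
    exact this
  exact (cM.sub ((Ms V s P).continuous.const_smul s)).norm.measurable

omit [DecidableEq ι] in
lemma sc_point {s t : ℝ} (hs : 0 < s) (hs1 : s ≤ 1 / 16) (t0 : 0 ≤ t) (t1 : t ≤ 1)
    (p x : Euc ι) : √s * ‖p + (√s * t) • x‖ ≤ √s * ‖p‖ + ‖x‖ := by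
  have q1 : ‖p + (√s * t) • x‖ ≤ ‖p‖ + √s * t * ‖x‖ := by
    refine (norm_add_le _ _).trans ?_
    rw [norm_smul, Real.norm_eq_abs, abs_of_nonneg (by positivity)]
  have q2 : √s * (√s * t * ‖x‖) ≤ ‖x‖ := by
    rw [← mul_assoc, ← mul_assoc, Real.mul_self_sqrt hs.le]
    exact mul_le_of_le_one_left (norm_nonneg _) (by nlinarith)
  have q3 := mul_le_mul_of_nonneg_left q1 (Real.sqrt_nonneg s)
  rw [mul_add] at q3
  linarith

lemma sc_diff (W : Wts K) (V : Euc ι → ℝ) {s h ℓ κ₀ c t : ℝ} (l : Fin (K + 1))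
    (ht : t = h * node l) (s0 : 0 < s * (1 - t ^ 2)) (t0 : 0 ≤ t) (t1 : t ≤ 1)
    (s3 : |c * s / (s * (1 - t ^ 2))| ≤ 2 * |c|) (p x z ζ : Euc ι) :
    ‖scF V s p c t (x, z) - scG W V s p h ℓ κ₀ c ζ l (scY V s p c t (x, z))‖ ≤
      0 + 2 * |c| * ‖Mhat W V (s * (1 - t ^ 2)) (p + (√s * t) • x) h z -
          (s * (1 - t ^ 2)) • Ms V (s * (1 - t ^ 2)) (p + (√s * t) • x) z‖ +
        1 * ‖M2hat W V s (s * (1 - t ^ 2)) c (p + (√s * t) • x) h (κ₀ / ℓ) z ζ -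
          c ^ 2 • s • Ms V (s * (1 - t ^ 2)) (p + (√s * t) • x)
            (s • Ms V (s * (1 - t ^ 2)) (p + (√s * t) • x) z)‖ := by
  have e : scZ V s p c t (scY V s p c t (x, z)) = z := by simp [scZ, scY]
  have f1 : (scF V s p c t (x, z) - scG W V s p h ℓ κ₀ c ζ l (scY V s p c t (x, z))).1 =
      (c * s / (s * (1 - t ^ 2))) • (Mhat W V (s * (1 - t ^ 2)) (p + (√s * t) • x) h z -
        (s * (1 - t ^ 2)) • Ms V (s * (1 - t ^ 2)) (p + (√s * t) • x) z) := by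
    simp only [scG, ← ht, e, Prod.fst_sub, scF, Mc, MM]
    simp only [scY, smul_sub, smul_smul]
    rw [div_mul_cancel₀ _ s0.ne']
    abel
  have f2 : (scF V s p c t (x, z) - scG W V s p h ℓ κ₀ c ζ l (scY V s p c t (x, z))).2 =
      (-t) • (M2hat W V s (s * (1 - t ^ 2)) c (p + (√s * t) • x) h (κ₀ / ℓ) z ζ -
          c ^ 2 • s • Ms V (s * (1 - t ^ 2)) (p + (√s * t) • x)
            (s • Ms V (s * (1 - t ^ 2)) (p + (√s * t) • x) z)) := by
    simp only [scG, ← ht, e, Prod.snd_sub, scF, MM]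
    simp only [scY, smul_sub, neg_smul, mul_smul]
    abel
  rw [Prod.norm_def, f1, f2, norm_smul, norm_smul, Real.norm_eq_abs, Real.norm_eq_abs,
    abs_neg, abs_of_nonneg t0, zero_add, one_mul]
  refine max_le ?_ ?_
  · exact le_add_of_le_of_nonneg (mul_le_mul_of_nonneg_right s3 (norm_nonneg _)) (norm_nonneg _)
  · exact le_add_of_nonneg_of_le (by positivity) (mul_le_of_le_one_left (norm_nonneg _) t1)

lemma sc_err_arith {CU CR H s s' c D a a' n X : ℝ} (hCU : 0 ≤ CU) (hCR : 0 ≤ CR) (hH : 0 ≤ H)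
    (s0 : 0 ≤ s') (s2 : s' ≤ s) (hc1 : |c| * s ≤ 1) (hD : 0 ≤ D) (ha' : 0 ≤ a') (h1 : a' ≤ a)
    (h2 : D + a ≤ X + n) :
    0 + 2 * |c| * (CU * H * s' * (D + a')) + 1 * (CR * H * (D + a)) ≤
      (2 * CU + CR) * H * X + (2 * CU + CR) * H * n := by
  have h3 : 0 ≤ X + n := by linarith
  have q2 : 2 * |c| * (CU * H * s' * (D + a')) ≤ 2 * CU * H * (X + n) := by
    calc 2 * |c| * (CU * H * s' * (D + a')) ≤ 2 * |c| * (CU * H * s * (X + n)) := by
          have h4 : D + a' ≤ X + n := by linarith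
          have h5 : 0 ≤ s := s0.trans s2
          gcongr 2 * |c| * (CU * H * ?_ * ?_)
      _ = (|c| * s) * (2 * CU * H * (X + n)) := by ring
      _ ≤ _ := mul_le_of_le_one_left (by positivity) hc1
  have q3 : CR * H * (D + a) ≤ CR * H * (X + n) := by gcongr
  linarith

end Err

lemma sc_err {K : ℕ} (hK : 1 ≤ K) (W : Wts K) : ∃ C : ℝ, 1 ≤ C ∧
    ∀ (ι : Type) [Fintype ι] [DecidableEq ι] (V : Euc ι → ℝ), InClass V →
    ∀ s h ℓ κ₀ c : ℝ, 0 < s → s ≤ 1 / 16 → 0 < h → h ≤ 1 / C → h ≤ 1 / 2 → W.C * h ≤ 1 →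
    0 < ℓ → |c| * s ≤ ℓ → ℓ ≤ κ₀ → κ₀ ≤ h / C → ∀ (p : Euc ι) (l : Fin (K + 1)),
      (Continuous fun q : Euc ι × (Euc ι × Euc ι) => scG W V s p h ℓ κ₀ c q.1 l q.2) →
      EB ((mu V s p (h * node l)).prod (gam ι))
        (fun w => scF V s p c (h * node l) w.1 -
          scG W V s p h ℓ κ₀ c w.2 l (scY V s p c (h * node l) w.1))
        (C * h ^ K * (√(dm ι) + √s * ‖p‖)) := by
  obtain ⟨CU, hCU, hU⟩ := schemeU_err hK W
  obtain ⟨CR, hCR, hR⟩ := rot_err hK W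
  refine ⟨(2 * CU + CR) * (1 + CU), by nlinarith,
    fun ι _ _ V hV s h ℓ κ₀ c hs hs1 h0 h1 h2 h3 hℓ hc hℓκ hκ p l hG => ?_⟩
  have c1 : CU ≤ (2 * CU + CR) * (1 + CU) := by nlinarith
  have c2 : CR ≤ (2 * CU + CR) * (1 + CU) := by nlinarith
  have hU1 : h ≤ 1 / CU := h1.trans (sc_div_le zero_le_one (by linarith) c1)
  have hR1 : h ≤ 1 / CR := h1.trans (sc_div_le zero_le_one (by linarith) c2)
  have hR2 : κ₀ ≤ h / CR := hκ.trans (sc_div_le h0.le (by linarith) c2)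
  have hc1 : |c| * s ≤ 1 := by
    have : h / CR ≤ h / 1 := sc_div_le h0.le one_pos hCR
    linarith
  obtain ⟨t0, t1, t2, -⟩ := sc_node h0 h2 l
  obtain ⟨t, ht⟩ : ∃ t, t = h * node l := ⟨_, rfl⟩
  rw [← ht] at t0 t1 t2 ⊢
  obtain ⟨-, s2, s0, s3⟩ := sc_scale hs t2 c
  have s4 : 3 / 4 * s ≤ s * (1 - t ^ 2) := by nlinarith
  obtain ⟨pl, -⟩ := sc_mu_prob hV hs hs1 p t0 (t1.trans h2)
  have cYF := scYF_cont hV s0 p c
  have cF : Continuous fun w : Euc ι × (Euc ι × Euc ι) => scF V s p c t (w.1, w.2.1) -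
      scG W V s p h ℓ κ₀ c w.2.2 l (scY V s p c t (w.1, w.2.1)) := by
    have k1 : Continuous fun w : Euc ι × (Euc ι × Euc ι) => (w.1, w.2.1) := by fun_prop
    have k2 : Continuous fun w : Euc ι × (Euc ι × Euc ι) => scY V s p c t (w.1, w.2.1) :=
      cYF.fst.comp k1
    have k3 : Continuous fun w : Euc ι × (Euc ι × Euc ι) => scF V s p c t (w.1, w.2.1) :=
      cYF.snd.comp k1
    exact k3.sub (sc_comp2 (fun ζ Y => scG W V s p h ℓ κ₀ c ζ l Y) hG continuous_snd.snd k2)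
  have hU0 : 0 ≤ CU := by linarith
  have hR0 : 0 ≤ CR := by linarith
  have e4 := EB.prod_left cF.norm.measurable ((hU ι V hV s hs hs1 p).1 t t0 (t1.trans h2))
    (c := (2 * CU + CR) * h ^ K * (√(dm ι) + √s * ‖p‖)) (c₁ := (2 * CU + CR) * h ^ K)
    (by positivity) (by positivity) (by positivity) fun x => by
      have e1 := ((hU ι V hV _ s0 (s2.trans hs1) (p + (√s * t) • x)).2 h h0 hU1).1
      have e2 := hR ι V hV s _ c h ℓ κ₀ hs hs1 s4 s2 h0 hR1 hℓ hc hℓκ hR2 (p + (√s * t) • x)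
      have m1 := sc_Mhat_meas W hV s0 (s2.trans hs1) h0 h2 h3 (p + (√s * t) • x)
      have e3 := EB.fst (P' := gam ι) e1 m1
      have hPn := sc_point hs hs1 t0 (by linarith) p x
      refine (EB.dom2 (c := 0) (c₁ := 2 * |c|) (c₂ := 1) e3 e2 (m1.comp measurable_fst)
        (by positivity) (by positivity) le_rfl (by positivity) zero_le_one
        fun y => sc_diff W V l ht s0 t0 (by linarith) s3 p x y.1 y.2).mono ?_
      exact sc_err_arith hU0 hR0 (by positivity) s0.le s2 hc1 (Real.sqrt_nonneg _)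
        (by positivity) (mul_le_mul_of_nonneg_right (Real.sqrt_le_sqrt s2) (norm_nonneg _))
        (by linarith)
  have e5 := EB.comp_map (P := ((loc V s p t).prod (gam ι)).prod (gam ι))
    MeasurableEquiv.prodAssoc.measurable Measure.prodAssoc_prod cF.norm.measurable e4
  exact EB.mono e5 (le_of_eq (by ring))

lemma sc_tay_cont {S G : Type} [TopologicalSpace S] [NormedAddCommGroup G] [NormedSpace ℝ G]
    (K : ℕ) {A : ℕ → S → G} (hA : ∀ j, Continuous (A j)) (t : ℝ) :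
    Continuous (tay K A t) ∧ Continuous (tayI K A t) := by
  unfold tay tayI
  exact ⟨continuous_finsetSum _ fun j _ => (hA j).const_smul _,
    continuous_finsetSum _ fun j _ => (hA j).const_smul _⟩

lemma sc_size {ι : Type} [Fintype ι] [DecidableEq ι] {V : Euc ι → ℝ} (hV : InClass V) {s c : ℝ}
    (hs : 0 < s) (hs1 : s ≤ 1 / 16) (hc : |c| * s ≤ 1) (p : Euc ι) (K : ℕ) {CT : ℝ}
    (hCT : 0 ≤ CT) {A : ℕ → Euc ι × Euc ι → Euc ι × Euc ι} (hA : ∀ j, Continuous (A j))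
    (hA0 : ∀ w, A 0 w = (-(√s • fs V s p) - c • s • Ms V s p w.2, 0))
    (hAj : ∀ j, 1 ≤ j → j ≤ K →
      EB ((gam ι).prod (gam ι)) (A j) (CT * (s + |c| * s) * √(dm ι))) {t : ℝ} (t0 : 0 ≤ t)
    (t1 : t ≤ 1) : EB ((gam ι).prod (gam ι)) (tay K A t)
      ((K + 1) * ((3 + 2 * CT) * (√(dm ι) + √s * ‖p‖))) := by
  have hd := Real.sqrt_nonneg (dm ι)
  have hp : 0 ≤ √s * ‖p‖ := by positivity
  have h1 : ∀ j ∈ Finset.range (K + 1), EB ((gam ι).prod (gam ι)) (A j)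
      ((3 + 2 * CT) * (√(dm ι) + √s * ‖p‖)) := by
    intro j hj
    rcases Nat.eq_zero_or_pos j with rfl | hj0
    · have e1 := EB.snd (P := gam ι) (EB.gam (ι := ι)) measurable_norm
      refine (EB.dom1 (c := √(dm ι) + 3 * (√s * ‖p‖)) (c₁ := 2) e1 hd (by positivity)
        (by norm_num) fun w => ?_).mono (by nlinarith)
      rw [hA0, Prod.norm_def, norm_zero, max_eq_left (norm_nonneg _)]
      refine (norm_sub_le _ _).trans (add_le_add ?_ ?_)
      · rw [norm_neg, norm_smul, Real.norm_eq_abs, abs_of_nonneg (Real.sqrt_nonneg s)]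
        exact fs_norm hV hs hs1 p
      · rw [norm_smul, norm_smul, Real.norm_eq_abs, Real.norm_eq_abs, abs_of_pos hs,
          ← mul_assoc]
        exact (mul_le_of_le_one_left (norm_nonneg _) hc).trans (Ms_norm hV hs hs1 p _)
    · refine (hAj j hj0 (by simpa [Nat.lt_succ_iff] using hj)).mono ?_
      have : CT * (s + |c| * s) * √(dm ι) ≤ CT * 2 * √(dm ι) := by gcongr; linarith
      nlinarith
  refine (EB.domSum (Finset.range (K + 1)) (c := 0) (ci := fun _ => 1) h1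
    (fun j _ => (hA j).norm.measurable) (fun _ _ => by positivity) le_rfl
    (fun _ _ => zero_le_one) fun w => ?_).mono (le_of_eq (by simp))
  rw [zero_add]
  refine (norm_sum_le _ _).trans (Finset.sum_le_sum fun j _ => ?_)
  rw [norm_smul, Real.norm_eq_abs, abs_of_nonneg (by positivity)]
  refine mul_le_mul_of_nonneg_right ?_ (norm_nonneg _)
  rw [div_le_one (by positivity)]
  exact (pow_le_one₀ t0 t1).trans (by exact_mod_cast Nat.factorial_pos j)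

/-- The analytic estimate for the coupled scheme. -/
lemma sc_main {K : ℕ} (W : Wts K) {CE : ℝ} (hCE : 1 ≤ CE) : ∃ C : ℝ, 1 ≤ C ∧
    ∀ (ι : Type) [Fintype ι] [DecidableEq ι] (V : Euc ι → ℝ), InClass V →
    ∀ s h c : ℝ, 0 < s → s ≤ 1 / 16 → 0 < h → h ≤ 1 / 2 → W.C * h ≤ 1 / 2 →
    |c| * s ≤ 1 → ∀ (p : Euc ι) (g : Euc ι → Fin (K + 1) → Euc ι × Euc ι → Euc ι × Euc ι),
      (∀ l, EB ((mu V s p (h * node l)).prod (gam ι))
        (fun w => scF V s p c (h * node l) w.1 - g w.2 l (scY V s p c (h * node l) w.1))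
        (CE * h ^ K * (√(dm ι) + √s * ‖p‖))) →
      (∀ l, Continuous fun q : Euc ι × (Euc ι × Euc ι) => g q.1 l q.2) →
      (∀ ζ l Y Y', ‖g ζ l Y - g ζ l Y'‖ ≤ 1 * ‖Y - Y'‖) →
      WD (((gam ι).prod (gam ι)).prod (gam ι))
        (fun w => (outp W h (g w.2) w.1
            (pic W h (g w.2) w.1 K) 1).2 +
          c • hh V s p h (outp W h (g w.2) w.1
            (pic W h (g w.2) w.1 K) 1).1)
        (gam ι) (fun ζ => (c * √s) • fs V s p + ζ) (C * h ^ K * (√(dm ι) + √s * ‖p‖)) := by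
  obtain ⟨CT, hCT, hT⟩ := transport K
  have hw := W.one_le
  refine ⟨CE + (2 * (CE + 4 * CT + W.C ^ K * ((K + 1) * (3 + 2 * CT))) + 4 * CT), ?_,
    fun ι _ _ V hV s h c hs hs1 h0 h2 h3 hc1 p g hE hG hL => ?_⟩
  · have : 0 ≤ 2 * (CE + 4 * CT + W.C ^ K * ((K + 1) * (3 + 2 * CT))) + 4 * CT := by positivity
    linarith
  obtain ⟨A, cA, hA0, -, hAj, hW⟩ := hT ι V hV s hs hs1 p c hc1
  set Ξ := √(dm ι) + √s * ‖p‖ with hΞ
  have hd := Real.sqrt_nonneg (dm ι)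
  have hΞ0 : 0 ≤ Ξ := by positivity
  have hdΞ : √(dm ι) ≤ Ξ := le_add_of_nonneg_right (by positivity)
  have hK0 : 0 ≤ h ^ K := by positivity
  have hW' : ∀ t, 0 ≤ t → t ≤ h → WD ((gam ι).prod (gam ι))
      (fun w => (w + tayI K A t w, tay K A t w)) (mu V s p t)
      (fun w => (scY V s p c t w, scF V s p c t w)) (2 * CT * h ^ K * Ξ) := by
    intro t t0 t1
    refine (hW t t0 (t1.trans h2)).mono ?_
    have q1 : t ^ (K + 1) ≤ h ^ K := by
      rw [pow_succ]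
      calc t ^ K * t ≤ h ^ K * 1 := by gcongr; linarith
        _ = _ := mul_one _
    calc CT * t ^ (K + 1) * (s + |c| * s) * √(dm ι) ≤ CT * h ^ K * 2 * Ξ := by
          gcongr
          linarith
      _ = _ := by ring
  have cT := fun t => sc_tay_cont K cA t
  have mg : ∀ l, Measurable fun q : ((Euc ι × Euc ι) × Euc ι) × (Euc ι × Euc ι) =>
      g q.1.2 l q.2 := fun l =>
    ((hG l).comp (continuous_fst.snd.prodMk continuous_snd)).measurable
  have hcol := (colloc W (P := ((gam ι).prod (gam ι)).prod (gam ι)) (b := fun w => w.1)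
    (A := fun j w => A j w.1) (g := fun w => g w.2) (h := h) (L := 1)
    (ε := CE * h ^ K * Ξ + 2 * (2 * CT * h ^ K * Ξ)) (m := (K + 1) * ((3 + 2 * CT) * Ξ))
    h0.le zero_le_one (by positivity) (by positivity) (by linarith) measurable_fst
    (fun j => ((cA j).comp continuous_fst).measurable) mg (fun w => hL w.2)
    (fun l => by
      obtain ⟨t0, t1, t2, -⟩ := sc_node h0 h2 l
      obtain ⟨-, -, s0, -⟩ := sc_scale hs t2 c
      obtain ⟨-, pm⟩ := sc_mu_prob hV hs hs1 p t0 (t1.trans h2)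
      have cYF := scYF_cont hV s0 p c
      have cF : Continuous fun w : Euc ι × Euc ι =>
          (w + tayI K A (h * node l) w, tay K A (h * node l) w) :=
        (continuous_id.add (cT _).2).prodMk (cT _).1
      have cΨ : Continuous fun q : ((Euc ι × Euc ι) × (Euc ι × Euc ι)) × Euc ι =>
          q.1.2 - g q.2 l q.1.1 :=
        continuous_fst.snd.sub ((hG l).comp (continuous_snd.prodMk continuous_fst.fst))
      have w1 := WD.prod_lip (P'' := gam ι) cF.measurable cYF.measurable (hW' _ t0 t1)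
        cΨ.measurable (L := 2) (by norm_num) fun x y z => by
          have n1 : ‖x.1 - y.1‖ ≤ ‖x - y‖ := norm_fst_le (x - y)
          have n2 : ‖x.2 - y.2‖ ≤ ‖x - y‖ := norm_snd_le (x - y)
          have n3 := hL z l x.1 y.1
          rw [sub_sub_sub_comm]
          refine (norm_sub_le _ _).trans ?_
          linarith
      exact w1.toEB
        (cΨ.comp ((cF.comp continuous_fst).prodMk continuous_snd)).measurable
        (cΨ.comp ((cYF.comp continuous_fst).prodMk continuous_snd)).measurable (by positivity)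
        (hE l))
    (fun l => by
      obtain ⟨t0, t1, -, -⟩ := sc_node h0 h2 l
      exact EB.fst (sc_size hV hs hs1 hc1 p K hCT cA hA0 hAj t0 (by linarith))
        (cT _).1.norm.measurable) K).2 1 zero_le_one le_rfl
  have t2 : 3 / 4 ≤ 1 - h ^ 2 := by nlinarith
  obtain ⟨-, -, s0, -⟩ := sc_scale hs t2 c
  obtain ⟨pl, pm⟩ := sc_mu_prob hV hs hs1 p h0.le h2
  have cH := sc_hh_cont hV s0 p
  have lΨ : ∀ x y : Euc ι × Euc ι,
      ‖(x.2 + c • hh V s p h x.1) - (y.2 + c • hh V s p h y.1)‖ ≤ 2 * ‖x - y‖ := by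
    intro x y
    have n1 : ‖x.1 - y.1‖ ≤ ‖x - y‖ := norm_fst_le (x - y)
    have n2 : ‖x.2 - y.2‖ ≤ ‖x - y‖ := norm_snd_le (x - y)
    have n3 := sc_hh_lip hV hs hs1 h0.le t2 p x.1 y.1
    rw [add_sub_add_comm, ← smul_sub]
    refine (norm_add_le _ _).trans ?_
    rw [norm_smul, Real.norm_eq_abs]
    have n4 : |c| * ‖hh V s p h x.1 - hh V s p h y.1‖ ≤ ‖x - y‖ :=
      calc |c| * ‖hh V s p h x.1 - hh V s p h y.1‖ ≤ |c| * (2 * s * h * ‖x - y‖) := by
            gcongr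
            exact n3.trans (by gcongr)
        _ = (|c| * s) * (2 * h) * ‖x - y‖ := by ring
        _ ≤ 1 * 1 * ‖x - y‖ := by gcongr; linarith
        _ = _ := by ring
    linarith
  rw [mul_one h] at hcol
  have w1 := (WD.of_EB (outp_meas W h measurable_fst mg K 1)
    ((continuous_id.add (cT h).2).comp continuous_fst).measurable (by positivity) hcol).lip
    (Ψ := fun x : Euc ι × Euc ι => x.2 + c • hh V s p h x.1) (by norm_num) lΨ
  have w2 := (hW' h h0.le le_rfl).lip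
    (Ψ := fun x : (Euc ι × Euc ι) × (Euc ι × Euc ι) => x.1.2 + c • hh V s p h x.1.1) (L := 2)
    (by norm_num) fun x y => (lΨ x.1 y.1).trans (by gcongr; exact norm_fst_le (x - y))
  have cO : Continuous fun w : Euc ι × Euc ι =>
      (w + tayI K A h w).2 + c • hh V s p h (w + tayI K A h w).1 := by
    have k1 : Continuous fun w : Euc ι × Euc ι => w + tayI K A h w := continuous_id.add (cT h).2
    exact k1.snd.add ((cH.comp k1.fst).const_smul c)
  have w3 := WD.comp_map (P'' := ((gam ι).prod (gam ι)).prod (gam ι)) measurable_fst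
    (by simp) cO.measurable w2
  have w4 : WD (mu V s p h) (fun w => (scY V s p c h w).2 + c • hh V s p h (scY V s p c h w).1)
      (gam ι) (fun ζ => (c * √s) • fs V s p + ζ) 0 := by
    have e : (fun w => (scY V s p c h w).2 + c • hh V s p h (scY V s p c h w).1) =
        (fun ζ => (c * √s) • fs V s p + ζ) ∘ Prod.snd := by
      funext w
      simp only [scY, Function.comp, smul_sub, mul_smul]
      abel
    have m1 : Measurable fun ζ : Euc ι => (c * √s) • fs V s p + ζ := by fun_prop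
    rw [e]
    refine WD.of_map (m1.comp measurable_snd) m1 ?_
    rw [← Measure.map_map m1 measurable_snd, mu]
    simp
  refine ((w1.trans w3).trans w4).mono ?_
  have q1 : (W.C * h * 1) ^ K = W.C ^ K * h ^ K := by rw [mul_one, mul_pow]
  rw [q1]
  have q2 : 2 * (W.C * h) * (CE * h ^ K * Ξ + 2 * (2 * CT * h ^ K * Ξ)) ≤
      CE * h ^ K * Ξ + 2 * (2 * CT * h ^ K * Ξ) :=
    mul_le_of_le_one_left (by positivity) (by linarith)
  have q3 : W.C ^ K * h ^ K * (W.C * h * ((K + 1) * ((3 + 2 * CT) * Ξ))) ≤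
      W.C ^ K * h ^ K * ((K + 1) * ((3 + 2 * CT) * Ξ)) :=
    mul_le_mul_of_nonneg_left (mul_le_of_le_one_left (by positivity) (by linarith))
      (by positivity)
  have q4 : 0 ≤ CE * h ^ K * Ξ := by positivity
  linarith

lemma sc_arith {w k C s h ℓ κ₀ c : ℝ} (hw : 1 ≤ w) (hk : 1 ≤ k) (hC : 24 * k * w ^ 3 ≤ C)
    (hs : 0 < s) (hsκ : s ≤ κ₀) (h0 : 0 < h) (h1 : h ≤ 1 / C) (hℓ : 0 < ℓ) (hc : |c| * s ≤ ℓ)
    (hℓκ : ℓ ≤ κ₀) (hκ : κ₀ ≤ h / C) :
    24 ≤ C ∧ h ≤ 1 / 24 ∧ w * h ≤ 1 / 2 ∧ C * κ₀ ≤ h ∧ s ≤ 1 / 16 ∧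
      8 * (√s + 2 * |c| * w * √s / h) * (C * √s * h) ≤ 1 ∧
      8 * (2 * k * w ^ 2 * ℓ ^ 2 / (κ₀ * √s)) * (C * √s * h) ≤ 1 ∧ 3 * w ^ 2 ≤ C ∧
      h * w * (2 * k * w ^ 2 * ℓ ^ 2 / (κ₀ * √s)) ≤ C * ℓ ^ 2 / (κ₀ * h * √s) := by
  have w3 : 1 ≤ w ^ 3 := one_le_pow₀ hw
  have w4 : w ≤ w ^ 3 := le_self_pow₀ hw (by norm_num)
  have w5 : w ^ 2 ≤ w ^ 3 := pow_le_pow_right₀ hw (by norm_num)
  have k3 : w ^ 3 ≤ k * w ^ 3 := le_mul_of_one_le_left (by positivity) hk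
  have k4 : k * w ^ 2 ≤ k * w ^ 3 := by gcongr
  have c1 : 24 ≤ C := by linarith
  have c0 : 0 < C := by linarith
  have hC1 : C * h ≤ 1 := by rwa [le_div_iff₀ c0, mul_comm] at h1
  have hC2 : C * κ₀ ≤ h := by rwa [le_div_iff₀ c0, mul_comm] at hκ
  have hκ0 : 0 < κ₀ := hs.trans_le hsκ
  have hq : 0 < √s := Real.sqrt_pos.2 hs
  have hh : h ≤ 1 / 24 := by nlinarith
  have wh : 24 * (w * h) ≤ 1 := by nlinarith
  have kh : 24 * (k * w ^ 2 * h) ≤ 1 := by nlinarith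
  refine ⟨c1, hh, by linarith, hC2, by nlinarith, ?_, ?_, by linarith, ?_⟩
  · have e : 8 * (√s + 2 * |c| * w * √s / h) * (C * √s * h) =
        8 * (C * s) * h + 16 * w * (C * (|c| * s)) := by
      field_simp
      rw [Real.sq_sqrt hs.le]
      ring
    rw [e]
    have q1 : C * s ≤ h := le_trans (by gcongr) hC2
    have q2 : C * (|c| * s) ≤ h := le_trans (by gcongr; exact hc.trans hℓκ) hC2
    have q3 : 16 * w * (C * (|c| * s)) ≤ 16 * w * h := by gcongr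
    nlinarith
  · have e : 8 * (2 * k * w ^ 2 * ℓ ^ 2 / (κ₀ * √s)) * (C * √s * h) =
        16 * (k * w ^ 2 * h) * (C * (ℓ ^ 2 / κ₀)) := by
      field_simp
      ring
    rw [e]
    have q1 : ℓ ^ 2 / κ₀ ≤ κ₀ := by
      rw [div_le_iff₀ hκ0]
      nlinarith
    have q2 : C * (ℓ ^ 2 / κ₀) ≤ 1 := le_trans (by gcongr) (hC2.trans (by linarith))
    have q3 : 0 ≤ k * w ^ 2 * h := by positivity
    nlinarith
  · have e : h * w * (2 * k * w ^ 2 * ℓ ^ 2 / (κ₀ * √s)) =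
        (2 * k * w ^ 3 * (h * h)) * ℓ ^ 2 / (κ₀ * h * √s) := by
      field_simp
    rw [e]
    have q1 : h * h ≤ 1 := by nlinarith
    have q2 : 2 * k * w ^ 3 * (h * h) ≤ C := by
      have : 0 ≤ 2 * k * w ^ 3 := by positivity
      nlinarith
    gcongr

/-- One step of noise cancellation: a Gaussian centred at `c √s ∇V_s(p)` is, up to `O(h^K)`, an
independent Gaussian plus the same quantity at a slightly smaller scale at a random centre, plus
a circuit with much smaller coefficients. -/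
theorem scheme (K : ℕ) : ∃ C : ℝ, ∃ Nb : ℕ, 1 ≤ C ∧ 1 ≤ Nb ∧
    ∀ (ι : Type) [Fintype ι] [DecidableEq ι] (s h ℓ κ₀ c : ℝ), 0 < s → s ≤ κ₀ → 0 < h →
    h ≤ 1 / C → 0 < ℓ → |c| * s ≤ ℓ → ℓ ≤ κ₀ → κ₀ ≤ h / C →
    ∃ yP yO : Fn ι (Fin 3), ∃ S : ℝ, |S| ≤ C * s ∧
      NL ⟨s, fun _ => C * √s * h, C * s, C * κ₀, Nb⟩ yP S (C * κ₀) Nb ∧
      NL ⟨s, fun _ => C * √s * h, C * s, C * κ₀, Nb⟩ yO 0
        (C * ℓ ^ 2 / (κ₀ * h * √s)) Nb ∧
      ∀ V : Euc ι → ℝ, InClass V → ∀ p : Euc ι,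
        WD (((gam ι).prod (gam ι)).prod (gam ι))
          (fun w => w.1.2 + (c * √s) • fs V (s * (1 - h ^ 2))
              (p + ((√s * h) • w.1.1 + yP V p ![w.1.1, w.1.2, w.2])) +
            yO V p ![w.1.1, w.1.2, w.2])
          (gam ι) (fun ζ => (c * √s) • fs V s p + ζ)
          (C * h ^ K * (√(dm ι) + √s * ‖p‖)) := by
  obtain ⟨W⟩ := wts_nonempty (K + 1)
  obtain ⟨CE, hCE, hE⟩ := sc_err (K := K + 1) (by omega) W
  obtain ⟨CM, hCM, hM⟩ := sc_main W hCE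
  have hw := W.one_le
  have hk : (1 : ℝ) ≤ ((K + 1 : ℕ) : ℝ) + 1 := by linarith [Nat.cast_nonneg (α := ℝ) (K + 1)]
  set k : ℝ := ((K + 1 : ℕ) : ℝ) + 1 with hkdef
  have hpos : 0 ≤ 24 * k * W.C ^ 3 := by positivity
  set C := 24 * k * W.C ^ 3 + CM + CE with hC
  set Nb := 2 * (K + 1 + 1) ^ 3 + (K + 1 + 1) * (K + 1 + 2) + 3 * (K + 1 + 1) + 2 with hNb
  refine ⟨C, Nb, by linarith, by omega, fun ι _ _ s h ℓ κ₀ c hs hsκ h0 h1 hℓ hc hℓκ hκ => ?_⟩
  obtain ⟨a1, a2, a3, a4, a5, a6, a7, a8, a9⟩ :=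
    sc_arith hw hk (by linarith : 24 * k * W.C ^ 3 ≤ C) hs hsκ h0 h1 hℓ hc hℓκ hκ
  have hκ0 : 0 < κ₀ := hs.trans_le hsκ
  have hq : 0 < √s := Real.sqrt_pos.2 hs
  set B : Bar (Fin 3) := ⟨s, fun _ => C * √s * h, C * s, C * κ₀, Nb⟩ with hB
  have H : ScH W B h ℓ κ₀ c :=
    { hs := hs, hsκ := hsκ, hh := h0, hh2 := by linarith, hℓ := hℓ, hc := hc, hℓκ := hℓκ
      ab := fun _ => by
        have : 0 ≤ √s * h := by positivity
        change 3 * (√s * h) ≤ C * √s * h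
        nlinarith
      Sb := by
        change 2 * s ≤ C * s
        nlinarith
      Tb := by
        change 14 * k * W.C ^ 3 * κ₀ ≤ C * κ₀
        gcongr
        linarith
      Nb := le_rfl }
  obtain ⟨y₁, y₂, S, hS, n1, n2, e⟩ :=
    scV_outp (ι := ι) H (scV_pic H (K + 1)) zero_le_one le_rfl
  have hsh : |√s * h| = √s * h := abs_of_pos (by positivity)
  refine ⟨fun V p v => (√s * h) • y₁ V p v, y₂, √s * h * S, ?_,
    NL.mono _ _ _ _ _ _ (n1.smul (√s * h)) ?_ (by omega),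
    NL.mono _ _ _ _ _ _ n2 a9 (by omega), fun V hV p => ?_⟩
  · rw [abs_mul, hsh]
    calc √s * h * |S| ≤ √s * h * (√s * h) := by gcongr
      _ = (√s * √s) * (h * h) := by ring
      _ ≤ C * s := by
        rw [Real.mul_self_sqrt hs.le, mul_comm]
        gcongr
        nlinarith
  · rw [hsh]
    exact H.tP.trans (by gcongr)
  · have b1 : h ≤ 1 / CE := h1.trans (sc_div_le zero_le_one (by linarith) (by linarith))
    have b2 : κ₀ ≤ h / CE := hκ.trans (sc_div_le h0.le (by linarith) (by linarith))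
    have b3 : |c| * s ≤ 1 := by
      have : h / CE ≤ h / 1 := sc_div_le h0.le one_pos hCE
      linarith
    have := hM ι V hV s h c hs a5 h0 (by linarith) a3 b3 p (scG W V s p h ℓ κ₀ c)
      (fun l => hE ι V hV s h ℓ κ₀ c hs a5 h0 b1 (by linarith) (by linarith) hℓ hc hℓκ b2 p l
        (scG_cont H hV p l)) (scG_cont H hV p)
      (scG_lip H hV a5 (a4.trans (by linarith)) (fun _ => rfl) a6 a7 p)
    have e' : ∀ w : (Euc ι × Euc ι) × Euc ι, outp W h (scG W V s p h ℓ κ₀ c w.2) w.1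
        (pic W h (scG W V s p h ℓ κ₀ c w.2) w.1 (K + 1)) 1 =
        (w.1.1 + y₁ V p ![w.1.1, w.1.2, w.2], w.1.2 + y₂ V p ![w.1.1, w.1.2, w.2]) :=
      fun w => e V p ![w.1.1, w.1.2, w.2]
    simp only [e', hh] at this
    have e2 : (fun w : (Euc ι × Euc ι) × Euc ι => w.1.2 + (c * √s) • fs V (s * (1 - h ^ 2))
        (p + ((√s * h) • w.1.1 + (√s * h) • y₁ V p ![w.1.1, w.1.2, w.2])) +
          y₂ V p ![w.1.1, w.1.2, w.2]) = fun w => w.1.2 + y₂ V p ![w.1.1, w.1.2, w.2] +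
          c • √s • fs V (s * (1 - h ^ 2))
            (p + (√s * h) • (w.1.1 + y₁ V p ![w.1.1, w.1.2, w.2])) := by
      funext w
      rw [smul_add, mul_smul]
      abel
    rw [e2]
    refine this.mono ?_
    have q1 : h ^ (K + 1) ≤ h ^ K := pow_le_pow_of_le_one h0.le (by linarith) (by omega)
    gcongr
    linarith

end Vale.Agent.P347
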