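import Vale.Agent.P347.Colloc
import Vale.Agent.P347.NL

/-! The uncoupled local flow: Hessian-vector products and the outer step. -/

open MeasureTheory ProbabilityTheory

namespace Vale.Agent.P347

section Def
variable {ι : Type} [Fintype ι] [DecidableEq ι] {K : ℕ}

noncomputable def gU (V : Euc ι → ℝ) (s : ℝ) (p : Euc ι) (h : ℝ) (l : Fin (K + 1)) (x : Euc ι) :
    Euc ι := -hh V s p (h * node l) x

/-- Approximation of `s ∇²V_s(p) v` valid for Gaussian `v`. -/
noncomputable def Mhat (W : Wts K) (V : Euc ι → ℝ) (s : ℝ) (p : Euc ι) (h : ℝ) (v : Euc ι) :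
    Euc ι :=
  (1 / h) • ∑ l, W.al l • hh V s p (h * node l) (pic W h (gU V s p h) v K l)

/-- Displacement of the centre at relative time `τ`. -/
noncomputable def ytop (W : Wts K) (V : Euc ι → ℝ) (s : ℝ) (p : Euc ι) (h τ : ℝ) (ξ : Euc ι) :
    Euc ι :=
  (√s * (h * τ)) • outp W h (gU V s p h) ξ (pic W h (gU V s p h) ξ K) τ

end Def

section Lip
variable {ι : Type} [Fintype ι] [DecidableEq ι] {K : ℕ} {V : Euc ι → ℝ} {s h : ℝ}

lemma hh_lipU (hV : InClass V) (hs : 0 < s) (hs1 : s ≤ 1 / 16) {t : ℝ} (t0 : 0 ≤ t) (th : t ≤ h)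
    (h2 : h ≤ 1 / 2) (p p' x x' : Euc ι) :
    ‖hh V s p t x - hh V s p' t x'‖ ≤ 2 * √s * (‖p - p'‖ + √s * h * ‖x - x'‖) := by
  have e0 : t ^ 2 ≤ 1 / 4 := by nlinarith
  have e1 := fs_lip hV (s := s * (1 - t ^ 2)) (mul_pos hs (by linarith))
    (by nlinarith [sq_nonneg t]) (p + (√s * t) • x) (p' + (√s * t) • x')
  have e2 : ‖(p + (√s * t) • x) - (p' + (√s * t) • x')‖ ≤ ‖p - p'‖ + √s * h * ‖x - x'‖ := by
    rw [add_sub_add_comm, ← smul_sub]
    refine (norm_add_le _ _).trans ?_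
    rw [norm_smul, Real.norm_of_nonneg (by positivity)]
    gcongr
  rw [hh, hh, ← smul_sub, norm_smul, Real.norm_of_nonneg (Real.sqrt_nonneg s)]
  calc _ ≤ √s * (2 * (‖p - p'‖ + √s * h * ‖x - x'‖)) := by gcongr; exact e1.trans (by linarith)
    _ = _ := by ring

lemma tn0 (h0 : 0 < h) (l : Fin (K + 1)) : 0 ≤ h * node l := mul_nonneg h0.le (node_nonneg l)

lemma tn1 (h0 : 0 < h) (l : Fin (K + 1)) : h * node l ≤ h :=
  mul_le_of_le_one_right h0.le (node_le l)

lemma sum_smul_le {L : Type} (t : Finset L) (c : L → ℝ) (u : L → Euc ι) {a C : ℝ} (ha : 0 ≤ a)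
    (hu : ∀ l, ‖u l‖ ≤ a) (hc : ∑ l ∈ t, |c l| ≤ C) : ‖∑ l ∈ t, c l • u l‖ ≤ C * a := by
  refine (norm_sum_le _ _).trans (le_trans ?_ (mul_le_mul_of_nonneg_right hc ha))
  rw [Finset.sum_mul]
  refine Finset.sum_le_sum fun l _ => ?_
  rw [norm_smul, Real.norm_eq_abs]
  exact mul_le_mul_of_nonneg_left (hu l) (abs_nonneg _)

lemma om_abs' (W : Wts K) (h0 : 0 < h) {τ : ℝ} (τ0 : 0 ≤ τ) (τ1 : τ ≤ 1) :
    ∑ l, |h * W.om τ l| ≤ W.C * h := by
  simp only [abs_mul, abs_of_pos h0, ← Finset.mul_sum]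
  rw [mul_comm W.C]
  have := W.one_le
  exact mul_le_mul_of_nonneg_left ((W.om_abs τ τ0 τ1).trans
    (mul_le_of_le_one_right (by linarith) τ1)) h0.le

lemma pic_lipU (W : Wts K) (hV : InClass V) (hs : 0 < s) (hs1 : s ≤ 1 / 16) (h0 : 0 < h)
    (h2 : h ≤ 1 / 2) (hc : W.C * h ≤ 1) (p p' v v' : Euc ι) (k : ℕ) (l : Fin (K + 1)) :
    ‖pic W h (gU V s p h) v k l - pic W h (gU V s p' h) v' k l‖ ≤
      2 * ‖v - v'‖ + 4 * √s * ‖p - p'‖ := by
  have a0 := Real.sqrt_nonneg s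
  have a1 := norm_nonneg (v - v')
  have a2 := norm_nonneg (p - p')
  have a3 : 0 ≤ √s * ‖p - p'‖ := by positivity
  induction k generalizing l with
  | zero => show ‖v - v'‖ ≤ _; linarith
  | succ k ih =>
    obtain ⟨e, he⟩ : ∃ e, e = 2 * ‖v - v'‖ + 4 * √s * ‖p - p'‖ := ⟨_, rfl⟩
    have e0 : 0 ≤ e := by rw [he]; positivity
    rw [← he] at ih
    simp only [pic, outp]
    rw [add_sub_add_comm, ← Finset.sum_sub_distrib]
    simp only [← smul_sub]
    have e1 := sum_smul_le Finset.univ (fun m => h * W.om (node l) m)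
      (fun m => gU V s p h m (pic W h (gU V s p h) v k m) -
        gU V s p' h m (pic W h (gU V s p' h) v' k m))
      (a := 2 * √s * (‖p - p'‖ + √s * h * e)) (by positivity) (fun m => by
        rw [gU, gU, neg_sub_neg, norm_sub_rev]
        refine (hh_lipU hV hs hs1 (tn0 h0 m) (tn1 h0 m) h2 _ _ _ _).trans ?_
        gcongr
        exact ih m) (om_abs' W h0 (node_nonneg l) (node_le l))
    have e2 := mul_le_of_le_one_left
      (show 0 ≤ 2 * √s * (‖p - p'‖ + √s * h * e) by positivity) hc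
    have e3 : 2 * √s * (‖p - p'‖ + √s * h * e) = 2 * (√s * ‖p - p'‖) + 2 * (s * h) * e := by
      conv_rhs => rw [← Real.mul_self_sqrt hs.le]
      rw [Real.sqrt_mul_self a0]; ring
    have e4 : 2 * (s * h) * e ≤ 1 / 2 * e := mul_le_mul_of_nonneg_right (by nlinarith) e0
    refine (norm_add_le _ _).trans ?_
    linarith

lemma EB.of_fst {S S' G : Type} [MeasurableSpace S] [MeasurableSpace S'] [NormedAddCommGroup G]
    {P : Measure S} {P' : Measure S'} [IsProbabilityMeasure P] [IsProbabilityMeasure P']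
    {F : S → G} {a : ℝ} (h : EB (P.prod P') (fun w => F w.1) a)
    (m : Measurable fun w => ‖F w‖) : EB P F a := by
  have m' : Measurable fun w => ‖F w‖ₑ := by
    simpa only [← ofReal_norm_eq_enorm] using m.ennreal_ofReal
  have := lintegral_map (μ := P.prod P') m' measurable_fst
  rw [Measure.map_fst_prod, measure_univ, one_smul] at this
  unfold EB at h ⊢
  rw [this]; exact h

lemma EB.poly {S G : Type} [MeasurableSpace S] [NormedAddCommGroup G] [NormedSpace ℝ G]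
    {P : Measure S} [IsProbabilityMeasure P] {A : ℕ → S → G} {c a : ℝ} (hc : 0 ≤ c) (ha : 0 ≤ a)
    (m : ∀ j, Measurable fun w => ‖A j w‖) (h0 : ∀ w, ‖A 0 w‖ ≤ c)
    (h1 : ∀ j, 1 ≤ j → j ≤ K → EB P (A j) a) {θ : ℕ → ℝ} (hθ : ∀ j, |θ j| ≤ 1) :
    EB P (fun w => ∑ j ∈ Finset.range (K + 1), θ j • A j w) (c + K * a) := by
  have e : ∀ j w, ‖θ j • A j w‖ ≤ ‖A j w‖ := fun j w => by
    rw [norm_smul, Real.norm_eq_abs]; exact mul_le_of_le_one_left (norm_nonneg _) (hθ j)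
  have := EB.domSum (P := P) (Finset.range K)
    (F := fun w => ∑ j ∈ Finset.range (K + 1), θ j • A j w) (Fi := fun j => A (j + 1))
    (a := fun _ => a) (ci := fun _ => 1) (c := c)
    (fun j hj => h1 _ (by omega) (Finset.mem_range.1 hj)) (fun j _ => m _) (fun _ _ => ha) hc
    (fun _ _ => zero_le_one) fun w => by
      rw [Finset.sum_range_succ', add_comm]
      refine (norm_add_le _ _).trans (add_le_add ((e 0 w).trans (h0 w)) ?_)
      exact (norm_sum_le _ _).trans (Finset.sum_le_sum fun j _ => by rw [one_mul]; exact e _ w)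
  simpa using this

lemma coef_le {t : ℝ} (t0 : 0 ≤ t) (t1 : t ≤ 1) (j : ℕ) : |t ^ j / (j.factorial : ℝ)| ≤ 1 := by
  have : (1 : ℝ) ≤ j.factorial := by exact_mod_cast j.factorial_pos
  rw [abs_of_nonneg (by positivity), div_le_one (by linarith)]
  exact (pow_le_one₀ t0 t1).trans this

lemma tay_fst {S G : Type} [AddCommGroup G] [Module ℝ G] (A : ℕ → S → G × G) (t : ℝ) (w : S) :
    (tay K A t w).1 = tay K (fun j w => (A j w).1) t w := by
  simp [tay, Prod.fst_sum]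

lemma tayI_fst {S G : Type} [AddCommGroup G] [Module ℝ G] (A : ℕ → S → G × G) (t : ℝ) (w : S) :
    (tayI K A t w).1 = tayI K (fun j w => (A j w).1) t w := by
  simp [tayI, Prod.fst_sum]

lemma hh_contU (hV : InClass V) (hs : 0 < s) (p : Euc ι) {t : ℝ} (t0 : 0 ≤ t) (t1 : t ≤ 1 / 2) :
    Continuous (hh V s p t) := by
  have e0 : t ^ 2 ≤ 1 / 4 := by nlinarith
  have e1 := fs_cont hV (s := s * (1 - t ^ 2)) (mul_pos hs (by linarith))
  unfold hh
  fun_prop

end Lip

/-- The first components of the transport expansion without coupling. -/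
lemma transportU {K : ℕ} : ∃ C : ℝ, 0 ≤ C ∧ ∀ (ι : Type) [Fintype ι] [DecidableEq ι]
    (V : Euc ι → ℝ), InClass V → ∀ s : ℝ, 0 < s → s ≤ 1 / 16 → ∀ p : Euc ι,
    ∃ A : ℕ → Euc ι × Euc ι → Euc ι, (∀ j, Continuous (A j)) ∧ (∀ w, A 1 w = -(s • Ms V s p w.1)) ∧
      ∀ t : ℝ, 0 ≤ t → t ≤ 1 / 2 →
        EB ((gam ι).prod (gam ι)) (tay K A t) (C * (√(dm ι) + √s * ‖p‖)) ∧
        EB ((gam ι).prod (gam ι)) (tayI K A t) (C * (√(dm ι) + √s * ‖p‖)) ∧
        EB ((gam ι).prod (gam ι)) (fun w => tay K A t w + hh V s p t (w.1 + tayI K A t w))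
          (C * t ^ (K + 1) * s * √(dm ι)) ∧
        WD ((gam ι).prod (gam ι)) (fun w => w.1 + tayI K A t w) (loc V s p t) (fun x => x)
          (C * t ^ (K + 1) * s * √(dm ι)) := by
  obtain ⟨C, hC, h⟩ := transport K
  refine ⟨3 + K * C + 2 * C, by positivity, fun ι _ _ V hV s hs hs1 p => ?_⟩
  obtain ⟨A, cA, a0, a1, aj, hw⟩ := h ι V hV s hs hs1 p 0 (by simp)
  simp only [abs_zero, zero_mul, add_zero, zero_smul, sub_zero] at a0 aj hw
  have d0 := Real.sqrt_nonneg (dm ι)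
  have p0 : 0 ≤ √s * ‖p‖ := by positivity
  have cA1 : ∀ j, Continuous fun w => (A j w).1 := fun j => (cA j).fst
  refine ⟨fun j w => (A j w).1, cA1, a1 rfl, fun t t0 t1 => ?_⟩
  have hp : ∀ θ : ℕ → ℝ, (∀ j, |θ j| ≤ 1) → EB ((gam ι).prod (gam ι))
      (fun w => ∑ j ∈ Finset.range (K + 1), θ j • (A j w).1)
      ((3 + K * C + 2 * C) * (√(dm ι) + √s * ‖p‖)) := by
    intro θ hθ
    refine (EB.poly (A := fun j w => (A j w).1) (c := √(dm ι) + 3 * (√s * ‖p‖))
      (a := C * s * √(dm ι)) (by positivity) (by positivity)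
      (fun j => (cA1 j).norm.measurable) (fun w => ?_)
      (fun j h1 h2 => (aj j h1 h2).of_le fun w => norm_fst_le _) hθ).mono ?_
    · rw [a0, norm_neg, norm_smul, Real.norm_of_nonneg (Real.sqrt_nonneg s)]
      exact fs_norm hV hs hs1 p
    · have e1 : K * (C * s * √(dm ι)) ≤ K * (C * 1 * (√(dm ι) + √s * ‖p‖)) := by
        gcongr <;> linarith
      have e2 : 0 ≤ C * (√(dm ι) + √s * ‖p‖) := by positivity
      nlinarith
  have := loc_prob hV hs (by linarith) p (ρ := t) (by rw [abs_of_nonneg t0]; linarith)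
  have := mu_prob hV hs (by linarith) p (ρ := t) (by rw [abs_of_nonneg t0]; linarith)
  have hw' := hw t t0 t1
  have c1 : Continuous (tay K (fun j w => (A j w).1) t) := by
    unfold tay; fun_prop
  have c2 : Continuous (tayI K (fun j w => (A j w).1) t) := by
    unfold tayI; fun_prop
  have c3 := hh_contU hV hs p t0 t1
  have e0 : 0 ≤ t ^ (K + 1) * s * √(dm ι) := by positivity
  have e1 : 0 ≤ (K : ℝ) * C := by positivity
  refine ⟨hp _ fun j => coef_le t0 (by linarith) j,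
    hp _ fun j => coef_le t0 (by linarith) (j + 1), ?_, ?_⟩
  · have k := hw'.lip (Ψ := fun q : (Euc ι × Euc ι) × Euc ι × Euc ι => q.2.1 + hh V s p t q.1.1)
      (L := 2) (by norm_num) fun x y => by
        rw [add_sub_add_comm]
        refine (norm_add_le _ _).trans ?_
        have k1 := hh_lipU hV hs hs1 t0 t1 le_rfl p p x.1.1 y.1.1
        have k2 : ‖x.2.1 - y.2.1‖ ≤ ‖x - y‖ := (norm_fst_le (x - y).2).trans (norm_snd_le _)
        have k3 : ‖x.1.1 - y.1.1‖ ≤ ‖x - y‖ := (norm_fst_le (x - y).1).trans (norm_fst_le _)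
        have k4 : 2 * √s * (‖p - p‖ + √s * (1 / 2) * ‖x.1.1 - y.1.1‖) =
            √s * √s * ‖x.1.1 - y.1.1‖ := by rw [sub_self, norm_zero]; ring
        rw [k4, Real.mul_self_sqrt hs.le] at k1
        have k5 : s * ‖x.1.1 - y.1.1‖ ≤ 1 * ‖x - y‖ := by gcongr; linarith
        linarith
    simp only [Prod.fst_add, tay_fst, tayI_fst, neg_add_cancel] at k
    refine (k.toEB (a := 0) (Continuous.measurable (by fun_prop)) measurable_const le_rfl
      (EB.const fun _ => by simp)).mono ?_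
    nlinarith
  · have k := hw'.lip (Ψ := fun q : (Euc ι × Euc ι) × Euc ι × Euc ι => q.1.1)
      (L := 1) (by norm_num) fun x y => by
        rw [one_mul]; exact (norm_fst_le (x - y).1).trans (norm_fst_le _)
    simp only [Prod.fst_add, tayI_fst] at k
    refine (WD.of_comp_map (T := Prod.fst) measurable_fst (P'' := mu V s p t) (by
      rw [mu, Measure.map_fst_prod, measure_univ, one_smul]) measurable_id k.symm).symm.mono ?_
    nlinarith

theorem schemeU_err {K : ℕ} (hK : 1 ≤ K) (W : Wts K) : ∃ C : ℝ, 1 ≤ C ∧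
    ∀ (ι : Type) [Fintype ι] [DecidableEq ι] (V : Euc ι → ℝ), InClass V → ∀ s : ℝ, 0 < s →
    s ≤ 1 / 16 → ∀ p : Euc ι,
      (∀ t : ℝ, 0 ≤ t → t ≤ 1 / 2 →
        EB (loc V s p t) (fun x => x) (C * (√(dm ι) + √s * ‖p‖))) ∧
      ∀ h : ℝ, 0 < h → h ≤ 1 / C →
        EB (gam ι) (fun v => Mhat W V s p h v - s • Ms V s p v)
          (C * h ^ K * s * (√(dm ι) + √s * ‖p‖)) ∧
        ∀ τ : ℝ, 0 ≤ τ → τ ≤ 1 →
          WD (gam ι) (fun ξ => p + ytop W V s p h τ ξ) (loc V s p (h * τ))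
            (fun x => p + (√s * (h * τ)) • x) (C * h ^ K * √s * (√(dm ι) + √s * ‖p‖)) := by
  obtain ⟨C, hC, h⟩ := transportU (K := K)
  have hW := W.one_le
  have hWC : 0 ≤ W.C * C := by positivity
  refine ⟨8 * W.C * (C + 1), by nlinarith, fun ι _ _ V hV s hs hs1 p => ?_⟩
  obtain ⟨A, cA, a1, hA⟩ := h ι V hV s hs hs1 p
  clear h
  have d0 := Real.sqrt_nonneg (dm ι)
  have r0 := Real.sqrt_nonneg s
  obtain ⟨U, hU⟩ : ∃ U, U = √(dm ι) + √s * ‖p‖ := ⟨_, rfl⟩
  have dU : √(dm ι) ≤ U := by rw [hU]; exact le_add_of_nonneg_right (by positivity)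
  have U0 : 0 ≤ U := d0.trans dU
  rw [← hU] at hA ⊢
  have c1 : ∀ t, Continuous (tay K A t) := fun t => by unfold tay; fun_prop
  have c2 : ∀ t, Continuous (tayI K A t) := fun t => by unfold tayI; fun_prop
  have hb : ∀ t : ℝ, 0 ≤ t → ∀ h : ℝ, t ≤ h → h ≤ 1 / 2 →
      C * t ^ (K + 1) * s * √(dm ι) ≤ C * h ^ K * h * s * U := by
    intro t t0 h th h2
    have : 0 ≤ h := t0.trans th
    rw [mul_assoc C (h ^ K), ← pow_succ]
    gcongr
  refine ⟨fun t t0 t1 => ?_, fun h h0 h1 => ?_⟩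
  · obtain ⟨-, e2, -, e4⟩ := hA t t0 t1
    have := loc_prob hV hs (by linarith) p (ρ := t) (by rw [abs_of_nonneg t0]; linarith)
    have e5 := EB.dom2 (F := fun w => w.1 + tayI K A t w) (c := 0) (c₁ := 1) (c₂ := 1)
      (EB.fst (P' := gam ι) EB.gam (by fun_prop)) e2 (by fun_prop) d0 (by positivity) le_rfl
      zero_le_one zero_le_one fun w => by simpa using norm_add_le _ _
    refine (e4.symm.toEB measurable_id (Continuous.measurable (by fun_prop)) (by positivity)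
      e5).mono ?_
    have e6 : C * t ^ (K + 1) * s * √(dm ι) ≤ C * 1 * 1 * U := by
      gcongr
      · exact pow_le_one₀ t0 (by linarith)
      · linarith
    have e7 : (2 * C + 1) * U ≤ 8 * W.C * (C + 1) * U := by gcongr; nlinarith
    linarith
  have hc : W.C * h ≤ 1 / 8 := by
    rw [le_div_iff₀ (by positivity)] at h1
    nlinarith [mul_nonneg hWC h0.le]
  have h2 : h ≤ 1 / 2 := by nlinarith
  have mg : ∀ l : Fin (K + 1), Continuous (gU V s p h l) := fun l =>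
    (hh_contU hV hs p (tn0 h0 l) ((tn1 h0 l).trans h2)).neg
  have lg : ∀ (l : Fin (K + 1)) x y, ‖gU V s p h l x - gU V s p h l y‖ ≤ 2 * s * h * ‖x - y‖ := by
    intro l x y
    rw [gU, gU, neg_sub_neg, norm_sub_rev]
    refine (hh_lipU hV hs hs1 (tn0 h0 l) (tn1 h0 l) h2 _ _ _ _).trans (le_of_eq ?_)
    conv_rhs => rw [← Real.mul_self_sqrt hs.le]
    rw [sub_self, norm_zero]; ring
  have sh : 2 * s * h ≤ h := by nlinarith
  have sh0 : 0 ≤ 2 * s * h := by positivity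
  obtain ⟨ε, hε⟩ : ∃ ε, ε = C * h ^ K * h * s * U := ⟨_, rfl⟩
  have ε0 : 0 ≤ ε := by rw [hε]; positivity
  have e1 : ∀ l : Fin (K + 1), EB ((gam ι).prod (gam ι)) (fun w => tay K A (h * node l) w -
      gU V s p h l (w.1 + tayI K A (h * node l) w)) ε := fun l => by
    simp only [gU, sub_neg_eq_add]
    exact (hA _ (tn0 h0 l) ((tn1 h0 l).trans h2)).2.2.1.mono
      (hε ▸ hb _ (tn0 h0 l) h (tn1 h0 l) h2)
  obtain ⟨k1, k2⟩ := colloc W (P := (gam ι).prod (gam ι)) (b := fun w => w.1) (A := A)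
    (g := fun _ => gU V s p h) (L := 2 * s * h) (ε := ε) (m := C * U) h0.le sh0 ε0
    (by positivity) (by nlinarith) measurable_fst (fun j => (cA j).measurable)
    (fun l => (mg l).measurable.comp measurable_snd) (fun _ => lg) e1
    (fun l => (hA _ (tn0 h0 l) ((tn1 h0 l).trans h2)).1) K
  obtain ⟨Z, hZ⟩ : ∃ Z, Z = C * h ^ K * U := ⟨_, rfl⟩
  have Z0 : 0 ≤ Z := by rw [hZ]; positivity
  have εZ : ε = Z * s * h := by rw [hε, hZ]; ring
  have hη : 2 * (W.C * h) * ε + (W.C * h * (2 * s * h)) ^ K * (W.C * h * (C * U)) ≤ Z := by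
    have n1 : (W.C * h * (2 * s * h)) ^ K * (W.C * h * (C * U)) ≤ h ^ K * (1 / 8 * (C * U)) := by
      gcongr
      nlinarith
    have n2 : 2 * (W.C * h) * ε ≤ 2 * (1 / 8) * (Z * 1 * 1) := by
      rw [εZ]; gcongr <;> linarith
    have n3 : h ^ K * (1 / 8 * (C * U)) = Z / 8 := by rw [hZ]; ring
    linarith
  have mp : ∀ l, Measurable fun v => pic W h (gU V s p h) v K l := fun l =>
    pic_meas W h (g := fun _ : Euc ι => gU V s p h) measurable_id
      (fun l => (mg l).measurable.comp measurable_snd) K l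
  refine ⟨?_, fun τ τ0 τ1 => ?_⟩
  · have mM : Measurable fun v => Mhat W V s p h v - s • Ms V s p v := by
      have m1 : ∀ l : Fin (K + 1), Measurable fun v =>
          hh V s p (h * node l) (pic W h (gU V s p h) v K l) := fun l =>
        (hh_contU hV hs p (tn0 h0 l) ((tn1 h0 l).trans h2)).measurable.comp (mp l)
      have m2 : Measurable fun v => ∑ l, W.al l •
          hh V s p (h * node l) (pic W h (gU V s p h) v K l) :=
        Finset.measurable_sum _ fun l _ => (m1 l).const_smul (W.al l)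
      exact (m2.const_smul (1 / h)).sub (Continuous.measurable (by fun_prop))
    refine EB.of_fst (P' := gam ι) ?_ mM.norm
    have e2 : ∀ l : Fin (K + 1), EB ((gam ι).prod (gam ι)) (fun w => tay K A (h * node l) w -
        gU V s p h l (pic W h (gU V s p h) w.1 K l)) (0 + 1 * ε + 2 * s * h * Z) := fun l =>
      EB.dom2 (e1 l) ((k1 l).mono hη) (Continuous.measurable (by fun_prop)) ε0 Z0 le_rfl
        zero_le_one sh0 fun w => by
          have := lg l (w.1 + tayI K A (h * node l) w) (pic W h (gU V s p h) w.1 K l)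
          rw [norm_sub_rev (w.1 + _)] at this
          have := norm_sub_le_norm_sub_add_norm_sub (tay K A (h * node l) w)
            (gU V s p h l (w.1 + tayI K A (h * node l) w))
            (gU V s p h l (pic W h (gU V s p h) w.1 K l))
          linarith
    refine (EB.domSum Finset.univ (fun l _ => e2 l) (ci := fun l => |W.al l| / h) (c := 0)
      (fun l _ => ((c1 _).measurable.sub
        ((mg l).measurable.comp ((mp l).comp measurable_fst))).norm)
      (fun _ _ => by positivity) le_rfl (fun _ _ => by positivity) fun w => ?_).mono ?_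
    · have e3 : Mhat W V s p h w.1 - s • Ms V s p w.1 = ∑ l, (W.al l / h) •
          (tay K A (h * node l) w - gU V s p h l (pic W h (gU V s p h) w.1 K l)) := by
        have e4 := tay_fd W hK A h w
        rw [a1] at e4
        simp only [gU, sub_neg_eq_add, smul_add, Finset.sum_add_distrib, div_eq_inv_mul, mul_smul,
          ← Finset.smul_sum, e4, Mhat, mul_one]
        rw [inv_smul_smul₀ h0.ne']
        abel
      rw [e3, zero_add]
      refine (norm_sum_le _ _).trans (le_of_eq (Finset.sum_congr rfl fun l _ => ?_))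
      rw [norm_smul, Real.norm_eq_abs, abs_div, abs_of_pos h0]
    · rw [← Finset.sum_mul, ← Finset.sum_div, zero_add, εZ]
      calc _ ≤ W.C / h * (0 + 1 * (Z * s * h) + 2 * s * h * Z) := by
            gcongr; exact W.al_abs
        _ = 3 * W.C * C * h ^ K * s * U := by rw [hZ]; field_simp; ring
        _ ≤ _ := by gcongr ?_ * _ * _ * _; nlinarith
  · have t0 : 0 ≤ h * τ := by positivity
    have t1 : h * τ ≤ h := mul_le_of_le_one_right h0.le τ1
    have mo : Measurable fun v => outp W h (gU V s p h) v (pic W h (gU V s p h) v K) τ :=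
      outp_meas W h (g := fun _ : Euc ι => gU V s p h) measurable_id
        (fun l => (mg l).measurable.comp measurable_snd) K τ
    have w1 := WD.of_EB (mo.comp measurable_fst) (F' := fun w => w.1 + tayI K A (h * τ) w)
      (Continuous.measurable (by fun_prop)) Z0 ((k2 τ τ0 τ1).mono hη)
    have w2 := WD.of_comp_map (T := Prod.fst) measurable_fst (P'' := (gam ι).prod (gam ι))
      (by rw [Measure.map_fst_prod, measure_univ, one_smul]) mo
      (w1.trans (hA _ t0 (t1.trans h2)).2.2.2)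
    refine (w2.lip (Ψ := fun x => p + (√s * (h * τ)) • x) (L := √s) r0 fun x y => ?_).mono ?_
    · rw [add_sub_add_left_eq_sub, ← smul_sub, norm_smul, Real.norm_of_nonneg (by positivity)]
      gcongr
      exact mul_le_of_le_one_right r0 (by linarith)
    · have n1 := hb _ t0 h t1 h2
      rw [← hε, εZ] at n1
      have n2 : Z * s * h ≤ Z * 1 * 1 := by gcongr <;> linarith
      calc _ ≤ √s * (2 * Z) := by gcongr; linarith
        _ = 2 * C * h ^ K * √s * U := by rw [hZ]; ring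
        _ ≤ _ := by gcongr ?_ * _ * _ * _; nlinarith

variable {ι : Type} [Fintype ι] [DecidableEq ι] {K : ℕ} {κ : Type} [Fintype κ]

section Nodes
variable (W : Wts K) {B : Bar κ} {yP yv : Fn ι κ} {aP av : κ → ℝ} {SP Sv TP Tv : ℝ}
    {NP Nv : ℕ} (hP : Vec B yP aP SP TP NP) (hv : Vec B yv av Sv Tv Nv) {s' h : ℝ}
    (hs : 0 < B.s) (h1 : B.s / 3 ≤ s') (h2 : s' ≤ B.s) (h0 : 0 < h) (hh2 : h ≤ 1 / 2)
    (D1 : ∀ j, |aP j| + √B.s * h * |av j| ≤ B.ab j)
    (D2 : |SP| + √B.s * h * |Sv| + B.s * h ^ 2 ≤ B.Sb)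
    (D3 : TP + √B.s * h * Tv + W.C * B.s * h ^ 2 ≤ B.Tb) (D4 : NP + Nv + (K + 1) ≤ B.Nb)

include hP hs h1 h2 h0 hh2 D1 D2 D3 D4 in
lemma hh_nlU {yx : Fn ι κ} {S : ℝ} (hS : |S| ≤ |Sv| + √B.s * h)
    (hx : Vec B yx av S (Tv + W.C * h * √B.s) (Nv + (K + 1))) (l : Fin (K + 1)) :
    NL B (fun V p v => hh V s' (p + yP V p v) (h * node l) (yx V p v)) √s' √B.s 1 := by
  have t0 := tn0 h0 l
  have t1 := tn1 h0 l
  have r0 := Real.sqrt_nonneg s'
  have r1 : √s' ≤ √B.s := Real.sqrt_le_sqrt h2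
  have r2 := Real.mul_self_sqrt hs.le
  have e0 : |√s' * (h * node l)| ≤ √B.s * h := by
    rw [abs_of_nonneg (by positivity)]; gcongr
  have e1 : (h * node l) ^ 2 ≤ 1 / 4 := by nlinarith
  have hT := hx.T_nonneg
  refine NL.mono _ _ _ _ _ _ (((hP.add (hx.smul (√s' * (h * node l)))).term (fun j => ?_) ?_ ?_
    (by omega) √s' (s' := s' * (1 - (h * node l) ^ 2)) (by nlinarith)
    (by nlinarith [sq_nonneg (h * node l)])).congr (fun V p v => by rw [hh, add_assoc]) rfl)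
    (by rw [abs_of_nonneg r0]; exact r1) le_rfl
  · refine (abs_add_le _ _).trans (le_trans ?_ (D1 j))
    rw [abs_mul]; gcongr
  · refine (abs_add_le _ _).trans (le_trans ?_ D2)
    rw [abs_mul]
    calc _ ≤ |SP| + √B.s * h * (|Sv| + √B.s * h) := by gcongr
      _ = |SP| + √B.s * h * |Sv| + √B.s * √B.s * h ^ 2 := by ring
      _ = _ := by rw [r2]
  · refine le_trans ?_ D3
    calc _ ≤ TP + √B.s * h * (Tv + W.C * h * √B.s) := by gcongr
      _ = TP + √B.s * h * Tv + W.C * (√B.s * √B.s) * h ^ 2 := by ring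
      _ = _ := by rw [r2]

include hP hv hs h1 h2 h0 hh2 D1 D2 D3 D4 in
lemma outp_vecU {Y : (Euc ι → ℝ) → Euc ι → (κ → Euc ι) → Fin (K + 1) → Euc ι}
    (hY : ∀ l, ∃ S, |S| ≤ |Sv| + √B.s * h ∧
      Vec B (fun V p v => Y V p v l) av S (Tv + W.C * h * √B.s) (Nv + (K + 1))) {τ : ℝ}
    (τ0 : 0 ≤ τ) (τ1 : τ ≤ 1) : ∃ S, |S| ≤ |Sv| + √B.s * h ∧
      Vec B (fun V p v => outp W h (gU V s' (p + yP V p v) h) (yv V p v) (Y V p v) τ) av S
        (Tv + W.C * h * √B.s) (Nv + (K + 1)) := by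
  have e := NL.sum Finset.univ fun l _ => (hh_nlU W hP hs h1 h2 h0 hh2 D1 D2 D3 D4
    (hY l).choose_spec.1 (hY l).choose_spec.2 l).smul (-(h * W.om τ l))
  refine ⟨_, ?_, ((hv.add e.vec).congr (fun V p v => ?_) (fun j => (add_zero _).symm) rfl).mono
    ?_ (by simp)⟩
  · have m := W.om_mom τ 0 (Nat.zero_le _)
    simp only [pow_zero, mul_one, zero_add, pow_one, Nat.cast_zero, div_one] at m
    refine (abs_add_le _ _).trans ?_
    rw [← Finset.sum_mul, Finset.sum_neg_distrib, ← Finset.mul_sum, m, abs_mul, abs_neg,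
      abs_of_nonneg (mul_nonneg h0.le τ0), abs_of_nonneg (Real.sqrt_nonneg s'), mul_comm]
    gcongr
    exact mul_le_of_le_one_right h0.le τ1
  · simp only [outp, gU, neg_smul, smul_neg]
  · simp only [abs_neg, ← Finset.sum_mul]
    gcongr
    exact om_abs' W h0 τ0 τ1

include hP hv hs h1 h2 h0 hh2 D1 D2 D3 D4 in
lemma pic_vecU (k : ℕ) (l : Fin (K + 1)) : ∃ S, |S| ≤ |Sv| + √B.s * h ∧
    Vec B (fun V p v => pic W h (gU V s' (p + yP V p v) h) (yv V p v) k l) av S
      (Tv + W.C * h * √B.s) (Nv + (K + 1)) := by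
  have := W.one_le
  induction k generalizing l with
  | zero =>
    exact ⟨Sv, le_add_of_nonneg_right (by positivity),
      hv.mono (le_add_of_nonneg_right (by positivity)) (by omega)⟩
  | succ k ih =>
    exact outp_vecU W hP hv hs h1 h2 h0 hh2 D1 D2 D3 D4
      (Y := fun V p v => pic W h (gU V s' (p + yP V p v) h) (yv V p v) k) ih (node_nonneg l)
      (node_le l)

end Nodes

theorem Mhat_nl (W : Wts K) {B : Bar κ} {yP yv : Fn ι κ} {aP av : κ → ℝ} {SP Sv TP Tv : ℝ}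
    {NP Nv : ℕ} (hP : Vec B yP aP SP TP NP) (hv : Vec B yv av Sv Tv Nv) {s' h : ℝ}
    (hs : 0 < B.s) (h1 : B.s / 3 ≤ s') (h2 : s' ≤ B.s) (hh : 0 < h) (hh2 : h ≤ 1 / 2)
    (D1 : ∀ j, |aP j| + √B.s * h * |av j| ≤ B.ab j)
    (D2 : |SP| + √B.s * h * |Sv| + B.s * h ^ 2 ≤ B.Sb)
    (D3 : TP + √B.s * h * Tv + W.C * B.s * h ^ 2 ≤ B.Tb) (D4 : NP + Nv + (K + 1) ≤ B.Nb) :
    NL B (fun V p v => Mhat W V s' (p + yP V p v) h (yv V p v)) 0 (W.C * √B.s / h) (K + 1) := by
  have hp := pic_vecU W hP hv hs h1 h2 hh hh2 D1 D2 D3 D4 K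
  have e := (NL.sum Finset.univ fun l _ => (hh_nlU W hP hs h1 h2 hh hh2 D1 D2 D3 D4
    (hp l).choose_spec.1 (hp l).choose_spec.2 l).smul (W.al l)).smul (1 / h)
  have m := W.al_mom 0 (Nat.zero_le _)
  simp only [pow_zero, mul_one, zero_ne_one, if_false] at m
  refine NL.mono _ _ _ _ _ _ (e.congr (fun V p v => rfl) ?_) ?_ (by simp)
  · rw [← Finset.sum_mul, m]; simp
  · rw [← Finset.sum_mul, abs_of_pos (by positivity), one_div_mul_eq_div]
    gcongr
    exact W.al_abs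

theorem Mhat_lip (W : Wts K) {V : Euc ι → ℝ} (hV : InClass V) {s h : ℝ} (hs : 0 < s)
    (hs1 : s ≤ 1 / 16) (hh : 0 < h) (hh2 : h ≤ 1 / 2) (hc : W.C * h ≤ 1) (p p' v v' : Euc ι) :
    ‖Mhat W V s p h v - Mhat W V s p' h v'‖ ≤
      4 * W.C * (√s / h * ‖p - p'‖ + s * ‖v - v'‖) := by
  have a0 := Real.sqrt_nonneg s
  have hW := W.one_le
  have e1 := sum_smul_le Finset.univ W.al
    (fun l => P347.hh V s p (h * node l) (pic W h (gU V s p h) v K l) -
      P347.hh V s p' (h * node l) (pic W h (gU V s p' h) v' K l))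
    (a := 2 * √s * (‖p - p'‖ + √s * h * (2 * ‖v - v'‖ + 4 * √s * ‖p - p'‖))) (by positivity)
    (fun l => (hh_lipU hV hs hs1 (tn0 hh l) (tn1 hh l) hh2 _ _ _ _).trans (by
      gcongr; exact pic_lipU W hV hs hs1 hh hh2 hc p p' v v' K l)) W.al_abs
  simp only [smul_sub, Finset.sum_sub_distrib] at e1
  rw [Mhat, Mhat, ← smul_sub, norm_smul, Real.norm_of_nonneg (by positivity)]
  have r2 := Real.mul_self_sqrt hs.le
  calc _ ≤ 1 / h * (W.C * (2 * √s * (‖p - p'‖ + √s * h *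
        (2 * ‖v - v'‖ + 4 * √s * ‖p - p'‖)))) := by gcongr
    _ = 2 * W.C * (√s / h * ‖p - p'‖ * (1 + 4 * (√s * √s * h)) +
        2 * (√s * √s * ‖v - v'‖)) := by field_simp; ring
    _ ≤ 2 * W.C * (√s / h * ‖p - p'‖ * 2 + 2 * (√s * √s * ‖v - v'‖)) := by
        gcongr; rw [r2]; nlinarith
    _ = _ := by rw [r2]; ring

theorem ytop_vec (W : Wts K) {s h τ : ℝ} (hs : 0 < s) (hh : 0 < h) (hh2 : h ≤ 1 / 2) (h0 : 0 ≤ τ)
    (h1 : τ ≤ 1) : ∃ S : ℝ, |S| ≤ s ∧
      Vec (⟨s, fun _ => √s * h, s, W.C * s, K + 1⟩ : Bar Unit)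
        (fun (V : Euc ι → ℝ) p v => ytop W V s p h τ (v ())) (fun _ => √s * (h * τ)) S
        (W.C * s) (K + 1) := by
  have hW := W.one_le
  have a0 := Real.sqrt_nonneg s
  have r2 := Real.mul_self_sqrt hs.le
  have q1 : h ^ 2 ≤ 1 := pow_le_one₀ hh.le (by linarith)
  obtain ⟨B, hB⟩ : ∃ B : Bar Unit, B = ⟨s, fun _ => √s * h, s, W.C * s, K + 1⟩ := ⟨_, rfl⟩
  have b1 : B.s = s := by rw [hB]
  have D1 : ∀ j : Unit, |(0 : ℝ)| + √B.s * h * |if j = () then (1 : ℝ) else 0| ≤ B.ab j := by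
    intro j; simp [hB]
  have D2 : |(0 : ℝ)| + √B.s * h * |0| + B.s * h ^ 2 ≤ B.Sb := by
    simpa [hB] using mul_le_of_le_one_right hs.le q1
  have D3 : 0 + √B.s * h * 0 + W.C * B.s * h ^ 2 ≤ B.Tb := by
    simpa [hB] using mul_le_of_le_one_right (by positivity : 0 ≤ W.C * s) q1
  have D4 : 0 + 0 + (K + 1) ≤ B.Nb := by simp [hB]
  have hs' : 0 < B.s := b1 ▸ hs
  have k1 : B.s / 3 ≤ s := by linarith
  obtain ⟨S, hS, hv⟩ := outp_vecU (ι := ι) W (Vec.zero B) (Vec.var B ()) hs' k1 b1.ge hh hh2 D1 D2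
    D3 D4 (pic_vecU W (Vec.zero B) (Vec.var B ()) hs' k1 b1.ge hh hh2 D1 D2 D3 D4 K) h0 h1
  rw [← hB]
  rw [b1] at hS hv
  have e0 : |√s * (h * τ)| ≤ √s * h := by
    rw [abs_of_nonneg (by positivity)]; gcongr; exact mul_le_of_le_one_right hh.le h1
  refine ⟨_, ?_, ((hv.smul (√s * (h * τ))).congr (fun V p v => by simp only [ytop, add_zero])
    (fun j => by simp) rfl).mono ?_ (by simp)⟩
  · rw [abs_mul]
    calc _ ≤ √s * h * (|0| + √s * h) := by gcongr
      _ = √s * √s * h ^ 2 := by rw [abs_zero]; ring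
      _ ≤ s := by rw [r2]; exact mul_le_of_le_one_right hs.le q1
  · calc _ ≤ √s * h * (0 + W.C * h * √s) := by gcongr
      _ = W.C * (√s * √s) * h ^ 2 := by ring
      _ ≤ _ := by rw [r2]; exact mul_le_of_le_one_right (by positivity) q1

theorem ytop_contr (W : Wts K) {V : Euc ι → ℝ} (hV : InClass V) {s h τ : ℝ} (hs : 0 < s)
    (hs1 : s ≤ 1 / 16) (hh : 0 < h) (hh2 : h ≤ 1 / 2) (hc : W.C * h ≤ 1) (h0 : 0 ≤ τ)
    (h1 : W.C * τ ≤ 1 / 20) (p p' ξ : Euc ι) :
    ‖(p + ytop W V s p h τ ξ) - (p' + ytop W V s p' h τ ξ)‖ ≤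
      (1 - s * (h * τ) ^ 2 / 4) * ‖p - p'‖ := by
  have hW := W.one_le
  have a0 := Real.sqrt_nonneg s
  have r2 := Real.mul_self_sqrt hs.le
  have τ1 : τ ≤ 1 / 20 := by nlinarith
  have off := W.om_off τ h0 (by linarith)
  have off' : ∑ l ∈ Finset.univ.erase 0, |W.om τ l| ≤ τ / 20 := off.trans (by nlinarith)
  have m := W.om_mom τ 0 (Nat.zero_le _)
  simp only [pow_zero, mul_one, zero_add, pow_one, Nat.cast_zero, div_one] at m
  rw [← Finset.add_sum_erase _ _ (Finset.mem_univ 0)] at m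
  have m2 := abs_le.1 ((Finset.abs_sum_le_sum_abs _ _).trans off')
  obtain ⟨θ, hθ⟩ : ∃ θ, θ = s * h ^ 2 * τ * W.om τ 0 := ⟨_, rfl⟩
  have c0 : 0 ≤ s * h ^ 2 * τ := by positivity
  have θ1 : s * h ^ 2 * τ * (19 / 20 * τ) ≤ θ := by rw [hθ]; gcongr; linarith
  have θ2 : θ ≤ 1 / 2 := by
    have c1 : s * h ^ 2 * τ ≤ 1 / 16 * (1 / 2) ^ 2 * (1 / 20) := by gcongr
    have c2 : s * h ^ 2 * τ * W.om τ 0 ≤ s * h ^ 2 * τ * 1 := by gcongr; linarith
    linarith
  have e : ∀ q : Euc ι, q + ytop W V s q h τ ξ = (q - θ • fs V s q) + ((√s * (h * τ)) • ξ +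
      (√s * (h * τ) * h) • ∑ l ∈ Finset.univ.erase 0,
        W.om τ l • gU V s q h l (pic W h (gU V s q h) ξ K l)) := by
    intro q
    have : (√s * (h * τ)) • (h * W.om τ 0) • gU (K := K) V s q h 0 (pic W h (gU V s q h) ξ K 0) =
        -(θ • fs V s q) := by
      have : θ = √s * (h * τ) * (h * W.om τ 0 * √s) := by
        rw [hθ]; conv_lhs => rw [← r2]
        ring
      simp [gU, P347.hh, node_zero, smul_smul, this]
    rw [ytop, outp, ← Finset.add_sum_erase _ _ (Finset.mem_univ 0), smul_add, smul_add, this]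
    simp only [mul_smul, ← Finset.smul_sum]
    abel
  have e1 := fs_contr hV hs hs1 (le_trans (by positivity) θ1) θ2 p p'
  have e2 := sum_smul_le (Finset.univ.erase 0) (W.om τ)
    (fun l => gU V s p h l (pic W h (gU V s p h) ξ K l) -
      gU V s p' h l (pic W h (gU V s p' h) ξ K l))
    (a := 2 * √s * (2 * ‖p - p'‖)) (by positivity) (fun l => by
      rw [gU, gU, neg_sub_neg, norm_sub_rev]
      refine (hh_lipU hV hs hs1 (tn0 hh l) (tn1 hh l) hh2 _ _ _ _).trans ?_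
      have k := pic_lipU W hV hs hs1 hh hh2 hc p p' ξ ξ K l
      rw [sub_self, norm_zero] at k
      have k2 : √s * h * (2 * 0 + 4 * √s * ‖p - p'‖) = 4 * (√s * √s * h) * ‖p - p'‖ := by ring
      have k3 : 4 * (s * h) * ‖p - p'‖ ≤ 1 * ‖p - p'‖ := by gcongr; nlinarith
      have k4 := mul_le_mul_of_nonneg_left k (show 0 ≤ √s * h by positivity)
      rw [k2, r2] at k4
      gcongr
      linarith) off'
  simp only [smul_sub, Finset.sum_sub_distrib] at e2
  rw [e, e, add_sub_add_comm, add_sub_add_left_eq_sub, ← smul_sub]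
  refine (norm_add_le _ _).trans ?_
  rw [norm_smul, Real.norm_of_nonneg (by positivity)]
  have e3 := mul_le_mul_of_nonneg_left e2 (show 0 ≤ √s * (h * τ) * h by positivity)
  have e4 : √s * (h * τ) * h * (τ / 20 * (2 * √s * (2 * ‖p - p'‖))) =
      √s * √s * (h * τ) ^ 2 / 5 * ‖p - p'‖ := by ring
  rw [e4, r2] at e3
  have e5 : (1 - θ / 2) * ‖p - p'‖ ≤ (1 - s * h ^ 2 * τ * (19 / 20 * τ) / 2) * ‖p - p'‖ := by
    gcongr
  have e6 : 0 ≤ s * (h * τ) ^ 2 * ‖p - p'‖ := by positivity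
  nlinarith

end Vale.Agent.P347
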