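import Vale.Agent.P347.RingA

/-! The smoothed Gibbs laws `π * N(0, s)` and the local flow between them. -/

open MeasureTheory ProbabilityTheory

namespace Vale.Agent.P347

variable {ι : Type} [Fintype ι] {V : Euc ι → ℝ}

/-- The law of `y + √s ζ` with `y` Gibbs and `ζ` standard Gaussian. -/
noncomputable def mus (V : Euc ι → ℝ) (s : ℝ) : Measure (Euc ι) :=
  ((gibbs V).prod (gam ι)).map fun w => w.1 + √s • w.2

lemma mus_prob (hV : InClass V) (s : ℝ) : IsProbabilityMeasure (mus V s) := by
  have := gibbs_prob hV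
  exact Measure.isProbabilityMeasure_map (Measurable.aemeasurable (by fun_prop))

lemma mus_norm (hV : InClass V) {s : ℝ} (hs1 : s ≤ 1) :
    EB (mus V s) (fun x => x) (2 * √(dm ι)) := by
  have := gibbs_prob hV
  have h1 : EB ((gibbs V).prod (gam ι)) (fun w => w.1 + √s • w.2)
      (0 + 1 * √(dm ι) + √s * √(dm ι)) := by
    refine EB.dom2 (EB.fst (gibbs_norm hV) measurable_norm) (EB.snd EB.gam measurable_norm)
      measurable_fst.norm (Real.sqrt_nonneg _) (Real.sqrt_nonneg _) le_rfl zero_le_one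
      (Real.sqrt_nonneg _) fun w => ?_
    have h2 := norm_add_le w.1 (√s • w.2)
    rw [norm_smul, Real.norm_of_nonneg (Real.sqrt_nonneg s)] at h2
    linarith
  have h3 : √s ≤ 1 := Real.sqrt_le_one.2 hs1
  have h4 : EB (mus V s) (fun x => x) (0 + 1 * √(dm ι) + √s * √(dm ι)) := by
    unfold EB mus
    rw [lintegral_map measurable_enorm (by fun_prop)]
    exact h1
  refine h4.mono ?_
  nlinarith [Real.sqrt_nonneg (dm ι)]

lemma charFun_noise (μ : Measure (Euc ι)) [IsProbabilityMeasure μ] (r : ℝ) (u : Euc ι) :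
    charFun ((μ.prod (gam ι)).map fun w => w.1 + r • w.2) u =
      charFun μ u * Complex.exp (((-(r ^ 2 * ‖u‖ ^ 2) / 2 : ℝ) : ℂ)) := by
  rw [charFun_apply, integral_map (by fun_prop) (by fun_prop)]
  have h1 : ∀ x : Euc ι, inner ℝ (r • x) u = inner ℝ x (r • u) := fun x => by
    rw [real_inner_smul_left, real_inner_smul_right]
  simp only [inner_add_left, h1, Complex.ofReal_add, add_mul, Complex.exp_add]
  rw [integral_prod_mul (fun x : Euc ι => Complex.exp (inner ℝ x u * Complex.I))
    (fun x : Euc ι => Complex.exp (inner ℝ x (r • u) * Complex.I)), ← charFun_apply,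
    ← charFun_apply, charFun_stdGaussian, norm_smul]
  congr 2
  rw [← Complex.ofReal_pow, mul_pow, Real.norm_eq_abs, sq_abs]
  push_cast
  ring

lemma mus_conv (hV : InClass V) {s r : ℝ} (hs : 0 ≤ s) :
    ((mus V s).prod (gam ι)).map (fun w => w.1 + r • w.2) = mus V (s + r ^ 2) := by
  have := gibbs_prob hV
  have := mus_prob hV s
  have := mus_prob hV (s + r ^ 2)
  refine Measure.ext_of_charFun (funext fun u => ?_)
  rw [charFun_noise, mus, mus, charFun_noise, charFun_noise, mul_assoc, ← Complex.exp_add,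
    Real.sq_sqrt hs, Real.sq_sqrt (by positivity)]
  congr 2
  push_cast
  ring

lemma mus_gibbs (hV : InClass V) {s : ℝ} (hs : 0 ≤ s) :
    WD (mus V s) (fun x => x) (gibbs V) (fun x => x) (√s * √(dm ι)) := by
  have := gibbs_prob hV
  have _ := hs
  have m1 : Measurable fun w : Euc ι × Euc ι => w.1 + √s • w.2 := by fun_prop
  refine WD.of_comp_map (P'' := (gibbs V).prod (gam ι)) m1 rfl measurable_id ?_
  have h1 : WD ((gibbs V).prod (gam ι)) (fun w => w.1 + √s • w.2) ((gibbs V).prod (gam ι))
      (fun w => w.1) (0 + √s * √(dm ι)) := by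
    refine WD.of_EB m1 measurable_fst (by positivity) (EB.dom1 (EB.snd EB.gam measurable_norm)
      (Real.sqrt_nonneg _) le_rfl (Real.sqrt_nonneg _) fun w => ?_)
    rw [add_sub_cancel_left, norm_smul, Real.norm_of_nonneg (Real.sqrt_nonneg s), zero_add]
  have h2 : WD ((gibbs V).prod (gam ι)) (fun w => w.1) (gibbs V) (fun x => x) 0 :=
    WD.of_map measurable_fst measurable_id (by
      rw [Measure.map_id']
      exact measurePreserving_fst.map_eq)
  simpa using h1.trans h2

lemma T_zero_cont [DecidableEq ι] (hV : InClass V) {s : ℝ} (hs : 0 < s) :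
    Continuous fun p : Euc ι => T V 0 s p :=
  (T_cont hV 0).comp_continuous (f := fun p : Euc ι => (s, p)) (by fun_prop) fun _ => hs

lemma T_zero_lint [DecidableEq ι] (hV : InClass V) {s : ℝ} (hs : 0 < s) (a : Euc ι) :
    ∫⁻ ζ, ENNReal.ofReal (Real.exp (-V (a - √s • ζ))) ∂(gam ι) =
      ENNReal.ofReal (Real.exp (-T V 0 s a)) := by
  have hc := hV.cont
  have hi : Integrable (fun ζ => Real.exp (-V (a + √s • ζ))) (gam ι) := by
    refine (integrable_const (1 : ℝ)).mono' (by fun_prop) (Filter.Eventually.of_forall fun ζ => ?_)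
    rw [Real.norm_of_nonneg (Real.exp_pos _).le]
    have h2 := hV.lower (a + √s • ζ)
    have h3 : 0 ≤ ‖a + √s • ζ‖ ^ 2 / 2 := by positivity
    exact Real.exp_le_one_iff.2 (by linarith)
  rw [T_zero hV hs, ofReal_integral_eq_lintegral_ofReal hi
    (Filter.Eventually.of_forall fun ζ => (Real.exp_pos _).le)]
  conv_rhs => rw [← gam_neg, lintegral_map (by fun_prop) (by fun_prop)]
  simp only [smul_neg, sub_eq_add_neg]

/-- The smoothed Gibbs law has density proportional to `exp (-V_s)`. -/
lemma mus_lint [DecidableEq ι] (hV : InClass V) {s : ℝ} (hs : 0 < s) {f : Euc ι → ENNReal}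
    (hf : Measurable f) : ∫⁻ a, f a ∂(mus V s) = (∫⁻ x, ENNReal.ofReal (Real.exp (-V x)))⁻¹ *
      ∫⁻ a, ENNReal.ofReal (Real.exp (-T V 0 s a)) * f a := by
  have := gibbs_prob hV
  have hc := hV.cont
  have h1 : ∀ ζ : Euc ι, ∫⁻ y, f (y + √s • ζ) ∂(gibbs V) =
      (∫⁻ x, ENNReal.ofReal (Real.exp (-V x)))⁻¹ *
        ∫⁻ a, ENNReal.ofReal (Real.exp (-V (a - √s • ζ))) * f a := by
    intro ζ
    rw [gibbs, lintegral_smul_measure, smul_eq_mul,
      lintegral_withDensity_eq_lintegral_mul _ (by fun_prop) (by fun_prop),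
      ← lintegral_add_right_eq_self
        (fun a => ENNReal.ofReal (Real.exp (-V (a - √s • ζ))) * f a) (√s • ζ)]
    simp only [add_sub_cancel_right, Pi.mul_apply]
  rw [mus, lintegral_map hf (by fun_prop), lintegral_prod_symm _ (by fun_prop)]
  simp only [h1]
  rw [lintegral_const_mul _ (Measurable.lintegral_prod_left (by fun_prop)),
    lintegral_lintegral_swap (by fun_prop)]
  congr 1
  refine lintegral_congr fun a => ?_
  rw [lintegral_mul_const _ (by fun_prop), T_zero_lint hV hs]

lemma rho_meas [DecidableEq ι] (hV : InClass V) {s s' : ℝ} (hs : 0 < s) (hs' : 0 < s') (r : ℝ) :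
    Measurable fun w : Euc ι × Euc ι =>
      ENNReal.ofReal (Real.exp (T V 0 s w.1 - T V 0 s' (w.1 + r • w.2))) := by
  have h1 := T_zero_cont hV hs
  have h2 := T_zero_cont hV hs'
  exact (Real.continuous_exp.comp ((h1.comp continuous_fst).sub
    (h2.comp (by fun_prop)))).measurable.ennreal_ofReal

lemma joint_map [DecidableEq ι] (hV : InClass V) {s s' : ℝ} (hs : 0 < s) (hs' : 0 < s') (r : ℝ) :
    (((mus V s).prod (gam ι)).withDensity fun w =>
      ENNReal.ofReal (Real.exp (T V 0 s w.1 - T V 0 s' (w.1 + r • w.2)))).map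
      (fun w => w.1 + r • w.2) = mus V s' := by
  have := mus_prob hV s
  have mρ := rho_meas hV hs hs' r
  have m2 := (T_zero_cont hV hs').measurable
  refine Measure.ext_of_lintegral _ fun f hf => ?_
  have m3 : Measurable fun w : Euc ι × Euc ι => f (w.1 + r • w.2) := by fun_prop
  have m4 := mρ.mul m3
  rw [lintegral_map hf (by fun_prop), lintegral_withDensity_eq_lintegral_mul _ mρ m3,
    lintegral_prod _ m4.aemeasurable, mus_lint hV hs m4.lintegral_prod_right',
    mus_lint hV hs' hf]
  congr 1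
  have h1 : ∀ a : Euc ι, ENNReal.ofReal (Real.exp (-T V 0 s a)) *
      ∫⁻ x, ENNReal.ofReal (Real.exp (T V 0 s a - T V 0 s' (a + r • x))) * f (a + r • x) ∂(gam ι) =
      ∫⁻ x, ENNReal.ofReal (Real.exp (-T V 0 s' (a + r • x))) * f (a + r • x) ∂(gam ι) := by
    intro a
    rw [← lintegral_const_mul' _ _ ENNReal.ofReal_ne_top]
    refine lintegral_congr fun x => ?_
    rw [← mul_assoc, ← ENNReal.ofReal_mul (Real.exp_pos _).le, ← Real.exp_add]
    congr 3
    ring
  simp only [Pi.mul_apply, h1]
  rw [lintegral_lintegral_swap (by fun_prop)]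
  have h2 : ∀ x : Euc ι, ∫⁻ a, ENNReal.ofReal (Real.exp (-T V 0 s' (a + r • x))) * f (a + r • x) =
      ∫⁻ a, ENNReal.ofReal (Real.exp (-T V 0 s' a)) * f a := fun x =>
    lintegral_add_right_eq_self (fun a => ENNReal.ofReal (Real.exp (-T V 0 s' a)) * f a) (r • x)
  simp only [h2]
  simp

/-- Averaging the local flow over its centre: if `Y (a, ·)` is close to the centre of the local
flow at time `t` for every `a`, then `Y` is close to the smoothed law at the smaller scale. -/
theorem mus_step [DecidableEq ι] (hV : InClass V) {s t c c₁ : ℝ} (hs : 0 < s) (hs1 : s ≤ 1)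
    (ht : 0 ≤ t) (ht1 : t ≤ 1 / 2) (hc₁ : 0 ≤ c₁) {Y : Euc ι × Euc ι → Euc ι} (mY : Measurable Y)
    (h : ∀ a, WD (gam ι) (fun ξ => Y (a, ξ)) (loc V s a t) (fun x => a + (√s * t) • x)
      (c + c₁ * ‖a‖)) :
    WD ((mus V s).prod (gam ι)) Y (mus V (s * (1 - t ^ 2))) (fun x => x)
      (c + c₁ * (2 * √(dm ι))) := by
  have _ := ht
  intro φ h1 ⟨B, hB⟩
  have hs' : 0 < s * (1 - t ^ 2) := mul_pos hs (by nlinarith)
  have := mus_prob hV s
  have := mus_prob hV (s * (1 - t ^ 2))
  have mT : Measurable fun w : Euc ι × Euc ι => w.1 + (√s * t) • w.2 := by fun_prop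
  have mρ := rho_meas hV hs hs' (√s * t)
  have hJ := joint_map hV hs hs' (√s * t)
  set ρ : Euc ι × Euc ι → ENNReal := fun w => ENNReal.ofReal
    (Real.exp (T V 0 s w.1 - T V 0 (s * (1 - t ^ 2)) (w.1 + (√s * t) • w.2))) with hρ
  have hfin : IsFiniteMeasure (((mus V s).prod (gam ι)).withDensity ρ) := by
    constructor
    have h2 : ((((mus V s).prod (gam ι)).withDensity ρ).map
        fun w : Euc ι × Euc ι => w.1 + (√s * t) • w.2) Set.univ = 1 := by
      rw [hJ]; exact measure_univ
    rw [Measure.map_apply mT MeasurableSet.univ, Set.preimage_univ] at h2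
    rw [h2]; exact ENNReal.one_lt_top
  have hlt : ∀ w, ρ w < ⊤ := fun w => ENNReal.ofReal_lt_top
  have i1 := test_int (P := (mus V s).prod (gam ι)) h1.continuous hB mY
  have i2 := test_int (P := ((mus V s).prod (gam ι)).withDensity ρ) h1.continuous hB mT
  rw [integrable_withDensity_iff_integrable_smul' mρ (Filter.Eventually.of_forall hlt)] at i2
  have i3 := (mus_norm hV hs1).integrable measurable_norm
  have e1 : ∫ x, φ x ∂(mus V (s * (1 - t ^ 2))) =
      ∫ a, ∫ x, (ρ (a, x)).toReal • φ (a + (√s * t) • x) ∂(gam ι) ∂(mus V s) := by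
    rw [← hJ, integral_map mT.aemeasurable h1.continuous.aestronglyMeasurable,
      integral_withDensity_eq_integral_toReal_smul mρ (Filter.Eventually.of_forall hlt),
      integral_prod _ i2]
  have e2 : ∀ a, ∫ x, (ρ (a, x)).toReal • φ (a + (√s * t) • x) ∂(gam ι) =
      ∫ x, φ (a + (√s * t) • x) ∂(loc V s a t) := fun a =>
    (integral_withDensity_eq_integral_toReal_smul (mρ.comp measurable_prodMk_left)
      (Filter.Eventually.of_forall fun x => hlt _) _).symm
  rw [e1, integral_prod _ i1, ← integral_sub i1.integral_prod_left i2.integral_prod_left,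
    ← Real.norm_eq_abs]
  refine (norm_integral_le_of_norm_le ((integrable_const c).add (i3.const_mul c₁))
    (Filter.Eventually.of_forall fun a => ?_)).trans ?_
  · rw [e2]
    exact h a φ h1 ⟨B, hB⟩
  · simp only [Pi.add_apply]
    rw [integral_add (integrable_const c) (i3.const_mul c₁), integral_const_mul]
    have h2 := mul_le_mul_of_nonneg_left
      ((mus_norm hV hs1).integral_le (by positivity) measurable_norm) hc₁
    simpa using h2

end Vale.Agent.P347
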