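import Vale.Agent.P347.Rec
import Vale.Agent.P347.Smooth

/-! The outer chain: mixing at a fixed scale, then descending in scale. -/

open MeasureTheory ProbabilityTheory

namespace Vale.Agent.P347

section Iter
variable {P : ℝ → ℕ → ℝ → Prop} {s₁ t E η : ℝ} {Q : ℕ}

lemma iter_mix (hη : 0 ≤ η) (hs : 0 < s₁) (hL : 0 ≤ 1 - s₁ * t ^ 2 / 4)
    (mono : ∀ s q e e', P s q e → e ≤ e' → P s q e')
    (step : ∀ q e, e ≤ E → P s₁ q e → P s₁ (q + Q) ((1 - s₁ * t ^ 2 / 4) * e + η))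
    {e₀ : ℝ} (he₀ : 0 ≤ e₀) (h₀ : P s₁ 0 e₀) (k : ℕ) (hk : e₀ + k * η ≤ E) :
    P s₁ (k * Q) ((1 - s₁ * t ^ 2 / 4) ^ k * e₀ + k * η) := by
  have hL1 : 1 - s₁ * t ^ 2 / 4 ≤ 1 := by
    have : 0 ≤ s₁ * t ^ 2 / 4 := by positivity
    linarith
  induction k with
  | zero => simpa using h₀
  | succ k ih =>
    push_cast at hk
    have hkη : 0 ≤ (k : ℝ) * η := by positivity
    have h1 := ih (by linarith)
    have h2 : (1 - s₁ * t ^ 2 / 4) ^ k * e₀ ≤ e₀ :=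
      mul_le_of_le_one_left he₀ (pow_le_one₀ hL hL1)
    have h3 := step _ _ (by linarith) h1
    rw [Nat.succ_mul]
    refine mono _ _ _ _ h3 ?_
    have h4 : (1 - s₁ * t ^ 2 / 4) * (k * η) ≤ k * η := mul_le_of_le_one_left hkη hL1
    push_cast
    rw [pow_succ (1 - s₁ * t ^ 2 / 4)]
    nlinarith

lemma iter_desc {c : ℝ} (hη : 0 ≤ η) (hs : 0 < s₁) (hc : 0 < c) (hc1 : c ≤ 1)
    (step : ∀ s q e, 0 < s → s ≤ s₁ → e ≤ E → P s q e → P (s * c) (q + Q) (e + η))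
    {e₀ : ℝ} {q₀ : ℕ} (h₀ : P s₁ q₀ e₀) (k : ℕ) (hk : e₀ + k * η ≤ E) :
    P (s₁ * c ^ k) (q₀ + k * Q) (e₀ + k * η) := by
  induction k with
  | zero => simpa using h₀
  | succ k ih =>
    push_cast at hk
    have h1 := ih (by linarith)
    have h3 := step _ _ _ (by positivity)
      (mul_le_of_le_one_right hs.le (pow_le_one₀ hc.le hc1)) (by linarith) h1
    have e1 : s₁ * c ^ (k + 1) = s₁ * c ^ k * c := by ring
    have e2 : q₀ + (k + 1) * Q = q₀ + k * Q + Q := by ring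
    have e3 : e₀ + ((k + 1 : ℕ) : ℝ) * η = e₀ + k * η + η := by push_cast; ring
    rw [e1, e2, e3]
    exact h3

end Iter

lemma Samp.nonneg {ι : Type} [Fintype ι] {μ : (Euc ι → ℝ) → Measure (Euc ι)} {q : ℕ} {e : ℝ}
    (h : Samp μ q e) : 0 ≤ e := by
  obtain ⟨S, _, ν, -, F, -, h⟩ := h
  exact (h _ inClass_quad).nonneg

lemma top_num {b C κ hh r u δ e : ℝ} {G D R N : ℕ} (hβ : 16 ≤ b) (hC : 1 ≤ C) (hCb : 3 * C ≤ b)
    (hκ : κ = b ^ R * r / b ^ N) (hr0 : 0 ≤ r) (hr1 : r ≤ 1) (hhe : hh = 1 / b) (hG : R + 5 ≤ G)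
    (u0 : 0 ≤ u) (u1 : u ≤ 1) (δ0 : 0 ≤ δ) (hd : δ ≤ b ^ D) (he0 : 0 ≤ e) (he : e ≤ 3 * b ^ D) :
    C * hh ^ (N + 1) * u * δ + C * hh ^ (N + 1) * u * u * (2 * δ) + κ * (b ^ 3 * δ) +
      κ * (2 * δ + e) + κ * δ ≤ b ^ (D + G) / b ^ (N + 1) := by
  have hβ0 : 0 < b := by linarith
  have hβ1 : 1 ≤ b := by linarith
  have κ0 : 0 ≤ κ := by rw [hκ]; positivity
  have h0 : 0 < hh := by rw [hhe]; positivity
  obtain ⟨Z, hZ⟩ : ∃ Z, Z = b ^ N := ⟨_, rfl⟩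
  obtain ⟨Y, hY⟩ : ∃ Y, Y = b ^ D := ⟨_, rfl⟩
  have hZ0 : 0 < Z := by rw [hZ]; positivity
  have hY0 : 0 < Y := by rw [hY]; positivity
  obtain ⟨G', rfl⟩ : ∃ G', G = G' + 5 := ⟨G - 5, by omega⟩
  obtain ⟨X, hX⟩ : ∃ X, X = b ^ G' := ⟨_, rfl⟩
  have hX1 : 1 ≤ X := by rw [hX]; exact one_le_pow₀ hβ1
  have k1 : κ ≤ X / Z := by
    rw [hκ, hZ, hX]
    gcongr
    exact (mul_le_of_le_one_right (by positivity) hr1).trans (pow_le_pow_right₀ hβ1 (by omega))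
  have k2 : C * hh ^ (N + 1) ≤ 1 / (3 * Z) := by
    rw [hhe, one_div_pow, pow_succ, ← hZ, mul_one_div,
      div_le_div_iff₀ (by positivity) (by positivity)]
    nlinarith
  have k3 : b ^ (D + (G' + 5)) / b ^ (N + 1) = Y * X * b ^ 4 / Z := by
    rw [pow_succ, ← hZ, pow_add, ← hY, pow_add, ← hX]
    field_simp
  rw [k3]
  rw [← hY] at hd he
  have k4 : C * hh ^ (N + 1) * u * δ + C * hh ^ (N + 1) * u * u * (2 * δ) ≤ Y / Z := by
    calc _ ≤ 1 / (3 * Z) * 1 * Y + 1 / (3 * Z) * 1 * 1 * (2 * Y) := by gcongr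
      _ = _ := by field_simp; norm_num
  have k5 : κ * (b ^ 3 * δ) + κ * (2 * δ + e) + κ * δ ≤
      X / Z * (b ^ 3 * Y) + X / Z * (2 * Y + 3 * Y) + X / Z * Y := by gcongr
  have k6 : Y / Z + (X / Z * (b ^ 3 * Y) + X / Z * (2 * Y + 3 * Y) + X / Z * Y) ≤
      Y * X * b ^ 4 / Z := by
    have b3 : 16 ≤ b ^ 3 := hβ.trans (le_self_pow₀ hβ1 (by norm_num))
    have b4 : 1 + X * (b ^ 3 + 6) ≤ X * b ^ 4 := by
      have : b ^ 3 + 7 ≤ b ^ 4 := by rw [pow_succ b 3]; nlinarith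
      nlinarith
    calc _ = Y / Z * (1 + X * (b ^ 3 + 6)) := by ring
      _ ≤ Y / Z * (X * b ^ 4) := by gcongr
      _ = _ := by ring
  linarith

/-- One step of the outer chain. -/
lemma top_step (n G D : ℕ) (hn : 1 ≤ n) (hG : 8 * rk n + 8 ≤ G) :
    ∃ c : ℝ, 1 ≤ c ∧ ∃ b₀ : ℕ, ∀ b : ℕ, b₀ ≤ b → ∀ (ι : Type) [Fintype ι] [DecidableEq ι],
      √(dm ι) ≤ (b : ℝ) ^ D → ∀ (s r e : ℝ) (q : ℕ), 0 < s → s ≤ 1 / (b : ℝ) ^ (6 * n * G + G) →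
      √s / (b : ℝ) ^ 2 ≤ r → r ≤ 1 → e ≤ 3 * (b : ℝ) ^ D →
      Samp (fun V : Euc ι → ℝ => mus V s) q e →
      Samp (fun V : Euc ι → ℝ => mus V (s * (1 - (1 / (c * b)) ^ 2) + r ^ 2))
        (q + b ^ (8 * rk n + 3))
        ((1 - s * (1 / (c * b)) ^ 2 / 4) * e + (b : ℝ) ^ (D + G) / (b : ℝ) ^ (3 * n ^ 2 * G + 1)) := by
  obtain ⟨K, hK⟩ : ∃ K, K = 3 * n ^ 2 * G + 1 := ⟨_, rfl⟩
  obtain ⟨W⟩ := wts_nonempty K
  obtain ⟨C, hC, hU⟩ := schemeU_err (K := K) (by omega) W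
  obtain ⟨b₁, h₁⟩ := sim_top n G hn hG W.C (K + 1)
  have hW := W.one_le
  refine ⟨20 * W.C, by linarith, max (max b₁ 16) (max ⌈3 * C⌉₊ ⌈W.C⌉₊),
    fun b hb ι _ _ hd s r e q hs hs1 hr hr1 he h => ?_⟩
  simp only [max_le_iff] at hb
  obtain ⟨⟨e1, e2⟩, e3, e4⟩ := hb
  have hβ : (16 : ℝ) ≤ b := by exact_mod_cast e2
  have hβ0 : (0 : ℝ) < b := by linarith
  have hβ1 : (1 : ℝ) ≤ b := by linarith
  have hCb : 3 * C ≤ b := (Nat.le_ceil _).trans (by exact_mod_cast e3)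
  have hWb : W.C ≤ b := (Nat.le_ceil _).trans (by exact_mod_cast e4)
  have hs16 : s ≤ 1 / 16 := hs1.trans (one_div_le_one_div_of_le (by norm_num)
    (hβ.trans (le_self_pow₀ hβ1 (by omega))))
  have ht0 : 0 < √s := Real.sqrt_pos.2 hs
  have ht1 : √s ≤ 1 := Real.sqrt_le_one.2 (by linarith)
  have hr0 : 0 < r := lt_of_lt_of_le (by positivity) hr
  obtain ⟨hh, hhe⟩ : ∃ hh : ℝ, hh = 1 / b := ⟨_, rfl⟩
  obtain ⟨τ, hτ⟩ : ∃ τ : ℝ, τ = 1 / (20 * W.C) := ⟨_, rfl⟩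
  have h0 : 0 < hh := by rw [hhe]; positivity
  have h2 : hh ≤ 1 / 2 := by rw [hhe]; exact one_div_le_one_div_of_le (by norm_num) (by linarith)
  have h3 : hh ≤ 1 / C := by rw [hhe]; exact one_div_le_one_div_of_le (by linarith) (by linarith)
  have h4 : W.C * hh ≤ 1 := by rw [hhe, mul_one_div, div_le_one hβ0]; exact hWb
  have τ0 : 0 ≤ τ := by rw [hτ]; positivity
  have τ1 : τ ≤ 1 := by rw [hτ, div_le_one (by linarith)]; linarith
  have τ2 : W.C * τ ≤ 1 / 20 := by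
    rw [hτ]; apply le_of_eq; field_simp
  have et : 1 / (20 * W.C * b) = hh * τ := by rw [hhe, hτ]; field_simp
  rw [et]
  have t0 : 0 ≤ hh * τ := by positivity
  have t1 : hh * τ ≤ 1 / 2 := (mul_le_of_le_one_right h0.le τ1).trans h2
  obtain ⟨S, -, nl, hnl, hy⟩ := ytop_vec (ι := ι) W hs h0 h2 τ0 τ1
  have hy' : ∀ (V : Euc ι → ℝ) (a ξ : Euc ι), a + ytop W V s a hh τ ξ =
      (a + (√s * (hh * τ)) • ξ) + nl V a (fun _ => ξ) := by
    intro V a ξ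
    have := hy V a (fun _ => ξ)
    simp only [Finset.univ_unique, Finset.sum_singleton] at this
    rw [this, add_assoc]
  have hsim := h₁ b e1 ι ⟨s, fun _ => √s * hh, s, W.C * s, K + 1⟩ nl S (W.C * s) r (K + 1) hs hs1
    (by positivity) (by show √s * hh ≤ W.C * √s; nlinarith) hs.le
    (by show s ≤ W.C * s; nlinarith) le_rfl le_rfl hnl le_rfl le_rfl hr
  obtain ⟨κ, hκ⟩ : ∃ κ, κ = (b : ℝ) ^ (8 * rk n + 3) * r / (b : ℝ) ^ (3 * n ^ 2 * G) := ⟨_, rfl⟩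
  rw [← hκ] at hsim
  have κ0 : 0 ≤ κ := by rw [hκ]; positivity
  have hsim2 : Sim (fun V (w : Euc ι × Euc ι) => w.1 + ytop W V s w.1 hh τ w.2) r
      (b ^ (8 * rk n + 3)) (fun _ w => κ * ((b : ℝ) ^ 3 * √(dm ι)) + κ * ‖w.1‖ + κ * ‖w.2‖) :=
    ((hsim.add_known (k := fun w : Euc ι × Euc ι => w.1 + (√s * (hh * τ)) • w.2)
      (by fun_prop)).congr fun V _ w => hy' V w.1 w.2).mono le_rfl fun V _ w => le_of_eq (by ring)
  have cY : ∀ V : Euc ι → ℝ, InClass V →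
      Continuous fun w : Euc ι × Euc ι => w.1 + ytop W V s w.1 hh τ w.2 := by
    intro V hV
    simp only [hy']
    have := (hnl.cont hV hs).comp
      (f := fun w : Euc ι × Euc ι => (w.1, fun _ : Unit => w.2)) (by fun_prop)
    exact Continuous.add (by fun_prop) this
  have hst : s * (hh * τ) ^ 2 / 4 ≤ 1 := by
    have : (hh * τ) ^ 2 ≤ 1 := pow_le_one₀ t0 (by linarith)
    nlinarith
  have hs' : 0 ≤ s * (1 - (hh * τ) ^ 2) := by
    have : (hh * τ) ^ 2 ≤ 1 := pow_le_one₀ t0 (by linarith)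
    exact mul_nonneg hs.le (by linarith)
  have hd0 := Real.sqrt_nonneg (dm ι)
  have key := h.step (μ' := fun V => mus V (s * (1 - (hh * τ) ^ 2)))
    (e' := C * hh ^ K * √s * √(dm ι) + C * hh ^ K * √s * √s * (2 * √(dm ι)))
    (L := 1 - s * (hh * τ) ^ 2 / 4) (m := 2 * √(dm ι)) hsim2 κ0 κ0 (by linarith) (by positivity)
    (fun V hV => mus_prob hV _) (fun V hV => mus_prob hV _)
    (fun V hV => mus_norm hV (by linarith)) cY
    (fun V hV a a' ξ => ytop_contr W hV hs hs16 h0 h2 h4 τ0 τ2 a a' ξ)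
    (fun V hV => mus_step hV hs (by linarith) t0 t1 (by positivity) (cY V hV).measurable
      fun a => (((hU ι V hV s hs hs16 a).2 hh h0 h3).2 τ τ0 τ1).mono (le_of_eq (by ring)))
  refine key.mono le_rfl ?_ fun V hV => (mus_conv hV hs').symm
  have := top_num (G := G) hβ hC hCb hκ hr0.le hr1 hhe (by omega) ht0.le ht1 hd0 hd h.nonneg he
  rw [hK]
  linarith

/-- The whole chain, for an abstract predicate. -/
lemma top_chain {P : ℝ → ℕ → ℝ → Prop} {s₁ t η Y ε x δ β : ℝ} {Q n₁ n₂ : ℕ}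
    (mono : ∀ s q e e', P s q e → e ≤ e' → P s q e') (nn : ∀ s q e, P s q e → 0 ≤ e)
    (step : ∀ s r e q, 0 < s → s ≤ s₁ → √s / β ≤ r → r ≤ 1 → e ≤ 3 * Y → P s q e →
      P (s * (1 - t ^ 2) + r ^ 2) (q + Q) ((1 - s * t ^ 2 / 4) * e + η))
    (s0 : 0 < s₁) (s1 : s₁ ≤ 1) (t0 : 0 < t) (t1 : t ≤ 1) (t2 : 2 / β ≤ t) (η0 : 0 ≤ η)
    (hY : 1 ≤ Y) (δ0 : 0 ≤ δ) (hd : δ ≤ Y) (ε2 : 5 * ε ≤ 1) (n1 : n₁ * η ≤ ε) (n2 : n₂ * η ≤ ε)
    (x2 : Real.exp (-x) * Y ≤ ε) (m1 : x ≤ n₁ * (s₁ * t ^ 2 / 4)) (m2 : x ≤ n₂ * (3 * t ^ 2 / 4))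
    (h₀ : P s₁ 0 (2 * δ)) :
    ∃ s, 0 ≤ s ∧ s ≤ Real.exp (-x) ∧ P s (n₁ * Q + n₂ * Q) (4 * ε) := by
  have t4 : t ^ 2 ≤ 1 := pow_le_one₀ t0.le t1
  have t5 : 0 < t ^ 2 := by positivity
  have hst : s₁ * t ^ 2 / 4 ≤ 1 := by nlinarith
  have hr : ∀ s : ℝ, 0 < s → s ≤ s₁ → √s / β ≤ √s * t / 2 ∧ √s * t ≤ 1 ∧ 0 ≤ √s * t := by
    intro s hs hs'
    have a0 : 0 ≤ √s := Real.sqrt_nonneg s
    have a1 : √s ≤ 1 := Real.sqrt_le_one.2 (by linarith)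
    refine ⟨?_, by nlinarith, by positivity⟩
    calc √s / β = √s * (2 / β) / 2 := by ring
      _ ≤ _ := by gcongr
  have A := iter_mix (P := P) (t := t) (E := 3 * Y) (Q := Q) η0 s0 (by linarith) mono
    (fun q e he h => by
      obtain ⟨r1, r2, r3⟩ := hr s₁ s0 le_rfl
      have := step s₁ (√s₁ * t) e q s0 le_rfl (by linarith) r2 he h
      rwa [mul_pow, Real.sq_sqrt s0.le, show s₁ * (1 - t ^ 2) + s₁ * t ^ 2 = s₁ by ring] at this)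
    (e₀ := 2 * δ) (by positivity) h₀ n₁ (by linarith)
  have a1 : (1 - s₁ * t ^ 2 / 4) ^ n₁ ≤ Real.exp (-x) :=
    (one_sub_pow_le hst _).trans (Real.exp_le_exp.2 (neg_le_neg m1))
  have A' := mono _ _ _ (3 * ε) A (by
    have : (1 - s₁ * t ^ 2 / 4) ^ n₁ * (2 * δ) ≤ Real.exp (-x) * (2 * Y) := by gcongr
    linarith)
  have B := iter_desc (P := P) (E := 3 * Y) (Q := Q) (c := 1 - 3 * t ^ 2 / 4) η0 s0 (by linarith)
    (by linarith)
    (fun s q e hs hs' he h => by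
      obtain ⟨r1, r2, r3⟩ := hr s hs hs'
      have := step s (√s * t / 2) e q hs hs' r1 (by linarith) he h
      rw [div_pow, mul_pow, Real.sq_sqrt hs.le,
        show s * (1 - t ^ 2) + s * t ^ 2 / 2 ^ 2 = s * (1 - 3 * t ^ 2 / 4) by ring] at this
      refine mono _ _ _ _ this ?_
      have : 0 ≤ s * t ^ 2 / 4 * e := by have := nn _ _ _ h; positivity
      linarith)
    A' n₂ (by linarith)
  refine ⟨_, mul_nonneg s0.le (pow_nonneg (by linarith) _), ?_, mono _ _ _ _ B (by linarith)⟩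
  refine (mul_le_of_le_one_left (pow_nonneg (by linarith) _) s1).trans ?_
  exact (one_sub_pow_le (by linarith) _).trans (Real.exp_le_exp.2 (neg_le_neg m2))

lemma count_le {b n G R : ℕ} (hb : 16 ≤ b) (hn : 1 ≤ n) (hG : R + 5 ≤ G) :
    b ^ (6 * n * G + G + 5) * b ^ R + b ^ 5 * b ^ R ≤ b ^ (9 * n * G) := by
  have hb1 : 1 ≤ b := by omega
  obtain ⟨M, hM⟩ : ∃ M, M = 6 * n * G + G := ⟨_, rfl⟩
  rw [← hM]
  have q1 : b ^ (M + 5) * b ^ R ≤ b ^ (M + G) := by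
    rw [← pow_add]; exact Nat.pow_le_pow_right hb1 (by omega)
  have q2 : b ^ 5 * b ^ R ≤ b ^ (M + G) := by
    rw [← pow_add]; exact Nat.pow_le_pow_right hb1 (by omega)
  have q3 : b ^ (M + G + 1) ≤ b ^ (9 * n * G) := by
    refine Nat.pow_le_pow_right hb1 ?_
    have : G ≤ n * G := Nat.le_mul_of_pos_left _ hn
    have e : 6 * n * G = 6 * (n * G) := by ring
    have e' : 9 * n * G = 9 * (n * G) := by ring
    omega
  rw [pow_succ] at q3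
  have q4 : b ^ (M + G) * 2 ≤ b ^ (M + G) * b := Nat.mul_le_mul_left _ (by omega)
  omega

theorem samp_gibbs (n G D : ℕ) (hn : 1 ≤ n) (hG : 8 * rk n + 8 ≤ G)
    (hD : 4 * D + 2 * G + 8 + 6 * n * G ≤ 3 * n ^ 2 * G) :
    ∃ b₀ : ℕ, ∀ b : ℕ, b₀ ≤ b → ∀ (ι : Type) [Fintype ι] [DecidableEq ι],
      √(dm ι) ≤ (b : ℝ) ^ D →
      Samp (fun V : Euc ι → ℝ => gibbs V) (b ^ (9 * n * G)) (1 / (b : ℝ) ^ (3 * D + 1)) := by
  obtain ⟨c, hc, b₁, h₁⟩ := top_step n G D hn hG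
  obtain ⟨b₂, h₂⟩ := exp_small (2 * (4 * D + 2))
  refine ⟨max (max b₁ b₂) (max 16 ⌈2 * c⌉₊), fun b hb ι _ _ hd => ?_⟩
  simp only [max_le_iff] at hb
  obtain ⟨⟨e1, e2⟩, e3, e4⟩ := hb
  have hstep := h₁ b e1 ι hd
  have hexp := h₂ b e2
  clear h₁ h₂
  have hβ : (16 : ℝ) ≤ b := by exact_mod_cast e3
  have hβ0 : (0 : ℝ) < b := by linarith
  have hβ1 : (1 : ℝ) ≤ b := by linarith
  have hcb : 2 * c ≤ b := (Nat.le_ceil _).trans (by exact_mod_cast e4)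
  obtain ⟨t, ht⟩ : ∃ t : ℝ, t = 1 / (c * b) := ⟨_, rfl⟩
  rw [← ht] at hstep
  have t0 : 0 < t := by rw [ht]; positivity
  have t1 : t ≤ 1 := by rw [ht, div_le_one (by positivity)]; nlinarith
  have t2 : 2 / (b : ℝ) ^ 2 ≤ t := by
    rw [ht, div_le_div_iff₀ (by positivity) (by positivity)]; nlinarith
  have t3 : 4 / (b : ℝ) ^ 4 ≤ t ^ 2 := by
    calc 4 / (b : ℝ) ^ 4 = (2 / (b : ℝ) ^ 2) ^ 2 := by field_simp; norm_num
      _ ≤ _ := by gcongr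
  obtain ⟨ε, hε⟩ : ∃ ε, ε = 1 / (b : ℝ) ^ (3 * D + 2) := ⟨_, rfl⟩
  have ε1 : 5 * ε ≤ 1 / (b : ℝ) ^ (3 * D + 1) := by
    rw [hε, mul_one_div, div_le_div_iff₀ (by positivity) (by positivity), pow_succ (b : ℝ) (_ + 1)]
    have : 0 < (b : ℝ) ^ (3 * D + 1) := by positivity
    nlinarith
  have ε2 : 5 * ε ≤ 1 := ε1.trans (by rw [div_le_one (by positivity)]; exact one_le_pow₀ hβ1)
  have n1 : ((b ^ (6 * n * G + G + 5) : ℕ) : ℝ) *
      ((b : ℝ) ^ (D + G) / (b : ℝ) ^ (3 * n ^ 2 * G + 1)) ≤ ε := by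
    push_cast
    rw [hε, ← mul_div_assoc, div_le_div_iff₀ (by positivity) (by positivity), ← pow_add,
      ← pow_add, one_mul]
    exact pow_le_pow_right₀ hβ1 (by omega)
  have n2 : ((b ^ 5 : ℕ) : ℝ) * ((b : ℝ) ^ (D + G) / (b : ℝ) ^ (3 * n ^ 2 * G + 1)) ≤ ε := by
    refine le_trans (mul_le_mul_of_nonneg_right ?_ (by positivity)) n1
    push_cast
    exact pow_le_pow_right₀ hβ1 (by omega)
  have x1 : √(Real.exp (-(b : ℝ))) * (b : ℝ) ^ D ≤ ε := by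
    have : √(Real.exp (-(b : ℝ))) ≤ 1 / (b : ℝ) ^ (4 * D + 2) := by
      refine Real.sqrt_le_iff.2 ⟨by positivity, hexp.trans (le_of_eq ?_)⟩
      rw [one_div_pow, ← pow_mul, mul_comm 2]
    refine (mul_le_mul_of_nonneg_right this (by positivity)).trans (le_of_eq ?_)
    rw [hε]; field_simp; ring
  have x2 : Real.exp (-(b : ℝ)) * (b : ℝ) ^ D ≤ ε := by
    refine le_trans (mul_le_mul_of_nonneg_right ?_ (by positivity)) x1
    refine Real.le_sqrt_of_sq_le ?_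
    have : Real.exp (-(b : ℝ)) ≤ 1 := Real.exp_le_one_iff.2 (by linarith)
    nlinarith [Real.exp_pos (-(b : ℝ))]
  have s1 : 1 / (b : ℝ) ^ (6 * n * G + G) ≤ 1 := by
    rw [div_le_one (by positivity)]; exact one_le_pow₀ hβ1
  obtain ⟨s, hs0, hs1, B⟩ := top_chain (P := fun s q e => Samp (fun V : Euc ι → ℝ => mus V s) q e)
    (fun s q e e' h he => h.mono le_rfl he fun _ _ => rfl) (fun s q e h => h.nonneg) hstep
    (by positivity) s1 t0 t1 t2 (by positivity) (one_le_pow₀ hβ1) (Real.sqrt_nonneg _) hd ε2 n1 n2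
    x2 (by
      push_cast
      calc (b : ℝ) = (b : ℝ) ^ (6 * n * G + G + 5) *
            (1 / (b : ℝ) ^ (6 * n * G + G) * (4 / (b : ℝ) ^ 4) / 4) := by
            rw [pow_add _ _ 5]; field_simp
        _ ≤ _ := by gcongr)
    (by
      push_cast
      calc (b : ℝ) ≤ 3 * b := by linarith
        _ = (b : ℝ) ^ 5 * (3 * (4 / (b : ℝ) ^ 4) / 4) := by field_simp
        _ ≤ _ := by gcongr)
    (Samp.zero (by positivity) (fun V hV => mus_prob hV _) fun V hV => mus_norm hV s1)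
  refine (B.trans fun V hV => mus_gibbs hV hs0).mono (count_le e3 hn (by omega)) ?_ fun _ _ => rfl
  have : √s * √(dm ι) ≤ √(Real.exp (-(b : ℝ))) * (b : ℝ) ^ D := by gcongr
  linarith

end Vale.Agent.P347
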