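import Vale.Agent.P347.Bd

/-! The truncated Taylor expansion of the coupled flow transports the initial Gaussian law to the
law at time `t`, jointly with the drifts. -/

open MeasureTheory ProbabilityTheory MvPolynomial

namespace Vale.Agent.P347

section Def
variable {ι : Type} [Fintype ι] [DecidableEq ι]

/-- The normalized drift at time `t`. -/
noncomputable def hh (V : Euc ι → ℝ) (s : ℝ) (p : Euc ι) (t : ℝ) (x : Euc ι) : Euc ι :=
  √s • fs V (s * (1 - t ^ 2)) (p + (√s * t) • x)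

/-- The normalized Hessian at time `t`. -/
noncomputable def MM (V : Euc ι → ℝ) (s : ℝ) (p : Euc ι) (t : ℝ) (x v : Euc ι) : Euc ι :=
  s • Ms V (s * (1 - t ^ 2)) (p + (√s * t) • x) v

end Def

/-- Taylor polynomial with coefficients `A j`. -/
noncomputable def tay {S G : Type} [AddCommGroup G] [Module ℝ G] (K : ℕ) (A : ℕ → S → G) (t : ℝ)
    (w : S) : G :=
  ∑ j ∈ Finset.range (K + 1), (t ^ j / (j.factorial : ℝ)) • A j w

/-- Its integral from `0` to `t`. -/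
noncomputable def tayI {S G : Type} [AddCommGroup G] [Module ℝ G] (K : ℕ) (A : ℕ → S → G) (t : ℝ)
    (w : S) : G :=
  ∑ j ∈ Finset.range (K + 1), (t ^ (j + 1) / ((j + 1).factorial : ℝ)) • A j w

section Aux
variable {ι : Type} [Fintype ι] [DecidableEq ι] {V : Euc ι → ℝ} {s ρ : ℝ}

/-- Vector of evaluations. -/
noncomputable def vv (V : Euc ι → ℝ) (s : ℝ) (p : Euc ι) (ρ : ℝ) (w : Euc ι × Euc ι)
    (r : ι ⊕ ι → R2 ι) : Euc ι × Euc ι :=
  (WithLp.toLp 2 fun e => ev V s p ρ w (r (Sum.inl e)),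
    WithLp.toLp 2 fun e => ev V s p ρ w (r (Sum.inr e)))

lemma vv_eq (p : Euc ι) (w : Euc ι × Euc ι) (r : ι ⊕ ι → R2 ι) :
    ∑ i, ev V s p ρ w (r i) • dir i = vv V s p ρ w r := by
  ext e <;> simp [vv, dir, Fintype.sum_sum_type, Prod.fst_sum, Prod.snd_sum, Finset.sum_apply,
    Pi.single_apply]

lemma vv_cont (hV : InClass V) (hs : 0 < s) (p : Euc ι) (hρ : |ρ| < 1) (r : ι ⊕ ι → R2 ι) :
    Continuous fun w => vv V s p ρ w r := by
  simp only [← vv_eq]
  exact continuous_finsetSum _ fun i _ => (ev_cont hV hs p hρ _).smul continuous_const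

lemma vv_EB (hV : InClass V) (hs : 0 < s) (hs1 : s ≤ 1) (p : Euc ι) (hρ : |ρ| < 3 / 4)
    (r : ι ⊕ ι → R2 ι) {a : ℝ} (ha : 0 ≤ a) (h : ∑ i, Ex V s p ρ (r i ^ 2) ≤ a ^ 2) :
    EB (mu V s p ρ) (fun w => vv V s p ρ w r) a := by
  have := mu_prob hV hs hs1 p hρ
  have hc := vv_cont hV hs p (hρ.trans (by norm_num)) r
  have hi : Integrable (fun w => ∑ i, ev V s p ρ w (r i ^ 2)) (mu V s p ρ) :=
    integrable_finsetSum _ fun i _ => ev_int hV hs hs1 p hρ.le _
  have hle : ∀ w, ‖vv V s p ρ w r‖ ^ 2 ≤ ∑ i, ev V s p ρ w (r i ^ 2) := fun w => by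
    rw [Prod.norm_def, Fintype.sum_sum_type]
    simp only [map_pow]
    rcases le_total ‖(vv V s p ρ w r).1‖ ‖(vv V s p ρ w r).2‖ with h | h
    · rw [max_eq_right h, EuclideanSpace.real_norm_sq_eq]
      exact le_add_of_nonneg_left (by positivity)
    · rw [max_eq_left h, EuclideanSpace.real_norm_sq_eq]
      exact le_add_of_nonneg_right (by positivity)
  have hi' : Integrable (fun w => ‖vv V s p ρ w r‖ ^ 2) (mu V s p ρ) :=
    hi.mono' (hc.norm.pow 2).aestronglyMeasurable (.of_forall fun w => by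
      simpa using hle w)
  refine EB.of_sq ha hc.norm.measurable hi' ((integral_mono hi' hi hle).trans ?_)
  rwa [integral_finsetSum _ fun i _ => ev_int hV hs hs1 p hρ.le _]

/-- The drifts. -/
noncomputable def drift (c : ℝ) : ι ⊕ ι → R2 ι := Sum.elim (fun e => bb c (Sum.inl e)) (bq c)

/-- The observables. -/
noncomputable def obs (c : ℝ) (m : Euc ι) : ι ⊕ ι → R2 ι :=
  Sum.elim xv fun e => zv e - C c * (tv {e} - C (m e))

lemma DD_obs (c : ℝ) (m : Euc ι) (i : ι ⊕ ι) : DD c (obs c m i) = drift c i := by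
  cases i
  exacts [DD_xv c _, DD_Q c _ _]

lemma ev_t1 (p : Euc ι) (w : Euc ι × Euc ι) (e : ι) :
    ev V s p ρ w (tv {e}) = hh V s p ρ w.1 e := by
  simp [ev_X_t, hh, fs_apply]

lemma ev_t2 (hs : 0 < s) (p : Euc ι) (w : Euc ι × Euc ι) (v : Euc ι) (e : ι) :
    ∑ f, ev V s p ρ w (tv (e ::ₘ {f})) * v f = MM V s p ρ w.1 v e := by
  simp [ev_X_t, MM, Ms_apply, Real.sq_sqrt hs.le, Finset.mul_sum, mul_assoc]

lemma vv_obs (p : Euc ι) (w : Euc ι × Euc ι) (c : ℝ) (m : Euc ι) :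
    vv V s p ρ w (obs c m) = (w.1, w.2 - c • (hh V s p ρ w.1 - m)) := by
  ext e <;> simp [vv, obs, ev_X_x, ev_X_z, ev_t1, ev_const]

lemma vv_drift (hs : 0 < s) (p : Euc ι) (w : Euc ι × Euc ι) (c : ℝ) :
    vv V s p ρ w (drift c) = (-hh V s p ρ w.1 - c • MM V s p ρ w.1 w.2,
      (ρ * c ^ 2) • MM V s p ρ w.1 (MM V s p ρ w.1 w.2)) := by
  ext e <;> simp only [vv, drift, bb, bq, Sum.elim_inl, Sum.elim_inr, map_sub, map_neg, map_mul,
    map_sum, ev_X_z, ev_t1, ev_X_rho, ev_t2 hs] <;> simp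

lemma hh_zero (p x : Euc ι) : hh V s p 0 x = √s • fs V s p := by simp [hh]

lemma MM_zero (p x v : Euc ι) : MM V s p 0 x v = s • Ms V s p v := by simp [MM]

/-- Truncated exponential series. -/
noncomputable def TT (c t : ℝ) (K : ℕ) (r : R2 ι) : R2 ι :=
  ∑ j ∈ Finset.range (K + 1), C (1 / (j.factorial : ℝ)) * (C t - rh) ^ j * (DD c)^[j] r

lemma vv_TT (p : Euc ι) (w : Euc ι × Euc ι) (c t : ℝ) (K : ℕ) (r : ι ⊕ ι → R2 ι) :
    vv V s p ρ w (fun i => TT c t K (r i)) = ∑ j ∈ Finset.range (K + 1),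
      ((t - ρ) ^ j / (j.factorial : ℝ)) • vv V s p ρ w fun i => (DD c)^[j] (r i) := by
  simp only [← vv_eq, TT, map_sum, map_mul, map_pow, map_sub, ev_const, ev_X_rho,
    Finset.sum_smul, Finset.smul_sum, smul_smul]
  rw [Finset.sum_comm]
  refine Finset.sum_congr rfl fun j _ => Finset.sum_congr rfl fun i _ => ?_
  congr 1
  ring

lemma vv_DD_TT (p : Euc ι) (w : Euc ι × Euc ι) (c t : ℝ) (K : ℕ) (r : ι ⊕ ι → R2 ι) :
    vv V s p ρ w (fun i => DD c (TT c t K (r i))) =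
      ((t - ρ) ^ K / (K.factorial : ℝ)) • vv V s p ρ w fun i => (DD c)^[K + 1] (r i) := by
  simp only [← vv_eq, TT, DD_taylor, map_mul, map_pow, map_sub, ev_const, ev_X_rho,
    Finset.smul_sum, smul_smul]
  refine Finset.sum_congr rfl fun i _ => ?_
  congr 1
  ring

lemma vv_TT_self (p : Euc ι) (w : Euc ι × Euc ι) (c : ℝ) (K : ℕ) (r : ι ⊕ ι → R2 ι) :
    vv V s p ρ w (fun i => TT c ρ K (r i)) = vv V s p ρ w r := by
  rw [vv_TT, Finset.sum_range_succ']
  simp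

lemma WD_flow (hV : InClass V) (hs : 0 < s) (hs1 : s ≤ 1) (p : Euc ι) (c : ℝ) {t a : ℝ}
    (h0 : 0 ≤ t) (h1 : t ≤ 1 / 2) (ha : 0 ≤ a) (F G : ι ⊕ ι → R2 ι)
    (h : ∀ ρ, 0 ≤ ρ → ρ ≤ t → EB (mu V s p ρ) (fun w => (vv V s p ρ w fun i => DD c (F i),
      vv V s p ρ w fun i => DD c (G i))) a) :
    WD (mu V s p 0) (fun w => (vv V s p 0 w F, vv V s p 0 w G)) (mu V s p t)
      (fun w => (vv V s p t w F, vv V s p t w G)) (a * t) := by
  have hρ : ∀ ρ ∈ Set.Icc 0 t, |ρ| < 3 / 4 := fun ρ h => by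
    rw [abs_of_nonneg h.1]; linarith [h.2]
  have hc : ∀ ρ ∈ Set.Icc 0 t, ∀ F G : ι ⊕ ι → R2 ι,
      Continuous fun w => (vv V s p ρ w F, vv V s p ρ w G) := fun ρ h F G =>
    (vv_cont hV hs p ((hρ ρ h).trans (by norm_num)) F).prodMk
      (vv_cont hV hs p ((hρ ρ h).trans (by norm_num)) G)
  have := mu_prob hV hs hs1 p (hρ 0 ⟨le_rfl, h0⟩)
  have := mu_prob hV hs hs1 p (hρ t ⟨h0, le_rfl⟩)
  refine WD.of_smooth (hc 0 ⟨le_rfl, h0⟩ F G).measurable (hc t ⟨h0, le_rfl⟩ F G).measurable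
    fun φ hφ hφ' hB => ?_
  have e : ∀ ρ w (F : (ι ⊕ ι) ⊕ (ι ⊕ ι) → R2 ι), ∑ a, ev V s p ρ w (F a) •
      Sum.elim (fun i => (dir i, (0 : Euc ι × Euc ι))) (fun i => ((0 : Euc ι × Euc ι), dir i)) a =
        (vv V s p ρ w fun i => F (.inl i), vv V s p ρ w fun i => F (.inr i)) := fun ρ w F => by
    rw [Fintype.sum_sum_type, ← vv_eq, ← vv_eq]
    refine Prod.ext ?_ ?_ <;> simp [Prod.fst_sum, Prod.snd_sum, -Fintype.sum_sum_type]
  have key := norm_image_sub_le_of_norm_deriv_le_segment' (C := a) (fun ρ h =>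
    (inv_test hV hs hs1 p (hρ ρ h) c (Sum.elim F G) (Sum.elim
      (fun i => (dir i, (0 : Euc ι × Euc ι))) fun i => ((0 : Euc ι × Euc ι), dir i)) hφ hφ'
      hB).hasDerivWithinAt) (fun ρ h' => by
    simp only [e, Sum.elim_inl, Sum.elim_inr]
    have hm := (hc ρ ⟨h'.1, h'.2.le⟩ (fun i => DD c (F i)) fun i => DD c (G i)).norm.measurable
    refine (norm_integral_le_of_norm_le ((h ρ h'.1 h'.2.le).integrable hm)
      (.of_forall fun w => ?_)).trans ((h ρ h'.1 h'.2.le).integral_le ha hm)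
    exact ((fderiv ℝ φ _).le_of_opNorm_le (hφ' _) _).trans_eq (one_mul _)) t ⟨h0, le_rfl⟩
  simp only [e, Sum.elim_inl, Sum.elim_inr, sub_zero] at key
  rwa [abs_sub_comm]

end Aux

theorem transport (K : ℕ) : ∃ C : ℝ, 0 ≤ C ∧ ∀ (ι : Type) [Fintype ι] [DecidableEq ι]
    (V : Euc ι → ℝ), InClass V → ∀ s : ℝ, 0 < s → s ≤ 1 / 16 → ∀ (p : Euc ι) (c : ℝ),
    |c| * s ≤ 1 → ∃ A : ℕ → Euc ι × Euc ι → Euc ι × Euc ι,
      (∀ j, Continuous (A j)) ∧
      (∀ w, A 0 w = (-(√s • fs V s p) - c • s • Ms V s p w.2, 0)) ∧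
      (c = 0 → ∀ w, (A 1 w).1 = -(s • Ms V s p w.1)) ∧
      (∀ j, 1 ≤ j → j ≤ K →
        EB ((gam ι).prod (gam ι)) (A j) (C * (s + |c| * s) * √(dm ι))) ∧
      ∀ t : ℝ, 0 ≤ t → t ≤ 1 / 2 →
        WD ((gam ι).prod (gam ι)) (fun w => (w + tayI K A t w, tay K A t w)) (mu V s p t)
          (fun w => ((w.1, w.2 - c • (hh V s p t w.1 - √s • fs V s p)),
            (-hh V s p t w.1 - c • MM V s p t w.1 w.2,
              (t * c ^ 2) • MM V s p t w.1 (MM V s p t w.1 w.2))))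
          (C * t ^ (K + 1) * (s + |c| * s) * √(dm ι)) := by
  choose Cj hC0 hC using bd_main
  set C0 := ∑ j ∈ Finset.range (K + 2), Cj j with hC0'
  have h1 : ∀ j ≤ K + 1, Cj j ≤ C0 := fun j hj =>
    Finset.single_le_sum (fun j _ => hC0 j) (Finset.mem_range.2 (by omega))
  have h2 : 0 ≤ C0 := (hC0 0).trans (h1 0 (by omega))
  refine ⟨2 * C0, by positivity, fun ι _ _ V hV s hs hs1 p c hc => ?_⟩
  have hs2 : s ≤ 1 := by linarith
  have hS : 0 ≤ s + |c| * s := by positivity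
  have hb : ∀ j ≤ K, ∀ ρ, 0 ≤ ρ → ρ ≤ 1 / 2 → EB (mu V s p ρ)
      (fun w => vv V s p ρ w fun i => (DD c)^[j + 1] (drift c i))
        (2 * C0 * (s + |c| * s) * √(dm ι)) := fun j hj ρ h3 h4 => by
    refine vv_EB hV hs hs2 p (by rw [abs_of_nonneg h3]; linarith) _ (by positivity) ?_
    rw [Fintype.sum_sum_type, mul_pow, Real.sq_sqrt (Nat.cast_nonneg _)]
    refine (add_le_add (hC j ι V hV s hs hs1 p c hc ρ h3 h4).1
      (hC (j + 1) ι V hV s hs hs1 p c hc ρ h3 h4).2).trans ?_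
    have e1 : (Cj j * (s + |c| * s)) ^ 2 ≤ (C0 * (s + |c| * s)) ^ 2 := by
      gcongr
      exacts [mul_nonneg (hC0 _) hS, h1 _ (by omega)]
    have e2 : (Cj (j + 1) * (s + |c| * s)) ^ 2 ≤ (C0 * (s + |c| * s)) ^ 2 := by
      gcongr
      exacts [mul_nonneg (hC0 _) hS, h1 _ (by omega)]
    rw [← add_mul]
    gcongr
    nlinarith [sq_nonneg (C0 * (s + |c| * s))]
  have hmu : mu V s p 0 = (gam ι).prod (gam ι) := by rw [mu, loc_zero]
  refine ⟨fun j w => vv V s p 0 w fun i => (DD c)^[j] (drift c i),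
    fun j => vv_cont hV hs p (by simp) _, fun w => ?_, fun h0 w => ?_, fun j hj hj' => ?_,
    fun t h0 ht => ?_⟩
  · simp only [Function.iterate_zero_apply]
    rw [vv_drift hs, hh_zero, MM_zero]
    simp
  · subst h0
    ext e
    have : drift (0 : ℝ) (Sum.inl e) = -tv {e} := by simp [drift, bb]
    rw [← MM_zero p w.1, PiLp.neg_apply, ← ev_t2 hs]
    simp only [vv, Function.iterate_one, this, map_neg, DD0_tv_one, map_sum, del, dd_tv_inl, Wd,
      Sum.elim_inl, map_sub, map_mul, map_add, ev_X_rho, ev_X_x, zero_mul, add_zero, sub_zero,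
      show ∀ f, (e ::ₘ {f} : Multiset ι) = f ::ₘ {e} from fun f => Multiset.cons_swap e f 0,
      mul_comm]
  · obtain ⟨j, rfl⟩ := Nat.exists_eq_add_of_le' hj
    exact hmu ▸ hb j (by omega) 0 le_rfl (by norm_num)
  · have key := WD_flow hV hs hs2 p c h0 ht
      (a := t ^ K * (2 * C0 * (s + |c| * s) * √(dm ι))) (by positivity)
      (fun i => TT c t (K + 1) (obs c (√s • fs V s p) i)) (fun i => TT c t K (drift c i))
      fun ρ h3 h4 => by
        have := mu_prob hV hs hs2 p (ρ := ρ) (by rw [abs_of_nonneg h3]; linarith)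
        refine (EB.dom1 (hb K le_rfl ρ h3 (h4.trans ht)) (c := 0) (c₁ := t ^ K) (by positivity)
          le_rfl (by positivity) fun w => ?_).mono (zero_add _).le
        have h5 : ∀ n, K ≤ n → ‖(t - ρ) ^ n / (n.factorial : ℝ)‖ ≤ t ^ K := fun n hn => by
          rw [Real.norm_of_nonneg (div_nonneg (pow_nonneg (by linarith) _) (Nat.cast_nonneg _))]
          refine (div_le_self (pow_nonneg (by linarith) _) (by
            exact_mod_cast n.factorial_pos)).trans ((pow_le_pow_left₀ (by linarith)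
              (by linarith) _).trans (pow_le_pow_of_le_one h0 (by linarith) hn))
        simp only [vv_DD_TT, Function.iterate_succ_apply _ (K + 1), DD_obs, zero_add]
        refine norm_prod_le_iff.2 ⟨?_, ?_⟩ <;> rw [norm_smul] <;> gcongr <;> exact h5 _ (by omega)
    simp only [vv_TT_self, vv_obs, vv_drift hs, hmu] at key
    convert key using 1
    · funext w
      rw [vv_TT, vv_TT, Finset.sum_range_succ']
      simp only [Function.iterate_succ_apply, DD_obs, Function.iterate_zero_apply, vv_obs, hh_zero,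
        tayI, tay]
      simp [add_comm]
    · ring

end Vale.Agent.P347
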