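import Vale.Agent.P347.Basic

/-! API for the predicates `EB` (first-moment bound) and `WD` (dual `W₁` closeness). -/

open MeasureTheory ProbabilityTheory
open scoped ENNReal

namespace Vale.Agent.P347

section EB
variable {S S' G G' G'' : Type} [MeasurableSpace S] [MeasurableSpace S']
  [NormedAddCommGroup G] [NormedAddCommGroup G'] [NormedAddCommGroup G'']
  {P : Measure S} {P' : Measure S'}

lemma EB.mono {F : S → G} {a b : ℝ} (h : EB P F a) (hab : a ≤ b) : EB P F b :=
  le_trans h (ENNReal.ofReal_le_ofReal hab)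

lemma EB.of_le {F : S → G} {F' : S → G'} {a : ℝ} (h : EB P F' a) (hle : ∀ w, ‖F w‖ ≤ ‖F' w‖) :
    EB P F a := by
  refine le_trans (lintegral_mono fun w => ?_) h
  rw [← ofReal_norm, ← ofReal_norm]
  exact ENNReal.ofReal_le_ofReal (hle w)

omit [MeasurableSpace S'] in
lemma meas_enorm {F : S → G} (m : Measurable fun w => ‖F w‖) : Measurable fun w => ‖F w‖ₑ := by
  simp only [← ofReal_norm]
  exact m.ennreal_ofReal

lemma EB.const [IsProbabilityMeasure P] {F : S → G} {a : ℝ} (h : ∀ w, ‖F w‖ ≤ a) : EB P F a := by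
  calc ∫⁻ w, ‖F w‖ₑ ∂P ≤ ∫⁻ _w, ENNReal.ofReal a ∂P := by
        refine lintegral_mono fun w => ?_
        rw [← ofReal_norm]
        exact ENNReal.ofReal_le_ofReal (h w)
    _ = _ := by simp

/-- Pointwise affine domination by one random vector. -/
lemma EB.dom1 [IsProbabilityMeasure P] {F : S → G} {F₁ : S → G'} {a₁ c c₁ : ℝ} (h₁ : EB P F₁ a₁)
    (ha₁ : 0 ≤ a₁) (hc : 0 ≤ c) (hc₁ : 0 ≤ c₁) (hle : ∀ w, ‖F w‖ ≤ c + c₁ * ‖F₁ w‖) :
    EB P F (c + c₁ * a₁) := by
  calc ∫⁻ w, ‖F w‖ₑ ∂P ≤ ∫⁻ w, (ENNReal.ofReal c + ENNReal.ofReal c₁ * ‖F₁ w‖ₑ) ∂P := by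
        refine lintegral_mono fun w => ?_
        rw [← ofReal_norm, ← ofReal_norm, ← ENNReal.ofReal_mul hc₁,
          ← ENNReal.ofReal_add hc (by positivity)]
        exact ENNReal.ofReal_le_ofReal (hle w)
    _ = ENNReal.ofReal c + ENNReal.ofReal c₁ * ∫⁻ w, ‖F₁ w‖ₑ ∂P := by
        rw [lintegral_add_left measurable_const, lintegral_const_mul' _ _ ENNReal.ofReal_ne_top]
        simp
    _ ≤ ENNReal.ofReal c + ENNReal.ofReal c₁ * ENNReal.ofReal a₁ := by
        gcongr
        exact h₁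
    _ = _ := by rw [← ENNReal.ofReal_mul hc₁, ← ENNReal.ofReal_add hc (by positivity)]

/-- Pointwise affine domination by two random vectors. -/
lemma EB.dom2 [IsProbabilityMeasure P] {F : S → G} {F₁ : S → G'} {F₂ : S → G''}
    {a₁ a₂ c c₁ c₂ : ℝ} (h₁ : EB P F₁ a₁) (h₂ : EB P F₂ a₂) (m₁ : Measurable fun w => ‖F₁ w‖)
    (ha₁ : 0 ≤ a₁) (ha₂ : 0 ≤ a₂) (hc : 0 ≤ c) (hc₁ : 0 ≤ c₁) (hc₂ : 0 ≤ c₂)
    (hle : ∀ w, ‖F w‖ ≤ c + c₁ * ‖F₁ w‖ + c₂ * ‖F₂ w‖) : EB P F (c + c₁ * a₁ + c₂ * a₂) := by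
  calc ∫⁻ w, ‖F w‖ₑ ∂P ≤ ∫⁻ w, (ENNReal.ofReal c + ENNReal.ofReal c₁ * ‖F₁ w‖ₑ +
          ENNReal.ofReal c₂ * ‖F₂ w‖ₑ) ∂P := by
        refine lintegral_mono fun w => ?_
        rw [← ofReal_norm, ← ofReal_norm, ← ofReal_norm, ← ENNReal.ofReal_mul hc₁,
          ← ENNReal.ofReal_mul hc₂, ← ENNReal.ofReal_add hc (by positivity),
          ← ENNReal.ofReal_add (by positivity) (by positivity)]
        exact ENNReal.ofReal_le_ofReal (hle w)
    _ = ENNReal.ofReal c + ENNReal.ofReal c₁ * (∫⁻ w, ‖F₁ w‖ₑ ∂P) +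
          ENNReal.ofReal c₂ * ∫⁻ w, ‖F₂ w‖ₑ ∂P := by
        have hm : Measurable fun w => ENNReal.ofReal c + ENNReal.ofReal c₁ * ‖F₁ w‖ₑ :=
          measurable_const.add ((meas_enorm m₁).const_mul _)
        rw [lintegral_add_left hm,
          lintegral_add_left measurable_const, lintegral_const_mul' _ _ ENNReal.ofReal_ne_top,
          lintegral_const_mul' _ _ ENNReal.ofReal_ne_top]
        simp
    _ ≤ ENNReal.ofReal c + ENNReal.ofReal c₁ * ENNReal.ofReal a₁ +
          ENNReal.ofReal c₂ * ENNReal.ofReal a₂ := by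
        gcongr
        · exact h₁
        · exact h₂
    _ = _ := by
        rw [← ENNReal.ofReal_mul hc₁, ← ENNReal.ofReal_mul hc₂,
          ← ENNReal.ofReal_add hc (by positivity),
          ← ENNReal.ofReal_add (by positivity) (by positivity)]

/-- Pointwise domination by a finite nonnegative combination. -/
lemma EB.domSum [IsProbabilityMeasure P] {κ : Type} (t : Finset κ) {F : S → G} {Fi : κ → S → G'}
    {a ci : κ → ℝ} {c : ℝ} (h : ∀ i ∈ t, EB P (Fi i) (a i))
    (m : ∀ i ∈ t, Measurable fun w => ‖Fi i w‖) (ha : ∀ i ∈ t, 0 ≤ a i) (hc : 0 ≤ c)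
    (hci : ∀ i ∈ t, 0 ≤ ci i) (hle : ∀ w, ‖F w‖ ≤ c + ∑ i ∈ t, ci i * ‖Fi i w‖) :
    EB P F (c + ∑ i ∈ t, ci i * a i) := by
  calc ∫⁻ w, ‖F w‖ₑ ∂P ≤ ∫⁻ w, (ENNReal.ofReal c +
          ∑ i ∈ t, ENNReal.ofReal (ci i) * ‖Fi i w‖ₑ) ∂P := by
        refine lintegral_mono fun w => ?_
        have h1 : ∑ i ∈ t, ENNReal.ofReal (ci i) * ‖Fi i w‖ₑ =
            ENNReal.ofReal (∑ i ∈ t, ci i * ‖Fi i w‖) := by
          rw [ENNReal.ofReal_sum_of_nonneg fun i hi => mul_nonneg (hci i hi) (norm_nonneg _)]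
          refine Finset.sum_congr rfl fun i hi => ?_
          rw [← ofReal_norm, ENNReal.ofReal_mul (hci i hi)]
        rw [h1, ← ofReal_norm, ← ENNReal.ofReal_add hc
          (Finset.sum_nonneg fun i hi => mul_nonneg (hci i hi) (norm_nonneg _))]
        exact ENNReal.ofReal_le_ofReal (hle w)
    _ = ENNReal.ofReal c + ∑ i ∈ t, ENNReal.ofReal (ci i) * ∫⁻ w, ‖Fi i w‖ₑ ∂P := by
        rw [lintegral_add_left measurable_const,
          lintegral_finsetSum t fun i hi => (meas_enorm (m i hi)).const_mul _]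
        simp only [lintegral_const_mul' _ _ ENNReal.ofReal_ne_top]
        simp
    _ ≤ ENNReal.ofReal c + ∑ i ∈ t, ENNReal.ofReal (ci i) * ENNReal.ofReal (a i) := by
        gcongr with i hi
        exact h i hi
    _ = _ := by
        rw [ENNReal.ofReal_add hc (Finset.sum_nonneg fun i hi => mul_nonneg (hci i hi) (ha i hi)),
          ENNReal.ofReal_sum_of_nonneg fun i hi => mul_nonneg (hci i hi) (ha i hi)]
        congr 1
        exact Finset.sum_congr rfl fun i hi => (ENNReal.ofReal_mul (hci i hi)).symm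

omit [MeasurableSpace S'] in
lemma EB.lint_eq {F : S → G} (hi : Integrable (fun w => ‖F w‖) P) :
    ∫⁻ w, ‖F w‖ₑ ∂P = ENNReal.ofReal (∫ w, ‖F w‖ ∂P) := by
  rw [ofReal_integral_eq_lintegral_ofReal hi (Filter.Eventually.of_forall fun w => norm_nonneg _)]
  simp only [ofReal_norm]

lemma le_of_sq_le_sq₀' {x a : ℝ} (ha : 0 ≤ a) (h : x ^ 2 ≤ a ^ 2) : x ≤ a :=
  (abs_le_of_sq_le_sq' h ha).2

/-- From a second-moment bound. -/
lemma EB.of_sq [IsProbabilityMeasure P] {F : S → G} {a : ℝ} (ha : 0 ≤ a)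
    (m : Measurable fun w => ‖F w‖) (hi : Integrable (fun w => ‖F w‖ ^ 2) P)
    (h : ∫ w, ‖F w‖ ^ 2 ∂P ≤ a ^ 2) : EB P F a := by
  have hm : MemLp (fun w => ‖F w‖) 2 P :=
    (memLp_two_iff_integrable_sq m.aestronglyMeasurable).2 hi
  have h1 := variance_nonneg (fun w => ‖F w‖) P
  rw [variance_eq_sub hm] at h1
  have h2 : ∫ w, ((fun w => ‖F w‖) ^ 2) w ∂P = ∫ w, ‖F w‖ ^ 2 ∂P := rfl
  unfold EB
  rw [EB.lint_eq (hm.integrable one_le_two)]
  refine ENNReal.ofReal_le_ofReal (le_of_sq_le_sq₀' ha ?_)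
  linarith

lemma EB.integrable {F : S → G} {a : ℝ} (h : EB P F a) (m : Measurable fun w => ‖F w‖) :
    Integrable (fun w => ‖F w‖) P := by
  refine ⟨m.aestronglyMeasurable, ?_⟩
  rw [hasFiniteIntegral_iff_enorm]
  simp only [enorm_norm]
  exact lt_of_le_of_lt h ENNReal.ofReal_lt_top

lemma EB.integral_le {F : S → G} {a : ℝ} (h : EB P F a) (ha : 0 ≤ a)
    (m : Measurable fun w => ‖F w‖) : ∫ w, ‖F w‖ ∂P ≤ a := by
  have h1 := EB.lint_eq (h.integrable m)
  unfold EB at h
  rw [h1] at h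
  exact (ENNReal.ofReal_le_ofReal_iff ha).1 h

lemma EB.of_integral {F : S → G} {a : ℝ} (hi : Integrable (fun w => ‖F w‖) P)
    (h : ∫ w, ‖F w‖ ∂P ≤ a) : EB P F a := by
  unfold EB
  rw [EB.lint_eq hi]
  exact ENNReal.ofReal_le_ofReal h

lemma EB.fst [IsProbabilityMeasure P] [IsProbabilityMeasure P'] {F : S → G} {a : ℝ}
    (h : EB P F a) (m : Measurable fun w => ‖F w‖) : EB (P.prod P') (fun w => F w.1) a := by
  unfold EB
  rw [measurePreserving_fst.lintegral_comp (meas_enorm m)]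
  exact h

lemma EB.snd [IsProbabilityMeasure P] [IsProbabilityMeasure P'] {F : S' → G} {a : ℝ}
    (h : EB P' F a) (m : Measurable fun w => ‖F w‖) : EB (P.prod P') (fun w => F w.2) a := by
  unfold EB
  rw [measurePreserving_snd.lintegral_comp (meas_enorm m)]
  exact h

/-- Tonelli, conditioning on the first coordinate. -/
lemma EB.prod_left [IsProbabilityMeasure P] [IsProbabilityMeasure P'] {F : S × S' → G}
    {H : S → G'} {c c₁ a : ℝ} (m : Measurable fun w => ‖F w‖) (hH : EB P H a) (ha : 0 ≤ a)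
    (hc : 0 ≤ c) (hc₁ : 0 ≤ c₁) (h : ∀ x, EB P' (fun y => F (x, y)) (c + c₁ * ‖H x‖)) :
    EB (P.prod P') F (c + c₁ * a) := by
  have h1 : EB P (fun x => c + c₁ * ‖H x‖) (c + c₁ * a) :=
    EB.dom1 hH ha hc hc₁ fun x => (Real.norm_of_nonneg (by positivity)).le
  unfold EB
  rw [lintegral_prod _ (meas_enorm m).aemeasurable]
  refine le_trans (lintegral_mono fun x => ?_) h1
  rw [← ofReal_norm, Real.norm_of_nonneg (by positivity)]
  exact h x

/-- Tonelli, conditioning on the second coordinate. -/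
lemma EB.prod_right [IsProbabilityMeasure P] [IsProbabilityMeasure P'] {F : S × S' → G}
    {H : S' → G'} {c c₁ a : ℝ} (m : Measurable fun w => ‖F w‖) (hH : EB P' H a) (ha : 0 ≤ a)
    (hc : 0 ≤ c) (hc₁ : 0 ≤ c₁) (h : ∀ y, EB P (fun x => F (x, y)) (c + c₁ * ‖H y‖)) :
    EB (P.prod P') F (c + c₁ * a) := by
  have h1 : EB P' (fun y => c + c₁ * ‖H y‖) (c + c₁ * a) :=
    EB.dom1 hH ha hc hc₁ fun x => (Real.norm_of_nonneg (by positivity)).le
  unfold EB
  rw [lintegral_prod_symm _ (meas_enorm m).aemeasurable]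
  refine le_trans (lintegral_mono fun y => ?_) h1
  rw [← ofReal_norm, Real.norm_of_nonneg (by positivity)]
  exact h y

/-- Transfer along a measure-preserving map. -/
lemma EB.comp_map {T : S → S'} (hT : Measurable T) (hP : P.map T = P') {F : S' → G} {a : ℝ}
    (m : Measurable fun w => ‖F w‖) (h : EB P' F a) : EB P (fun w => F (T w)) a := by
  unfold EB
  rw [← lintegral_map (meas_enorm m) hT, hP]
  exact h

lemma EB.gam {ι : Type} [Fintype ι] : EB (gam ι) (fun x => x) √(dm ι) := gam_norm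

end EB

section WD
variable {S S' S'' G G' : Type} [MeasurableSpace S] [MeasurableSpace S'] [MeasurableSpace S'']
  [NormedAddCommGroup G] [NormedAddCommGroup G'] [MeasurableSpace G] [BorelSpace G]
  [MeasurableSpace G'] [BorelSpace G'] [SecondCountableTopology G] [SecondCountableTopology G']
  {P : Measure S} {P' : Measure S'} {P'' : Measure S''}

omit [MeasurableSpace G] [BorelSpace G] [SecondCountableTopology G] in
lemma WD.mono {F : S → G} {F' : S' → G} {a b : ℝ} (h : WD P F P' F' a) (hab : a ≤ b) :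
    WD P F P' F' b :=
  fun φ h1 h2 => (h φ h1 h2).trans hab

omit [MeasurableSpace G] [BorelSpace G] [SecondCountableTopology G] in
lemma WD.symm {F : S → G} {F' : S' → G} {a : ℝ} (h : WD P F P' F' a) : WD P' F' P F a :=
  fun φ h1 h2 => by rw [abs_sub_comm]; exact h φ h1 h2

omit [MeasurableSpace G] [BorelSpace G] [SecondCountableTopology G] in
lemma WD.trans {F : S → G} {F' : S' → G} {F'' : S'' → G} {a b : ℝ} (h : WD P F P' F' a)
    (h' : WD P' F' P'' F'' b) : WD P F P'' F'' (a + b) :=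
  fun φ h1 h2 => (abs_sub_le _ _ _).trans (add_le_add (h φ h1 h2) (h' φ h1 h2))

omit [MeasurableSpace G] [BorelSpace G] [SecondCountableTopology G] in
lemma WD.nonneg {F : S → G} {F' : S' → G} {a : ℝ} (h : WD P F P' F' a) : 0 ≤ a :=
  (abs_nonneg _).trans (h (fun _ => 0) ((LipschitzWith.const 0).weaken zero_le_one)
    ⟨0, fun _ => by simp⟩)

omit [MeasurableSpace S'] [MeasurableSpace S''] [SecondCountableTopology G] in
lemma test_int [IsFiniteMeasure P] {φ : G → ℝ} (hφ : Continuous φ) {B : ℝ} (hB : ∀ x, |φ x| ≤ B)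
    {F : S → G} (mF : Measurable F) : Integrable (fun w => φ (F w)) P :=
  (integrable_const B).mono' (hφ.measurable.comp mF).aestronglyMeasurable
    (Filter.Eventually.of_forall fun w => hB (F w))

lemma WD.of_EB [IsProbabilityMeasure P] {F F' : S → G} {a : ℝ} (mF : Measurable F)
    (mF' : Measurable F') (ha : 0 ≤ a) (h : EB P (fun w => F w - F' w) a) : WD P F P F' a := by
  intro φ h1 ⟨B, hB⟩
  have hm : Measurable fun w => ‖F w - F' w‖ := (mF.sub mF').norm
  rw [← integral_sub (test_int h1.continuous hB mF) (test_int h1.continuous hB mF')]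
  refine le_trans ?_ (h.integral_le ha hm)
  rw [← Real.norm_eq_abs]
  refine norm_integral_le_of_norm_le (h.integrable hm) (Filter.Eventually.of_forall fun w => ?_)
  simpa using h1.norm_sub_le (F w) (F' w)

lemma WD.of_map {F : S → G} {F' : S' → G} (mF : Measurable F) (mF' : Measurable F')
    (h : P.map F = P'.map F') : WD P F P' F' 0 := by
  intro φ h1 _
  rw [← integral_map mF.aemeasurable h1.continuous.aestronglyMeasurable,
    ← integral_map mF'.aemeasurable h1.continuous.aestronglyMeasurable, h, sub_self, abs_zero]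

omit [MeasurableSpace G] [BorelSpace G] [SecondCountableTopology G] [MeasurableSpace G']
  [BorelSpace G'] [SecondCountableTopology G'] in
lemma WD.lip {F : S → G} {F' : S' → G} {a L : ℝ} (h : WD P F P' F' a) {Ψ : G → G'} (hL : 0 ≤ L)
    (hΨ : ∀ x y, ‖Ψ x - Ψ y‖ ≤ L * ‖x - y‖) :
    WD P (fun w => Ψ (F w)) P' (fun w => Ψ (F' w)) (L * a) := by
  intro φ h1 ⟨B, hB⟩
  have ha := h.nonneg
  have key : ∀ M : ℝ, L < M → |∫ w, φ (Ψ (F w)) ∂P - ∫ w, φ (Ψ (F' w)) ∂P'| ≤ M * a := by
    intro M hM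
    have hM0 : 0 < M := lt_of_le_of_lt hL hM
    have h2 := h (fun x => M⁻¹ * φ (Ψ x)) (LipschitzWith.of_dist_le_mul fun x y => by
      rw [Real.dist_eq, ← mul_sub, abs_mul, abs_of_pos (inv_pos.2 hM0), NNReal.coe_one, one_mul,
        dist_eq_norm, inv_mul_le_iff₀ hM0]
      have h3 : |φ (Ψ x) - φ (Ψ y)| ≤ ‖Ψ x - Ψ y‖ := by simpa using h1.norm_sub_le (Ψ x) (Ψ y)
      exact h3.trans ((hΨ x y).trans (mul_le_mul_of_nonneg_right hM.le (norm_nonneg _))))
      ⟨M⁻¹ * B, fun x => by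
        rw [abs_mul, abs_of_pos (inv_pos.2 hM0)]
        exact mul_le_mul_of_nonneg_left (hB _) (inv_pos.2 hM0).le⟩
    rwa [integral_const_mul, integral_const_mul, ← mul_sub, abs_mul, abs_of_pos (inv_pos.2 hM0),
      inv_mul_le_iff₀ hM0] at h2
  refine le_of_forall_pos_le_add fun δ hδ => ?_
  refine (key (L + δ / (a + 1)) (by have : 0 < δ / (a + 1) := by positivity
                                    linarith)).trans ?_
  have h4 : δ / (a + 1) * a ≤ δ := by
    rw [div_mul_eq_mul_div, div_le_iff₀ (by positivity)]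
    nlinarith
  linarith

/-- Closeness in law transfers first-moment bounds. -/
lemma WD.toEB [IsProbabilityMeasure P] [IsProbabilityMeasure P'] {F : S → G} {F' : S' → G}
    {ε a : ℝ} (h : WD P F P' F' ε) (mF : Measurable F) (mF' : Measurable F') (ha : 0 ≤ a)
    (h' : EB P' F' a) : EB P F (a + ε) := by
  have hl : ∀ N : ℕ, LipschitzWith 1 fun x : G => min ‖x‖ (N : ℝ) := fun N =>
    lipschitzWith_one_norm.min_const _
  have hb : ∀ (N : ℕ) (x : G), |min ‖x‖ (N : ℝ)| ≤ N := fun N x => by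
    rw [abs_of_nonneg (le_min (norm_nonneg _) N.cast_nonneg)]
    exact min_le_right _ _
  have h1 : ∀ N : ℕ, ∫ w, min ‖F w‖ (N : ℝ) ∂P ≤ a + ε := by
    intro N
    have h2 := (abs_le.1 (h _ (hl N) ⟨N, hb N⟩)).2
    have h3 : ∫ w, min ‖F' w‖ (N : ℝ) ∂P' ≤ ∫ w, ‖F' w‖ ∂P' :=
      integral_mono (test_int (hl N).continuous (hb N) mF') (h'.integrable mF'.norm)
        fun w => min_le_left _ _
    have h4 := h'.integral_le ha mF'.norm
    linarith
  have h5 : ∀ w, ‖F w‖ₑ = ⨆ N : ℕ, ENNReal.ofReal (min ‖F w‖ (N : ℝ)) := by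
    intro w
    rw [← ofReal_norm]
    refine le_antisymm ?_ (iSup_le fun N => ENNReal.ofReal_le_ofReal (min_le_left _ _))
    obtain ⟨N, hN⟩ := exists_nat_ge ‖F w‖
    exact le_iSup_of_le N (by rw [min_eq_left hN])
  unfold EB
  simp only [h5]
  rw [lintegral_iSup (fun N => (mF.norm.min measurable_const).ennreal_ofReal)
    (fun N M hNM w => ENNReal.ofReal_le_ofReal (min_le_min_left _ (Nat.cast_le.2 hNM)))]
  refine iSup_le fun N => ?_
  rw [← ofReal_integral_eq_lintegral_ofReal (test_int (hl N).continuous (hb N) mF)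
    (Filter.Eventually.of_forall fun w => le_min (norm_nonneg _) N.cast_nonneg)]
  exact ENNReal.ofReal_le_ofReal (h1 N)

open scoped Convolution in
/-- Mollification of a `1`-Lipschitz function. -/
lemma exists_smooth_lip [NormedSpace ℝ G] [FiniteDimensional ℝ G] {φ : G → ℝ}
    (h1 : LipschitzWith 1 φ) {δ : ℝ} (hδ : 0 < δ) :
    ∃ g : G → ℝ, ContDiff ℝ 1 g ∧ (∀ x, ‖fderiv ℝ g x‖ ≤ 1) ∧ ∀ x, |g x - φ x| ≤ δ := by
  set ρ : ContDiffBump (0 : G) := ⟨δ / 2, δ, half_pos hδ, half_lt_self hδ⟩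
  set μ : Measure G := Measure.addHaar
  have hc := h1.continuous
  refine ⟨ρ.normed μ ⋆[ContinuousLinearMap.lsmul ℝ ℝ, μ] φ,
    ρ.hasCompactSupport_normed.contDiff_convolution_left _ ρ.contDiff_normed hc.locallyIntegrable,
    fun x => ?_, fun x => ?_⟩
  · refine norm_fderiv_le_of_lipschitz ℝ (C := 1) (LipschitzWith.of_dist_le_mul fun x y => ?_)
    have hi : ∀ z : G, Integrable (fun t => ρ.normed μ t * φ (z - t)) μ := fun z =>
      (ρ.continuous_normed.mul (hc.comp (continuous_const.sub continuous_id))).integrable_of_hasCompactSupport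
        ρ.hasCompactSupport_normed.mul_right
    rw [NNReal.coe_one, one_mul, Real.dist_eq, convolution_lsmul, convolution_lsmul]
    simp only [smul_eq_mul]
    rw [← integral_sub (hi x) (hi y), ← Real.norm_eq_abs]
    have h2 : dist x y = ∫ t, ρ.normed μ t * dist x y ∂μ := by
      rw [integral_mul_const, ρ.integral_normed, one_mul]
    rw [h2]
    refine norm_integral_le_of_norm_le (ρ.integrable_normed.mul_const _)
      (Filter.Eventually.of_forall fun t => ?_)
    rw [← mul_sub, norm_mul, Real.norm_of_nonneg (ρ.nonneg_normed t)]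
    refine mul_le_mul_of_nonneg_left ?_ (ρ.nonneg_normed t)
    simpa [dist_eq_norm] using h1.norm_sub_le (x - t) (y - t)
  · rw [← Real.dist_eq]
    refine ρ.dist_normed_convolution_le hc.aestronglyMeasurable fun y hy => ?_
    have h2 := h1.dist_le_mul y x
    rw [NNReal.coe_one, one_mul] at h2
    exact h2.trans (Metric.mem_ball.1 hy).le

/-- It suffices to test on differentiable functions. -/
lemma WD.of_smooth [NormedSpace ℝ G] [FiniteDimensional ℝ G] [IsProbabilityMeasure P]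
    [IsProbabilityMeasure P'] {F : S → G} {F' : S' → G} {ε : ℝ} (mF : Measurable F)
    (mF' : Measurable F')
    (h : ∀ φ : G → ℝ, ContDiff ℝ 1 φ → (∀ x, ‖fderiv ℝ φ x‖ ≤ 1) → (∃ B, ∀ x, |φ x| ≤ B) →
      |∫ w, φ (F w) ∂P - ∫ w, φ (F' w) ∂P'| ≤ ε) : WD P F P' F' ε := by
  intro φ h1 ⟨B, hB⟩
  refine le_of_forall_pos_le_add fun δ hδ => ?_
  obtain ⟨g, hg1, hg2, hg3⟩ := exists_smooth_lip h1 (half_pos hδ)
  have hgB : ∀ x, |g x| ≤ B + δ / 2 := fun x => by
    have h2 := hg3 x
    have h3 := hB x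
    have h4 := abs_sub_abs_le_abs_sub (g x) (φ x)
    linarith
  have h2 := h g hg1 hg2 ⟨_, hgB⟩
  have h3 : |∫ w, g (F w) ∂P - ∫ w, φ (F w) ∂P| ≤ δ / 2 := by
    rw [← integral_sub (test_int hg1.continuous hgB mF) (test_int h1.continuous hB mF),
      ← Real.norm_eq_abs]
    simpa using norm_integral_le_of_norm_le_const (μ := P) (f := fun w => g (F w) - φ (F w))
      (Filter.Eventually.of_forall fun w => hg3 (F w))
  have h4 : |∫ w, g (F' w) ∂P' - ∫ w, φ (F' w) ∂P'| ≤ δ / 2 := by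
    rw [← integral_sub (test_int hg1.continuous hgB mF') (test_int h1.continuous hB mF'),
      ← Real.norm_eq_abs]
    simpa using norm_integral_le_of_norm_le_const (μ := P') (f := fun w => g (F' w) - φ (F' w))
      (Filter.Eventually.of_forall fun w => hg3 (F' w))
  rw [abs_le] at h2 h3 h4 ⊢
  constructor <;> linarith [h2.1, h2.2, h3.1, h3.2, h4.1, h4.2]

/-- Integrating a family of closeness statements over a common first coordinate. -/
lemma WD.prod_left [IsProbabilityMeasure P] [IsProbabilityMeasure P'] [IsProbabilityMeasure P'']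
    {F : S × S' → G} {F' : S × S'' → G} (mF : Measurable F) (mF' : Measurable F')
    {H : S → G'} {c c₁ a : ℝ} (mH : Measurable H) (hH : EB P H a) (ha : 0 ≤ a) (hc₁ : 0 ≤ c₁)
    (h : ∀ x, WD P' (fun y => F (x, y)) P'' (fun y => F' (x, y)) (c + c₁ * ‖H x‖)) :
    WD (P.prod P') F (P.prod P'') F' (c + c₁ * a) := by
  intro φ h1 ⟨B, hB⟩
  have i1 := test_int (P := P.prod P') h1.continuous hB mF
  have i2 := test_int (P := P.prod P'') h1.continuous hB mF'
  have i3 := hH.integrable mH.norm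
  rw [integral_prod _ i1, integral_prod _ i2,
    ← integral_sub i1.integral_prod_left i2.integral_prod_left, ← Real.norm_eq_abs]
  refine (norm_integral_le_of_norm_le ((integrable_const c).add (i3.const_mul c₁))
    (Filter.Eventually.of_forall fun x => h x φ h1 ⟨B, hB⟩)).trans ?_
  simp only [Pi.add_apply]
  rw [integral_add (integrable_const c) (i3.const_mul c₁), integral_const_mul]
  have h2 := mul_le_mul_of_nonneg_left (hH.integral_le ha mH.norm) hc₁
  simpa using h2

/-- Closeness in the first coordinate, for a map Lipschitz in that coordinate, with an extra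
independent coordinate. -/
lemma WD.prod_lip [IsProbabilityMeasure P] [IsProbabilityMeasure P'] [IsProbabilityMeasure P'']
    {F : S → G} {F' : S' → G} (mF : Measurable F) (mF' : Measurable F') {a L : ℝ}
    (h : WD P F P' F' a) {Ψ : G × S'' → G'} (mΨ : Measurable Ψ) (hL : 0 ≤ L)
    (hΨ : ∀ x y z, ‖Ψ (x, z) - Ψ (y, z)‖ ≤ L * ‖x - y‖) :
    WD (P.prod P'') (fun w => Ψ (F w.1, w.2)) (P'.prod P'') (fun w => Ψ (F' w.1, w.2))
      (L * a) := by
  intro φ h1 ⟨B, hB⟩
  have i1 := test_int (P := P.prod P'') h1.continuous hB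
    (mΨ.comp ((mF.comp measurable_fst).prodMk measurable_snd))
  have i2 := test_int (P := P'.prod P'') h1.continuous hB
    (mΨ.comp ((mF'.comp measurable_fst).prodMk measurable_snd))
  simp only [Function.comp_apply] at i1 i2
  rw [integral_prod_symm _ i1, integral_prod_symm _ i2,
    ← integral_sub i1.integral_prod_right i2.integral_prod_right, ← Real.norm_eq_abs]
  simpa using norm_integral_le_of_norm_le_const (μ := P'')
    (f := fun z => ∫ w, φ (Ψ (F w, z)) ∂P - ∫ w, φ (Ψ (F' w, z)) ∂P') (C := L * a)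
    (Filter.Eventually.of_forall fun z =>
      h.lip (Ψ := fun x => Ψ (x, z)) hL (fun x y => hΨ x y z) φ h1 ⟨B, hB⟩)

/-- Transfer along a measure-preserving map on the left. -/
lemma WD.comp_map {T : S'' → S} (hT : Measurable T) (hP : P''.map T = P) {F : S → G}
    {F' : S' → G} (mF : Measurable F) {a : ℝ} (h : WD P F P' F' a) :
    WD P'' (fun w => F (T w)) P' F' a := by
  intro φ h1 h2
  rw [← integral_map hT.aemeasurable (f := fun w => φ (F w))
    (h1.continuous.measurable.comp mF).aestronglyMeasurable, hP]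
  exact h φ h1 h2

/-- The converse transfer. -/
lemma WD.of_comp_map {T : S'' → S} (hT : Measurable T) (hP : P''.map T = P) {F : S → G}
    {F' : S' → G} (mF : Measurable F) {a : ℝ} (h : WD P'' (fun w => F (T w)) P' F' a) :
    WD P F P' F' a := by
  intro φ h1 h2
  have h3 := h φ h1 h2
  rwa [← integral_map hT.aemeasurable (f := fun w => φ (F w))
    (h1.continuous.measurable.comp mF).aestronglyMeasurable, hP] at h3

end WD

/-- Fixed-point iteration near an approximate fixed point. -/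
lemma picard_fix {S G : Type} [MeasurableSpace S] [NormedAddCommGroup G] [MeasurableSpace G]
    [BorelSpace G] [SecondCountableTopology G] {P : Measure S} [IsProbabilityMeasure P]
    {Γ : S → G → G} {Y₀ Ys : S → G} {L ε m : ℝ} (hL : 0 ≤ L) (hL2 : L ≤ 1 / 2) (hε : 0 ≤ ε)
    (hm : 0 ≤ m) (mΓ : Measurable fun q : S × G => Γ q.1 q.2) (m₀ : Measurable Y₀)
    (ms : Measurable Ys) (hΓ : ∀ w x y, ‖Γ w x - Γ w y‖ ≤ L * ‖x - y‖)
    (h1 : EB P (fun w => Γ w (Ys w) - Ys w) ε) (h0 : EB P (fun w => Y₀ w - Ys w) m) (k : ℕ) :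
    EB P (fun w => (Γ w)^[k] (Y₀ w) - Ys w) (2 * ε + L ^ k * m) := by
  induction k with
  | zero =>
    simp only [Function.iterate_zero, id, pow_zero, one_mul]
    exact h0.mono (by linarith)
  | succ k ih =>
    have m1 : Measurable fun w => ‖Γ w (Ys w) - Ys w‖ :=
      ((mΓ.comp (measurable_id.prodMk ms)).sub ms).norm
    have h2 : EB P (fun w => (Γ w)^[k + 1] (Y₀ w) - Ys w)
        (0 + 1 * ε + L * (2 * ε + L ^ k * m)) := by
      refine EB.dom2 h1 ih m1 hε (by positivity) le_rfl zero_le_one hL fun w => ?_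
      rw [Function.iterate_succ_apply']
      have h3 := hΓ w ((Γ w)^[k] (Y₀ w)) (Ys w)
      have h4 := norm_sub_le_norm_sub_add_norm_sub (Γ w ((Γ w)^[k] (Y₀ w))) (Γ w (Ys w)) (Ys w)
      linarith
    refine h2.mono ?_
    rw [pow_succ]
    nlinarith

end Vale.Agent.P347
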